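import Crest.Agent.Lib.MS.Riesz

/-!
# S0499 module `BlockCore`: assembling the block inequality at scale `δ`.
-/

set_option autoImplicit false
set_option linter.unusedSectionVars false

namespace Crest.Agent.MS

open MeasureTheory ProbabilityTheory
open Crest.StreamLearn (E Sphere sphereUniform)

variable {d B k n : ℕ} {Q : Type} [Fintype Q] [Nonempty Q] [MeasurableSpace Q]
  [MeasurableSingletonClass Q] {ψ : Sph d → ℝ} {F : Mat d B → (Fin B → ℝ) → Q} {δ : ℝ}

/-- One term of the left side of the Gibbs inequality. -/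
theorem tup_eval_logg (hd : 0 < d) (hψ : IsDens ψ)
    (hF : Measurable (fun p : Mat d B × (Fin B → ℝ) => F p.1 p.2)) (hδ : 0 < δ) (a : ℕ)
    (i : Fin (n + 1)) :
    ∫ p, logg k a ψ F δ (lab F p) p.1 i ∂(tupP n ψ F δ) =
      (∫ p, ∫ X, Real.log (kap a δ X p.1 i (p.1 i)) ∂(gam d k) ∂(tupP n ψ F δ))
      - (∫ p, Real.log (NN k a ψ δ p.1 i) ∂(tupP n ψ F δ)) - Jq k ψ (pF F) := by
  have := tupP_isProb (n := n) hd hψ hF hδ
  have h1 : Integrable (fun p : (Fin (n + 1) → Sph d) × Mat d B =>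
      ∫ X, Real.log (kap a δ X p.1 i (p.1 i)) ∂(gam d k)) (tupP n ψ F δ) := by
    obtain ⟨C, hC⟩ := logkap_int_bound (d := d) (k := k) (n := n) hδ a
    exact tupP_integrable_of_bdd hd hψ hF hδ _
      ((measurable_logkap_int (k := k) hδ a i).comp measurable_fst) C (fun p => hC p.1 i)
  have h2 : Integrable (fun p : (Fin (n + 1) → Sph d) × Mat d B =>
      Real.log (NN k a ψ δ p.1 i)) (tupP n ψ F δ) := by
    obtain ⟨c, hc, C, hC⟩ := NN_pos_bound (d := d) (k := k) (n := n) hd hψ hδ a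
    refine tupP_integrable_of_bdd hd hψ hF hδ _
      ((Real.measurable_log.comp (measurable_NN hψ a i)).comp measurable_fst)
      (max |Real.log c| |Real.log C|) (fun p => ?_)
    have hc1 := (hC p.1 i).1
    have hc2 := (hC p.1 i).2
    have h3 : Real.log c ≤ Real.log (NN k a ψ δ p.1 i) := Real.log_le_log hc hc1
    have h4 : Real.log (NN k a ψ δ p.1 i) ≤ Real.log C := Real.log_le_log (hc.trans_le hc1) hc2
    rw [abs_le]
    constructor
    · have := neg_abs_le (Real.log c)
      have := le_max_left |Real.log c| |Real.log C|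
      linarith
    · have := le_abs_self (Real.log C)
      have := le_max_right |Real.log c| |Real.log C|
      linarith
  have h3 := tup_integrable_Aq (k := k) (n := n) hd hψ hF hδ i
  have h4 := tup_eval_Aq (k := k) (n := n) hd hψ hF hδ i
  unfold logg
  have h12 : Integrable (fun p : (Fin (n + 1) → Sph d) × Mat d B =>
      (∫ X, Real.log (kap a δ X p.1 i (p.1 i)) ∂(gam d k)) - Real.log (NN k a ψ δ p.1 i))
      (tupP n ψ F δ) := h1.sub h2
  rw [integral_sub h12 h3, integral_sub h1 h2, h4]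

/-- The core inequality at scale `δ`. -/
theorem block_core {a : ℕ} (hB : B = 2 * a + 2) (hn : B + n + 3 ≤ d) (ha : n + 2 * a < k)
    (hψ : IsDens ψ) (hF : Measurable (fun p : Mat d B × (Fin B → ℝ) => F p.1 p.2)) (hδ : 0 < δ)
    (η : ℝ) (hR : ∀ i : Fin n, ∫ p, Real.log (RR a ψ p.1 i.succ) ∂(tupP n ψ F δ) ≤
        CR d B - (Hc B ψ δ + B * Real.log δ) + η) :
    n * (Iq ψ (pF F) - Jq k ψ (pF F)) ≤ Hcond ψ (pF F) + n * (Hz ψ F δ - Hc B ψ δ) +
      n * B * Real.log (tt δ / δ) +
      2 * (∑ i : Fin n, (- ∫ p, Real.log (dtil δ p.1 i.succ) ∂(tupP n ψ F δ))) +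
      n * (a * Real.log (k + 1) - a * Real.log ((k : ℝ) - n - 2 * a) + CR d B + η) := by
  have hd : 0 < d := by omega
  have := tupP_isProb (n := n) hd hψ hF hδ
  have hgibbs := block_gibbs (k := k) (n := n) hd hψ hF hδ a
  have hkpos : (0 : ℝ) < (k : ℝ) - n - 2 * a := by
    have : ((n + 2 * a : ℕ) : ℝ) < k := by exact_mod_cast ha
    push_cast at this
    linarith
  -- notation
  set P := tupP n ψ F δ with hP
  set L : Fin n → ℝ := fun i => ∫ p, Real.log (dtil δ p.1 i.succ) ∂P with hL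
  set K : Fin n → ℝ := fun i => ∫ p, ∫ X, Real.log (kap a δ X p.1 i.succ (p.1 i.succ)) ∂(gam d k) ∂P
    with hK
  set N : Fin n → ℝ := fun i => ∫ p, Real.log (NN k a ψ δ p.1 i.succ) ∂P with hN
  -- left side
  have hleft : ∫ p, ∑ i : Fin n, logg k a ψ F δ (lab F p) p.1 i.succ ∂P =
      ∑ i : Fin n, (K i - N i - Jq k ψ (pF F)) := by
    rw [integral_finsetSum]
    · refine Finset.sum_congr rfl (fun i _ => ?_)
      exact tup_eval_logg hd hψ hF hδ a i.succ
    · intro i _
      exact tup_integrable_logg hd hψ hF hδ a i.succ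
  -- right side
  have hright : (∑ j : Fin (n + 1), ∫ p, Real.log (ψ (p.1 j) / post ψ (pF F) (lab F p) (p.1 j)) ∂P) =
      (n + 1) * (- Iq ψ (pF F)) := by
    rw [Finset.sum_congr rfl (fun j _ => tup_eval_ratio hd hψ hF hδ j)]
    simp
  have hbb := tup_eval_logbb (B := B) (n := n) hd hψ hF hδ
  rw [← hP] at hbb
  have hlab := Hlab_eq hd hψ hF
  rw [hleft, hright, hbb, hlab] at hgibbs
  -- lower bound of `K`
  have hKlow : ∀ i : Fin n, -(2 * a : ℝ) * (L i + (1 / 2) * Real.log (k + 1)) ≤ K i := by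
    intro i
    have hint : Integrable (fun p : (Fin (n + 1) → Sph d) × Mat d B =>
        -(2 * a : ℝ) * (Real.log (dtil δ p.1 i.succ) + (1 / 2) * Real.log (k + 1))) P :=
      ((tup_integrable_logdtil hd hψ hF hδ i.succ).add (integrable_const _)).const_mul _
    have hint2 : Integrable (fun p : (Fin (n + 1) → Sph d) × Mat d B =>
        ∫ X, Real.log (kap a δ X p.1 i.succ (p.1 i.succ)) ∂(gam d k)) P := by
      obtain ⟨C, hC⟩ := logkap_int_bound (d := d) (k := k) (n := n) hδ a
      exact tupP_integrable_of_bdd hd hψ hF hδ _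
        ((measurable_logkap_int (k := k) hδ a i.succ).comp measurable_fst) C (fun p => hC p.1 i.succ)
    have := integral_mono hint hint2 (fun p => logkap_lower (k := k) hδ a p.1 i.succ)
    have h2 : ∫ p, -(2 * a : ℝ) * (Real.log (dtil δ p.1 i.succ) + (1 / 2) * Real.log (k + 1)) ∂P =
        -(2 * a : ℝ) * (L i + (1 / 2) * Real.log (k + 1)) := by
      rw [integral_const_mul, integral_add (tup_integrable_logdtil hd hψ hF hδ i.succ)
        (integrable_const _), integral_const]
      simp [hL, hP]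
    rw [h2] at this
    exact this
  -- upper bound of `N`
  have hNup : ∀ i : Fin n, N i ≤ - (a * Real.log ((k : ℝ) - n - 2 * a)) +
      (CR d B - (Hc B ψ δ + B * Real.log δ) + η) := by
    intro i
    have hl : 2 * a + 1 + n + 1 ≤ d := by omega
    obtain ⟨c₁, hc₁, C₁, hC₁⟩ := NN_pos_bound (d := d) (k := k) (n := n) hd hψ hδ a
    obtain ⟨c₂, hc₂, C₂, hC₂⟩ := RR_pos_bound (d := d) (n := n) hψ a hl
    have hbdd : ∀ (f : (Fin (n + 1) → Sph d) → ℝ) (c C : ℝ), 0 < c → Measurable f →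
        (∀ ss, c ≤ f ss ∧ f ss ≤ C) → Integrable (fun p : (Fin (n + 1) → Sph d) × Mat d B =>
          Real.log (f p.1)) P := by
      intro f c C hc hf hfb
      refine tupP_integrable_of_bdd hd hψ hF hδ _
        ((Real.measurable_log.comp hf).comp measurable_fst)
        (max |Real.log c| |Real.log C|) (fun p => ?_)
      have h3 : Real.log c ≤ Real.log (f p.1) := Real.log_le_log hc (hfb p.1).1
      have h4 : Real.log (f p.1) ≤ Real.log C :=
        Real.log_le_log (hc.trans_le (hfb p.1).1) (hfb p.1).2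
      rw [abs_le]
      constructor
      · have := neg_abs_le (Real.log c)
        have := le_max_left |Real.log c| |Real.log C|
        linarith
      · have := le_abs_self (Real.log C)
        have := le_max_right |Real.log c| |Real.log C|
        linarith
    have hi1 := hbdd (fun ss => NN k a ψ δ ss i.succ) c₁ C₁ hc₁ (measurable_NN hψ a i.succ)
      (fun ss => hC₁ ss i.succ)
    have hi2 := hbdd (fun ss => RR a ψ ss i.succ) c₂ C₂ hc₂ (measurable_RR hψ a i.succ)
      (fun ss => hC₂ ss i.succ)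
    have hpt : ∀ p : (Fin (n + 1) → Sph d) × Mat d B, Real.log (NN k a ψ δ p.1 i.succ) ≤
        - (a * Real.log ((k : ℝ) - n - 2 * a)) + Real.log (RR a ψ p.1 i.succ) := by
      intro p
      have h1 := NN_le_RR (k := k) hψ hδ a hl ha p.1 i.succ
      have h2 : 0 < NN k a ψ δ p.1 i.succ := hc₁.trans_le (hC₁ p.1 i.succ).1
      have h3 : 0 < RR a ψ p.1 i.succ := hc₂.trans_le (hC₂ p.1 i.succ).1
      have h4 := Real.log_le_log h2 h1
      rw [Real.log_mul (by positivity) h3.ne', Real.log_inv, Real.log_pow] at h4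
      linarith
    have := integral_mono hi1 ((integrable_const _).add hi2) hpt
    have h6 : ∫ p, (- (a * Real.log ((k : ℝ) - n - 2 * a)) + Real.log (RR a ψ p.1 i.succ)) ∂P =
        - (a * Real.log ((k : ℝ) - n - 2 * a)) + ∫ p, Real.log (RR a ψ p.1 i.succ) ∂P := by
      rw [integral_add (integrable_const _) hi2, integral_const]
      simp
    have this' : ∫ p, Real.log (NN k a ψ δ p.1 i.succ) ∂P ≤
        ∫ p, (- (a * Real.log ((k : ℝ) - n - 2 * a)) + Real.log (RR a ψ p.1 i.succ)) ∂P := this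
    rw [h6] at this'
    have h5 := hR i
    simp only [hN]
    linarith
  -- sums
  have hsum1 : ∑ i : Fin n, (K i - N i - Jq k ψ (pF F)) ≥
      ∑ i : Fin n, ((2 * a : ℝ) * (- L i) - a * Real.log (k + 1)
        + (a * Real.log ((k : ℝ) - n - 2 * a)) - (CR d B - (Hc B ψ δ + B * Real.log δ) + η)
        - Jq k ψ (pF F)) := by
    refine Finset.sum_le_sum (fun i _ => ?_)
    have h1 := hKlow i
    have h2 := hNup i
    nlinarith
  have hΞ : ∑ i : Fin n, (- ∫ p, Real.log (dtil δ p.1 i.succ) ∂P) = ∑ i : Fin n, (- L i) := rfl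
  rw [hΞ]
  set Ξ := ∑ i : Fin n, (- L i) with hΞdef
  have hsum2 : ∑ i : Fin n, ((2 * a : ℝ) * (- L i) - a * Real.log (k + 1)
        + (a * Real.log ((k : ℝ) - n - 2 * a)) - (CR d B - (Hc B ψ δ + B * Real.log δ) + η)
        - Jq k ψ (pF F)) = (2 * a : ℝ) * Ξ - n * (a * Real.log (k + 1))
        + n * (a * Real.log ((k : ℝ) - n - 2 * a)) - n * (CR d B - (Hc B ψ δ + B * Real.log δ) + η)
        - n * Jq k ψ (pF F) := by
    simp only [Finset.sum_sub_distrib, Finset.sum_add_distrib, Finset.sum_const, Finset.card_univ,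
      Fintype.card_fin, nsmul_eq_mul, ← Finset.mul_sum, hΞdef]
    ring
  have hsum3 : (B : ℝ) * ∑ i : Fin n, (Real.log (tt δ) - ∫ p, Real.log (dtil δ p.1 i.succ) ∂P) =
      n * B * Real.log (tt δ) + B * Ξ := by
    have : ∑ i : Fin n, (Real.log (tt δ) - ∫ p, Real.log (dtil δ p.1 i.succ) ∂P) =
        n * Real.log (tt δ) + Ξ := by
      rw [hΞdef, Finset.sum_sub_distrib, Finset.sum_const, Finset.card_univ, Fintype.card_fin,
        nsmul_eq_mul, sub_eq_add_neg, Finset.sum_neg_distrib]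
    rw [this]
    ring
  have hsum3' : (B : ℝ) * ∑ i : Fin n, (Real.log (tt δ) - ∫ p, Real.log (dtil δ p.1 i.succ) ∂P) =
      n * B * Real.log (tt δ) + B * Ξ := hsum3
  rw [hsum3'] at hgibbs
  have hB' : (B : ℝ) = 2 * a + 2 := by
    rw [hB]; push_cast; ring
  have htt : Real.log (tt δ / δ) = Real.log (tt δ) - Real.log δ :=
    Real.log_div (tt_pos hδ).ne' hδ.ne'
  rw [htt]
  have hge : (2 * a : ℝ) * Ξ - n * (a * Real.log (k + 1))
        + n * (a * Real.log ((k : ℝ) - n - 2 * a)) - n * (CR d B - (Hc B ψ δ + B * Real.log δ) + η)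
        - n * Jq k ψ (pF F) ≤ ((n : ℝ) + 1) * (- Iq ψ (pF F)) + n * Hz ψ F δ +
          (n * B * Real.log (tt δ) + B * Ξ) + (Iq ψ (pF F) + Hcond ψ (pF F)) := by
    calc _ = ∑ i : Fin n, ((2 * a : ℝ) * (- L i) - a * Real.log (k + 1)
        + (a * Real.log ((k : ℝ) - n - 2 * a)) - (CR d B - (Hc B ψ δ + B * Real.log δ) + η)
        - Jq k ψ (pF F)) := hsum2.symm
      _ ≤ ∑ i : Fin n, (K i - N i - Jq k ψ (pF F)) := hsum1
      _ ≤ _ := hgibbs
  rw [hB'] at hge ⊢
  nlinarith [hge]

end Crest.Agent.MS
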