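import Crest.Agent.Lib.MS.GaussBallAux1

/-!
# Auxiliary lemmas for `GaussBall`: rank of a Gaussian matrix, rotation invariance, row space.
-/

set_option autoImplicit false

namespace Crest.Agent.MS

open MeasureTheory ProbabilityTheory
open Crest.StreamLearn (E Sphere sphereUniform)

variable {d r k : ℕ}

/-- A hyperplane is Gaussian-null. -/
theorem stdGaussian_hyperplane (u : E d) (hu : ‖u‖ = 1) :
    stdGaussian (E d) {x | inner ℝ x u = (0 : ℝ)} = 0 := by
  have hres := resample_row u hu
  set T : E d × ℝ → E d := fun q => q.1 - (inner ℝ q.1 u : ℝ) • u + q.2 • u with hT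
  have hTmeas : Measurable T := by
    have : Continuous T := by rw [hT]; fun_prop
    exact this.measurable
  have hS : MeasurableSet {x : E d | inner ℝ x u = (0 : ℝ)} :=
    (isClosed_eq (by fun_prop) continuous_const).measurableSet
  rw [← hres, Measure.map_apply hTmeas hS, Measure.prod_apply (hTmeas hS)]
  have huu : inner ℝ u u = (1 : ℝ) := by rw [real_inner_self_eq_norm_sq, hu]; norm_num
  have hslice : ∀ x, Prod.mk x ⁻¹' (T ⁻¹' {x : E d | inner ℝ x u = (0 : ℝ)}) = {0} := by
    intro x
    ext g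
    simp [hT, inner_add_left, inner_sub_left, real_inner_smul_left, hu]
  haveI : NullSingletonClass (gaussianReal 0 1) :=
    nullSingletonClass_gaussianReal (by norm_num)
  have h0 : ∀ x, gaussianReal 0 1 (Prod.mk x ⁻¹' (T ⁻¹' {x : E d | inner ℝ x u = (0 : ℝ)})) = 0 :=
    fun x => by rw [hslice]; exact measure_singleton 0
  rw [lintegral_congr h0]
  simp

/-- A proper subspace is Gaussian-null. -/
theorem stdGaussian_proper (S : Submodule ℝ (E d)) (hS : S ≠ ⊤) :
    stdGaussian (E d) (S : Set (E d)) = 0 := by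
  have hne : Sᗮ ≠ ⊥ := fun h => hS (Submodule.orthogonal_eq_bot_iff.1 h)
  obtain ⟨w, hw, hw0⟩ := Submodule.exists_mem_ne_zero_of_ne_bot hne
  have hu : ‖(‖w‖⁻¹ : ℝ) • w‖ = 1 := norm_smul_inv_norm hw0
  have hmem : (‖w‖⁻¹ : ℝ) • w ∈ Sᗮ := Submodule.smul_mem _ _ hw
  refine measure_mono_null ?_ (stdGaussian_hyperplane _ hu)
  intro x hx
  exact Submodule.inner_right_of_mem_orthogonal hx hmem

/-- The span of fewer than `d` vectors is proper. -/
theorem span_range_ne_top {r' : ℕ} (hr : r' < d) (Y : Mat d r') :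
    Submodule.span ℝ (Set.range Y) ≠ ⊤ := by
  intro h
  have h1 := finrank_range_le_card (R := ℝ) Y
  rw [Set.finrank, h, finrank_top, finrank_euclideanSpace_fin, Fintype.card_fin] at h1
  omega

theorem measurable_dS_swap {r' : ℕ} : Measurable (fun p : E d × Mat d r' => dS p.2 p.1) := by
  have h0 : Measurable (fun p : (Fin r' → E d) × E d => dS p.1 p.2) := measurable_dS
  have h1 : Measurable (fun p : E d × Mat d r' => (p.2, p.1)) :=
    measurable_snd.prodMk measurable_fst
  exact Measurable.comp (g := (fun p : (Fin r' → E d) × E d => dS p.1 p.2))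
    (f := (fun p : E d × Mat d r' => (p.2, p.1))) h0 h1

theorem measurable_dS_left (v : E d) : Measurable (fun X : Mat d k => dS X v) := by
  have h0 : Measurable (fun p : (Fin k → E d) × E d => dS p.1 p.2) := measurable_dS
  have h1 : Measurable (fun X : Mat d k => (X, v)) := measurable_id.prodMk measurable_const
  exact Measurable.comp (g := (fun p : (Fin k → E d) × E d => dS p.1 p.2))
    (f := (fun X : Mat d k => (X, v))) h0 h1

/-- The set `x ∈ span Y` is measurable. -/
theorem measurableSet_mem_span {r' : ℕ} :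
    MeasurableSet {p : E d × Mat d r' | p.1 ∈ Submodule.span ℝ (Set.range p.2)} := by
  have hZ : {p : E d × Mat d r' | p.1 ∈ Submodule.span ℝ (Set.range p.2)} =
      {p | dS p.2 p.1 = 0} := by
    ext p
    simp only [Set.mem_setOf_eq, dS]
    have hcl : IsClosed (Submodule.span ℝ (Set.range p.2) : Set (E d)) :=
      Submodule.closed_of_finiteDimensional _
    exact hcl.mem_iff_infDist_zero ⟨0, Submodule.zero_mem _⟩
  rw [hZ]
  exact measurable_dS_swap (measurableSet_singleton (0 : ℝ))

/-- Each row of a Gaussian matrix avoids the span of the others. -/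
theorem ae_notMem_span {r' : ℕ} (hr : r' + 1 ≤ d) (i : Fin (r' + 1)) :
    ∀ᵐ X ∂(gam d (r' + 1)), X i ∉ Submodule.span ℝ (X '' (Set.univ \ {i})) := by
  have hmp := measurePreserving_piFinSuccAbove (fun _ : Fin (r' + 1) => stdGaussian (E d)) i
  set Z : Set (E d × Mat d r') := {p | p.1 ∈ Submodule.span ℝ (Set.range p.2)} with hZ
  have hZmeas : MeasurableSet Z := measurableSet_mem_span
  have hnull : ((stdGaussian (E d)).prod (gam d r')) Z = 0 := by
    rw [Measure.prod_apply_symm hZmeas]
    have hY : ∀ Y : Mat d r', stdGaussian (E d) ((fun x => (x, Y)) ⁻¹' Z) = 0 := by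
      intro Y
      exact stdGaussian_proper _ (span_range_ne_top (by omega) Y)
    simp [hY]
  rw [ae_iff]
  have hset : {X : Mat d (r' + 1) | ¬ X i ∉ Submodule.span ℝ (X '' (Set.univ \ {i}))} =
      (MeasurableEquiv.piFinSuccAbove (fun _ : Fin (r' + 1) => E d) i) ⁻¹' Z := by
    ext X
    have himg : X '' (Set.univ \ {i}) = Set.range (fun j => X (i.succAbove j)) := by
      ext z
      constructor
      · rintro ⟨x, ⟨_, hx⟩, rfl⟩
        obtain ⟨y, rfl⟩ := Fin.exists_succAbove_eq hx
        exact ⟨y, rfl⟩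
      · rintro ⟨y, rfl⟩
        exact ⟨i.succAbove y, ⟨trivial, Fin.succAbove_ne i y⟩, rfl⟩
    simp only [Set.mem_setOf_eq, not_not, himg]
    rfl
  rw [hset, hmp.measure_preimage hZmeas.nullMeasurableSet]
  exact hnull

/-- A matrix with linearly independent rows is surjective. -/
theorem surjective_of_li (X : Mat d r) (h : LinearIndependent ℝ X) :
    Function.Surjective (Aop X) := by
  rw [← LinearMap.range_eq_top]
  by_contra hne
  have hne' : (LinearMap.range (Aop X))ᗮ ≠ ⊥ := fun h' => hne (Submodule.orthogonal_eq_bot_iff.1 h')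
  obtain ⟨y, hy, hy0⟩ := Submodule.exists_mem_ne_zero_of_ne_bot hne'
  have hinner : ∀ z, inner ℝ (∑ j, y j • X j) z = (0 : ℝ) := by
    intro z
    have h1 := Submodule.inner_right_of_mem_orthogonal (LinearMap.mem_range_self (Aop X) z) hy
    rw [PiLp.inner_apply] at h1
    rw [sum_inner]
    rw [← h1]
    refine Finset.sum_congr rfl fun j _ => ?_
    rw [real_inner_smul_left]
    simp [Aop, mv]
  have hsum : ∑ j, y j • X j = 0 := inner_self_eq_zero.1 (hinner _)
  have hall := Fintype.linearIndependent_iff.1 h (fun j => y j) hsum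
  exact hy0 (by ext j; simpa using hall j)

/-- The distance is preserved by a rotation. -/
theorem dS_rot (R : E d ≃ₗᵢ[ℝ] E d) {ι : Type*} (X : ι → E d) (v : E d) :
    dS (fun j => R (X j)) (R v) = dS X v := by
  unfold dS
  have h1 : Set.range (fun j => R (X j)) = R '' Set.range X := by
    rw [← Set.range_comp]; rfl
  have h2 : (Submodule.span ℝ (Set.range fun j => R (X j)) : Set (E d)) =
      R '' (Submodule.span ℝ (Set.range X) : Set (E d)) := by
    rw [h1]
    have h3 := Submodule.map_span (R.toLinearEquiv : E d →ₗ[ℝ] E d) (Set.range X)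
    have h4 : ((Submodule.span ℝ (Set.range X)).map (R.toLinearEquiv : E d →ₗ[ℝ] E d) : Set (E d)) =
      R '' (Submodule.span ℝ (Set.range X) : Set (E d)) := rfl
    rw [← h4, h3]
    rfl
  rw [h2]
  exact Metric.infDist_image R.isometry

/-- The law of a Gaussian matrix is invariant under a rotation of the rows. -/
theorem gam_map_rot (R : E d ≃ₗᵢ[ℝ] E d) :
    (gam d k).map (fun X j => R (X j)) = gam d k := by
  haveI : ∀ _ : Fin k, SigmaFinite ((stdGaussian (E d)).map R) := fun _ => by
    rw [stdGaussian_map R]; infer_instance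
  have h := Measure.pi_map_pi (μ := fun _ : Fin k => stdGaussian (E d)) (f := fun _ => R)
    (fun _ => R.continuous.measurable.aemeasurable)
  rw [h]
  simp only [stdGaussian_map R]

/-- `1 - dist² = ‖P v‖²` for a unit vector. -/
theorem one_sub_dS_sq (X : Mat d k) (v : E d) (hv : ‖v‖ = 1) :
    1 - (dS X v) ^ 2 = ‖(Submodule.span ℝ (Set.range X)).starProjection v‖ ^ 2 := by
  unfold dS
  rw [infDist_submodule_eq]
  set S := Submodule.span ℝ (Set.range X)
  set P := S.starProjection v
  have h0 : inner ℝ (v - P) P = (0 : ℝ) :=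
    Submodule.starProjection_inner_eq_zero v P (Submodule.starProjection_apply_mem S v)
  have h1 := norm_add_sq_eq_norm_sq_add_norm_sq_of_inner_eq_zero (v - P) P h0
  rw [sub_add_cancel, hv] at h1
  nlinarith

/-- The sum of `‖P b_l‖²` over an orthonormal basis is the rank. -/
theorem sum_sq_proj (S : Submodule ℝ (E d)) (b : OrthonormalBasis (Fin d) ℝ (E d)) :
    ∑ l, ‖S.starProjection (b l)‖ ^ 2 = (Module.finrank ℝ S : ℝ) := by
  let c := stdOrthonormalBasis ℝ S
  have h1 : ∀ l, ‖S.starProjection (b l)‖ ^ 2 = ∑ m, (inner ℝ (c m : E d) (b l)) ^ 2 := by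
    intro l
    have h2 := c.sum_sq_norm_inner_right (S.orthogonalProjectionOnto (b l))
    rw [Submodule.starProjection_apply]
    show ‖S.orthogonalProjectionOnto (b l)‖ ^ 2 = _
    rw [← h2]
    refine Finset.sum_congr rfl fun m _ => ?_
    rw [Submodule.inner_orthogonalProjectionOnto_eq_of_mem_left, Real.norm_eq_abs, sq_abs]
  simp_rw [h1]
  rw [Finset.sum_comm]
  have h4 : ∀ m, ∑ l, (inner ℝ (c m : E d) (b l)) ^ 2 = (1 : ℝ) := by
    intro m
    have h5 := b.sum_sq_norm_inner_left (c m : E d)
    have h6 : ‖(c m : E d)‖ = 1 := c.orthonormal.1 m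
    rw [h6] at h5
    simp only [Real.norm_eq_abs, sq_abs] at h5
    rw [h5]
    norm_num
  simp [h4]

/-- The function `g_v`. -/
private theorem measurable_g (v : E d) :
    Measurable (fun X : Mat d k => 1 - (dS X v) ^ 2) := by
  exact measurable_const.sub ((measurable_dS_left v).pow_const 2)

private theorem integrable_g (v : E d) (hv : ‖v‖ = 1) :
    Integrable (fun X : Mat d k => 1 - (dS X v) ^ 2) (gam d k) := by
  refine Integrable.of_bound (measurable_g v).aestronglyMeasurable 1 ?_
  refine Filter.Eventually.of_forall fun X => ?_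
  rw [one_sub_dS_sq X v hv, Real.norm_of_nonneg (by positivity)]
  have h1 := Submodule.norm_starProjection_apply_le (Submodule.span ℝ (Set.range X)) v
  rw [hv] at h1
  have h2 := norm_nonneg ((Submodule.span ℝ (Set.range X)).starProjection v)
  nlinarith

private theorem integral_g_rot (R : E d ≃ₗᵢ[ℝ] E d) (v : E d) :
    ∫ X, (1 - (dS X (R v)) ^ 2) ∂(gam d k) = ∫ X, (1 - (dS X v) ^ 2) ∂(gam d k) := by
  have hmeas : Measurable (fun (X : Mat d k) j => R (X j)) :=
    measurable_pi_lambda _ fun j => R.continuous.measurable.comp (measurable_pi_apply j)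
  calc ∫ X, (1 - (dS X (R v)) ^ 2) ∂(gam d k)
      = ∫ X, (1 - (dS X (R v)) ^ 2) ∂((gam d k).map (fun X j => R (X j))) := by rw [gam_map_rot]
    _ = ∫ Y, (1 - (dS (fun j => R (Y j)) (R v)) ^ 2) ∂(gam d k) :=
        integral_map hmeas.aemeasurable (measurable_g _).aestronglyMeasurable
    _ = ∫ X, (1 - (dS X v) ^ 2) ∂(gam d k) := by simp only [dS_rot]

private theorem integral_g_le (hd : 0 < d) (v : E d) (hv : ‖v‖ = 1) :
    ∫ X, (1 - (dS X v) ^ 2) ∂(gam d k) ≤ (k : ℝ) / d := by
  let b := EuclideanSpace.basisFun (Fin d) ℝ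
  have hbnorm : ∀ l, ‖b l‖ = 1 := fun l => b.orthonormal.1 l
  have hrot : ∀ l, ∫ X, (1 - (dS X (b l)) ^ 2) ∂(gam d k) = ∫ X, (1 - (dS X v) ^ 2) ∂(gam d k) := by
    intro l
    have h1 : Submodule.reflection (Submodule.span ℝ {v - b l})ᗮ v = b l :=
      Submodule.reflection_sub (hv.trans (hbnorm l).symm)
    rw [← h1]
    exact integral_g_rot _ v
  have hsum : ∑ l : Fin d, ∫ X, (1 - (dS X (b l)) ^ 2) ∂(gam d k) ≤ (k : ℝ) := by
    rw [← integral_finset_sum _ (fun l _ => integrable_g _ (hbnorm l))]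
    have hle : ∀ X : Mat d k, ∑ l : Fin d, (1 - (dS X (b l)) ^ 2) ≤ (k : ℝ) := by
      intro X
      have h2 : ∀ l, 1 - (dS X (b l)) ^ 2 =
          ‖(Submodule.span ℝ (Set.range X)).starProjection (b l)‖ ^ 2 :=
        fun l => one_sub_dS_sq X _ (hbnorm l)
      simp_rw [h2]
      rw [sum_sq_proj]
      have h3 := finrank_range_le_card (R := ℝ) X
      rw [Fintype.card_fin, Set.finrank] at h3
      exact_mod_cast h3
    calc ∫ X, ∑ l : Fin d, (1 - (dS X (b l)) ^ 2) ∂(gam d k)
        ≤ ∫ _, (k : ℝ) ∂(gam d k) := by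
          refine integral_mono (integrable_finset_sum _ fun l _ => integrable_g _ (hbnorm l))
            (integrable_const _) hle
      _ = k := by simp
  simp only [hrot] at hsum
  rw [Finset.sum_const, Finset.card_univ, Fintype.card_fin, nsmul_eq_mul] at hsum
  rw [le_div_iff₀ (by exact_mod_cast hd)]
  linarith

/-- The distance of a unit vector to the row space. -/
theorem gam_dist_row_aux (hd : 0 < d) (hk : 4 * k ≤ d) (v : E d) (hv : ‖v‖ = 1) :
    2 / 3 ≤ (gam d k).real {X | 1 / 2 ≤ dS X v} := by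
  have hint := integral_g_le (k := k) hd v hv
  have hkd : (k : ℝ) / d ≤ 1 / 4 := by
    rw [div_le_div_iff₀ (by exact_mod_cast hd) (by norm_num)]
    have : ((4 * k : ℕ) : ℝ) ≤ d := by exact_mod_cast hk
    push_cast at this
    linarith
  have hnn : 0 ≤ᵐ[gam d k] (fun X : Mat d k => 1 - (dS X v) ^ 2) := by
    refine Filter.Eventually.of_forall fun X => ?_
    simp only [Pi.zero_apply]
    rw [one_sub_dS_sq X v hv]
    positivity
  have hmarkov := mul_meas_ge_le_integral_of_nonneg hnn (integrable_g v hv) (3 / 4)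
  have hsub : {X : Mat d k | dS X v < 1 / 2} ⊆ {X | (3 / 4 : ℝ) ≤ 1 - (dS X v) ^ 2} := by
    intro X hX
    have h0 : 0 ≤ dS X v := Metric.infDist_nonneg
    have hX' : dS X v < 1 / 2 := hX
    show (3 / 4 : ℝ) ≤ 1 - (dS X v) ^ 2
    nlinarith
  have hmeas : MeasurableSet {X : Mat d k | 1 / 2 ≤ dS X v} := by
    exact measurableSet_le measurable_const (measurable_dS_left v)
  have hcompl : {X : Mat d k | 1 / 2 ≤ dS X v}ᶜ = {X | dS X v < 1 / 2} := by
    ext X; simp
  have h1 : (gam d k).real {X | dS X v < 1 / 2} ≤ 1 / 3 := by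
    have h2 := measureReal_mono (μ := gam d k) hsub (measure_ne_top _ _)
    have h3 : (3 / 4 : ℝ) * (gam d k).real {X | (3 / 4 : ℝ) ≤ 1 - (dS X v) ^ 2} ≤ 1 / 4 :=
      hmarkov.trans (hint.trans hkd)
    linarith
  have h4 := measureReal_add_measureReal_compl (μ := gam d k) hmeas
  rw [hcompl] at h4
  simp only [probReal_univ] at h4
  linarith

end Crest.Agent.MS
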