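import Crest.Agent.Lib.MS.GaussBasic
import Crest.Agent.Lib.MS.GaussBallAux2

/-!
# S0499 module `GaussBall`: small ball for a family, rank, row space.

`smallBall_row`: induction on the last index `i`, with `v_i = p + w`, `p ∈ W_i := span(v_j, j<i)`,
`w ⊥ W_i`, `‖w‖ = d_i`.  If `d_i > 0`, resample the direction `w/‖w‖` (`resample_row`): the earlier
constraints do not change, and `⟪x', v_i⟫ = ⟪x, p'⟫ + d_i g` for `g ~ N(0,1)` independent, so the last
constraint has conditional probability `≤ min(1, 2δ/(√(2π) d_i)) = t₀ / max(d_i, t₀)`.  Work with a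
general statement for `Fin n` by induction, or order the index set by `j < i`.

`gam_dist_row`: `dS X v ² = 1 - ‖P v‖²`, `P` the projection on the row space, and `E ‖P v‖² ≤ k/d` by
rotation invariance (`stdGaussian_map`): `E ‖P e_l‖²` is the same for all unit vectors and
`∑_l ‖P e_l‖² = rank ≤ k`.  Markov: `P(‖P v‖² > 3/4) ≤ (k/d)/(3/4) ≤ 1/3`.
-/

set_option autoImplicit false

namespace Crest.Agent.MS

open MeasureTheory ProbabilityTheory
open Crest.StreamLearn (E Sphere sphereUniform)

variable {d r k : ℕ}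

/-- The prefix of a family. -/
def prefixFam {n : ℕ} {F : Type*} [Zero F] (v : Fin n → F) (i : Fin n) : Fin n → F :=
  fun j => if j < i then v j else 0

private theorem span_prefix {n : ℕ} (u : Fin n → E d) (i : Fin n) :
    Submodule.span ℝ (Set.range (prefixFam u i)) = Submodule.span ℝ (u '' {j | j < i}) := by
  apply le_antisymm
  · rw [Submodule.span_le]
    rintro _ ⟨j, rfl⟩
    by_cases hj : j < i
    · simp only [prefixFam, hj, if_true]
      exact Submodule.subset_span ⟨j, hj, rfl⟩
    · simp only [prefixFam, hj, if_false]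
      exact Submodule.zero_mem _
  · rw [Submodule.span_le]
    rintro _ ⟨j, hj, rfl⟩
    refine Submodule.subset_span ⟨j, ?_⟩
    have hj' : j < i := hj
    simp only [prefixFam, hj', if_true]

private theorem dS_prefix_castSucc {n : ℕ} (v : Fin (n + 1) → E d) (i : Fin n) :
    dS (prefixFam v i.castSucc) (v i.castSucc) =
      dS (prefixFam (fun j : Fin n => v j.castSucc) i) (v i.castSucc) := by
  unfold dS
  rw [span_prefix, span_prefix]
  congr 3
  ext z
  constructor
  · rintro ⟨j, hj, rfl⟩
    have hj' : (j : ℕ) < i := hj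
    refine ⟨⟨j, by omega⟩, ?_, rfl⟩
    exact hj'
  · rintro ⟨j, hj, rfl⟩
    exact ⟨j.castSucc, by simpa using hj, rfl⟩

private theorem dS_prefix_last {n : ℕ} (v : Fin (n + 1) → E d) :
    dS (prefixFam v (Fin.last n)) (v (Fin.last n)) =
      Metric.infDist (v (Fin.last n))
        (Submodule.span ℝ (Set.range fun j : Fin n => v j.castSucc) : Set (E d)) := by
  unfold dS
  rw [span_prefix]
  congr 3
  ext z
  constructor
  · rintro ⟨j, hj, rfl⟩
    have hj' : (j : ℕ) < n := hj
    exact ⟨⟨j, hj'⟩, rfl⟩
  · rintro ⟨j, rfl⟩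
    exact ⟨j.castSucc, Fin.castSucc_lt_last j, rfl⟩

/-- Gaussian small ball for a family: one row. `t₀ = 2 δ / √(2π)`. -/
theorem smallBall_row {n : ℕ} (v : Fin n → E d) (δ : ℝ) (hδ : 0 < δ) :
    (stdGaussian (E d)).real {x | ∀ i, |inner ℝ x (v i)| < δ} ≤
      ∏ i, ((2 * δ / Real.sqrt (2 * Real.pi)) /
        max (dS (prefixFam v i) (v i)) (2 * δ / Real.sqrt (2 * Real.pi))) := by
  induction n with
  | zero =>
    simp only [Finset.univ_eq_empty, Finset.prod_empty]
    exact measureReal_le_one
  | succ n ih =>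
    rw [Fin.prod_univ_castSucc]
    have hih := ih (fun j : Fin n => v j.castSucc)
    set A : Set (E d) := {x | ∀ i : Fin n, |inner ℝ x (v i.castSucc)| < δ} with hA
    have hAmeas : MeasurableSet A := by
      rw [hA, Set.setOf_forall]
      refine MeasurableSet.iInter fun i => measurableSet_lt ?_ measurable_const
      exact (by fun_prop : Continuous fun x : E d => |inner ℝ x (v i.castSucc)|).measurable
    have hset : {x : E d | ∀ i, |inner ℝ x (v i)| < δ} =
        A ∩ {x | |inner ℝ x (v (Fin.last n))| < δ} := by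
      ext x
      simp only [Set.mem_setOf_eq, Set.mem_inter_iff, hA, Fin.forall_fin_succ']
    set W : Submodule ℝ (E d) := Submodule.span ℝ (Set.range fun j : Fin n => v j.castSucc) with hW
    have hinv : ∀ x, ∀ y ∈ Wᗮ, (x + y ∈ A ↔ x ∈ A) := by
      intro x y hy
      have h0 : ∀ i : Fin n, inner ℝ x (v i.castSucc) = inner ℝ (x + y) (v i.castSucc) := by
        intro i
        have hmem : v i.castSucc ∈ W := Submodule.subset_span ⟨i, rfl⟩
        have : inner ℝ y (v i.castSucc) = (0 : ℝ) := Submodule.inner_left_of_mem_orthogonal hmem hy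
        rw [inner_add_left, this, add_zero]
      simp only [hA, Set.mem_setOf_eq, ← h0]
    have hstep := resample_step W A hAmeas hinv (v (Fin.last n)) δ hδ
    rw [hset]
    refine hstep.trans ?_
    rw [dS_prefix_last]
    refine mul_le_mul_of_nonneg_right ?_ (by positivity)
    refine hih.trans (le_of_eq ?_)
    refine Finset.prod_congr rfl fun i _ => ?_
    rw [dS_prefix_castSucc]

/-- Gaussian small ball for a family: `B` rows. -/
theorem smallBall_mat {n B : ℕ} (v : Fin n → E d) (δ : ℝ) (hδ : 0 < δ) :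
    (gam d B).real {X | ∀ (r : Fin B) (i : Fin n), |inner ℝ (X r) (v i)| < δ} ≤
      (∏ i, ((2 * δ / Real.sqrt (2 * Real.pi)) /
        max (dS (prefixFam v i) (v i)) (2 * δ / Real.sqrt (2 * Real.pi)))) ^ B := by
  set S : Set (E d) := {x | ∀ i, |inner ℝ x (v i)| < δ} with hS
  have hset : {X : Mat d B | ∀ (r : Fin B) (i : Fin n), |inner ℝ (X r) (v i)| < δ} =
      Set.pi Set.univ (fun _ : Fin B => S) := by
    ext X
    simp [Set.mem_pi, hS]
  have hreal : (gam d B).real (Set.pi Set.univ (fun _ : Fin B => S)) =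
      ((stdGaussian (E d)).real S) ^ B := by
    simp only [measureReal_def, gam, Measure.pi_pi, ENNReal.toReal_prod, Finset.prod_const,
      Finset.card_univ, Fintype.card_fin, ENNReal.toReal_pow]
  rw [hset, hreal]
  exact pow_le_pow_left₀ measureReal_nonneg (smallBall_row v δ hδ) B

/-- A Gaussian matrix with at most `d` rows is a.s. surjective. -/
theorem ae_surjective (hB : r ≤ d) : ∀ᵐ X ∂(gam d r), Function.Surjective (Aop X) := by
  have hall : ∀ᵐ X ∂(gam d r), ∀ i, X i ∉ Submodule.span ℝ (X '' (Set.univ \ {i})) := by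
    refine ae_all_iff.2 fun i => ?_
    obtain ⟨r', rfl⟩ := Nat.exists_eq_succ_of_ne_zero (i.pos.ne')
    exact ae_notMem_span hB i
  filter_upwards [hall] with X hX
  exact surjective_of_li X (linearIndependent_iff_notMem_span.2 hX)

/-- The distance of a unit vector to the row space: `P(dist ≥ 1/2) ≥ 2/3` when `k ≤ d/4`. -/
theorem gam_dist_row (hd : 0 < d) (hk : 4 * k ≤ d) (v : E d) (hv : ‖v‖ = 1) :
    2 / 3 ≤ (gam d k).real {X | 1 / 2 ≤ dS X v} :=
  gam_dist_row_aux hd hk v hv

end Crest.Agent.MS
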