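import Mathlib

/-!
# S0499 module `Tuple`: conditionally i.i.d. tuples on the cells of a countable partition.

Abstract measure theory.  `S` carries a probability `σ` and a bounded density `ψ`; `Y` carries a
probability `ν`; for each `y`, `ζ y : S → Z` is a countable partition of `S` ("slice of the block
`y`").  The tuple law on `(Fin (n+1) → S) × Y` is: `y ~ ν`, `s₀ ~ ψ σ`, and then `s₁ … s_n` i.i.d.
from `ψ σ` conditioned on the cell of `s₀`:
`tupDens n (ss, y) = ∏ ψ(ss j) · 1{all ss j in the cell of ss 0} · (mass of that cell)^(-n)`.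
-/

set_option autoImplicit false

namespace Crest.Agent.MS

/-- Equality of two measurable maps into a countable space with measurable singletons. -/
theorem measurableSet_eq_fun_of_countable {α β : Type*} [MeasurableSpace α] [MeasurableSpace β]
    [MeasurableSingletonClass β] [Countable β] {f g : α → β} (hf : Measurable f) (hg : Measurable g) :
    MeasurableSet {x | f x = g x} := by
  have : {x | f x = g x} = ⋃ z : β, (f ⁻¹' {z} ∩ g ⁻¹' {z}) := by
    ext x
    simp [eq_comm]
  rw [this]
  exact MeasurableSet.iUnion fun z =>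
    (hf (measurableSet_singleton z)).inter (hg (measurableSet_singleton z))

open MeasureTheory

variable {S Y Z : Type*} [MeasurableSpace S] [MeasurableSpace Y] [MeasurableSpace Z]

open Classical in
/-- Mass of the cell `z` of the partition `ζ y`. -/
noncomputable def slm (σ : Measure S) (ψ : S → ℝ) (ζ : Y → S → Z) (y : Y) (z : Z) : ℝ :=
  ∫ s, (if ζ y s = z then ψ s else 0) ∂σ

open Classical in
/-- The density of the tuple law w.r.t. `σ^(n+1) ⊗ ν`. -/
noncomputable def tupDens (σ : Measure S) (ψ : S → ℝ) (ζ : Y → S → Z) (n : ℕ)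
    (p : (Fin (n + 1) → S) × Y) : ℝ :=
  (∏ j, ψ (p.1 j)) *
    (if ∀ j, ζ p.2 (p.1 j) = ζ p.2 (p.1 0) then ((slm σ ψ ζ p.2 (ζ p.2 (p.1 0))) ^ n)⁻¹ else 0)

/-- The tuple law. -/
noncomputable def tupMeas (σ : Measure S) (ν : Measure Y) (ψ : S → ℝ) (ζ : Y → S → Z) (n : ℕ) :
    Measure ((Fin (n + 1) → S) × Y) :=
  ((Measure.pi fun _ : Fin (n + 1) => σ).prod ν).withDensity
    (fun p => ENNReal.ofReal (tupDens σ ψ ζ n p))

/-- Standing assumptions on the data. -/
structure TupData (σ : Measure S) (ν : Measure Y) (ψ : S → ℝ) (ζ : Y → S → Z) : Prop where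
  prob_σ : IsProbabilityMeasure σ
  prob_ν : IsProbabilityMeasure ν
  countable : Countable Z
  singleton : MeasurableSingletonClass Z
  meas_ψ : Measurable ψ
  nonneg : ∀ s, 0 ≤ ψ s
  bdd : ∃ L : ℝ, ∀ s, ψ s ≤ L
  int_one : ∫ s, ψ s ∂σ = 1
  meas_ζ : Measurable (fun p : Y × S => ζ p.1 p.2)

variable {σ : Measure S} {ν : Measure Y} {ψ : S → ℝ} {ζ : Y → S → Z} {n : ℕ}

/-- Fubini for a product of one-variable functions, in `ENNReal`. -/
theorem lintegral_pi_prod_aux {S' : Type*} [MeasurableSpace S'] (μ : Measure S') [SigmaFinite μ] :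
    ∀ (N : ℕ) (f : Fin N → S' → ENNReal), (∀ i, Measurable (f i)) →
      ∫⁻ x, ∏ i, f i (x i) ∂(Measure.pi fun _ : Fin N => μ) = ∏ i, ∫⁻ s, f i s ∂μ := by
  intro N
  induction N with
  | zero =>
    intro f _
    simp
  | succ N ih =>
    intro f hf
    have hmp := (measurePreserving_piFinSuccAbove (fun _ : Fin (N + 1) => μ) 0).symm
    rw [← hmp.lintegral_comp_emb (MeasurableEquiv.measurableEmbedding _)]
    simp only [Fin.prod_univ_succ]
    have h2 := ih (fun i => f i.succ) (fun i => hf _)
    rw [← h2]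
    have hmeas : Measurable (fun x : Fin N → S' => ∏ i, f i.succ (x i)) := by
      apply Finset.measurable_prod
      intro i _
      exact (hf _).comp (measurable_pi_apply i)
    have h3 := lintegral_prod_mul (μ := μ) (ν := Measure.pi fun _ : Fin N => μ)
      (hf 0).aemeasurable hmeas.aemeasurable
    rw [← h3]
    apply lintegral_congr
    rintro ⟨x, y⟩
    simp [MeasurableEquiv.piFinSuccAbove_symm_apply, Fin.insertNthEquiv]

namespace TupData

variable (h : TupData σ ν ψ ζ)
include h

theorem meas_ζ_y (y : Y) : Measurable (ζ y) :=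
  h.meas_ζ.comp (measurable_const.prodMk measurable_id)

theorem meas_ζ_s (f : ((Fin (n + 1) → S) × Y) → S) (hf : Measurable f) :
    Measurable (fun p : (Fin (n + 1) → S) × Y => ζ p.2 (f p)) :=
  h.meas_ζ.comp (measurable_snd.prodMk hf)

theorem integrable_cell (y : Y) (z : Z) [DecidablePred fun s => ζ y s = z] :
    Integrable (fun s => if ζ y s = z then ψ s else 0) σ := by
  classical
  haveI := h.prob_σ
  haveI := h.singleton
  obtain ⟨L, hL⟩ := h.bdd
  have hm : Measurable (fun s => if ζ y s = z then ψ s else 0) :=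
    Measurable.ite (h.meas_ζ_y y (measurableSet_singleton z)) h.meas_ψ measurable_const
  refine Integrable.of_bound hm.aestronglyMeasurable (max L 0) (Filter.Eventually.of_forall ?_)
  intro s
  split_ifs with hs
  · rw [Real.norm_eq_abs, abs_of_nonneg (h.nonneg s)]
    exact (hL s).trans (le_max_left _ _)
  · simp

theorem integrable_ψ : Integrable ψ σ := by
  haveI := h.prob_σ
  obtain ⟨L, hL⟩ := h.bdd
  refine Integrable.of_bound h.meas_ψ.aestronglyMeasurable L (Filter.Eventually.of_forall ?_)
  intro s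
  rw [Real.norm_eq_abs, abs_of_nonneg (h.nonneg s)]
  exact hL s

theorem slm_nonneg (y : Y) (z : Z) : 0 ≤ slm σ ψ ζ y z := by
  classical
  unfold slm
  apply integral_nonneg
  intro s
  dsimp only
  split_ifs
  · exact h.nonneg s
  · exact le_refl _

open Classical in
/-- The cell function, in `ENNReal`. -/
noncomputable def hz (ψ : S → ℝ) (ζ : Y → S → Z) (y : Y) (z : Z) (s : S) : ENNReal :=
  ENNReal.ofReal (if ζ y s = z then ψ s else 0)

omit h in
theorem hz_of_eq {y : Y} {z : Z} {s : S} (hs : ζ y s = z) : hz ψ ζ y z s = ENNReal.ofReal (ψ s) := by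
  simp [hz, hs]

omit h in
theorem hz_of_ne {y : Y} {z : Z} {s : S} (hs : ζ y s ≠ z) : hz ψ ζ y z s = 0 := by
  simp [hz, hs]

theorem measurable_hz (y : Y) (z : Z) : Measurable (hz ψ ζ y z) := by
  classical
  haveI := h.singleton
  unfold hz
  apply ENNReal.measurable_ofReal.comp
  exact Measurable.ite (h.meas_ζ_y y (measurableSet_singleton z)) h.meas_ψ measurable_const

theorem lintegral_hz (y : Y) (z : Z) : ∫⁻ s, hz ψ ζ y z s ∂σ = ENNReal.ofReal (slm σ ψ ζ y z) := by
  classical
  unfold hz slm
  rw [ofReal_integral_eq_lintegral_ofReal (h.integrable_cell y z)]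
  apply Filter.Eventually.of_forall
  intro s
  dsimp only
  split_ifs
  · exact h.nonneg s
  · exact le_refl _

theorem tsum_hz (y : Y) (s : S) : ∑' z, hz ψ ζ y z s = ENNReal.ofReal (ψ s) := by
  rw [tsum_eq_single (ζ y s) (fun z hz' => hz_of_ne (Ne.symm hz'))]
  exact hz_of_eq rfl

/-- Decomposition of the tuple density along the cells. -/
theorem ofReal_tupDens (p : (Fin (n + 1) → S) × Y) :
    ENNReal.ofReal (tupDens σ ψ ζ n p) =
      ∑' z, ENNReal.ofReal ((slm σ ψ ζ p.2 z ^ n)⁻¹) * ∏ j, hz ψ ζ p.2 z (p.1 j) := by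
  classical
  obtain ⟨ss, y⟩ := p
  dsimp only
  rw [tsum_eq_single (ζ y (ss 0))]
  · unfold tupDens
    dsimp only
    by_cases hall : ∀ j, ζ y (ss j) = ζ y (ss 0)
    · rw [if_pos hall]
      have e1 : ∀ j, hz ψ ζ y (ζ y (ss 0)) (ss j) = ENNReal.ofReal (ψ (ss j)) :=
        fun j => hz_of_eq (hall j)
      simp only [e1]
      rw [ENNReal.ofReal_mul (Finset.prod_nonneg fun j _ => h.nonneg _),
        ENNReal.ofReal_prod_of_nonneg (fun j _ => h.nonneg _), mul_comm]
    · rw [if_neg hall, mul_zero, ENNReal.ofReal_zero]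
      push Not at hall
      obtain ⟨j, hj⟩ := hall
      rw [Finset.prod_eq_zero (f := fun j => hz ψ ζ y (ζ y (ss 0)) (ss j)) (Finset.mem_univ j) (hz_of_ne hj), mul_zero]
  · intro z hz'
    rw [Finset.prod_eq_zero (f := fun j => hz ψ ζ y z (ss j)) (Finset.mem_univ (0 : Fin (n + 1))) (hz_of_ne (Ne.symm hz')), mul_zero]

theorem measurable_slm (z : Z) : Measurable (fun y => slm σ ψ ζ y z) := by
  classical
  haveI := h.prob_σ
  haveI := h.singleton
  unfold slm
  have hm : Measurable (fun p : Y × S => if ζ p.1 p.2 = z then ψ p.2 else 0) :=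
    Measurable.ite (h.meas_ζ (measurableSet_singleton z)) (h.meas_ψ.comp measurable_snd)
      measurable_const
  exact (hm.stronglyMeasurable.integral_prod_right).measurable

/-- Joint measurability of the cell mass. -/
theorem measurable_slm_cell : Measurable (fun p : Y × S => slm σ ψ ζ p.1 (ζ p.1 p.2)) := by
  haveI := h.countable
  haveI := h.singleton
  have h1 : Measurable (fun q : Y × Z => slm σ ψ ζ q.1 q.2) :=
    measurable_from_prod_countable_left (fun z => h.measurable_slm z)
  exact h1.comp (measurable_fst.prodMk h.meas_ζ)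

/-- The main computation at fixed `y`. -/
theorem lintegral_tupDens_coord (y : Y) (j : Fin (n + 1)) (F : S → ENNReal) (hF : Measurable F) :
    ∫⁻ ss, F (ss j) * ENNReal.ofReal (tupDens σ ψ ζ n (ss, y)) ∂(Measure.pi fun _ : Fin (n + 1) => σ) =
      ∫⁻ s, F s * ENNReal.ofReal (ψ s) ∂σ := by
  classical
  haveI := h.prob_σ
  haveI := h.countable
  have hmz := h.measurable_hz y
  have hprod : ∀ z, Measurable (fun ss : Fin (n + 1) → S => ∏ i, hz ψ ζ y z (ss i)) := by
    intro z
    apply Finset.measurable_prod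
    intro i _
    exact (hmz z).comp (measurable_pi_apply i)
  have hFj : Measurable (fun ss : Fin (n + 1) → S => F (ss j)) := hF.comp (measurable_pi_apply j)
  simp only [h.ofReal_tupDens]
  simp_rw [← ENNReal.tsum_mul_left]
  rw [lintegral_tsum]
  swap
  · intro z
    exact (hFj.mul (measurable_const.mul (hprod z))).aemeasurable
  -- each cell
  have hcell : ∀ z, ∫⁻ ss, F (ss j) * (ENNReal.ofReal ((slm σ ψ ζ y z ^ n)⁻¹) *
        ∏ i, hz ψ ζ y z (ss i)) ∂(Measure.pi fun _ : Fin (n + 1) => σ) =
      ∫⁻ s, F s * hz ψ ζ y z s ∂σ := by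
    intro z
    have e1 : ∀ ss : Fin (n + 1) → S, F (ss j) * (ENNReal.ofReal ((slm σ ψ ζ y z ^ n)⁻¹) *
        ∏ i, hz ψ ζ y z (ss i)) = ENNReal.ofReal ((slm σ ψ ζ y z ^ n)⁻¹) *
          ∏ i, (if i = j then fun s => F s * hz ψ ζ y z s else hz ψ ζ y z) (ss i) := by
      intro ss
      rw [← Finset.mul_prod_erase Finset.univ _ (Finset.mem_univ j),
        ← Finset.mul_prod_erase Finset.univ (fun i => (if i = j then fun s => F s * hz ψ ζ y z s
          else hz ψ ζ y z) (ss i)) (Finset.mem_univ j)]
      have e2 : ∏ x ∈ Finset.univ.erase j, (if x = j then fun s => F s * hz ψ ζ y z s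
          else hz ψ ζ y z) (ss x) = ∏ x ∈ Finset.univ.erase j, hz ψ ζ y z (ss x) := by
        apply Finset.prod_congr rfl
        intro x hx
        rw [if_neg (Finset.ne_of_mem_erase hx)]
      rw [e2]
      simp only [if_true]
      ring
    simp only [e1]
    have hGm : ∀ i : Fin (n + 1), Measurable (if i = j then fun s => F s * hz ψ ζ y z s
        else hz ψ ζ y z) := by
      intro i
      by_cases hi : i = j
      · rw [if_pos hi]
        exact hF.mul (hmz z)
      · rw [if_neg hi]
        exact hmz z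
    rw [lintegral_const_mul]
    swap
    · apply Finset.measurable_prod
      intro i _
      exact (hGm i).comp (measurable_pi_apply i)
    rw [lintegral_pi_prod_aux σ (n + 1) (fun i => if i = j then fun s => F s * hz ψ ζ y z s
      else hz ψ ζ y z) hGm]
    rw [← Finset.mul_prod_erase Finset.univ _ (Finset.mem_univ j)]
    have e3 : ∏ x ∈ Finset.univ.erase j, ∫⁻ s, (if x = j then fun s => F s * hz ψ ζ y z s
        else hz ψ ζ y z) s ∂σ = (ENNReal.ofReal (slm σ ψ ζ y z)) ^ n := by
      rw [Finset.prod_congr rfl (g := fun _ => ENNReal.ofReal (slm σ ψ ζ y z))]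
      · simp [Finset.card_erase_of_mem]
      · intro x hx
        rw [if_neg (Finset.ne_of_mem_erase hx)]
        exact h.lintegral_hz y z
    rw [e3]
    simp only [if_true]
    have hm0 := h.slm_nonneg y z
    rcases hm0.eq_or_lt with hm | hm
    · -- empty cell
      have hzero : ∫⁻ s, hz ψ ζ y z s ∂σ = 0 := by
        rw [h.lintegral_hz y z, ← hm, ENNReal.ofReal_zero]
      have hae : hz ψ ζ y z =ᵐ[σ] 0 := (lintegral_eq_zero_iff (hmz z)).1 hzero
      have hzero2 : ∫⁻ s, F s * hz ψ ζ y z s ∂σ = 0 := by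
        have hae2 : (fun s => F s * hz ψ ζ y z s) =ᵐ[σ] 0 := by
          filter_upwards [hae] with s hs
          simp [hs]
        rw [lintegral_congr_ae hae2]
        simp
      rw [hzero2]
      simp
    · -- nonempty cell
      have e4 : ENNReal.ofReal ((slm σ ψ ζ y z ^ n)⁻¹) * (ENNReal.ofReal (slm σ ψ ζ y z)) ^ n = 1 := by
        rw [← ENNReal.ofReal_pow hm0, ← ENNReal.ofReal_mul (by positivity),
          inv_mul_cancel₀ (by positivity), ENNReal.ofReal_one]
      calc _ = (ENNReal.ofReal ((slm σ ψ ζ y z ^ n)⁻¹) * (ENNReal.ofReal (slm σ ψ ζ y z)) ^ n) *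
            ∫⁻ s, F s * hz ψ ζ y z s ∂σ := by ring
        _ = _ := by rw [e4, one_mul]
  simp only [hcell]
  rw [← lintegral_tsum]
  · apply lintegral_congr
    intro s
    rw [ENNReal.tsum_mul_left, h.tsum_hz]
  · intro z
    exact (hF.mul (hmz z)).aemeasurable

end TupData

theorem measurable_tupDens (h : TupData σ ν ψ ζ) : Measurable (tupDens σ ψ ζ n) := by
  classical
  haveI := h.countable
  haveI := h.singleton
  unfold tupDens
  have hp : Measurable (fun p : (Fin (n + 1) → S) × Y => ∏ j, ψ (p.1 j)) := by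
    apply Finset.measurable_prod
    intro j _
    exact h.meas_ψ.comp ((measurable_pi_apply j).comp measurable_fst)
  apply hp.mul
  apply Measurable.ite
  · have : {p : (Fin (n + 1) → S) × Y | ∀ j, ζ p.2 (p.1 j) = ζ p.2 (p.1 0)} =
        ⋂ j, {p | ζ p.2 (p.1 j) = ζ p.2 (p.1 0)} := by
      ext p; simp
    rw [this]
    apply MeasurableSet.iInter
    intro j
    exact measurableSet_eq_fun_of_countable
      (h.meas_ζ_s _ ((measurable_pi_apply j).comp measurable_fst))
      (h.meas_ζ_s _ ((measurable_pi_apply 0).comp measurable_fst))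
  · have h1 : Measurable (fun p : (Fin (n + 1) → S) × Y => slm σ ψ ζ p.2 (ζ p.2 (p.1 0))) :=
      h.measurable_slm_cell.comp (measurable_snd.prodMk ((measurable_pi_apply 0).comp measurable_fst))
    exact (h1.pow_const n).inv
  · exact measurable_const

theorem tupDens_nonneg (h : TupData σ ν ψ ζ) (p : (Fin (n + 1) → S) × Y) :
    0 ≤ tupDens σ ψ ζ n p := by
  classical
  unfold tupDens
  apply mul_nonneg (Finset.prod_nonneg fun j _ => h.nonneg _)
  split_ifs
  · have := h.slm_nonneg p.2 (ζ p.2 (p.1 0))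
    positivity
  · exact le_refl _

/-- Integral formula: test functions of `(s_j, y)`. -/
theorem lintegral_tup_coord (h : TupData σ ν ψ ζ) (j : Fin (n + 1)) (F : S × Y → ENNReal)
    (hF : Measurable F) :
    ∫⁻ p, F (p.1 j, p.2) ∂(tupMeas σ ν ψ ζ n) =
      ∫⁻ y, ∫⁻ s, F (s, y) * ENNReal.ofReal (ψ s) ∂σ ∂ν := by
  classical
  haveI := h.prob_σ
  haveI := h.prob_ν
  unfold tupMeas
  have hd : Measurable (fun p => ENNReal.ofReal (tupDens σ ψ ζ n p)) :=
    ENNReal.measurable_ofReal.comp (measurable_tupDens h)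
  have hFj : Measurable (fun p : (Fin (n + 1) → S) × Y => F (p.1 j, p.2)) :=
    hF.comp (((measurable_pi_apply j).comp measurable_fst).prodMk measurable_snd)
  rw [lintegral_withDensity_eq_lintegral_mul _ hd hFj]
  rw [lintegral_prod_symm' _ (hd.mul hFj)]
  apply lintegral_congr
  intro y
  have hFy : Measurable (fun s => F (s, y)) := hF.comp (measurable_id.prodMk measurable_const)
  have := h.lintegral_tupDens_coord y j (fun s => F (s, y)) hFy
  rw [← this]
  apply lintegral_congr
  intro ss
  simp only [Pi.mul_apply]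
  ring

theorem tup_isProb (h : TupData σ ν ψ ζ) : IsProbabilityMeasure (tupMeas σ ν ψ ζ n) := by
  haveI := h.prob_σ
  haveI := h.prob_ν
  constructor
  have h1 := lintegral_tup_coord h (n := n) 0 (fun _ => 1) measurable_const
  simp only [lintegral_const, one_mul] at h1
  have h2 : ∫⁻ s, ENNReal.ofReal (ψ s) ∂σ = 1 := by
    rw [← ofReal_integral_eq_lintegral_ofReal h.integrable_ψ
      (Filter.Eventually.of_forall h.nonneg), h.int_one, ENNReal.ofReal_one]
  rw [h2] at h1
  simpa using h1

/-- KEY: each coordinate, jointly with `y`, has the law `(ψ σ) ⊗ ν`. -/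
theorem tup_map_coord (h : TupData σ ν ψ ζ) (j : Fin (n + 1)) :
    (tupMeas σ ν ψ ζ n).map (fun p => (p.1 j, p.2)) =
      (σ.withDensity fun s => ENNReal.ofReal (ψ s)).prod ν := by
  classical
  haveI := h.prob_σ
  haveI := h.prob_ν
  have hm : Measurable (fun p : (Fin (n + 1) → S) × Y => (p.1 j, p.2)) :=
    ((measurable_pi_apply j).comp measurable_fst).prodMk measurable_snd
  have hψm : Measurable (fun s => ENNReal.ofReal (ψ s)) := ENNReal.measurable_ofReal.comp h.meas_ψ
  haveI hfin : IsFiniteMeasure (σ.withDensity fun s => ENNReal.ofReal (ψ s)) :=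
    isFiniteMeasure_withDensity_ofReal h.integrable_ψ.2
  ext A hA
  rw [Measure.map_apply hm hA]
  have hF : Measurable (A.indicator (1 : S × Y → ENNReal)) := measurable_one.indicator hA
  have h1 := lintegral_tup_coord h (n := n) j _ hF
  have e1 : ∫⁻ p, A.indicator (1 : S × Y → ENNReal) (p.1 j, p.2) ∂(tupMeas σ ν ψ ζ n) =
      tupMeas σ ν ψ ζ n ((fun p => (p.1 j, p.2)) ⁻¹' A) := by
    rw [← lintegral_indicator_one (hm hA)]
    rfl
  rw [← e1, h1, ← lintegral_indicator_one hA, lintegral_prod_symm' _ hF]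
  apply lintegral_congr
  intro y
  have hFy : Measurable (fun s => A.indicator (1 : S × Y → ENNReal) (s, y)) :=
    hF.comp (measurable_id.prodMk measurable_const)
  rw [lintegral_withDensity_eq_lintegral_mul _ hψm hFy]
  apply lintegral_congr
  intro s
  simp only [Pi.mul_apply]
  ring

/-- Almost surely all tuple points lie in the same cell, where `ψ > 0`, and the cell has positive
mass. -/
theorem tup_ae (h : TupData σ ν ψ ζ) :
    ∀ᵐ p ∂(tupMeas σ ν ψ ζ n), (∀ j, ζ p.2 (p.1 j) = ζ p.2 (p.1 0)) ∧ (∀ j, 0 < ψ (p.1 j)) ∧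
      0 < slm σ ψ ζ p.2 (ζ p.2 (p.1 0)) := by
  classical
  haveI := h.prob_σ
  haveI := h.prob_ν
  haveI := h.countable
  haveI := h.singleton
  have hd : Measurable (fun p => ENNReal.ofReal (tupDens σ ψ ζ n p)) :=
    ENNReal.measurable_ofReal.comp (measurable_tupDens h)
  have h12 : ∀ᵐ p ∂(tupMeas σ ν ψ ζ n), (∀ j, ζ p.2 (p.1 j) = ζ p.2 (p.1 0)) ∧
      (∀ j, 0 < ψ (p.1 j)) := by
    unfold tupMeas
    rw [ae_withDensity_iff hd]
    apply Filter.Eventually.of_forall
    intro p hp
    have hp' : tupDens σ ψ ζ n p ≠ 0 := by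
      intro h0
      apply hp
      rw [h0, ENNReal.ofReal_zero]
    unfold tupDens at hp'
    have h1 := left_ne_zero_of_mul hp'
    have h2 := right_ne_zero_of_mul hp'
    constructor
    · by_contra hall
      rw [if_neg hall] at h2
      exact h2 rfl
    · intro j
      have h3 := (Finset.prod_ne_zero_iff.1 h1) j (Finset.mem_univ j)
      exact lt_of_le_of_ne (h.nonneg _) (Ne.symm h3)
  have h3 : ∀ᵐ p ∂(tupMeas σ ν ψ ζ n), 0 < slm σ ψ ζ p.2 (ζ p.2 (p.1 0)) := by
    set A : Set (S × Y) := {q | ¬ 0 < slm σ ψ ζ q.2 (ζ q.2 q.1)} with hA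
    have hAm : MeasurableSet A := by
      have h1 : Measurable (fun q : S × Y => slm σ ψ ζ q.2 (ζ q.2 q.1)) :=
        h.measurable_slm_cell.comp (measurable_snd.prodMk measurable_fst)
      exact (measurableSet_lt measurable_const h1).compl
    have hF : Measurable (A.indicator (1 : S × Y → ENNReal)) := measurable_one.indicator hAm
    have hm : Measurable (fun p : (Fin (n + 1) → S) × Y => (p.1 0, p.2)) :=
      ((measurable_pi_apply 0).comp measurable_fst).prodMk measurable_snd
    have h1 := lintegral_tup_coord h (n := n) 0 _ hF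
    have e1 : ∫⁻ p, A.indicator (1 : S × Y → ENNReal) (p.1 0, p.2) ∂(tupMeas σ ν ψ ζ n) =
        tupMeas σ ν ψ ζ n ((fun p => (p.1 0, p.2)) ⁻¹' A) := by
      rw [← lintegral_indicator_one (hm hAm)]
      rfl
    rw [e1] at h1
    rw [ae_iff]
    have e2 : {p | ¬ 0 < slm σ ψ ζ p.2 (ζ p.2 (p.1 0))} = (fun p : (Fin (n + 1) → S) × Y => (p.1 0, p.2)) ⁻¹' A := rfl
    rw [e2, h1]
    -- each `y`: the cells of mass zero are null
    have key : ∀ y, ∫⁻ s, A.indicator (1 : S × Y → ENNReal) (s, y) * ENNReal.ofReal (ψ s) ∂σ = 0 := by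
      intro y
      have hmeas : Measurable (fun s => A.indicator (1 : S × Y → ENNReal) (s, y) * ENNReal.ofReal (ψ s)) :=
        (hF.comp (measurable_id.prodMk measurable_const)).mul (ENNReal.measurable_ofReal.comp h.meas_ψ)
      rw [lintegral_eq_zero_iff hmeas]
      have hz0 : ∀ z, slm σ ψ ζ y z ≤ 0 → TupData.hz ψ ζ y z =ᵐ[σ] 0 := by
        intro z hz
        have : ∫⁻ s, TupData.hz ψ ζ y z s ∂σ = 0 := by
          rw [h.lintegral_hz y z, ENNReal.ofReal_of_nonpos hz]
        exact (lintegral_eq_zero_iff (h.measurable_hz y z)).1 this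
      have hall : ∀ᵐ s ∂σ, ∀ z, slm σ ψ ζ y z ≤ 0 → TupData.hz ψ ζ y z s = 0 := by
        rw [ae_all_iff]
        intro z
        by_cases hz : slm σ ψ ζ y z ≤ 0
        · filter_upwards [hz0 z hz] with s hs _
          exact hs
        · exact Filter.Eventually.of_forall fun s hz' => absurd hz' hz
      filter_upwards [hall] with s hs
      by_cases hsA : (s, y) ∈ A
      · have hle : slm σ ψ ζ y (ζ y s) ≤ 0 := not_lt.1 hsA
        have := hs _ hle
        rw [TupData.hz_of_eq rfl] at this
        simp [this]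
      · simp [hsA]
    simp [key]
  filter_upwards [h12, h3] with p hp hp3
  exact ⟨hp.1, hp.2, hp3⟩

/-- The Gibbs inequality: if `V ≥ 0` has total mass `≤ 1` on the base space then
`E_tup log V ≤ E_tup log tupDens`. -/
theorem tup_gibbs (h : TupData σ ν ψ ζ) (V : (Fin (n + 1) → S) × Y → ℝ) (hVm : Measurable V)
    (hV0 : ∀ p, 0 ≤ V p) (hV1 : ∫⁻ p, ENNReal.ofReal (V p)
        ∂((Measure.pi fun _ : Fin (n + 1) => σ).prod ν) ≤ 1)
    (hVpos : ∀ᵐ p ∂(tupMeas σ ν ψ ζ n), 0 < V p)
    (hVi : Integrable (fun p => Real.log (V p)) (tupMeas σ ν ψ ζ n))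
    (hTi : Integrable (fun p => Real.log (tupDens σ ψ ζ n p)) (tupMeas σ ν ψ ζ n)) :
    ∫ p, Real.log (V p) ∂(tupMeas σ ν ψ ζ n) ≤
      ∫ p, Real.log (tupDens σ ψ ζ n p) ∂(tupMeas σ ν ψ ζ n) := by
  classical
  haveI := tup_isProb h (n := n)
  have hTm := measurable_tupDens (n := n) h
  have hd : Measurable (fun p => ENNReal.ofReal (tupDens σ ψ ζ n p)) :=
    ENNReal.measurable_ofReal.comp hTm
  have hTpos : ∀ᵐ p ∂(tupMeas σ ν ψ ζ n), 0 < tupDens σ ψ ζ n p := by
    unfold tupMeas
    rw [ae_withDensity_iff hd]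
    apply Filter.Eventually.of_forall
    intro p hp
    apply lt_of_le_of_ne (tupDens_nonneg h p)
    intro h0
    apply hp
    rw [← h0, ENNReal.ofReal_zero]
  set ρ : (Fin (n + 1) → S) × Y → ℝ := fun p => V p / tupDens σ ψ ζ n p with hρ
  have hρm : Measurable ρ := hVm.div hTm
  have hρ0 : ∀ p, 0 ≤ ρ p := fun p => div_nonneg (hV0 p) (tupDens_nonneg h p)
  -- total mass of `ρ`
  have hmass : ∫⁻ p, ENNReal.ofReal (ρ p) ∂(tupMeas σ ν ψ ζ n) ≤ 1 := by
    unfold tupMeas
    have hρe : Measurable (fun p => ENNReal.ofReal (ρ p)) := ENNReal.measurable_ofReal.comp hρm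
    rw [lintegral_withDensity_eq_lintegral_mul _ hd hρe]
    refine le_trans (lintegral_mono ?_) hV1
    intro p
    simp only [Pi.mul_apply]
    rw [← ENNReal.ofReal_mul (tupDens_nonneg h p)]
    apply ENNReal.ofReal_le_ofReal
    rcases (tupDens_nonneg h p).eq_or_lt with h0 | h0
    · rw [← h0, zero_mul]
      exact hV0 p
    · rw [hρ]
      dsimp only
      rw [mul_div_cancel₀ _ h0.ne']
  have hρi : Integrable ρ (tupMeas σ ν ψ ζ n) := by
    refine ⟨hρm.aestronglyMeasurable, ?_⟩
    rw [hasFiniteIntegral_iff_ofReal (Filter.Eventually.of_forall hρ0)]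
    exact lt_of_le_of_lt hmass ENNReal.one_lt_top
  have hρ1 : ∫ p, ρ p ∂(tupMeas σ ν ψ ζ n) ≤ 1 := by
    rw [integral_eq_lintegral_of_nonneg_ae (Filter.Eventually.of_forall hρ0) hρm.aestronglyMeasurable]
    have := ENNReal.toReal_mono ENNReal.one_ne_top hmass
    simpa using this
  have hle : ∀ᵐ p ∂(tupMeas σ ν ψ ζ n), Real.log (V p) - Real.log (tupDens σ ψ ζ n p) ≤ ρ p - 1 := by
    filter_upwards [hVpos, hTpos] with p hVp hTp
    have h1 : 0 < ρ p := div_pos hVp hTp
    have h2 := Real.log_le_sub_one_of_pos h1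
    have h3 : Real.log (ρ p) = Real.log (V p) - Real.log (tupDens σ ψ ζ n p) :=
      Real.log_div hVp.ne' hTp.ne'
    linarith
  have h4 := integral_mono_ae (hVi.sub hTi) (hρi.sub (integrable_const (1 : ℝ))) hle
  simp only [Pi.sub_apply] at h4
  rw [integral_sub hVi hTi, integral_sub hρi (integrable_const (1 : ℝ))] at h4
  simp only [integral_const, probReal_univ, smul_eq_mul, mul_one] at h4
  linarith

/-- Integrating out the last coordinate. -/
theorem lintegral_pi_snoc_aux {S' : Type*} [MeasurableSpace S'] (μ : Measure S') [SigmaFinite μ]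
    (N : ℕ) (Φ : (Fin (N + 1) → S') → ENNReal) (hΦ : Measurable Φ) :
    ∫⁻ a, Φ a ∂(Measure.pi fun _ : Fin (N + 1) => μ) =
      ∫⁻ a', ∫⁻ x, Φ (Fin.snoc (α := fun _ => S') a' x) ∂μ ∂(Measure.pi fun _ : Fin N => μ) := by
  have hmp := (measurePreserving_piFinSuccAbove (fun _ : Fin (N + 1) => μ) (Fin.last N)).symm
  rw [← hmp.lintegral_comp_emb (MeasurableEquiv.measurableEmbedding _)]
  have hm2 : Measurable (fun p : S' × (Fin N → S') =>
      Φ ((MeasurableEquiv.piFinSuccAbove (fun _ : Fin (N + 1) => S') (Fin.last N)).symm p)) :=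
    hΦ.comp (MeasurableEquiv.measurable _)
  rw [lintegral_prod_symm' _ hm2]
  apply lintegral_congr
  intro a'
  apply lintegral_congr
  intro x
  congr 1
  simp [MeasurableEquiv.piFinSuccAbove_symm_apply, Fin.insertNthEquiv, Fin.insertNth_last']

theorem measurable_snoc_left_aux {S' : Type*} [MeasurableSpace S'] (N : ℕ) (x₀ : S') :
    Measurable (fun a : Fin N → S' => (Fin.snoc (α := fun _ => S') a x₀ : Fin (N + 1) → S')) := by
  refine measurable_pi_lambda _ ?_
  intro i
  refine Fin.lastCases ?_ (fun i => ?_) i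
  · simp
  · simpa using measurable_pi_apply i

theorem measurable_snoc_right_aux {S' : Type*} [MeasurableSpace S'] (N : ℕ) (a : Fin N → S') :
    Measurable (fun x : S' => (Fin.snoc (α := fun _ => S') a x : Fin (N + 1) → S')) := by
  refine measurable_pi_lambda _ ?_
  intro i
  refine Fin.lastCases ?_ (fun i => ?_) i
  · simp only [Fin.snoc_last]
    exact measurable_id
  · simp

/-- Iterated integration: prefix-measurable tests integrate to at most one against a product of
probability densities. -/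
theorem iter_lintegral_le_one {S' : Type*} [MeasurableSpace S'] (μ : Measure S') [SigmaFinite μ]
    (N : ℕ) (r : S' → ENNReal) (hr : Measurable r) (hr1 : ∫⁻ x, r x ∂μ ≤ 1)
    (g : Fin N → (Fin N → S') → ENNReal) (hg : ∀ i, Measurable (g i))
    (hdep : ∀ i (a b : Fin N → S'), (∀ j ≤ i, a j = b j) → g i a = g i b)
    (hstep : ∀ i (a : Fin N → S'), ∫⁻ x, r x * g i (Function.update a i x) ∂μ ≤ 1) :
    ∫⁻ a, (∏ j, r (a j)) * ∏ i, g i a ∂(Measure.pi fun _ : Fin N => μ) ≤ 1 := by
  induction N with
  | zero => simp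
  | succ N ih =>
    by_cases hS : Nonempty S'
    swap
    · -- empty base: no tuples
      have hemp : IsEmpty (Fin (N + 1) → S') := by
        constructor
        intro a
        exact hS ⟨a 0⟩
      simp
    obtain ⟨x₀⟩ := hS
    set g' : Fin N → (Fin N → S') → ENNReal :=
      fun i a => g i.castSucc (Fin.snoc (α := fun _ => S') a x₀) with hg'
    have hg'm : ∀ i, Measurable (g' i) := fun i => (hg _).comp (measurable_snoc_left_aux N x₀)
    have hdep' : ∀ i (a b : Fin N → S'), (∀ j ≤ i, a j = b j) → g' i a = g' i b := by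
      intro i a b hab
      refine hdep i.castSucc _ _ ?_
      intro j hj
      have hjlt : j.val < N := by
        have h1 : j.val ≤ i.val := by simpa [Fin.le_def] using hj
        have h2 := i.isLt
        omega
      obtain ⟨k, rfl⟩ : ∃ k : Fin N, j = k.castSucc := ⟨⟨j.val, hjlt⟩, by ext; simp⟩
      simp only [Fin.snoc_castSucc]
      exact hab k (Fin.castSucc_le_castSucc_iff.1 hj)
    have hstep' : ∀ i (a : Fin N → S'), ∫⁻ x, r x * g' i (Function.update a i x) ∂μ ≤ 1 := by
      intro i a
      have h1 := hstep i.castSucc (Fin.snoc (α := fun _ => S') a x₀)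
      have e1 : ∀ x, (Fin.snoc (α := fun _ => S') (Function.update a i x) x₀ : Fin (N + 1) → S') =
          Function.update (Fin.snoc (α := fun _ => S') a x₀ : Fin (N + 1) → S') i.castSucc x := by
        intro x
        exact Fin.snoc_update (α := fun _ => S') x₀ a i x
      simp only [hg', e1]
      exact h1
    have hih := ih g' hg'm hdep' hstep'
    have hΦ : Measurable (fun a : Fin (N + 1) → S' => (∏ j, r (a j)) * ∏ i, g i a) := by
      apply Measurable.mul
      · apply Finset.measurable_prod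
        intro j _
        exact hr.comp (measurable_pi_apply j)
      · apply Finset.measurable_prod
        intro i _
        exact hg i
    rw [lintegral_pi_snoc_aux μ N _ hΦ]
    refine le_trans (lintegral_mono ?_) hih
    intro a'
    have e2 : ∀ x, (∏ j, r ((Fin.snoc (α := fun _ => S') a' x : Fin (N + 1) → S') j)) *
        ∏ i, g i (Fin.snoc (α := fun _ => S') a' x) =
        ((∏ j, r (a' j)) * ∏ i, g' i a') *
          (r x * g (Fin.last N) (Function.update (Fin.snoc (α := fun _ => S') a' x₀ : Fin (N + 1) → S') (Fin.last N) x)) := by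
      intro x
      rw [Fin.prod_univ_castSucc, Fin.prod_univ_castSucc (f := fun i => g i (Fin.snoc (α := fun _ => S') a' x))]
      have e3 : ∀ i : Fin N, g i.castSucc (Fin.snoc (α := fun _ => S') a' x) = g' i a' := by
        intro i
        apply hdep
        intro j hj
        have hjlt : j.val < N := by
          have h1 : j.val ≤ i.val := by simpa [Fin.le_def] using hj
          have h2 := i.isLt
          omega
        obtain ⟨k, rfl⟩ : ∃ k : Fin N, j = k.castSucc := ⟨⟨j.val, hjlt⟩, by ext; simp⟩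
        simp only [Fin.snoc_castSucc]
      have e4 : (Function.update (Fin.snoc (α := fun _ => S') a' x₀ : Fin (N + 1) → S') (Fin.last N) x) =
          Fin.snoc (α := fun _ => S') a' x := by
        exact Fin.update_snoc_last (α := fun _ => S') x₀ a' x
      simp only [e3, e4, Fin.snoc_castSucc, Fin.snoc_last]
      ring
    simp only [e2]
    have hmx : Measurable (fun x => r x * g (Fin.last N) (Function.update (Fin.snoc (α := fun _ => S') a' x₀ : Fin (N + 1) → S') (Fin.last N) x)) := by
      apply hr.mul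
      apply (hg _).comp
      exact measurable_update _
    rw [lintegral_const_mul _ hmx]
    have h5 := hstep (Fin.last N) (Fin.snoc (α := fun _ => S') a' x₀)
    calc _ ≤ ((∏ j, r (a' j)) * ∏ i, g' i a') * 1 := by gcongr
      _ = _ := mul_one _

end Crest.Agent.MS
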