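import Crest.Agent.Lib.MS.FibBasic
import Crest.Agent.Lib.MS.GaussBall
import Crest.Agent.Lib.MS.Tuple

/-!
# S0499: definitions for the block lemma.

Fix `d, B, k, n, a` with `B = 2 a + 2`, a density `ψ`, a finite label set `Q`, a measurable label map
`F : Mat d B → (Fin B → ℝ) → Q` and a cell size `δ > 0`.  The partition of the sphere attached to a
block `X` is by the cube of side `δ` containing `Xs` *and* the label `F X (X s)`.
-/

set_option autoImplicit false

namespace Crest.Agent.MS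

open MeasureTheory ProbabilityTheory
open Crest.StreamLearn (E Sphere sphereUniform)

variable {d B k n : ℕ} {Q : Type}

/-- The cube of side `δ` containing `y`. -/
noncomputable def cell {r : ℕ} (δ : ℝ) (y : Fin r → ℝ) : Fin r → ℤ := fun j => ⌊y j / δ⌋

/-- Cube of `X s`. -/
noncomputable def zetaC (δ : ℝ) (X : Mat d B) (s : Sph d) : Fin B → ℤ := cell δ (mv X (s : E d))

/-- Cube of `X s` and label. -/
noncomputable def zetaF (F : Mat d B → (Fin B → ℝ) → Q) (δ : ℝ) (X : Mat d B) (s : Sph d) :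
    (Fin B → ℤ) × Q := (cell δ (mv X (s : E d)), F X (mv X (s : E d)))

/-- The tuple law of the block. -/
noncomputable def tupP [MeasurableSpace Q] (n : ℕ) (ψ : Sph d → ℝ) (F : Mat d B → (Fin B → ℝ) → Q)
    (δ : ℝ) : Measure ((Fin (n + 1) → Sph d) × Mat d B) :=
  tupMeas (sig d) (gam d B) ψ (zetaF F δ) n

/-- The label of a point of the tuple space. -/
noncomputable def lab {n : ℕ} (F : Mat d B → (Fin B → ℝ) → Q)
    (p : (Fin (n + 1) → Sph d) × Mat d B) : Q := F p.2 (mv p.2 (p.1 0 : E d))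

/-- The truncation level `t₀ = 2 δ / √(2π)`. -/
noncomputable def tt (δ : ℝ) : ℝ := 2 * δ / Real.sqrt (2 * Real.pi)

/-- The prefix family `(ss j - ss 0)_{j < i}`. -/
noncomputable def uu (ss : Fin (n + 1) → Sph d) (i : Fin (n + 1)) : Fin (n + 1) → E d :=
  prefixFam (fun j => (ss j : E d) - (ss 0 : E d)) i

/-- `d_i = dist(ss i, aff(ss_{<i}))`. -/
noncomputable def di (ss : Fin (n + 1) → Sph d) (i : Fin (n + 1)) : ℝ :=
  dS (uu ss i) ((ss i : E d) - (ss 0 : E d))

/-- truncated `d_i`. -/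
noncomputable def dtil (δ : ℝ) (ss : Fin (n + 1) → Sph d) (i : Fin (n + 1)) : ℝ :=
  max (di ss i) (tt δ)

/-- The small ball bound for the tuple. -/
noncomputable def bb (B : ℕ) (δ : ℝ) (ss : Fin (n + 1) → Sph d) : ℝ :=
  (∏ i : Fin n, (tt δ / dtil δ ss i.succ)) ^ B

/-- The distance in `ℝ^k` from `X (s' - ss 0)` to the image of the prefix flat, truncated. -/
noncomputable def DD (δ : ℝ) (X : Mat d k) (ss : Fin (n + 1) → Sph d) (i : Fin (n + 1)) (s' : Sph d) :
    ℝ :=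
  max (dS (fun j => Aop X (uu ss i j)) (Aop X ((s' : E d) - (ss 0 : E d)))) (tt δ)

/-- The Riesz kernel in `ℝ^k`. -/
noncomputable def kap (a : ℕ) (δ : ℝ) (X : Mat d k) (ss : Fin (n + 1) → Sph d) (i : Fin (n + 1))
    (s' : Sph d) : ℝ :=
  ((DD δ X ss i s') ^ (2 * a))⁻¹

/-- The normaliser of the Riesz kernel. -/
noncomputable def NN (k a : ℕ) (ψ : Sph d → ℝ) (δ : ℝ) (ss : Fin (n + 1) → Sph d) (i : Fin (n + 1)) :
    ℝ :=
  ∫ p : Sph d × Mat d k, ψ p.1 * kap a δ p.2 ss i p.1 ∂((sig d).prod (gam d k))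

/-- The Riesz potential of `ψ` at the prefix flat. -/
noncomputable def RR (a : ℕ) (ψ : Sph d → ℝ) (ss : Fin (n + 1) → Sph d) (i : Fin (n + 1)) : ℝ :=
  ∫ s' : Sph d, ψ s' * ((dS (uu ss i) ((s' : E d) - (ss 0 : E d))) ^ (2 * a))⁻¹ ∂(sig d)

/-- The conditional label probabilities. -/
noncomputable abbrev pF (F : Mat d B → (Fin B → ℝ) → Q) : Q → Sph d → ℝ := labelProb F

/-- `A_q(X, y) = fib(post_q)(X, y) / fib(ψ)(X, y)`. -/
noncomputable def Aq (k : ℕ) (ψ : Sph d → ℝ) (F : Mat d B → (Fin B → ℝ) → Q) (q : Q)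
    (y : Mat d k × (Fin k → ℝ)) : ℝ :=
  fib k (post ψ (pF F) q) y / fib k ψ y

/-- The log of the `i`-th factor of the test function. -/
noncomputable def logg (k a : ℕ) (ψ : Sph d → ℝ) (F : Mat d B → (Fin B → ℝ) → Q) (δ : ℝ) (q : Q)
    (ss : Fin (n + 1) → Sph d) (i : Fin (n + 1)) : ℝ :=
  (∫ X, Real.log (kap a δ X ss i (ss i)) ∂(gam d k)) - Real.log (NN k a ψ δ ss i)
    - ∫ X, Real.log (Aq k ψ F q (X, mv X (ss i : E d))) ∂(gam d k)

/-- Entropy of the partition `zetaF` given the block. -/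
noncomputable def Hz [MeasurableSpace Q] (ψ : Sph d → ℝ) (F : Mat d B → (Fin B → ℝ) → Q) (δ : ℝ) : ℝ :=
  ∫ p : Sph d × Mat d B, ψ p.1 * (- Real.log (slm (sig d) ψ (zetaF F δ) p.2 (zetaF F δ p.2 p.1)))
    ∂((sig d).prod (gam d B))

/-- Entropy of the cubes given the block. -/
noncomputable def Hc (B : ℕ) (ψ : Sph d → ℝ) (δ : ℝ) : ℝ :=
  ∫ p : Sph d × Mat d B, ψ p.1 * (- Real.log (slm (sig d) ψ (zetaC δ) p.2 (zetaC δ p.2 p.1)))
    ∂((sig d).prod (gam d B))

/-- Mutual information between label and `s`. -/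
noncomputable def Iq [Fintype Q] (ψ : Sph d → ℝ) (p : Q → Sph d → ℝ) : ℝ :=
  ∑ q, margP ψ p q * ∫ s, post ψ p q s * Real.log (post ψ p q s / ψ s) ∂(sig d)

/-- Mutual information between label and `(X, Xs)`. -/
noncomputable def Jq [Fintype Q] (k : ℕ) (ψ : Sph d → ℝ) (p : Q → Sph d → ℝ) : ℝ :=
  ∑ q, margP ψ p q * ∫ x : Sph d × Mat d k, post ψ p q x.1 *
        Real.log (fib k (post ψ p q) (x.2, mv x.2 (x.1 : E d)) / fib k ψ (x.2, mv x.2 (x.1 : E d)))
          ∂((sig d).prod (gam d k))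

/-- Entropy of the label. -/
noncomputable def Hlab [Fintype Q] (ψ : Sph d → ℝ) (p : Q → Sph d → ℝ) : ℝ :=
  - ∑ q, margP ψ p q * Real.log (margP ψ p q)

/-- Conditional entropy of the label given `s`. -/
noncomputable def Hcond [Fintype Q] (ψ : Sph d → ℝ) (p : Q → Sph d → ℝ) : ℝ :=
  ∫ s, ψ s * ∑ q, Real.negMulLog (p q s) ∂(sig d)

/-- The constant of the Riesz bound. `ballVol B` is the volume of the unit ball of `E B`. -/
noncomputable def ballVol (B : ℕ) : ℝ := (MeasureTheory.volume (Metric.ball (0 : E B) 1)).toReal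

/-- The constant in the Riesz bound. -/
noncomputable def CR (d B : ℕ) : ℝ :=
  (B : ℝ) * Real.log 3 + Real.log (8 * B * ballVol B) + (B / 2 : ℝ) * Real.log (1 + d)

end Crest.Agent.MS
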