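import Crest.Agent.Lib.MS.BlockEvalA

/-!
# S0499 module `BlockEval`: evaluating integrals under the tuple law.

All evaluations reduce to the marginal law of one coordinate, `tup_map_coord`:
`(p.1 j, p.2) ~ (ψ σ) ⊗ γ`, and to the fact that the label of a tuple point is the label of each of
its coordinates (`tupP_lab_eq`, from `tup_ae`).

With `P(q) = margP ψ p q` and `p q s = γ{X : F X (X s) = q}`:
* `tup_eval_ratio`: `log (ψ/post_q)(s_j) = log (P(q)/p(q|s_j))` when `ψ(s_j) > 0`, with `q = F X₀ (X₀ s_j)`;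
  integrating out `X₀` for fixed `s_j` gives `∑_q ∫ψ(s) p(q|s) log (P(q)/p(q|s)) = -Iq`.
* `tup_eval_Aq`: `∑_q ∫ ψ(s) p(q|s) a_q(s) ds = ∑_q P(q) ∫ post_q(s) a_q(s) ds = Jq`, with
  `a_q(s) = ∫ log A_q(X, X s) dγ_k(X)`.
* `tup_eval_logT`: `log T = ∑_j log ψ(s_j) - n log m` a.s., with `m = slm (cell of s₀)`.
-/

set_option autoImplicit false
set_option linter.unusedSectionVars false

namespace Crest.Agent.MS

open MeasureTheory ProbabilityTheory
open Crest.StreamLearn (E Sphere sphereUniform)

variable {d B k n : ℕ} {Q : Type} [Fintype Q] [Nonempty Q] [MeasurableSpace Q]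
  [MeasurableSingletonClass Q] {ψ : Sph d → ℝ} {F : Mat d B → (Fin B → ℝ) → Q} {δ : ℝ}

/-- `ψ log ψ` is integrable. -/
theorem integrable_mul_log (hd : 0 < d) (hψ : IsDens ψ) :
    Integrable (fun s => ψ s * Real.log (ψ s)) (sig d) := by
  have := sig_isProb hd
  obtain ⟨L, hL⟩ := hψ.bdd
  have hm : Measurable (fun s => ψ s * Real.log (ψ s)) :=
    hψ.meas.mul (Real.measurable_log.comp hψ.meas)
  refine Integrable.of_bound hm.aestronglyMeasurable (1 + L ^ 2) (Filter.Eventually.of_forall ?_)
  intro s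
  rw [Real.norm_eq_abs, abs_mul, abs_of_nonneg (hψ.nonneg s)]
  exact mul_abs_log_le (hψ.nonneg s) (hL s)

/-- Entropy of a bounded density is nonnegative. -/
theorem D0_nonneg (hd : 0 < d) (hψ : IsDens ψ) : 0 ≤ D0 ψ := by
  have := sig_isProb hd
  have hi := integrable_mul_log hd hψ
  have hψi := hψ.integrable
  have hle : ∀ s, ψ s - 1 ≤ ψ s * Real.log (ψ s) := by
    intro s
    rcases (hψ.nonneg s).eq_or_lt with h0 | h0
    · rw [← h0]; norm_num
    · have h1 := Real.one_sub_inv_le_log_of_pos h0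
      have h2 := mul_le_mul_of_nonneg_left h1 h0.le
      have h3 : ψ s * (1 - (ψ s)⁻¹) = ψ s - 1 := by field_simp
      linarith
  have h4 := integral_mono (f := fun s => ψ s - 1) (hψi.sub (integrable_const (1 : ℝ))) hi hle
  have h5 : ∫ s, (ψ s - 1) ∂(sig d) = 0 := by
    rw [integral_sub hψi (integrable_const (1 : ℝ)), hψ.int_one]
    simp
  rw [h5] at h4
  exact h4

theorem measurable_zetaC (hδ : 0 < δ) :
    Measurable (fun p : Mat d B × Sph d => zetaC δ p.1 p.2) := by
  have h0 : Measurable (fun p : Mat d B × Sph d => mv p.1 (p.2 : E d)) :=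
    (measurable_mv (d := d) (r := B)).comp
      (measurable_fst.prodMk (measurable_subtype_coe.comp measurable_snd))
  refine measurable_pi_lambda _ fun j => ?_
  have h1 : Measurable (fun p : Mat d B × Sph d => mv p.1 (p.2 : E d) j) :=
    (measurable_pi_apply j).comp h0
  exact Int.measurable_floor.comp (h1.div_const δ)

theorem measurable_zetaF (hF : Measurable (fun p : Mat d B × (Fin B → ℝ) => F p.1 p.2))
    (hδ : 0 < δ) : Measurable (fun p : Mat d B × Sph d => zetaF F δ p.1 p.2) := by
  have h0 : Measurable (fun p : Mat d B × Sph d => mv p.1 (p.2 : E d)) :=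
    (measurable_mv (d := d) (r := B)).comp
      (measurable_fst.prodMk (measurable_subtype_coe.comp measurable_snd))
  exact (measurable_zetaC hδ).prodMk (hF.comp (measurable_fst.prodMk h0))

theorem block_tupData (hd : 0 < d) (hψ : IsDens ψ)
    (hF : Measurable (fun p : Mat d B × (Fin B → ℝ) => F p.1 p.2)) (hδ : 0 < δ) :
    TupData (sig d) (gam d B) ψ (zetaF F δ) := by
  have := sig_isProb hd
  exact ⟨inferInstance, inferInstance, inferInstance, inferInstance, hψ.meas, hψ.nonneg, hψ.bdd,
    hψ.int_one, measurable_zetaF hF hδ⟩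

theorem block_tupDataC (hd : 0 < d) (hψ : IsDens ψ) (hδ : 0 < δ) :
    TupData (sig d) (gam d B) ψ (zetaC (d := d) (B := B) δ) := by
  have := sig_isProb hd
  exact ⟨inferInstance, inferInstance, inferInstance, inferInstance, hψ.meas, hψ.nonneg, hψ.bdd,
    hψ.int_one, measurable_zetaC hδ⟩

/-- The label of `(s, X)`. -/
noncomputable def labS (F : Mat d B → (Fin B → ℝ) → Q) (x : Sph d × Mat d B) : Q :=
  F x.2 (mv x.2 (x.1 : E d))

theorem measurable_labS (hF : Measurable (fun p : Mat d B × (Fin B → ℝ) => F p.1 p.2)) :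
    Measurable (labS (d := d) F) :=
  hF.comp (measurable_mv_pair (d := d) (r := B))

theorem measurableSet_labS (hF : Measurable (fun p : Mat d B × (Fin B → ℝ) => F p.1 p.2)) (q : Q) :
    MeasurableSet {x : Sph d × Mat d B | labS F x = q} :=
  measurable_labS hF (measurableSet_singleton q)

theorem measurableSet_slice (hF : Measurable (fun p : Mat d B × (Fin B → ℝ) => F p.1 p.2)) (q : Q)
    (s : Sph d) : MeasurableSet {X : Mat d B | F X (mv X (s : E d)) = q} :=
  measurable_prodMk_left (measurableSet_labS hF q)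

theorem pF_measurable (hF : Measurable (fun p : Mat d B × (Fin B → ℝ) => F p.1 p.2)) (q : Q) :
    Measurable (pF F q) := by
  have h1 : Measurable fun s : Sph d => (gam d B) (Prod.mk s ⁻¹' {x : Sph d × Mat d B | labS F x = q}) :=
    measurable_measure_prodMk_left (measurableSet_labS hF q)
  exact h1.ennreal_toReal

theorem pF_nonneg (q : Q) (s : Sph d) : 0 ≤ pF F q s := measureReal_nonneg

theorem pF_le_one (q : Q) (s : Sph d) : pF F q s ≤ 1 := measureReal_le_one

theorem pF_sum (hF : Measurable (fun p : Mat d B × (Fin B → ℝ) => F p.1 p.2)) (s : Sph d) :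
    ∑ q, pF F q s = 1 := by
  have hm : Measurable (fun X : Mat d B => F X (mv X (s : E d))) :=
    (measurable_labS hF).comp measurable_prodMk_left
  have h1 : ∑ q, (gam d B) ((fun X : Mat d B => F X (mv X (s : E d))) ⁻¹' {q}) = 1 := by
    rw [sum_measure_preimage_singleton _ fun q _ => hm (measurableSet_singleton q)]
    simp
  have h2 := congrArg ENNReal.toReal h1
  rw [ENNReal.toReal_sum (fun q _ => measure_ne_top _ _)] at h2
  simpa [pF, labelProb, measureReal_def, Set.preimage] using h2

theorem margP_nonneg (hd : 0 < d) (hψ : IsDens ψ) (q : Q) : 0 ≤ margP ψ (pF F) q :=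
  integral_nonneg fun s => mul_nonneg (hψ.nonneg s) (pF_nonneg q s)

theorem integrable_mul_pF (hd : 0 < d) (hψ : IsDens ψ)
    (hF : Measurable (fun p : Mat d B × (Fin B → ℝ) => F p.1 p.2)) (q : Q) :
    Integrable (fun s => ψ s * pF F q s) (sig d) := by
  have := sig_isProb hd
  obtain ⟨L, hL⟩ := hψ.bdd
  refine Integrable.of_bound (hψ.meas.mul (pF_measurable hF q)).aestronglyMeasurable L
    (Filter.Eventually.of_forall fun s => ?_)
  rw [Real.norm_of_nonneg (mul_nonneg (hψ.nonneg s) (pF_nonneg q s))]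
  calc ψ s * pF F q s ≤ ψ s * 1 := mul_le_mul_of_nonneg_left (pF_le_one q s) (hψ.nonneg s)
    _ ≤ L := by rw [mul_one]; exact hL s

theorem margP_sum (hd : 0 < d) (hψ : IsDens ψ)
    (hF : Measurable (fun p : Mat d B × (Fin B → ℝ) => F p.1 p.2)) :
    ∑ q, margP ψ (pF F) q = 1 := by
  unfold margP
  rw [← integral_finset_sum _ fun q _ => integrable_mul_pF hd hψ hF q]
  have h1 : ∀ s, ∑ q, ψ s * pF F q s = ψ s := by
    intro s
    rw [← Finset.mul_sum, pF_sum hF s, mul_one]
  simp only [h1]
  exact hψ.int_one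

/-- Change of variables to one coordinate. -/
theorem tupP_integral_coord (hd : 0 < d) (hψ : IsDens ψ)
    (hF : Measurable (fun p : Mat d B × (Fin B → ℝ) => F p.1 p.2)) (hδ : 0 < δ)
    (j : Fin (n + 1)) (g : Sph d × Mat d B → ℝ) (hg : Measurable g) :
    ∫ p, g (p.1 j, p.2) ∂(tupP n ψ F δ) = ∫ x, ψ x.1 * g x ∂((sig d).prod (gam d B)) :=
  tup_integral_coord' (block_tupData hd hψ hF hδ) j g hg

/-- Integrability under one coordinate. -/
theorem tupP_integrable_coord (hd : 0 < d) (hψ : IsDens ψ)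
    (hF : Measurable (fun p : Mat d B × (Fin B → ℝ) => F p.1 p.2)) (hδ : 0 < δ)
    (j : Fin (n + 1)) (g : Sph d × Mat d B → ℝ) (hg : Measurable g)
    (h : Integrable (fun x => ψ x.1 * g x) ((sig d).prod (gam d B))) :
    Integrable (fun p => g (p.1 j, p.2)) (tupP n ψ F δ) :=
  tup_integrable_coord' (block_tupData hd hψ hF hδ) j g hg h

/-- Bounded measurable functions are integrable under the tuple law. -/
theorem tupP_integrable_of_bdd (hd : 0 < d) (hψ : IsDens ψ)
    (hF : Measurable (fun p : Mat d B × (Fin B → ℝ) => F p.1 p.2)) (hδ : 0 < δ)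
    (g : (Fin (n + 1) → Sph d) × Mat d B → ℝ) (hg : Measurable g) (C : ℝ) (hC : ∀ p, |g p| ≤ C) :
    Integrable g (tupP n ψ F δ) := by
  haveI : IsProbabilityMeasure (tupP n ψ F δ) := tup_isProb (block_tupData hd hψ hF hδ)
  exact Integrable.of_bound hg.aestronglyMeasurable C (Filter.Eventually.of_forall hC)

/-- Joint measurability in `(q, s)`. -/
theorem measurable_prod_Q {h : Q → Sph d → ℝ} (hm : ∀ q, Measurable (h q)) :
    Measurable (fun p : Q × Sph d => h p.1 p.2) :=
  measurable_from_prod_countable_right hm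

/-- `s ↦ h (label) s`. -/
theorem measurable_label_comp (hF : Measurable (fun p : Mat d B × (Fin B → ℝ) => F p.1 p.2))
    {h : Q → Sph d → ℝ} (hm : ∀ q, Measurable (h q)) :
    Measurable (fun x : Sph d × Mat d B => h (labS F x) x.1) :=
  (measurable_prod_Q hm).comp ((measurable_labS hF).prodMk measurable_fst)

/-- The positivity of the label probabilities. -/
theorem ae_label_pos (hd : 0 < d) (hψ : IsDens ψ)
    (hF : Measurable (fun p : Mat d B × (Fin B → ℝ) => F p.1 p.2)) :
    ∀ᵐ x ∂((sig d).prod (gam d B)), 0 < ψ x.1 →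
      0 < pF F (labS F x) x.1 ∧ 0 < margP ψ (pF F) (labS F x) := by
  have := sig_isProb hd
  classical
  have hzero : ∀ᵐ s ∂(sig d), ∀ q, margP ψ (pF F) q = 0 → ψ s * pF F q s = 0 := by
    refine ae_all_iff.2 fun q => ?_
    by_cases hq : margP ψ (pF F) q = 0
    · have h1 : (fun s => ψ s * pF F q s) =ᵐ[sig d] 0 := by
        refine (integral_eq_zero_iff_of_nonneg ?_ (integrable_mul_pF hd hψ hF q)).1 hq
        exact fun s => mul_nonneg (hψ.nonneg s) (pF_nonneg q s)
      filter_upwards [h1] with s hs _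
      exact hs
    · exact Filter.Eventually.of_forall fun s h => absurd h hq
  have hset : MeasurableSet {x : Sph d × Mat d B | 0 < ψ x.1 →
      0 < pF F (labS F x) x.1 ∧ 0 < margP ψ (pF F) (labS F x)} := by
    have h1 : Measurable (fun x : Sph d × Mat d B => ψ x.1) := hψ.meas.comp measurable_fst
    have h2 : Measurable (fun x : Sph d × Mat d B => pF F (labS F x) x.1) :=
      measurable_label_comp hF fun q => pF_measurable hF q
    have h3 : Measurable (fun x : Sph d × Mat d B => margP ψ (pF F) (labS F x)) :=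
      (measurable_of_countable (fun q => margP ψ (pF F) q)).comp (measurable_labS hF)
    have e : {x : Sph d × Mat d B | 0 < ψ x.1 →
        0 < pF F (labS F x) x.1 ∧ 0 < margP ψ (pF F) (labS F x)} =
        {x | 0 < ψ x.1}ᶜ ∪ ({x | 0 < pF F (labS F x) x.1} ∩ {x | 0 < margP ψ (pF F) (labS F x)}) := by
      ext x
      simp only [Set.mem_setOf_eq, Set.mem_union, Set.mem_compl_iff, Set.mem_inter_iff]
      tauto
    rw [e]
    exact (measurableSet_lt measurable_const h1).compl.union
      ((measurableSet_lt measurable_const h2).inter (measurableSet_lt measurable_const h3))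
  rw [Measure.ae_prod_iff_ae_ae hset]
  filter_upwards [hzero] with s hs
  have hX : ∀ᵐ X ∂(gam d B), ∀ q, F X (mv X (s : E d)) = q → pF F q s ≠ 0 := by
    refine ae_all_iff.2 fun q => ?_
    by_cases hq : pF F q s = 0
    · have h1 : (gam d B) {X : Mat d B | F X (mv X (s : E d)) = q} = 0 := by
        have h2 : ((gam d B) {X : Mat d B | F X (mv X (s : E d)) = q}).toReal = 0 := hq
        rcases (ENNReal.toReal_eq_zero_iff _).1 h2 with h3 | h3
        · exact h3
        · exact absurd h3 (measure_ne_top _ _)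
      have h2 : ∀ᵐ X ∂(gam d B), X ∉ {X : Mat d B | F X (mv X (s : E d)) = q} :=
        measure_eq_zero_iff_ae_notMem.1 h1
      filter_upwards [h2] with X hX h4
      exact absurd h4 hX
    · exact Filter.Eventually.of_forall fun X _ => hq
  filter_upwards [hX] with X hX hpos
  have h1 : pF F (labS F (s, X)) (s, X).1 ≠ 0 := hX _ rfl
  have hp0 : 0 < pF F (labS F (s, X)) s := lt_of_le_of_ne (pF_nonneg _ _) (Ne.symm h1)
  refine ⟨hp0, lt_of_le_of_ne (margP_nonneg hd hψ _) ?_⟩
  intro h2
  have h3 := hs _ h2.symm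
  have hψ0 : 0 < ψ s := hpos
  rcases mul_eq_zero.1 h3 with h4 | h4
  · exact hψ0.ne' h4
  · exact hp0.ne' h4

/-- Almost surely, the label of the tuple is the label of each of its points, all the points lie in
the same cube, `ψ > 0` there. -/
theorem tupP_ae (hd : 0 < d) (hψ : IsDens ψ)
    (hF : Measurable (fun p : Mat d B × (Fin B → ℝ) => F p.1 p.2)) (hδ : 0 < δ) :
    ∀ᵐ p ∂(tupP n ψ F δ), (∀ j, zetaF F δ p.2 (p.1 j) = zetaF F δ p.2 (p.1 0)) ∧
      (∀ j, lab F p = F p.2 (mv p.2 (p.1 j : E d))) ∧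
      (∀ j, cell δ (mv p.2 (p.1 j : E d)) = cell δ (mv p.2 (p.1 0 : E d))) ∧
      (∀ j, 0 < ψ (p.1 j)) ∧ (∀ j, 0 < pF F (lab F p) (p.1 j)) ∧ 0 < margP ψ (pF F) (lab F p) := by
  have hT := block_tupData hd hψ hF hδ
  have h1 := tup_ae (n := n) hT
  have h2 : ∀ j : Fin (n + 1), ∀ᵐ p ∂(tupP n ψ F δ), 0 < ψ (p.1 j) →
      0 < pF F (labS F (p.1 j, p.2)) (p.1 j) ∧ 0 < margP ψ (pF F) (labS F (p.1 j, p.2)) :=
    fun j => tup_ae_coord hT j (fun x => 0 < pF F (labS F x) x.1 ∧ 0 < margP ψ (pF F) (labS F x))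
      (ae_label_pos hd hψ hF)
  have h3 := ae_all_iff.2 h2
  filter_upwards [h1, h3] with p hp hp3
  obtain ⟨ha, hb, -⟩ := hp
  have hlab : ∀ j, lab F p = F p.2 (mv p.2 (p.1 j : E d)) := by
    intro j
    exact (congrArg Prod.snd (ha j)).symm
  refine ⟨ha, hlab, ?_, hb, ?_, ?_⟩
  · intro j
    exact congrArg Prod.fst (ha j)
  · intro j
    have h4 := (hp3 j (hb j)).1
    have h5 : labS F (p.1 j, p.2) = lab F p := (hlab j).symm
    rw [h5] at h4
    exact h4
  · have h4 := (hp3 0 (hb 0)).2
    exact h4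

/-- `tupP` is a probability measure. -/
theorem tupP_isProb (hd : 0 < d) (hψ : IsDens ψ)
    (hF : Measurable (fun p : Mat d B × (Fin B → ℝ) => F p.1 p.2)) (hδ : 0 < δ) :
    IsProbabilityMeasure (tupP n ψ F δ) :=
  tup_isProb (block_tupData hd hψ hF hδ)

/-- `log ψ(s_j)` is integrable, with integral `D₀`. -/
theorem tup_integrable_logψ (hd : 0 < d) (hψ : IsDens ψ)
    (hF : Measurable (fun p : Mat d B × (Fin B → ℝ) => F p.1 p.2)) (hδ : 0 < δ) (j : Fin (n + 1)) :
    Integrable (fun p => Real.log (ψ (p.1 j))) (tupP n ψ F δ) := by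
  obtain ⟨L, hL⟩ := hψ.bdd
  have hg : Measurable (fun x : Sph d × Mat d B => Real.log (ψ x.1)) :=
    Real.measurable_log.comp (hψ.meas.comp measurable_fst)
  have h1 := integrable_mul_log_dens (k := B) hd hψ hψ (c := 1) (fun s => by rw [one_mul])
  exact tupP_integrable_coord hd hψ hF hδ j (fun x => Real.log (ψ x.1)) hg h1

theorem tup_eval_logψ (hd : 0 < d) (hψ : IsDens ψ)
    (hF : Measurable (fun p : Mat d B × (Fin B → ℝ) => F p.1 p.2)) (hδ : 0 < δ) (j : Fin (n + 1)) :
    ∫ p, Real.log (ψ (p.1 j)) ∂(tupP n ψ F δ) = D0 ψ := by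
  have := sig_isProb hd
  have hg : Measurable (fun x : Sph d × Mat d B => Real.log (ψ x.1)) :=
    Real.measurable_log.comp (hψ.meas.comp measurable_fst)
  rw [tupP_integral_coord hd hψ hF hδ j (fun x => Real.log (ψ x.1)) hg]
  rw [integral_fun_fst (fun s => ψ s * Real.log (ψ s))]
  simp [D0]

/-- Fubini for a finite label: one value of the label. -/
theorem label_term (hd : 0 < d) (hF : Measurable (fun p : Mat d B × (Fin B → ℝ) => F p.1 p.2))
    (h : Q → Sph d → ℝ) (hm : ∀ q, Measurable (h q))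
    (hi : ∀ q, Integrable (fun s => pF F q s * h q s) (sig d)) (q : Q) [DecidableEq Q] :
    Integrable (fun x : Sph d × Mat d B => if labS F x = q then h q x.1 else 0)
      ((sig d).prod (gam d B)) ∧
    ∫ x : Sph d × Mat d B, (if labS F x = q then h q x.1 else 0) ∂((sig d).prod (gam d B)) =
      ∫ s, pF F q s * h q s ∂(sig d) := by
  have := sig_isProb hd
  set G : Sph d × Mat d B → ℝ := fun x => if labS F x = q then h q x.1 else 0 with hG
  have hGm : Measurable G :=
    Measurable.ite (measurableSet_labS hF q) ((hm q).comp measurable_fst) measurable_const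
  have hslice : ∀ s, (fun X => G (s, X)) =
      {X : Mat d B | F X (mv X (s : E d)) = q}.indicator (fun _ => h q s) := by
    intro s
    ext X
    by_cases hX : F X (mv X (s : E d)) = q
    · rw [Set.indicator_of_mem (show X ∈ {X : Mat d B | F X (mv X (s : E d)) = q} from hX)]
      simp [hG, labS, hX]
    · rw [Set.indicator_of_notMem (show X ∉ {X : Mat d B | F X (mv X (s : E d)) = q} from hX)]
      simp [hG, labS, hX]
  have hslicen : ∀ s, (fun X => ‖G (s, X)‖) =
      {X : Mat d B | F X (mv X (s : E d)) = q}.indicator (fun _ => ‖h q s‖) := by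
    intro s
    ext X
    by_cases hX : F X (mv X (s : E d)) = q
    · rw [Set.indicator_of_mem (show X ∈ {X : Mat d B | F X (mv X (s : E d)) = q} from hX)]
      simp [hG, labS, hX]
    · rw [Set.indicator_of_notMem (show X ∉ {X : Mat d B | F X (mv X (s : E d)) = q} from hX)]
      simp [hG, labS, hX]
  have hI : ∀ s, ∫ X, G (s, X) ∂(gam d B) = pF F q s * h q s := by
    intro s
    rw [hslice, integral_indicator_const _ (measurableSet_slice hF q s)]
    simp [pF, labelProb]
  have hN : ∀ s, ∫ X, ‖G (s, X)‖ ∂(gam d B) = ‖pF F q s * h q s‖ := by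
    intro s
    rw [hslicen, integral_indicator_const _ (measurableSet_slice hF q s), norm_mul,
      Real.norm_of_nonneg (pF_nonneg q s)]
    simp [pF, labelProb]
  have hint : Integrable G ((sig d).prod (gam d B)) := by
    rw [integrable_prod_iff hGm.aestronglyMeasurable]
    refine ⟨Filter.Eventually.of_forall fun s => ?_, ?_⟩
    · rw [hslice]
      exact (integrable_const _).indicator (measurableSet_slice hF q s)
    · simp only [hN]
      exact (hi q).norm
  refine ⟨hint, ?_⟩
  rw [integral_prod _ hint]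
  simp only [hI]

/-- Fubini for a finite label. -/
theorem integral_label (hd : 0 < d) (hF : Measurable (fun p : Mat d B × (Fin B → ℝ) => F p.1 p.2))
    (h : Q → Sph d → ℝ) (hm : ∀ q, Measurable (h q))
    (hi : ∀ q, Integrable (fun s => pF F q s * h q s) (sig d)) :
    Integrable (fun x : Sph d × Mat d B => h (labS F x) x.1) ((sig d).prod (gam d B)) ∧
    ∫ x : Sph d × Mat d B, h (labS F x) x.1 ∂((sig d).prod (gam d B)) =
      ∑ q, ∫ s, pF F q s * h q s ∂(sig d) := by
  classical
  have e : ∀ x : Sph d × Mat d B, h (labS F x) x.1 = ∑ q, if labS F x = q then h q x.1 else 0 := by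
    intro x
    rw [Finset.sum_ite_eq]
    simp
  simp only [e]
  refine ⟨integrable_finset_sum _ fun q _ => (label_term hd hF h hm hi q).1, ?_⟩
  rw [integral_finset_sum _ fun q _ => (label_term hd hF h hm hi q).1]
  exact Finset.sum_congr rfl fun q _ => (label_term hd hF h hm hi q).2

/-- Functions of the label and of one coordinate, under the tuple law. -/
theorem tup_label (hd : 0 < d) (hψ : IsDens ψ)
    (hF : Measurable (fun p : Mat d B × (Fin B → ℝ) => F p.1 p.2)) (hδ : 0 < δ) (j : Fin (n + 1))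
    (h : Q → Sph d → ℝ) (hm : ∀ q, Measurable (h q))
    (hi : ∀ q, Integrable (fun s => ψ s * pF F q s * h q s) (sig d)) :
    Integrable (fun p => h (lab F p) (p.1 j)) (tupP n ψ F δ) ∧
    ∫ p, h (lab F p) (p.1 j) ∂(tupP n ψ F δ) = ∑ q, ∫ s, ψ s * pF F q s * h q s ∂(sig d) := by
  have hm' : ∀ q, Measurable (fun s => ψ s * h q s) := fun q => hψ.meas.mul (hm q)
  have hi' : ∀ q, Integrable (fun s => pF F q s * (ψ s * h q s)) (sig d) := fun q =>
    (hi q).congr (Filter.Eventually.of_forall fun s => by ring)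
  obtain ⟨h1, h2⟩ := integral_label hd hF (fun q s => ψ s * h q s) hm' hi'
  have hg := measurable_label_comp hF hm
  have hae : (fun p => h (lab F p) (p.1 j)) =ᵐ[tupP n ψ F δ]
      fun p => (fun x : Sph d × Mat d B => h (labS F x) x.1) (p.1 j, p.2) := by
    filter_upwards [tupP_ae hd hψ hF hδ] with p hp
    have h3 := hp.2.1 j
    simp only [labS]
    rw [h3]
  constructor
  · exact (tupP_integrable_coord hd hψ hF hδ j _ hg h1).congr hae.symm
  · rw [integral_congr_ae hae, tupP_integral_coord hd hψ hF hδ j _ hg, h2]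
    exact Finset.sum_congr rfl fun q _ => integral_congr_ae
      (Filter.Eventually.of_forall fun s => by ring)

private theorem ratio_pt {ψ p P : ℝ} (hψ : 0 ≤ ψ) (hp : 0 ≤ p) (hP : 0 < P) :
    ψ * p * Real.log (ψ / (ψ * p / P)) = ψ * (p * Real.log P + Real.negMulLog p) := by
  rcases hψ.eq_or_lt with rfl | hψ'
  · simp
  rcases hp.eq_or_lt with rfl | hp'
  · simp
  have h1 : ψ / (ψ * p / P) = P / p := by field_simp
  rw [h1, Real.log_div hP.ne' hp'.ne', Real.negMulLog]
  ring

theorem post_measurable (hψ : IsDens ψ)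
    (hF : Measurable (fun p : Mat d B × (Fin B → ℝ) => F p.1 p.2)) (q : Q) :
    Measurable (post ψ (pF F) q) :=
  (hψ.meas.mul (pF_measurable hF q)).div_const _

/-- bounded integrands -/
private theorem integrable_ratio_aux (hd : 0 < d) (hψ : IsDens ψ)
    (hF : Measurable (fun p : Mat d B × (Fin B → ℝ) => F p.1 p.2)) (q : Q) (c : ℝ) :
    Integrable (fun s => ψ s * (pF F q s * c + Real.negMulLog (pF F q s))) (sig d) := by
  have := sig_isProb hd
  obtain ⟨L, hL⟩ := hψ.bdd
  have hm : Measurable (fun s => ψ s * (pF F q s * c + Real.negMulLog (pF F q s))) :=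
    hψ.meas.mul (((pF_measurable hF q).mul_const c).add
      (Real.continuous_negMulLog.measurable.comp (pF_measurable hF q)))
  refine Integrable.of_bound hm.aestronglyMeasurable (L * (|c| + 2))
    (Filter.Eventually.of_forall fun s => ?_)
  rw [Real.norm_eq_abs, abs_mul, abs_of_nonneg (hψ.nonneg s)]
  have h1 : |pF F q s * c + Real.negMulLog (pF F q s)| ≤ |c| + 2 := by
    refine (abs_add_le _ _).trans (add_le_add ?_ (negMulLog_abs_le (pF_nonneg q s) (pF_le_one q s)))
    rw [abs_mul, abs_of_nonneg (pF_nonneg q s)]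
    calc pF F q s * |c| ≤ 1 * |c| := mul_le_mul_of_nonneg_right (pF_le_one q s) (abs_nonneg c)
      _ = |c| := one_mul _
  have h0 := (hψ.nonneg s).trans (hL s)
  exact mul_le_mul (hL s) h1 (abs_nonneg _) h0

private theorem integrable_ratio_term (hd : 0 < d) (hψ : IsDens ψ)
    (hF : Measurable (fun p : Mat d B × (Fin B → ℝ) => F p.1 p.2)) (q : Q) :
    Integrable (fun s => ψ s * pF F q s * Real.log (ψ s / post ψ (pF F) q s)) (sig d) := by
  by_cases hq : margP ψ (pF F) q = 0
  · have h1 : (fun s => ψ s * pF F q s * Real.log (ψ s / post ψ (pF F) q s)) = fun _ => 0 := by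
      funext s
      simp [post, hq]
    rw [h1]
    exact integrable_zero _ _ _
  · have hP : 0 < margP ψ (pF F) q := lt_of_le_of_ne (margP_nonneg hd hψ q) (Ne.symm hq)
    refine (integrable_ratio_aux hd hψ hF q (Real.log (margP ψ (pF F) q))).congr
      (Filter.Eventually.of_forall fun s => ?_)
    exact (ratio_pt (hψ.nonneg s) (pF_nonneg q s) hP).symm

private theorem ratio_term_eq (hd : 0 < d) (hψ : IsDens ψ) (q : Q) :
    ∫ s, ψ s * pF F q s * Real.log (ψ s / post ψ (pF F) q s) ∂(sig d) =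
      - (margP ψ (pF F) q * ∫ s, post ψ (pF F) q s * Real.log (post ψ (pF F) q s / ψ s) ∂(sig d)) := by
  by_cases hq : margP ψ (pF F) q = 0
  · have h1 : (fun s => ψ s * pF F q s * Real.log (ψ s / post ψ (pF F) q s)) = fun _ => 0 := by
      funext s
      simp [post, hq]
    rw [h1, hq]
    simp
  · rw [← integral_const_mul, ← integral_neg]
    refine integral_congr_ae (Filter.Eventually.of_forall fun s => ?_)
    have h2 : margP ψ (pF F) q * post ψ (pF F) q s = ψ s * pF F q s := by
      unfold post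
      field_simp
    have h3 : Real.log (post ψ (pF F) q s / ψ s) = - Real.log (ψ s / post ψ (pF F) q s) := by
      rw [← Real.log_inv, inv_div]
    dsimp only
    rw [h3, ← mul_assoc, h2]
    ring

/-- `log (ψ/post)(s_j)` is integrable. -/
theorem tup_integrable_ratio (hd : 0 < d) (hψ : IsDens ψ)
    (hF : Measurable (fun p : Mat d B × (Fin B → ℝ) => F p.1 p.2)) (hδ : 0 < δ) (j : Fin (n + 1)) :
    Integrable (fun p => Real.log (ψ (p.1 j) / post ψ (pF F) (lab F p) (p.1 j))) (tupP n ψ F δ) :=
  (tup_label hd hψ hF hδ j (fun q s => Real.log (ψ s / post ψ (pF F) q s))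
    (fun q => Real.measurable_log.comp (hψ.meas.div (post_measurable hψ hF q)))
    (fun q => integrable_ratio_term hd hψ hF q)).1

theorem tup_eval_ratio (hd : 0 < d) (hψ : IsDens ψ)
    (hF : Measurable (fun p : Mat d B × (Fin B → ℝ) => F p.1 p.2)) (hδ : 0 < δ) (j : Fin (n + 1)) :
    ∫ p, Real.log (ψ (p.1 j) / post ψ (pF F) (lab F p) (p.1 j)) ∂(tupP n ψ F δ) =
      - Iq ψ (pF F) := by
  rw [(tup_label hd hψ hF hδ j (fun q s => Real.log (ψ s / post ψ (pF F) q s))
    (fun q => Real.measurable_log.comp (hψ.meas.div (post_measurable hψ hF q)))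
    (fun q => integrable_ratio_term hd hψ hF q)).2]
  unfold Iq
  rw [← Finset.sum_neg_distrib]
  exact Finset.sum_congr rfl fun q _ => ratio_term_eq hd hψ q

/-- `log P(lab)` is integrable, with integral `- Hlab`. -/
theorem tup_integrable_logP (hd : 0 < d) (hψ : IsDens ψ)
    (hF : Measurable (fun p : Mat d B × (Fin B → ℝ) => F p.1 p.2)) (hδ : 0 < δ) :
    Integrable (fun p => Real.log (margP ψ (pF F) (lab F p))) (tupP n ψ F δ) :=
  (tup_label (n := n) hd hψ hF hδ 0 (fun q _ => Real.log (margP ψ (pF F) q))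
    (fun q => measurable_const)
    (fun q => (integrable_mul_pF hd hψ hF q).mul_const _)).1

theorem tup_eval_logP (hd : 0 < d) (hψ : IsDens ψ)
    (hF : Measurable (fun p : Mat d B × (Fin B → ℝ) => F p.1 p.2)) (hδ : 0 < δ) :
    ∫ p, Real.log (margP ψ (pF F) (lab F p)) ∂(tupP n ψ F δ) = - Hlab ψ (pF F) := by
  rw [(tup_label (n := n) hd hψ hF hδ 0 (fun q _ => Real.log (margP ψ (pF F) q))
    (fun q => measurable_const)
    (fun q => (integrable_mul_pF hd hψ hF q).mul_const _)).2]
  unfold Hlab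
  rw [neg_neg]
  refine Finset.sum_congr rfl fun q _ => ?_
  rw [integral_mul_const]
  rfl

private theorem post_pos_imp {q : Q} (hψ : IsDens ψ) {s : Sph d} (h : 0 < post ψ (pF F) q s) :
    0 < ψ s := by
  rcases (hψ.nonneg s).eq_or_lt with h0 | h0
  · unfold post at h
    rw [← h0] at h
    simp at h
  · exact h0

private theorem post_isDens' (hψ : IsDens ψ)
    (hF : Measurable (fun p : Mat d B × (Fin B → ℝ) => F p.1 p.2)) (q : Q)
    (hq : 0 < margP ψ (pF F) q) : IsDens (post ψ (pF F) q) :=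
  post_isDens hψ (pF F) q (pF_measurable hF q) (fun s => pF_nonneg q s) (fun s => pF_le_one q s) hq

private theorem post_le_mul (hψ : IsDens ψ) (q : Q) (hq : 0 < margP ψ (pF F) q) (s : Sph d) :
    post ψ (pF F) q s ≤ (margP ψ (pF F) q)⁻¹ * ψ s := by
  unfold post
  rw [div_eq_inv_mul]
  refine mul_le_mul_of_nonneg_left ?_ (inv_nonneg.2 hq.le)
  calc ψ s * pF F q s ≤ ψ s * 1 := mul_le_mul_of_nonneg_left (pF_le_one q s) (hψ.nonneg s)
    _ = ψ s := mul_one _

/-- `post_q log A_q` is integrable on the product. -/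
theorem integrable_post_logAq (hd : 0 < d) (hψ : IsDens ψ)
    (hF : Measurable (fun p : Mat d B × (Fin B → ℝ) => F p.1 p.2)) (q : Q)
    (hq : 0 < margP ψ (pF F) q) :
    Integrable (fun x : Sph d × Mat d k =>
      post ψ (pF F) q x.1 * Real.log (Aq k ψ F q (x.2, mv x.2 (x.1 : E d))))
      ((sig d).prod (gam d k)) := by
  have hα := post_isDens' hψ hF q hq
  have h1 := integrable_mul_log_fib (k := k) hd hα hα 1 (fun s => by rw [one_mul])
  have h2 := integrable_mul_log_fib (k := k) hd hα hψ _ (post_le_mul hψ q hq)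
  refine (h1.sub h2).congr ?_
  filter_upwards [fib_ae_pos (k := k) hd hα, fib_ae_pos (k := k) hd hψ] with x hx1 hx2
  simp only [Pi.sub_apply]
  rcases (hα.nonneg x.1).eq_or_lt with h0 | h0
  · simp [← h0]
  · have hψpos : 0 < ψ x.1 := post_pos_imp hψ h0
    rw [Aq, Real.log_div (hx1 h0).ne' (hx2 hψpos).ne']
    ring

/-- For every `q` with `P(q) > 0`, the function `a_q` is integrable for the posterior: for a.e. `s`
under `post_q σ`, `X ↦ log A_q(X, Xs)` is integrable. -/
theorem ae_integrable_logAq (hd : 0 < d) (hψ : IsDens ψ)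
    (hF : Measurable (fun p : Mat d B × (Fin B → ℝ) => F p.1 p.2)) (q : Q)
    (hq : 0 < margP ψ (pF F) q) :
    ∀ᵐ s ∂(sig d), 0 < post ψ (pF F) q s →
      Integrable (fun X => Real.log (Aq k ψ F q (X, mv X (s : E d)))) (gam d k) ∧
      ∀ᵐ X ∂(gam d k), 0 < Aq k ψ F q (X, mv X (s : E d)) := by
  have := sig_isProb hd
  have hα := post_isDens' hψ hF q hq
  have h1 := (integrable_post_logAq (k := k) hd hψ hF q hq).prod_right_ae
  have h2 := Measure.ae_ae_of_ae_prod (fib_ae_pos (k := k) hd hα)
  have h3 := Measure.ae_ae_of_ae_prod (fib_ae_pos (k := k) hd hψ)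
  filter_upwards [h1, h2, h3] with s hs1 hs2 hs3 hpos
  constructor
  · refine (hs1.const_mul (post ψ (pF F) q s)⁻¹).congr (Filter.Eventually.of_forall fun X => ?_)
    simp only
    rw [← mul_assoc, inv_mul_cancel₀ hpos.ne', one_mul]
  · filter_upwards [hs2, hs3] with X h4 h5
    exact div_pos (h4 hpos) (h5 (post_pos_imp hψ hpos))

private theorem measurable_logAq (q : Q) :
    Measurable (fun x : Sph d × Mat d k => Real.log (Aq k ψ F q (x.2, mv x.2 (x.1 : E d)))) :=
  Real.measurable_log.comp (((measurable_fib _).comp (measurable_mv_pair (d := d) (r := k))).div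
    ((measurable_fib _).comp (measurable_mv_pair (d := d) (r := k))))

private theorem measurable_aq (q : Q) :
    Measurable (fun s : Sph d => ∫ X, Real.log (Aq k ψ F q (X, mv X (s : E d))) ∂(gam d k)) :=
  ((measurable_logAq (k := k) (F := F) (ψ := ψ) q).stronglyMeasurable.integral_prod_right').measurable

private theorem ae_zero_of_margP_zero (hd : 0 < d) (hψ : IsDens ψ)
    (hF : Measurable (fun p : Mat d B × (Fin B → ℝ) => F p.1 p.2)) (q : Q)
    (hq : margP ψ (pF F) q = 0) : (fun s => ψ s * pF F q s) =ᵐ[sig d] 0 :=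
  (integral_eq_zero_iff_of_nonneg (fun s => mul_nonneg (hψ.nonneg s) (pF_nonneg q s))
    (integrable_mul_pF hd hψ hF q)).1 hq

private theorem integrable_Aq_term (hd : 0 < d) (hψ : IsDens ψ)
    (hF : Measurable (fun p : Mat d B × (Fin B → ℝ) => F p.1 p.2)) (q : Q) :
    Integrable (fun s => ψ s * pF F q s *
      ∫ X, Real.log (Aq k ψ F q (X, mv X (s : E d))) ∂(gam d k)) (sig d) := by
  have := sig_isProb hd
  by_cases hq : margP ψ (pF F) q = 0
  · refine (integrable_zero _ _ _).congr ?_
    filter_upwards [ae_zero_of_margP_zero hd hψ hF q hq] with s hs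
    simp only [Pi.zero_apply] at hs ⊢
    rw [hs, zero_mul]
  · have hP : 0 < margP ψ (pF F) q := lt_of_le_of_ne (margP_nonneg hd hψ q) (Ne.symm hq)
    have h1 := (integrable_post_logAq (k := k) hd hψ hF q hP).integral_prod_left
    refine (h1.const_mul (margP ψ (pF F) q)).congr (Filter.Eventually.of_forall fun s => ?_)
    simp only
    rw [integral_const_mul, ← mul_assoc]
    congr 1
    unfold post
    field_simp

private theorem Aq_term_eq (hd : 0 < d) (hψ : IsDens ψ)
    (hF : Measurable (fun p : Mat d B × (Fin B → ℝ) => F p.1 p.2)) (q : Q) :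
    ∫ s, ψ s * pF F q s * ∫ X, Real.log (Aq k ψ F q (X, mv X (s : E d))) ∂(gam d k) ∂(sig d) =
      margP ψ (pF F) q * ∫ x : Sph d × Mat d k, post ψ (pF F) q x.1 *
        Real.log (fib k (post ψ (pF F) q) (x.2, mv x.2 (x.1 : E d)) / fib k ψ (x.2, mv x.2 (x.1 : E d)))
          ∂((sig d).prod (gam d k)) := by
  have := sig_isProb hd
  by_cases hq : margP ψ (pF F) q = 0
  · have h1 : (fun s => ψ s * pF F q s *
        ∫ X, Real.log (Aq k ψ F q (X, mv X (s : E d))) ∂(gam d k)) =ᵐ[sig d] 0 := by
      filter_upwards [ae_zero_of_margP_zero hd hψ hF q hq] with s hs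
      simp only [Pi.zero_apply] at hs ⊢
      rw [hs, zero_mul]
    rw [integral_congr_ae h1, hq]
    simp
  · have hP : 0 < margP ψ (pF F) q := lt_of_le_of_ne (margP_nonneg hd hψ q) (Ne.symm hq)
    have h1 := integrable_post_logAq (k := k) hd hψ hF q hP
    have h2 : ∫ x : Sph d × Mat d k, post ψ (pF F) q x.1 *
        Real.log (fib k (post ψ (pF F) q) (x.2, mv x.2 (x.1 : E d)) / fib k ψ (x.2, mv x.2 (x.1 : E d)))
          ∂((sig d).prod (gam d k)) =
        ∫ x : Sph d × Mat d k, post ψ (pF F) q x.1 *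
          Real.log (Aq k ψ F q (x.2, mv x.2 (x.1 : E d))) ∂((sig d).prod (gam d k)) := rfl
    rw [h2, integral_prod _ h1, ← integral_const_mul]
    refine integral_congr_ae (Filter.Eventually.of_forall fun s => ?_)
    simp only
    rw [integral_const_mul, ← mul_assoc]
    congr 1
    unfold post
    field_simp

/-- `(p ↦ ∫ log A_{lab p}(X, X s_i) dX)` is integrable under the tuple law. -/
theorem tup_integrable_Aq (hd : 0 < d) (hψ : IsDens ψ)
    (hF : Measurable (fun p : Mat d B × (Fin B → ℝ) => F p.1 p.2)) (hδ : 0 < δ) (i : Fin (n + 1)) :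
    Integrable (fun p => ∫ X, Real.log (Aq k ψ F (lab F p) (X, mv X (p.1 i : E d))) ∂(gam d k))
      (tupP n ψ F δ) :=
  (tup_label hd hψ hF hδ i (fun q s => ∫ X, Real.log (Aq k ψ F q (X, mv X (s : E d))) ∂(gam d k))
    (fun q => measurable_aq q) (fun q => integrable_Aq_term hd hψ hF q)).1

theorem tup_eval_Aq (hd : 0 < d) (hψ : IsDens ψ)
    (hF : Measurable (fun p : Mat d B × (Fin B → ℝ) => F p.1 p.2)) (hδ : 0 < δ) (i : Fin (n + 1)) :
    ∫ p, ∫ X, Real.log (Aq k ψ F (lab F p) (X, mv X (p.1 i : E d))) ∂(gam d k) ∂(tupP n ψ F δ) =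
      Jq k ψ (pF F) := by
  rw [(tup_label hd hψ hF hδ i (fun q s => ∫ X, Real.log (Aq k ψ F q (X, mv X (s : E d))) ∂(gam d k))
    (fun q => measurable_aq q) (fun q => integrable_Aq_term hd hψ hF q)).2]
  unfold Jq
  exact Finset.sum_congr rfl fun q _ => Aq_term_eq hd hψ hF q

/-- An entropy is at most the log of the number of cells (`∑ m_c log(1/m_c) ≤ log N`, Gibbs). -/
theorem entropy_le_of_finite {Y Z : Type*} [MeasurableSpace Y] [MeasurableSpace Z]
    [MeasurableSingletonClass Z] [Countable Z] (hd : 0 < d) (hψ : IsDens ψ) (ζ : Y → Sph d → Z) (y : Y)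
    (hζ : Measurable (ζ y)) (T : Finset Z) (hT : ∀ s, ζ y s ∈ T) (hT0 : T.Nonempty) :
    Integrable (fun s => ψ s * (- Real.log (slm (sig d) ψ ζ y (ζ y s)))) (sig d) ∧
    ∫ s, ψ s * (- Real.log (slm (sig d) ψ ζ y (ζ y s))) ∂(sig d) ≤ Real.log T.card := by
  classical
  have := sig_isProb hd
  obtain ⟨L, hL⟩ := hψ.bdd
  set G : Z → Sph d → ℝ := fun z s => if ζ y s = z then ψ s else 0 with hG
  have hGm : ∀ z, Measurable (G z) := fun z =>
    Measurable.ite (hζ (measurableSet_singleton z)) hψ.meas measurable_const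
  have hG0 : ∀ z s, 0 ≤ G z s := by
    intro z s
    simp only [hG]
    split_ifs
    · exact hψ.nonneg s
    · exact le_rfl
  have hGi : ∀ z, Integrable (G z) (sig d) := by
    intro z
    refine Integrable.of_bound (hGm z).aestronglyMeasurable L (Filter.Eventually.of_forall ?_)
    intro s
    rw [Real.norm_of_nonneg (hG0 z s)]
    simp only [hG]
    split_ifs
    · exact hL s
    · exact (hψ.nonneg s).trans (hL s)
  have hm : ∀ z, slm (sig d) ψ ζ y z = ∫ s, G z s ∂(sig d) := fun z => rfl
  have hsumG : ∀ s, ∑ z ∈ T, G z s = ψ s := by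
    intro s
    rw [Finset.sum_eq_single (ζ y s)]
    · simp [hG]
    · intro z _ hz
      simp only [hG]
      rw [if_neg (Ne.symm hz)]
    · intro h
      exact absurd (hT s) h
  have hsum1 : ∑ z ∈ T, slm (sig d) ψ ζ y z = 1 := by
    simp only [hm]
    rw [← integral_finset_sum _ fun z _ => hGi z]
    simp only [hsumG]
    exact hψ.int_one
  have hm0 : ∀ z, 0 ≤ slm (sig d) ψ ζ y z := fun z => integral_nonneg (hG0 z)
  have hpt : ∀ s, ψ s * (- Real.log (slm (sig d) ψ ζ y (ζ y s))) =
      ∑ z ∈ T, G z s * (- Real.log (slm (sig d) ψ ζ y z)) := by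
    intro s
    rw [Finset.sum_eq_single (ζ y s)]
    · simp [hG]
    · intro z _ hz
      simp only [hG]
      rw [if_neg (Ne.symm hz), zero_mul]
    · intro h
      exact absurd (hT s) h
  have hfun : (fun s => ψ s * (- Real.log (slm (sig d) ψ ζ y (ζ y s)))) =
      fun s => ∑ z ∈ T, G z s * (- Real.log (slm (sig d) ψ ζ y z)) := funext hpt
  have hint : ∀ z ∈ T, Integrable (fun s => G z s * (- Real.log (slm (sig d) ψ ζ y z))) (sig d) :=
    fun z _ => (hGi z).mul_const _
  rw [hfun]
  refine ⟨integrable_finset_sum _ hint, ?_⟩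
  rw [integral_finset_sum _ hint]
  have h1 : ∀ z ∈ T, ∫ s, G z s * (- Real.log (slm (sig d) ψ ζ y z)) ∂(sig d) =
      Real.negMulLog (slm (sig d) ψ ζ y z) := by
    intro z _
    rw [integral_mul_const, ← hm, Real.negMulLog]
    ring
  rw [Finset.sum_congr rfl h1]
  exact sum_negMulLog_le T hT0 _ (fun z _ => hm0 z) hsum1

/-- The cubes met by `X s` when `s` runs over the sphere: `|⟪X r, s⟫| ≤ ‖X r‖`. -/
theorem cube_count (hδ : 0 < δ) (X : Mat d B) :
    ∃ T : Finset (Fin B → ℤ), (∀ s : Sph d, zetaC δ X s ∈ T) ∧ T.Nonempty ∧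
      (T.card : ℝ) ≤ ∏ r, (2 * ‖X r‖ / δ + 2) := by
  have hn : ∀ r, 0 ≤ ‖X r‖ / δ := fun r => by positivity
  refine ⟨Fintype.piFinset fun r => Finset.Icc ⌊-‖X r‖ / δ⌋ ⌊‖X r‖ / δ⌋, ?_, ?_, ?_⟩
  · intro s
    rw [Fintype.mem_piFinset]
    intro r
    have hs : ‖(s : E d)‖ = 1 := by simpa using s.2
    have h1 : |inner ℝ (X r) (s : E d)| ≤ ‖X r‖ := by
      have := abs_real_inner_le_norm (X r) (s : E d)
      rwa [hs, mul_one] at this
    have h2 := abs_le.1 h1
    rw [Finset.mem_Icc]
    constructor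
    · apply Int.floor_le_floor
      exact (div_le_div_iff_of_pos_right hδ).2 h2.1
    · apply Int.floor_le_floor
      exact (div_le_div_iff_of_pos_right hδ).2 h2.2
  · refine Fintype.piFinset_nonempty.2 fun r => ?_
    rw [Finset.nonempty_Icc]
    apply Int.floor_le_floor
    have h1 : 0 ≤ ‖X r‖ / δ := hn r
    have h2 : -‖X r‖ / δ = -(‖X r‖ / δ) := by ring
    rw [h2]
    linarith
  · rw [Fintype.card_piFinset]
    push_cast
    refine Finset.prod_le_prod (fun r _ => by positivity) fun r _ => ?_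
    rw [Int.card_Icc]
    have h1 : -‖X r‖ / δ = -(‖X r‖ / δ) := by ring
    have h2 := Int.floor_le (‖X r‖ / δ)
    have h3 := Int.lt_floor_add_one (-‖X r‖ / δ)
    have hle : ⌊-‖X r‖ / δ⌋ ≤ ⌊‖X r‖ / δ⌋ + 1 := by
      have : ⌊-‖X r‖ / δ⌋ ≤ ⌊‖X r‖ / δ⌋ := by
        apply Int.floor_le_floor
        rw [h1]
        linarith [hn r]
      omega
    have h4 : ((⌊‖X r‖ / δ⌋ + 1 - ⌊-‖X r‖ / δ⌋).toNat : ℝ) =
        (⌊‖X r‖ / δ⌋ : ℝ) + 1 - (⌊-‖X r‖ / δ⌋ : ℝ) := by
      have h5 : 0 ≤ ⌊‖X r‖ / δ⌋ + 1 - ⌊-‖X r‖ / δ⌋ := by omega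
      have h6 := Int.toNat_of_nonneg h5
      have h7 : (((⌊‖X r‖ / δ⌋ + 1 - ⌊-‖X r‖ / δ⌋).toNat : ℤ) : ℝ) =
          ((⌊‖X r‖ / δ⌋ + 1 - ⌊-‖X r‖ / δ⌋ : ℤ) : ℝ) := by rw [h6]
      push_cast at h7
      simpa using h7
    rw [h4, h1] at *
    have h8 : 2 * ‖X r‖ / δ = 2 * (‖X r‖ / δ) := by ring
    rw [h8]
    linarith

private theorem integrable_norm_row (r : Fin B) : Integrable (fun X : Mat d B => ‖X r‖) (gam d B) := by
  have h1 : Integrable (fun x : E d => ‖x‖) (stdGaussian (E d)) :=
    (IsGaussian.integrable_id (μ := stdGaussian (E d))).norm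
  exact (measurePreserving_eval (fun _ : Fin B => stdGaussian (E d)) r).integrable_comp_of_integrable h1

private theorem slm_le_one (hd : 0 < d) (hψ : IsDens ψ) {Y Z : Type*} (ζ : Y → Sph d → Z) (y : Y)
    (z : Z) (hm : Measurable fun s => by classical exact if ζ y s = z then ψ s else 0) :
    slm (sig d) ψ ζ y z ≤ 1 := by
  classical
  have := sig_isProb hd
  obtain ⟨L, hL⟩ := hψ.bdd
  rw [← hψ.int_one]
  unfold slm
  refine integral_mono_of_nonneg (Filter.Eventually.of_forall fun s => ?_) hψ.integrable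
    (Filter.Eventually.of_forall fun s => ?_)
  · dsimp only
    split_ifs
    · exact hψ.nonneg s
    · exact le_rfl
  · dsimp only
    split_ifs
    · exact le_rfl
    · exact hψ.nonneg s

/-- `-log m` is integrable for the tuple law: the entropy of a cube partition of a bounded region
is at most the log of the number of cubes. -/
theorem tup_integrable_logm (hd : 0 < d) (hψ : IsDens ψ)
    (hF : Measurable (fun p : Mat d B × (Fin B → ℝ) => F p.1 p.2)) (hδ : 0 < δ) :
    Integrable (fun x : Sph d × Mat d B =>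
      ψ x.1 * Real.log (slm (sig d) ψ (zetaF F δ) x.2 (zetaF F δ x.2 x.1))) ((sig d).prod (gam d B)) := by
  classical
  have := sig_isProb hd
  have hT := block_tupData hd hψ hF hδ
  set f : Sph d × Mat d B → ℝ :=
    fun x => ψ x.1 * Real.log (slm (sig d) ψ (zetaF F δ) x.2 (zetaF F δ x.2 x.1)) with hf
  have hm : Measurable f := by
    have h1 := hT.measurable_slm_cell
    have h2 : Measurable (fun x : Sph d × Mat d B => (x.2, x.1)) :=
      measurable_snd.prodMk measurable_fst
    have h3 := Measurable.comp (g := fun p : Mat d B × Sph d =>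
      slm (sig d) ψ (zetaF F δ) p.1 (zetaF F δ p.1 p.2))
      (f := fun x : Sph d × Mat d B => (x.2, x.1)) h1 h2
    exact (hψ.meas.comp measurable_fst).mul (Real.measurable_log.comp h3)
  have hζ : ∀ X, Measurable (zetaF F δ X) := fun X => hT.meas_ζ_y X
  have hle1 : ∀ X z, slm (sig d) ψ (zetaF F δ) X z ≤ 1 := by
    intro X z
    refine slm_le_one hd hψ _ X z ?_
    exact Measurable.ite ((hζ X) (measurableSet_singleton z)) hψ.meas measurable_const
  have hnn : ∀ X z, 0 ≤ slm (sig d) ψ (zetaF F δ) X z := fun X z => hT.slm_nonneg X z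
  -- the finite family of cells
  have hfin : ∀ X : Mat d B, ∃ T : Finset ((Fin B → ℤ) × Q), (∀ s, zetaF F δ X s ∈ T) ∧ T.Nonempty ∧
      Real.log T.card ≤ Real.log (Fintype.card Q) + ∑ r, (2 * ‖X r‖ / δ + 2) := by
    intro X
    obtain ⟨T, h1, h2, h3⟩ := cube_count (d := d) hδ X
    refine ⟨T ×ˢ Finset.univ, fun s => ?_, h2.product Finset.univ_nonempty, ?_⟩
    · rw [Finset.mem_product]
      exact ⟨h1 s, Finset.mem_univ _⟩
    · have hQ : (0 : ℝ) < Fintype.card Q := by exact_mod_cast Fintype.card_pos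
      have hpos : ∀ r, 0 < 2 * ‖X r‖ / δ + 2 := fun r => by positivity
      have hc0 : (0 : ℝ) < T.card := by exact_mod_cast h2.card_pos
      rw [Finset.card_product, Finset.card_univ]
      push_cast
      rw [Real.log_mul hc0.ne' hQ.ne', add_comm]
      refine add_le_add le_rfl ?_
      refine (Real.log_le_log hc0 h3).trans ?_
      rw [Real.log_prod (fun r _ => (hpos r).ne')]
      exact Finset.sum_le_sum fun r _ => Real.log_le_self (hpos r).le
  rw [integrable_prod_iff' hm.aestronglyMeasurable]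
  constructor
  · refine Filter.Eventually.of_forall fun X => ?_
    obtain ⟨T, h1, h2, -⟩ := hfin X
    refine (entropy_le_of_finite hd hψ (zetaF F δ) X (hζ X) T h1 h2).1.neg.congr
      (Filter.Eventually.of_forall fun s => ?_)
    simp [hf]
  · have hU : Integrable (fun X : Mat d B => Real.log (Fintype.card Q) + ∑ r, (2 * ‖X r‖ / δ + 2))
        (gam d B) := by
      refine (integrable_const _).add (integrable_finset_sum _ fun r _ => ?_)
      refine Integrable.add ?_ (integrable_const _)
      have h1 := (integrable_norm_row (d := d) (B := B) r).const_mul (2 / δ)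
      refine h1.congr (Filter.Eventually.of_forall fun X => ?_)
      simp only
      ring
    refine hU.mono' ((hm.norm.stronglyMeasurable.integral_prod_left').aestronglyMeasurable) ?_
    refine Filter.Eventually.of_forall fun X => ?_
    obtain ⟨T, h1, h2, h3⟩ := hfin X
    have hent := entropy_le_of_finite hd hψ (zetaF F δ) X (hζ X) T h1 h2
    have hnorm : ∀ s, ‖f (s, X)‖ =
        ψ s * (- Real.log (slm (sig d) ψ (zetaF F δ) X (zetaF F δ X s))) := by
      intro s
      simp only [hf]
      rw [norm_mul, Real.norm_of_nonneg (hψ.nonneg s), Real.norm_eq_abs,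
        abs_of_nonpos (Real.log_nonpos (hnn _ _) (hle1 _ _))]
    simp only [hnorm]
    rw [Real.norm_of_nonneg (integral_nonneg fun s => by
      exact mul_nonneg (hψ.nonneg s) (neg_nonneg.2 (Real.log_nonpos (hnn _ _) (hle1 _ _))))]
    exact hent.2.trans h3

private theorem measurable_logm0 (hd : 0 < d) (hψ : IsDens ψ)
    (hF : Measurable (fun p : Mat d B × (Fin B → ℝ) => F p.1 p.2)) (hδ : 0 < δ) :
    Measurable (fun x : Sph d × Mat d B =>
      Real.log (slm (sig d) ψ (zetaF F δ) x.2 (zetaF F δ x.2 x.1))) := by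
  have h1 := (block_tupData hd hψ hF hδ).measurable_slm_cell
  have h2 : Measurable (fun x : Sph d × Mat d B => (x.2, x.1)) := measurable_snd.prodMk measurable_fst
  have h3 := Measurable.comp (g := fun p : Mat d B × Sph d =>
    slm (sig d) ψ (zetaF F δ) p.1 (zetaF F δ p.1 p.2)) (f := fun x : Sph d × Mat d B => (x.2, x.1)) h1 h2
  exact Real.measurable_log.comp h3

private theorem tup_integrable_logm0 (hd : 0 < d) (hψ : IsDens ψ)
    (hF : Measurable (fun p : Mat d B × (Fin B → ℝ) => F p.1 p.2)) (hδ : 0 < δ) :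
    Integrable (fun p => Real.log (slm (sig d) ψ (zetaF F δ) p.2 (zetaF F δ p.2 (p.1 0))))
      (tupP n ψ F δ) :=
  tupP_integrable_coord hd hψ hF hδ 0
    (fun x : Sph d × Mat d B => Real.log (slm (sig d) ψ (zetaF F δ) x.2 (zetaF F δ x.2 x.1)))
    (measurable_logm0 hd hψ hF hδ) (tup_integrable_logm hd hψ hF hδ)

private theorem tup_logT_ae (hd : 0 < d) (hψ : IsDens ψ)
    (hF : Measurable (fun p : Mat d B × (Fin B → ℝ) => F p.1 p.2)) (hδ : 0 < δ) :
    ∀ᵐ p ∂(tupP n ψ F δ), Real.log (tupDens (sig d) ψ (zetaF F δ) n p) =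
      ∑ j : Fin (n + 1), Real.log (ψ (p.1 j)) -
        n * Real.log (slm (sig d) ψ (zetaF F δ) p.2 (zetaF F δ p.2 (p.1 0))) := by
  classical
  filter_upwards [tup_ae (n := n) (block_tupData hd hψ hF hδ)] with p hp
  obtain ⟨ha, hb, hc⟩ := hp
  unfold tupDens
  rw [if_pos ha, Real.log_mul (Finset.prod_ne_zero_iff.2 fun j _ => (hb j).ne')
    (inv_ne_zero (pow_ne_zero _ hc.ne')), Real.log_prod (fun j _ => (hb j).ne'), Real.log_inv,
    Real.log_pow]
  ring

theorem tup_integrable_logT (hd : 0 < d) (hψ : IsDens ψ)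
    (hF : Measurable (fun p : Mat d B × (Fin B → ℝ) => F p.1 p.2)) (hδ : 0 < δ) :
    Integrable (fun p => Real.log (tupDens (sig d) ψ (zetaF F δ) n p)) (tupP n ψ F δ) := by
  have hi1 : Integrable (fun p => ∑ j : Fin (n + 1), Real.log (ψ (p.1 j))) (tupP n ψ F δ) :=
    integrable_finset_sum _ fun j _ => tup_integrable_logψ hd hψ hF hδ j
  refine (hi1.sub ((tup_integrable_logm0 (n := n) hd hψ hF hδ).const_mul (n : ℝ))).congr ?_
  filter_upwards [tup_logT_ae (n := n) hd hψ hF hδ] with p hp
  simp only [Pi.sub_apply]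
  exact hp.symm

theorem tup_eval_logT (hd : 0 < d) (hψ : IsDens ψ)
    (hF : Measurable (fun p : Mat d B × (Fin B → ℝ) => F p.1 p.2)) (hδ : 0 < δ) :
    ∫ p, Real.log (tupDens (sig d) ψ (zetaF F δ) n p) ∂(tupP n ψ F δ) =
      (n + 1) * D0 ψ + n * Hz ψ F δ := by
  have hi1 : ∀ j ∈ (Finset.univ : Finset (Fin (n + 1))),
      Integrable (fun p => Real.log (ψ (p.1 j))) (tupP n ψ F δ) :=
    fun j _ => tup_integrable_logψ hd hψ hF hδ j
  have hi2 := (tup_integrable_logm0 (n := n) hd hψ hF hδ).const_mul (n : ℝ)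
  rw [integral_congr_ae (tup_logT_ae (n := n) hd hψ hF hδ),
    integral_sub (integrable_finset_sum _ hi1) hi2, integral_finset_sum _ hi1, integral_const_mul]
  simp only [tup_eval_logψ hd hψ hF hδ]
  have h1 : ∫ p, Real.log (slm (sig d) ψ (zetaF F δ) p.2 (zetaF F δ p.2 (p.1 0))) ∂(tupP n ψ F δ) =
      - Hz ψ F δ := by
    have h2 := tupP_integral_coord (n := n) hd hψ hF hδ 0
      (fun x : Sph d × Mat d B => Real.log (slm (sig d) ψ (zetaF F δ) x.2 (zetaF F δ x.2 x.1)))
      (measurable_logm0 hd hψ hF hδ)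
    simp only at h2
    rw [h2]
    unfold Hz
    rw [← integral_neg]
    refine integral_congr_ae (Filter.Eventually.of_forall fun x => ?_)
    simp only
    ring
  rw [h1]
  simp

/-- `I(q;s) = H(q) - H(q|s)`. -/
private theorem integrable_negMulLog_term (hd : 0 < d) (hψ : IsDens ψ)
    (hF : Measurable (fun p : Mat d B × (Fin B → ℝ) => F p.1 p.2)) (q : Q) :
    Integrable (fun s => ψ s * Real.negMulLog (pF F q s)) (sig d) := by
  refine (integrable_ratio_aux hd hψ hF q 0).congr (Filter.Eventually.of_forall fun s => ?_)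
  simp

private theorem Hlab_term (hd : 0 < d) (hψ : IsDens ψ)
    (hF : Measurable (fun p : Mat d B × (Fin B → ℝ) => F p.1 p.2)) (q : Q) :
    margP ψ (pF F) q * ∫ s, post ψ (pF F) q s * Real.log (post ψ (pF F) q s / ψ s) ∂(sig d) +
      ∫ s, ψ s * Real.negMulLog (pF F q s) ∂(sig d) =
      - (margP ψ (pF F) q * Real.log (margP ψ (pF F) q)) := by
  have := sig_isProb hd
  by_cases hq : margP ψ (pF F) q = 0
  · have h1 : (fun s => ψ s * Real.negMulLog (pF F q s)) =ᵐ[sig d] 0 := by
      filter_upwards [ae_zero_of_margP_zero hd hψ hF q hq] with s hs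
      simp only [Pi.zero_apply] at hs ⊢
      unfold Real.negMulLog
      have : ψ s * (-pF F q s * Real.log (pF F q s)) =
          -(ψ s * pF F q s) * Real.log (pF F q s) := by ring
      rw [this, hs]
      simp
    rw [integral_congr_ae h1, hq]
    simp
  · have hP : 0 < margP ψ (pF F) q := lt_of_le_of_ne (margP_nonneg hd hψ q) (Ne.symm hq)
    have hi := integrable_negMulLog_term hd hψ hF q
    rw [← integral_const_mul, ← integral_add' ?_ hi]
    · have h2 : ∀ s, margP ψ (pF F) q * (post ψ (pF F) q s * Real.log (post ψ (pF F) q s / ψ s)) +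
          ψ s * Real.negMulLog (pF F q s) =
          - (ψ s * pF F q s * Real.log (margP ψ (pF F) q)) := by
        intro s
        have h3 : margP ψ (pF F) q * post ψ (pF F) q s = ψ s * pF F q s := by
          unfold post
          field_simp
        rw [← mul_assoc, h3, Real.negMulLog]
        rcases (hψ.nonneg s).eq_or_lt with h0 | h0
        · rw [← h0]
          simp
        rcases (pF_nonneg q s).eq_or_lt with h1 | h1
        · rw [← h1]
          simp
        have h4 : post ψ (pF F) q s / ψ s = pF F q s / margP ψ (pF F) q := by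
          unfold post
          field_simp
        rw [h4, Real.log_div h1.ne' hq]
        ring
      simp only [Pi.add_apply]
      simp only [h2]
      rw [integral_neg, integral_mul_const]
      rfl
    · have hm : Measurable (fun s => margP ψ (pF F) q *
          (post ψ (pF F) q s * Real.log (post ψ (pF F) q s / ψ s))) := by
        refine measurable_const.mul ((post_measurable hψ hF q).mul (Real.measurable_log.comp
          ((post_measurable hψ hF q).div hψ.meas)))
      have h5 : Integrable (fun s => ψ s * (pF F q s * (-Real.log (margP ψ (pF F) q)) +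
          Real.negMulLog (pF F q s))) (sig d) := integrable_ratio_aux hd hψ hF q _
      refine (h5.sub (hi.const_mul 2)).congr (Filter.Eventually.of_forall fun s => ?_)
      simp only [Pi.sub_apply]
      have h3 : margP ψ (pF F) q * post ψ (pF F) q s = ψ s * pF F q s := by
        unfold post
        field_simp
      have h6 : margP ψ (pF F) q * (post ψ (pF F) q s * Real.log (post ψ (pF F) q s / ψ s)) =
          ψ s * pF F q s * Real.log (post ψ (pF F) q s / ψ s) := by
        rw [← mul_assoc, h3]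
      rw [h6, Real.negMulLog]
      rcases (hψ.nonneg s).eq_or_lt with h0 | h0
      · rw [← h0]
        simp
      rcases (pF_nonneg q s).eq_or_lt with h1 | h1
      · rw [← h1]
        simp
      have h4 : post ψ (pF F) q s / ψ s = pF F q s / margP ψ (pF F) q := by
        unfold post
        field_simp
      rw [h4, Real.log_div h1.ne' hq]
      ring

theorem Hlab_eq (hd : 0 < d) (hψ : IsDens ψ)
    (hF : Measurable (fun p : Mat d B × (Fin B → ℝ) => F p.1 p.2)) :
    Hlab ψ (pF F) = Iq ψ (pF F) + Hcond ψ (pF F) := by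
  unfold Hlab Iq Hcond
  have h1 : ∫ s, ψ s * ∑ q, Real.negMulLog (pF F q s) ∂(sig d) =
      ∑ q, ∫ s, ψ s * Real.negMulLog (pF F q s) ∂(sig d) := by
    rw [← integral_finset_sum _ fun q _ => integrable_negMulLog_term hd hψ hF q]
    simp only [Finset.mul_sum]
  rw [h1, ← Finset.sum_add_distrib, ← Finset.sum_neg_distrib]
  exact Finset.sum_congr rfl fun q _ => (Hlab_term hd hψ hF q).symm

theorem Hcond_nonneg (hd : 0 < d) (hψ : IsDens ψ) : 0 ≤ Hcond ψ (pF F) :=
  integral_nonneg fun s => mul_nonneg (hψ.nonneg s)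
    (Finset.sum_nonneg fun q _ => Real.negMulLog_nonneg (pF_nonneg q s) (pF_le_one q s))

theorem Hcond_le (hd : 0 < d) (hψ : IsDens ψ)
    (hF : Measurable (fun p : Mat d B × (Fin B → ℝ) => F p.1 p.2)) :
    Hcond ψ (pF F) ≤ Real.log (Fintype.card Q) := by
  have := sig_isProb hd
  unfold Hcond
  have hi : Integrable (fun s => ψ s * ∑ q, Real.negMulLog (pF F q s)) (sig d) := by
    have h1 := integrable_finset_sum (Finset.univ : Finset Q)
      fun q _ => integrable_negMulLog_term hd hψ hF q
    refine h1.congr (Filter.Eventually.of_forall fun s => ?_)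
    simp only [Finset.mul_sum]
  have h2 := integral_mono hi (hψ.integrable.mul_const (Real.log (Fintype.card Q))) (fun s => ?_)
  · rw [integral_mul_const, hψ.int_one, one_mul] at h2
    exact h2
  · refine mul_le_mul_of_nonneg_left ?_ (hψ.nonneg s)
    have h3 := sum_negMulLog_le (Finset.univ : Finset Q) Finset.univ_nonempty (fun q => pF F q s)
      (fun q _ => pF_nonneg q s) (pF_sum hF s)
    simpa [Finset.card_univ] using h3

end Crest.Agent.MS
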