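import Crest.Agent.Lib.MS.FibBasic

/-!
# S0499 module `FibPhi`: algebra of the potential.

All of these follow from `fib_lintegral/fib_integral` and the Gibbs inequality `x log(y/x) ≤ y - x`.

`Phi_nonneg`, `Phi_mixture`: with `ψ = ∑ w_j ψ_j`, `∑ w_j Φ(ψ_j) - Φ(ψ) = ∑ w_j ∫∫ ψ_j log(ψ_j h/(h_j ψ))`
(`h = fib ψ (X, Xs)`, `h_j = fib ψ_j (X, Xs)`, using `∫∫ ψ f(X,Xs) = ∑ w_j ∫∫ ψ_j f(X,Xs)`) and each term
is `≥ 0` by Gibbs: `∫∫ ψ_j log(h_j ψ/(ψ_j h)) ≤ ∫∫ h_j ψ/h - 1`, and `∫∫ h_j ψ / h = ∫∫ h_j 1{h>0} ≤ 1`.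
-/

set_option autoImplicit false

namespace Crest.Agent.MS

open MeasureTheory ProbabilityTheory
open Crest.StreamLearn (E Sphere sphereUniform)

variable {d k : ℕ}

/-- The constant density. -/
theorem isDens_one (hd : 0 < d) : IsDens (fun _ : Sph d => (1 : ℝ)) := by
  have := sig_isProb hd
  exact ⟨measurable_const, fun _ => zero_le_one, ⟨1, fun _ => le_rfl⟩, by simp⟩

/-- `fib 1 = 1`. -/
theorem fib_one_ae (hd : 0 < d) :
    ∀ᵐ p ∂((sig d).prod (gam d k)), fib k (fun _ : Sph d => (1 : ℝ)) (p.2, mv p.2 (p.1 : E d)) = 1 := by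
  have := sig_isProb hd
  refine ae_of_ae_pushJoint_one (d := d) (k := k)
    (P := fun y => fib k (fun _ : Sph d => (1 : ℝ)) y = 1) ?_
  filter_upwards [Measure.rnDeriv_self (pushJoint k (fun _ : Sph d => (1 : ℝ)))] with y hy
  unfold fib
  rw [hy]
  simp

theorem mul_abs_log_le {L x : ℝ} (hx0 : 0 ≤ x) (hxL : x ≤ L) : x * |Real.log x| ≤ 1 + L ^ 2 := by
  rcases hx0.eq_or_lt with rfl | hx0'
  · simp; positivity
  rcases le_total x 1 with hx1 | hx1
  · have := Real.abs_log_mul_self_lt x hx0' hx1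
    rw [abs_mul, abs_of_pos hx0'] at this
    nlinarith [sq_nonneg L]
  · rw [abs_of_nonneg (Real.log_nonneg hx1)]
    have h3 : Real.log x ≤ x := (Real.log_le_sub_one_of_pos hx0').trans (by linarith)
    have hL1 : 1 ≤ L := hx1.trans hxL
    have h4 : 0 ≤ Real.log x := Real.log_nonneg hx1
    nlinarith

theorem IsDens.const_nonneg [IsProbabilityMeasure (sig d)] {α φ : Sph d → ℝ} (hα : IsDens α)
    (hφ : IsDens φ) {c : ℝ} (hc : ∀ s, α s ≤ c * φ s) : 0 ≤ c := by
  by_contra hneg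
  push Not at hneg
  have h0 : ∀ s, α s = 0 := fun s =>
    le_antisymm ((hc s).trans (mul_nonpos_of_nonpos_of_nonneg hneg.le (hφ.nonneg s))) (hα.nonneg s)
  have := hα.int_one
  simp [h0] at this

/-- `α log φ` is integrable when `α ≤ c φ`. -/
theorem integrable_mul_log_dens (hd : 0 < d) {α φ : Sph d → ℝ} (hα : IsDens α) (hφ : IsDens φ)
    {c : ℝ} (hc : ∀ s, α s ≤ c * φ s) :
    Integrable (fun p : Sph d × Mat d k => α p.1 * Real.log (φ p.1)) ((sig d).prod (gam d k)) := by
  have := sig_isProb hd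
  have hc0 := hα.const_nonneg hφ hc
  obtain ⟨L, hL⟩ := hφ.bdd
  have hm : Measurable (fun p : Sph d × Mat d k => α p.1 * Real.log (φ p.1)) :=
    (hα.meas.comp measurable_fst).mul (Real.measurable_log.comp (hφ.meas.comp measurable_fst))
  refine Integrable.of_bound (C := c * (1 + L ^ 2)) hm.aestronglyMeasurable
    (Filter.Eventually.of_forall fun p => ?_)
  rw [Real.norm_eq_abs, abs_mul, abs_of_nonneg (hα.nonneg _)]
  have h1 := mul_abs_log_le (hφ.nonneg p.1) (hL p.1)
  calc α p.1 * |Real.log (φ p.1)| ≤ (c * φ p.1) * |Real.log (φ p.1)| :=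
        mul_le_mul_of_nonneg_right (hc _) (abs_nonneg _)
    _ = c * (φ p.1 * |Real.log (φ p.1)|) := by ring
    _ ≤ _ := mul_le_mul_of_nonneg_left h1 hc0

/-- Splitting the logarithm, a.e. -/
theorem mul_log_div_ae (hd : 0 < d) {α φ : Sph d → ℝ} (hα : IsDens α) (hφ : IsDens φ)
    {c : ℝ} (hc : ∀ s, α s ≤ c * φ s) :
    ∀ᵐ p ∂((sig d).prod (gam d k)),
      α p.1 * Real.log (φ p.1 / fib k φ (p.2, mv p.2 (p.1 : E d))) =
        α p.1 * Real.log (φ p.1) - α p.1 * Real.log (fib k φ (p.2, mv p.2 (p.1 : E d))) := by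
  have := sig_isProb hd
  filter_upwards [fib_ae_pos (k := k) hd hφ] with p hp
  rcases (hα.nonneg p.1).eq_or_lt with h | h
  · rw [← h]; simp
  · have h1 : 0 < φ p.1 := by
      by_contra hneg
      have h2 : φ p.1 = 0 := le_antisymm (not_lt.mp hneg) (hφ.nonneg _)
      have := hc p.1
      rw [h2, mul_zero] at this
      linarith
    have h3 := hp h1
    rw [Real.log_div h1.ne' h3.ne']
    ring

/-- `α log (φ / fib φ)` is integrable when `α ≤ c φ`. -/
theorem integrable_mul_log_div (hd : 0 < d) {α φ : Sph d → ℝ} (hα : IsDens α) (hφ : IsDens φ)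
    {c : ℝ} (hc : ∀ s, α s ≤ c * φ s) :
    Integrable (fun p : Sph d × Mat d k =>
      α p.1 * Real.log (φ p.1 / fib k φ (p.2, mv p.2 (p.1 : E d)))) ((sig d).prod (gam d k)) := by
  refine Integrable.congr ?_ (Filter.EventuallyEq.symm (mul_log_div_ae hd hα hφ hc))
  exact (integrable_mul_log_dens hd hα hφ hc).sub (integrable_mul_log_fib hd hα hφ c hc)

/-- The Gibbs inequality, pointwise. -/
theorem gibbs_pt {a b f e : ℝ} (ha : 0 ≤ a) (hb : 0 ≤ b) (hf : 0 ≤ f) (he : 0 ≤ e)
    (hpos : 0 < a → 0 < b ∧ 0 < f ∧ 0 < e) :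
    a - b * (f / e) ≤ a * Real.log (a / b) - a * Real.log (f / e) := by
  rcases ha.eq_or_lt with rfl | ha'
  · have : 0 ≤ b * (f / e) := by positivity
    simpa using this
  · obtain ⟨hb', hf', he'⟩ := hpos ha'
    have hr : 0 < (b / a) * (f / e) := by positivity
    have hlog := Real.log_le_sub_one_of_pos hr
    rw [Real.log_mul (by positivity) (by positivity), Real.log_div hb'.ne' ha'.ne'] at hlog
    rw [Real.log_div ha'.ne' hb'.ne']
    have h1 : a * ((b / a) * (f / e)) = b * (f / e) := by field_simp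
    have h2 := mul_le_mul_of_nonneg_left hlog ha'.le
    nlinarith

/-- Normalisation used in the Gibbs test: for `κ ≥ 0` measurable in `(X, y)`,
`∫∫ φ(s) κ(X, Xs) fib ψ / fib φ ≤ ∫∫ ψ(s) κ(X, Xs)`. -/
theorem test_normalisation' (hd : 0 < d) {ψ φ : Sph d → ℝ} (hψ : IsDens ψ) (hφ : IsDens φ)
    (κ : Mat d k × (Fin k → ℝ) → ENNReal) (hκ : Measurable κ) :
    ∫⁻ p : Sph d × Mat d k, ENNReal.ofReal (φ p.1) *
        (κ (p.2, mv p.2 (p.1 : E d)) *
          ENNReal.ofReal (fib k ψ (p.2, mv p.2 (p.1 : E d)) / fib k φ (p.2, mv p.2 (p.1 : E d))))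
        ∂((sig d).prod (gam d k)) ≤
      ∫⁻ p : Sph d × Mat d k, ENNReal.ofReal (ψ p.1) * κ (p.2, mv p.2 (p.1 : E d))
        ∂((sig d).prod (gam d k)) := by
  have hg : Measurable (fun y : Mat d k × (Fin k → ℝ) =>
      κ y * ENNReal.ofReal (fib k ψ y / fib k φ y)) :=
    hκ.mul ((measurable_fib ψ).div (measurable_fib φ)).ennreal_ofReal
  have h1 := fib_lintegral (k := k) hd hφ _ hg
  have h2 := fib_lintegral (k := k) hd hψ _ hκ
  rw [h1, h2]
  refine lintegral_mono fun p => ?_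
  simp only
  set y : Mat d k × (Fin k → ℝ) := (p.2, mv p.2 (p.1 : E d))
  have h3 : ENNReal.ofReal (fib k φ y) * ENNReal.ofReal (fib k ψ y / fib k φ y) ≤
      ENNReal.ofReal (fib k ψ y) := by
    rw [← ENNReal.ofReal_mul (fib_nonneg _ _)]
    apply ENNReal.ofReal_le_ofReal
    rcases (fib_nonneg φ y).eq_or_lt with h | h
    · rw [← h]; simpa using fib_nonneg ψ y
    · rw [mul_div_cancel₀ _ h.ne']
  calc ENNReal.ofReal (fib k φ y) * (κ y * ENNReal.ofReal (fib k ψ y / fib k φ y))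
      = (ENNReal.ofReal (fib k φ y) * ENNReal.ofReal (fib k ψ y / fib k φ y)) * κ y := by ring
    _ ≤ ENNReal.ofReal (fib k ψ y) * κ y := by gcongr

/-- The integral of a density over the product. -/
theorem integral_dens_fst (hd : 0 < d) {α : Sph d → ℝ} (hα : IsDens α) :
    ∫ p : Sph d × Mat d k, α p.1 ∂((sig d).prod (gam d k)) = 1 := by
  have := sig_isProb hd
  rw [integral_fun_fst]
  simp [hα.int_one]

/-- The cross-entropy inequality. -/
theorem cross_le (hd : 0 < d) {α φ : Sph d → ℝ} (hα : IsDens α) (hφ : IsDens φ)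
    {c : ℝ} (hc : ∀ s, α s ≤ c * φ s) :
    ∫ p : Sph d × Mat d k, α p.1 * Real.log (φ p.1 / fib k φ (p.2, mv p.2 (p.1 : E d)))
        ∂((sig d).prod (gam d k)) ≤
      ∫ p : Sph d × Mat d k, α p.1 * Real.log (α p.1 / fib k α (p.2, mv p.2 (p.1 : E d)))
        ∂((sig d).prod (gam d k)) := by
  have := sig_isProb hd
  have hc0 := hα.const_nonneg hφ hc
  have hi1 := integrable_mul_log_div (k := k) hd hα hφ hc
  have hi2 := integrable_mul_log_div (k := k) hd hα hα (c := 1) (fun s => by simp)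
  -- the test term
  have hκ : Measurable (fun _ : Mat d k × (Fin k → ℝ) => (1 : ENNReal)) := measurable_const
  have hnorm := test_normalisation' (k := k) hd hα hφ _ hκ
  simp only [one_mul, mul_one] at hnorm
  have hα1 : ∫⁻ p : Sph d × Mat d k, ENNReal.ofReal (α p.1) ∂((sig d).prod (gam d k)) = 1 := by
    rw [lintegral_prod_symm _ (measurable_ofReal_comp_fst hα.meas).aemeasurable]
    simp [hα.lintegral_one]
  rw [hα1] at hnorm
  have hmT : Measurable (fun p : Sph d × Mat d k =>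
      φ p.1 * (fib k α (p.2, mv p.2 (p.1 : E d)) / fib k φ (p.2, mv p.2 (p.1 : E d)))) :=
    (hφ.meas.comp measurable_fst).mul
      (((measurable_fib α).comp measurable_Tmv).div ((measurable_fib φ).comp measurable_Tmv))
  have hnn : ∀ p : Sph d × Mat d k,
      0 ≤ φ p.1 * (fib k α (p.2, mv p.2 (p.1 : E d)) / fib k φ (p.2, mv p.2 (p.1 : E d))) := fun p =>
    mul_nonneg (hφ.nonneg _) (div_nonneg (fib_nonneg _ _) (fib_nonneg _ _))
  have hle1 : ∫⁻ p : Sph d × Mat d k, ENNReal.ofReal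
      (φ p.1 * (fib k α (p.2, mv p.2 (p.1 : E d)) / fib k φ (p.2, mv p.2 (p.1 : E d))))
      ∂((sig d).prod (gam d k)) ≤ 1 := by
    refine le_trans (le_of_eq ?_) hnorm
    refine lintegral_congr fun p => ?_
    rw [ENNReal.ofReal_mul (hφ.nonneg _)]
  have hiT : Integrable (fun p : Sph d × Mat d k =>
      φ p.1 * (fib k α (p.2, mv p.2 (p.1 : E d)) / fib k φ (p.2, mv p.2 (p.1 : E d))))
      ((sig d).prod (gam d k)) := by
    refine ⟨hmT.aestronglyMeasurable, ?_⟩
    rw [hasFiniteIntegral_iff_ofReal (Filter.Eventually.of_forall hnn)]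
    exact lt_of_le_of_lt hle1 ENNReal.one_lt_top
  have hiα : Integrable (fun p : Sph d × Mat d k => α p.1) ((sig d).prod (gam d k)) :=
    hα.integrable.comp_fst _
  have hint : ∫ p : Sph d × Mat d k,
      φ p.1 * (fib k α (p.2, mv p.2 (p.1 : E d)) / fib k φ (p.2, mv p.2 (p.1 : E d)))
      ∂((sig d).prod (gam d k)) ≤ 1 := by
    rw [integral_eq_lintegral_of_nonneg_ae (Filter.Eventually.of_forall hnn)
      hmT.aestronglyMeasurable]
    exact ENNReal.toReal_le_of_le_ofReal zero_le_one (by simpa using hle1)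
  have hpt : ∀ᵐ p ∂((sig d).prod (gam d k)),
      α p.1 - φ p.1 * (fib k α (p.2, mv p.2 (p.1 : E d)) / fib k φ (p.2, mv p.2 (p.1 : E d))) ≤
        α p.1 * Real.log (α p.1 / fib k α (p.2, mv p.2 (p.1 : E d))) -
          α p.1 * Real.log (φ p.1 / fib k φ (p.2, mv p.2 (p.1 : E d))) := by
    filter_upwards [fib_ae_pos (k := k) hd hα, fib_ae_pos (k := k) hd hφ] with p hp1 hp2
    have h := gibbs_pt (a := α p.1) (b := fib k α (p.2, mv p.2 (p.1 : E d))) (f := φ p.1)
      (e := fib k φ (p.2, mv p.2 (p.1 : E d))) (hα.nonneg _) (fib_nonneg _ _) (hφ.nonneg _)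
      (fib_nonneg _ _) ?_
    · refine le_trans (le_of_eq ?_) h
      ring
    · intro ha
      have hb := hp1 ha
      have hf : 0 < φ p.1 := by
        by_contra hneg
        have h2 : φ p.1 = 0 := le_antisymm (not_lt.mp hneg) (hφ.nonneg _)
        have := hc p.1
        rw [h2, mul_zero] at this
        linarith
      exact ⟨hb, hf, hp2 hf⟩
  have hmono : ∫ p : Sph d × Mat d k, (α p.1 -
        φ p.1 * (fib k α (p.2, mv p.2 (p.1 : E d)) / fib k φ (p.2, mv p.2 (p.1 : E d))))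
        ∂((sig d).prod (gam d k)) ≤
      ∫ p : Sph d × Mat d k, (α p.1 * Real.log (α p.1 / fib k α (p.2, mv p.2 (p.1 : E d))) -
        α p.1 * Real.log (φ p.1 / fib k φ (p.2, mv p.2 (p.1 : E d))))
        ∂((sig d).prod (gam d k)) :=
    integral_mono_ae (hiα.sub hiT) (hi2.sub hi1) hpt
  rw [integral_sub hiα hiT, integral_sub hi2 hi1, integral_dens_fst hd hα] at hmono
  linarith

/-- `Φ(1) = 0`. -/
theorem Phi_one (hd : 0 < d) : Phi k (fun _ : Sph d => (1 : ℝ)) = 0 := by
  unfold Phi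
  have : (fun p : Sph d × Mat d k => (1 : ℝ) * Real.log (1 / fib k (fun _ : Sph d => (1 : ℝ))
      (p.2, mv p.2 (p.1 : E d)))) =ᵐ[(sig d).prod (gam d k)] fun _ => 0 := by
    filter_upwards [fib_one_ae (k := k) hd] with p hp
    rw [hp]
    simp
  rw [integral_congr_ae this]
  simp

/-- `Φ ≥ 0`. -/
theorem Phi_nonneg (hd : 0 < d) {ψ : Sph d → ℝ} (hψ : IsDens ψ) : 0 ≤ Phi k ψ := by
  have := sig_isProb hd
  obtain ⟨L, hL⟩ := hψ.bdd
  have h := cross_le (k := k) hd hψ (isDens_one hd) (c := L) (fun s => by simpa using hL s)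
  have h0 : (fun p : Sph d × Mat d k => ψ p.1 * Real.log (1 / fib k (fun _ : Sph d => (1 : ℝ))
      (p.2, mv p.2 (p.1 : E d)))) =ᵐ[(sig d).prod (gam d k)] fun _ => 0 := by
    filter_upwards [fib_one_ae (k := k) hd] with p hp
    rw [hp]
    simp
  rw [integral_congr_ae h0] at h
  simpa [Phi] using h

/-- `Φ` only depends on the a.e. class of the density. -/
theorem Phi_congr_ae (hd : 0 < d) {ψ ψ' : Sph d → ℝ} (h : ψ =ᵐ[sig d] ψ') :
    Phi k ψ = Phi k ψ' := by
  unfold Phi
  rw [fib_congr_ae hd h]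
  refine integral_congr_ae ?_
  have h2 : ∀ᵐ p ∂((sig d).prod (gam d k)), ψ p.1 = ψ' p.1 :=
    Measure.quasiMeasurePreserving_fst.ae h
  filter_upwards [h2] with p hp
  rw [hp]

/-- `Φ` is convex under finite mixtures. -/
theorem Phi_mixture (hd : 0 < d) {J : Type*} [Fintype J] (w : J → ℝ) (ψ : J → Sph d → ℝ)
    (hw : ∀ j, 0 ≤ w j) (hw1 : ∑ j, w j = 1) (hψ : ∀ j, 0 < w j → IsDens (ψ j)) :
    Phi k (fun s => ∑ j, w j * ψ j s) ≤ ∑ j, w j * Phi k (ψ j) := by
  have := sig_isProb hd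
  classical
  have hterm : ∀ j, Measurable (fun s => w j * ψ j s) ∧ (∀ s, 0 ≤ w j * ψ j s) ∧
      (∃ L : ℝ, ∀ s, w j * ψ j s ≤ L) ∧ Integrable (fun s => w j * ψ j s) (sig d) ∧
      ∫ s, w j * ψ j s ∂(sig d) = w j := by
    intro j
    rcases (hw j).eq_or_lt with h | h
    · have h0 : ∀ s, w j * ψ j s = 0 := fun s => by rw [← h, zero_mul]
      simp only [h0]
      exact ⟨measurable_const, fun _ => le_rfl, ⟨0, fun _ => le_rfl⟩, integrable_zero _ _ _,
        by simp [← h]⟩
    · have hj := hψ j h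
      obtain ⟨L, hL⟩ := hj.bdd
      refine ⟨hj.meas.const_mul _, fun s => mul_nonneg h.le (hj.nonneg s), ⟨w j * L, fun s =>
        mul_le_mul_of_nonneg_left (hL s) h.le⟩, hj.integrable.const_mul _, ?_⟩
      rw [integral_const_mul, hj.int_one, mul_one]
  have hdens : IsDens (fun s => ∑ j, w j * ψ j s) := by
    refine ⟨Finset.measurable_sum _ fun j _ => (hterm j).1, fun s => Finset.sum_nonneg fun j _ =>
      (hterm j).2.1 s, ?_, ?_⟩
    · choose L hL using fun j => (hterm j).2.2.1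
      exact ⟨∑ j, L j, fun s => Finset.sum_le_sum fun j _ => hL j s⟩
    · rw [integral_finsetSum _ fun j _ => (hterm j).2.2.2.1,
        Finset.sum_congr rfl fun j _ => (hterm j).2.2.2.2]
      exact hw1
  obtain ⟨Ψ, hΨ⟩ : ∃ Ψ : Sph d → ℝ, Ψ = fun s => ∑ j, w j * ψ j s := ⟨_, rfl⟩
  rw [← hΨ]
  rw [← hΨ] at hdens
  have hle : ∀ j, 0 < w j → ∀ s, ψ j s ≤ (1 / w j) * Ψ s := by
    intro j hj s
    rw [hΨ, one_div, inv_mul_eq_div, le_div_iff₀ hj]
    have h1 : w j * ψ j s ≤ ∑ i, w i * ψ i s :=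
      Finset.single_le_sum (f := fun i => w i * ψ i s) (s := Finset.univ)
        (fun i _ => (hterm i).2.1 s) (Finset.mem_univ j)
    linarith
  have hint : ∀ j, Integrable (fun p : Sph d × Mat d k => w j * (ψ j p.1 *
      Real.log (Ψ p.1 / fib k Ψ (p.2, mv p.2 (p.1 : E d))))) ((sig d).prod (gam d k)) := by
    intro j
    rcases (hw j).eq_or_lt with h | h
    · have h0 : (fun p : Sph d × Mat d k => w j * (ψ j p.1 *
          Real.log (Ψ p.1 / fib k Ψ (p.2, mv p.2 (p.1 : E d))))) = fun _ => 0 := by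
        funext s; rw [← h, zero_mul]
      rw [h0]
      exact integrable_zero _ _ _
    · exact (integrable_mul_log_div hd (hψ j h) hdens (hle j h)).const_mul _
  have hsum : Phi k Ψ = ∑ j, w j * ∫ p : Sph d × Mat d k, ψ j p.1 *
      Real.log (Ψ p.1 / fib k Ψ (p.2, mv p.2 (p.1 : E d))) ∂((sig d).prod (gam d k)) := by
    unfold Phi
    simp_rw [← integral_const_mul]
    rw [← integral_finsetSum _ fun j _ => hint j]
    refine integral_congr_ae (Filter.Eventually.of_forall fun p => ?_)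
    simp only
    have h1 : Ψ p.1 = ∑ j, w j * ψ j p.1 := by rw [hΨ]
    generalize Real.log (Ψ p.1 / fib k Ψ (p.2, mv p.2 (p.1 : E d))) = L
    rw [h1, Finset.sum_mul]
    exact Finset.sum_congr rfl fun j _ => by ring
  rw [hsum]
  refine Finset.sum_le_sum fun j _ => ?_
  rcases (hw j).eq_or_lt with h | h
  · simp [← h]
  · exact mul_le_mul_of_nonneg_left (cross_le hd (hψ j h) hdens (hle j h)) h.le

/-- The posterior is a density when the label has positive probability. -/
theorem post_isDens {Q : Type*} {ψ : Sph d → ℝ} (hψ : IsDens ψ)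
    (p : Q → Sph d → ℝ) (q : Q) (hp : Measurable (p q)) (hp0 : ∀ s, 0 ≤ p q s)
    (hp1 : ∀ s, p q s ≤ 1) (hP : 0 < margP ψ p q) : IsDens (post ψ p q) := by
  obtain ⟨L, hL⟩ := hψ.bdd
  refine ⟨(hψ.meas.mul hp).div_const _, fun s => div_nonneg (mul_nonneg (hψ.nonneg s) (hp0 s)) hP.le,
    ⟨L / margP ψ p q, fun s => ?_⟩, ?_⟩
  · unfold post
    apply div_le_div_of_nonneg_right _ hP.le
    calc ψ s * p q s ≤ ψ s * 1 := mul_le_mul_of_nonneg_left (hp1 s) (hψ.nonneg s)
      _ ≤ L := by simpa using hL s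
  · unfold post
    rw [integral_div]
    unfold margP at hP ⊢
    exact div_self hP.ne'

/-- The increment of the potential: `I(q; s) - I(q; X, Xs)`. -/
theorem Phi_increment (hd : 0 < d) {Q : Type*} [Fintype Q] {ψ : Sph d → ℝ} (hψ : IsDens ψ)
    (p : Q → Sph d → ℝ) (hp : ∀ q, Measurable (p q)) (hp0 : ∀ q s, 0 ≤ p q s)
    (hp1 : ∀ s, ∑ q, p q s = 1) :
    (∑ q, margP ψ p q * Phi k (post ψ p q)) - Phi k ψ =
      (∑ q, margP ψ p q * ∫ s, post ψ p q s * Real.log (post ψ p q s / ψ s) ∂(sig d)) -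
      ∑ q, margP ψ p q * ∫ x : Sph d × Mat d k, post ψ p q x.1 *
        Real.log (fib k (post ψ p q) (x.2, mv x.2 (x.1 : E d)) / fib k ψ (x.2, mv x.2 (x.1 : E d)))
          ∂((sig d).prod (gam d k)) := by
  classical
  have := sig_isProb hd
  have hp_le : ∀ q s, p q s ≤ 1 := by
    intro q s
    rw [← hp1 s]
    exact Finset.single_le_sum (f := fun q => p q s) (fun q _ => hp0 q s) (Finset.mem_univ q)
  have hiψ : Integrable (fun x : Sph d × Mat d k =>
      ψ x.1 * Real.log (ψ x.1 / fib k ψ (x.2, mv x.2 (x.1 : E d)))) ((sig d).prod (gam d k)) :=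
    integrable_mul_log_div hd hψ hψ (c := 1) (fun s => by simp)
  -- the terms of `Φ ψ`
  have hiq : ∀ q, Integrable (fun x : Sph d × Mat d k =>
      p q x.1 * (ψ x.1 * Real.log (ψ x.1 / fib k ψ (x.2, mv x.2 (x.1 : E d)))))
      ((sig d).prod (gam d k)) := by
    intro q
    refine hiψ.bdd_mul (c := 1) ((hp q).comp measurable_fst).aestronglyMeasurable
      (Filter.Eventually.of_forall fun x => ?_)
    rw [Real.norm_of_nonneg (hp0 q _)]
    exact hp_le q _
  have hΦ : Phi k ψ = ∑ q, ∫ x : Sph d × Mat d k,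
      p q x.1 * (ψ x.1 * Real.log (ψ x.1 / fib k ψ (x.2, mv x.2 (x.1 : E d))))
      ∂((sig d).prod (gam d k)) := by
    unfold Phi
    rw [← integral_finsetSum _ fun q _ => hiq q]
    refine integral_congr_ae (Filter.Eventually.of_forall fun x => ?_)
    simp only
    rw [← Finset.sum_mul, hp1, one_mul]
  rw [hΦ, ← Finset.sum_sub_distrib, ← Finset.sum_sub_distrib]
  refine Finset.sum_congr rfl fun q _ => ?_
  have hPnn : 0 ≤ margP ψ p q :=
    integral_nonneg fun s => mul_nonneg (hψ.nonneg s) (hp0 q s)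
  rcases hPnn.eq_or_lt with hP0 | hPpos
  · -- zero probability
    have hint0 : Integrable (fun s => ψ s * p q s) (sig d) := by
      refine (hψ.integrable.bdd_mul (c := 1) (hp q).aestronglyMeasurable
        (Filter.Eventually.of_forall fun s => ?_)).congr
        (Filter.Eventually.of_forall fun s => by simp [mul_comm])
      rw [Real.norm_of_nonneg (hp0 q _)]
      exact hp_le q _
    have hz : (fun s => ψ s * p q s) =ᵐ[sig d] 0 := by
      refine (integral_eq_zero_iff_of_nonneg (fun s => mul_nonneg (hψ.nonneg s) (hp0 q s))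
        hint0).mp ?_
      exact hP0.symm
    have hz2 : ∀ᵐ x ∂((sig d).prod (gam d k)), ψ x.1 * p q x.1 = 0 :=
      Measure.quasiMeasurePreserving_fst.ae hz
    have h0 : ∫ x : Sph d × Mat d k,
        p q x.1 * (ψ x.1 * Real.log (ψ x.1 / fib k ψ (x.2, mv x.2 (x.1 : E d))))
        ∂((sig d).prod (gam d k)) = 0 := by
      rw [integral_congr_ae (g := fun _ => (0 : ℝ))]
      · simp
      · filter_upwards [hz2] with x hx
        rw [← mul_assoc, mul_comm (p q x.1), hx, zero_mul]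
    rw [h0, ← hP0]
    simp
  · -- positive probability
    have hdq : IsDens (post ψ p q) := post_isDens hψ p q (hp q) (hp0 q) (hp_le q) hPpos
    obtain ⟨P, hPdef⟩ : ∃ P, P = margP ψ p q := ⟨_, rfl⟩
    rw [← hPdef] at hPpos ⊢
    obtain ⟨α, hα⟩ : ∃ α, α = post ψ p q := ⟨_, rfl⟩
    rw [← hα] at hdq ⊢
    have hαval : ∀ s, α s = ψ s * p q s / P := fun s => by rw [hα, hPdef]; rfl
    have hαle : ∀ s, α s ≤ (1 / P) * ψ s := by
      intro s
      rw [hαval, one_div, inv_mul_eq_div]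
      apply div_le_div_of_nonneg_right _ hPpos.le
      calc ψ s * p q s ≤ ψ s * 1 := mul_le_mul_of_nonneg_left (hp_le q s) (hψ.nonneg s)
        _ = ψ s := mul_one _
    -- four integrands
    have hiA := integrable_mul_log_div (k := k) hd hdq hdq (c := 1) (fun s => by simp)
    have hiB := integrable_mul_log_div (k := k) hd hdq hψ hαle
    have hiD1 := integrable_mul_log_fib (k := k) hd hdq hdq 1 (fun s => by simp)
    have hiD2 := integrable_mul_log_fib (k := k) hd hdq hψ (1 / P) hαle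
    have hD : (fun x : Sph d × Mat d k => α x.1 * Real.log (fib k α (x.2, mv x.2 (x.1 : E d)) /
        fib k ψ (x.2, mv x.2 (x.1 : E d)))) =ᵐ[(sig d).prod (gam d k)]
        fun x => α x.1 * Real.log (fib k α (x.2, mv x.2 (x.1 : E d))) -
          α x.1 * Real.log (fib k ψ (x.2, mv x.2 (x.1 : E d))) := by
      filter_upwards [fib_ae_pos (k := k) hd hdq, fib_ae_pos (k := k) hd hψ] with x h1 h2
      rcases (hdq.nonneg x.1).eq_or_lt with h | h
      · rw [← h]; simp
      · have hψpos : 0 < ψ x.1 := by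
          have := hαle x.1
          by_contra hneg
          have h3 : ψ x.1 = 0 := le_antisymm (not_lt.mp hneg) (hψ.nonneg _)
          rw [h3, mul_zero] at this
          linarith
        rw [Real.log_div (h1 h).ne' (h2 hψpos).ne']
        ring
    have hiD : Integrable (fun x : Sph d × Mat d k => α x.1 *
        Real.log (fib k α (x.2, mv x.2 (x.1 : E d)) / fib k ψ (x.2, mv x.2 (x.1 : E d))))
        ((sig d).prod (gam d k)) :=
      (hiD1.sub hiD2).congr hD.symm
    -- the identity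
    have hid : (fun x : Sph d × Mat d k => α x.1 * Real.log (α x.1 / ψ x.1)) =ᵐ[(sig d).prod (gam d k)]
        fun x => (α x.1 * Real.log (α x.1 / fib k α (x.2, mv x.2 (x.1 : E d))) -
            α x.1 * Real.log (ψ x.1 / fib k ψ (x.2, mv x.2 (x.1 : E d)))) +
          α x.1 * Real.log (fib k α (x.2, mv x.2 (x.1 : E d)) / fib k ψ (x.2, mv x.2 (x.1 : E d))) := by
      filter_upwards [fib_ae_pos (k := k) hd hdq, fib_ae_pos (k := k) hd hψ] with x h1 h2
      rcases (hdq.nonneg x.1).eq_or_lt with h | h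
      · rw [← h]; simp
      · have hψpos : 0 < ψ x.1 := by
          have := hαle x.1
          by_contra hneg
          have h3 : ψ x.1 = 0 := le_antisymm (not_lt.mp hneg) (hψ.nonneg _)
          rw [h3, mul_zero] at this
          linarith
        rw [Real.log_div h.ne' hψpos.ne', Real.log_div h.ne' (h1 h).ne',
          Real.log_div hψpos.ne' (h2 hψpos).ne', Real.log_div (h1 h).ne' (h2 hψpos).ne']
        ring
    have hC : ∫ s, α s * Real.log (α s / ψ s) ∂(sig d) =
        ∫ x : Sph d × Mat d k, α x.1 * Real.log (α x.1 / ψ x.1) ∂((sig d).prod (gam d k)) := by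
      rw [integral_fun_fst (f := fun s => α s * Real.log (α s / ψ s))]
      simp
    have hsplit1 : ∫ x : Sph d × Mat d k,
        (α x.1 * Real.log (α x.1 / fib k α (x.2, mv x.2 (x.1 : E d))) -
            α x.1 * Real.log (ψ x.1 / fib k ψ (x.2, mv x.2 (x.1 : E d)))) ∂((sig d).prod (gam d k)) =
        ∫ x : Sph d × Mat d k, α x.1 * Real.log (α x.1 / fib k α (x.2, mv x.2 (x.1 : E d)))
            ∂((sig d).prod (gam d k)) -
        ∫ x : Sph d × Mat d k, α x.1 * Real.log (ψ x.1 / fib k ψ (x.2, mv x.2 (x.1 : E d)))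
            ∂((sig d).prod (gam d k)) := integral_sub hiA hiB
    have hsplit2 : ∫ x : Sph d × Mat d k,
        ((α x.1 * Real.log (α x.1 / fib k α (x.2, mv x.2 (x.1 : E d))) -
            α x.1 * Real.log (ψ x.1 / fib k ψ (x.2, mv x.2 (x.1 : E d)))) +
          α x.1 * Real.log (fib k α (x.2, mv x.2 (x.1 : E d)) / fib k ψ (x.2, mv x.2 (x.1 : E d))))
          ∂((sig d).prod (gam d k)) =
        ∫ x : Sph d × Mat d k,
        (α x.1 * Real.log (α x.1 / fib k α (x.2, mv x.2 (x.1 : E d))) -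
            α x.1 * Real.log (ψ x.1 / fib k ψ (x.2, mv x.2 (x.1 : E d)))) ∂((sig d).prod (gam d k)) +
        ∫ x : Sph d × Mat d k,
          α x.1 * Real.log (fib k α (x.2, mv x.2 (x.1 : E d)) / fib k ψ (x.2, mv x.2 (x.1 : E d)))
          ∂((sig d).prod (gam d k)) := integral_add (hiA.sub hiB) hiD
    rw [hC, integral_congr_ae hid, hsplit2, hsplit1]
    have hE : ∫ x : Sph d × Mat d k,
        p q x.1 * (ψ x.1 * Real.log (ψ x.1 / fib k ψ (x.2, mv x.2 (x.1 : E d))))
        ∂((sig d).prod (gam d k)) = P * ∫ x : Sph d × Mat d k,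
          α x.1 * Real.log (ψ x.1 / fib k ψ (x.2, mv x.2 (x.1 : E d))) ∂((sig d).prod (gam d k)) := by
      rw [← integral_const_mul]
      refine integral_congr_ae (Filter.Eventually.of_forall fun x => ?_)
      simp only
      rw [hαval]
      field_simp
    rw [hE]
    unfold Phi
    ring

/-- Normalisation used in the Gibbs test: for `κ ≥ 0` measurable in `(X, y)`,
`∫∫ φ(s) κ(X, Xs) fib ψ / fib φ ≤ ∫∫ ψ(s) κ(X, Xs)`. -/
theorem test_normalisation (hd : 0 < d) {ψ φ : Sph d → ℝ} (hψ : IsDens ψ) (hφ : IsDens φ)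
    (κ : Mat d k × (Fin k → ℝ) → ENNReal) (hκ : Measurable κ) :
    ∫⁻ p : Sph d × Mat d k, ENNReal.ofReal (φ p.1) *
        (κ (p.2, mv p.2 (p.1 : E d)) *
          ENNReal.ofReal (fib k ψ (p.2, mv p.2 (p.1 : E d)) / fib k φ (p.2, mv p.2 (p.1 : E d))))
        ∂((sig d).prod (gam d k)) ≤
      ∫⁻ p : Sph d × Mat d k, ENNReal.ofReal (ψ p.1) * κ (p.2, mv p.2 (p.1 : E d))
        ∂((sig d).prod (gam d k)) :=
  test_normalisation' hd hψ hφ κ hκ

end Crest.Agent.MS
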