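import Crest.Agent.Lib.MS.BlockDefs
import Crest.Agent.Lib.MS.FibPhi

/-!
# Auxiliary lemmas for `BlockEval`: integrals under the tuple law through one coordinate, labels.
-/

set_option autoImplicit false
set_option linter.unusedSectionVars false

namespace Crest.Agent.MS

open MeasureTheory ProbabilityTheory
open Crest.StreamLearn (E Sphere sphereUniform)

section General

variable {S Y Z : Type*} [MeasurableSpace S] [MeasurableSpace Y] [MeasurableSpace Z]
  {σ : Measure S} {ν : Measure Y} {ψ : S → ℝ} {ζ : Y → S → Z} {n : ℕ}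

/-- The law of one coordinate as a measure with density on the product. -/
theorem tup_map_coord' (h : TupData σ ν ψ ζ) (j : Fin (n + 1)) :
    (tupMeas σ ν ψ ζ n).map (fun p => (p.1 j, p.2)) =
      (σ.prod ν).withDensity (fun x => ENNReal.ofReal (ψ x.1)) := by
  classical
  haveI := h.prob_σ
  haveI := h.prob_ν
  have hm : Measurable (fun p : (Fin (n + 1) → S) × Y => (p.1 j, p.2)) :=
    ((measurable_pi_apply j).comp measurable_fst).prodMk measurable_snd
  have hf : Measurable (fun x : S × Y => ENNReal.ofReal (ψ x.1)) :=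
    ENNReal.measurable_ofReal.comp (h.meas_ψ.comp measurable_fst)
  ext A hA
  rw [Measure.map_apply hm hA, withDensity_apply _ hA]
  have hF : Measurable (A.indicator (1 : S × Y → ENNReal)) := measurable_one.indicator hA
  have h1 := lintegral_tup_coord h (n := n) j _ hF
  have e1 : ∫⁻ p, A.indicator (1 : S × Y → ENNReal) (p.1 j, p.2) ∂(tupMeas σ ν ψ ζ n) =
      tupMeas σ ν ψ ζ n ((fun p => (p.1 j, p.2)) ⁻¹' A) := by
    rw [← lintegral_indicator_one (hm hA)]
    rfl
  rw [← e1, h1, ← lintegral_indicator hA, lintegral_prod_symm' _ (hf.indicator hA)]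
  apply lintegral_congr
  intro y
  apply lintegral_congr
  intro s
  by_cases hs : (s, y) ∈ A <;> simp [hs]

/-- Integrals of functions of one coordinate. -/
theorem tup_integral_coord' (h : TupData σ ν ψ ζ) (j : Fin (n + 1)) (g : S × Y → ℝ)
    (hg : Measurable g) :
    ∫ p, g (p.1 j, p.2) ∂(tupMeas σ ν ψ ζ n) = ∫ x, ψ x.1 * g x ∂(σ.prod ν) := by
  have hm : Measurable (fun p : (Fin (n + 1) → S) × Y => (p.1 j, p.2)) :=
    ((measurable_pi_apply j).comp measurable_fst).prodMk measurable_snd
  have hf : Measurable (fun x : S × Y => ENNReal.ofReal (ψ x.1)) :=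
    ENNReal.measurable_ofReal.comp (h.meas_ψ.comp measurable_fst)
  rw [← integral_map (φ := fun p : (Fin (n + 1) → S) × Y => (p.1 j, p.2)) hm.aemeasurable
    hg.aestronglyMeasurable, tup_map_coord' h j,
    integral_withDensity_eq_integral_toReal_smul hf
      (Filter.Eventually.of_forall fun _ => ENNReal.ofReal_lt_top)]
  refine integral_congr_ae (Filter.Eventually.of_forall fun x => ?_)
  simp only [ENNReal.toReal_ofReal (h.nonneg x.1), smul_eq_mul]

/-- Integrability of functions of one coordinate. -/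
theorem tup_integrable_coord' (h : TupData σ ν ψ ζ) (j : Fin (n + 1)) (g : S × Y → ℝ)
    (hg : Measurable g) (hi : Integrable (fun x => ψ x.1 * g x) (σ.prod ν)) :
    Integrable (fun p => g (p.1 j, p.2)) (tupMeas σ ν ψ ζ n) := by
  have hm : Measurable (fun p : (Fin (n + 1) → S) × Y => (p.1 j, p.2)) :=
    ((measurable_pi_apply j).comp measurable_fst).prodMk measurable_snd
  have hf : Measurable (fun x : S × Y => ENNReal.ofReal (ψ x.1)) :=
    ENNReal.measurable_ofReal.comp (h.meas_ψ.comp measurable_fst)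
  have h1 : Integrable g ((tupMeas σ ν ψ ζ n).map (fun p => (p.1 j, p.2))) := by
    rw [tup_map_coord' h j, integrable_withDensity_iff_integrable_smul' hf
      (Filter.Eventually.of_forall fun _ => ENNReal.ofReal_lt_top)]
    refine hi.congr (Filter.Eventually.of_forall fun x => ?_)
    simp only [ENNReal.toReal_ofReal (h.nonneg x.1), smul_eq_mul]
  exact (integrable_map_measure hg.aestronglyMeasurable hm.aemeasurable).1 h1

/-- Almost everywhere statements for one coordinate. -/
theorem tup_ae_coord (h : TupData σ ν ψ ζ) (j : Fin (n + 1)) (P : S × Y → Prop)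
    (hP : ∀ᵐ x ∂(σ.prod ν), 0 < ψ x.1 → P x) :
    ∀ᵐ p ∂(tupMeas σ ν ψ ζ n), 0 < ψ (p.1 j) → P (p.1 j, p.2) := by
  have hm : Measurable (fun p : (Fin (n + 1) → S) × Y => (p.1 j, p.2)) :=
    ((measurable_pi_apply j).comp measurable_fst).prodMk measurable_snd
  have hf : Measurable (fun x : S × Y => ENNReal.ofReal (ψ x.1)) :=
    ENNReal.measurable_ofReal.comp (h.meas_ψ.comp measurable_fst)
  have h1 : ∀ᵐ x ∂((tupMeas σ ν ψ ζ n).map (fun p => (p.1 j, p.2))), 0 < ψ x.1 → P x := by
    rw [tup_map_coord' h j]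
    exact (withDensity_absolutelyContinuous _ _).ae_le hP
  exact ae_of_ae_map hm.aemeasurable h1

end General

section Sums

/-- Gibbs: `∑ -a log a ≤ log N` for a probability vector on a set with `N` points. -/
theorem sum_negMulLog_le {ι : Type*} (T : Finset ι) (hT : T.Nonempty) (a : ι → ℝ)
    (ha : ∀ z ∈ T, 0 ≤ a z) (hs : ∑ z ∈ T, a z = 1) :
    ∑ z ∈ T, Real.negMulLog (a z) ≤ Real.log T.card := by
  have hc : (0 : ℝ) < T.card := by exact_mod_cast hT.card_pos
  have hpt : ∀ z ∈ T, Real.negMulLog (a z) ≤ a z * Real.log T.card + ((T.card : ℝ)⁻¹ - a z) := by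
    intro z hz
    rcases (ha z hz).eq_or_lt with h0 | h0
    · rw [← h0]
      simp
    · have hx : 0 < (T.card : ℝ)⁻¹ * (a z)⁻¹ := by positivity
      have h1 := Real.log_le_sub_one_of_pos hx
      rw [Real.log_mul (by positivity) (by positivity), Real.log_inv, Real.log_inv] at h1
      have h2 := mul_le_mul_of_nonneg_left h1 h0.le
      have h3 : a z * ((T.card : ℝ)⁻¹ * (a z)⁻¹ - 1) = (T.card : ℝ)⁻¹ - a z := by
        field_simp
      rw [h3] at h2
      unfold Real.negMulLog
      nlinarith
  calc ∑ z ∈ T, Real.negMulLog (a z)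
      ≤ ∑ z ∈ T, (a z * Real.log T.card + ((T.card : ℝ)⁻¹ - a z)) := Finset.sum_le_sum hpt
    _ = (∑ z ∈ T, a z) * Real.log T.card + (T.card * (T.card : ℝ)⁻¹ - ∑ z ∈ T, a z) := by
        rw [Finset.sum_add_distrib, Finset.sum_sub_distrib, Finset.sum_mul, Finset.sum_const,
          nsmul_eq_mul]
    _ = Real.log T.card := by
        rw [hs, mul_inv_cancel₀ hc.ne']
        ring

theorem negMulLog_abs_le {x : ℝ} (h0 : 0 ≤ x) (h1 : x ≤ 1) : |Real.negMulLog x| ≤ 2 := by
  have h := mul_abs_log_le h0 h1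
  rw [abs_of_nonneg (Real.negMulLog_nonneg h0 h1)]
  rw [abs_of_nonpos (Real.log_nonpos h0 h1)] at h
  unfold Real.negMulLog
  nlinarith

end Sums

end Crest.Agent.MS
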