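import Crest.Agent.Lib.MS.BlockGibbs1

/-!
# S0499 module `BlockGibbs`: the Gibbs inequality for the block.

The test function (with `q = lab F p`) is
`V(ss, X₀) = exp(∑_i logg q ss i.succ) * P(q) * ∏_j post_q(s_j) * 1{same ζ} / bb(ss)`.

**Mass ≤ 1** (`testV_mass`).  `1{same ζ} ≤ ∑_q 1{F X₀ (X₀ s₀) = q} 1{same cube}`, hence by `sameCube_le` the
integral over `X₀` of `V` is at most `∑_q P(q) ∏_j post_q(s_j) exp(∑ logg q ss i.succ)`.  Then
`iter_lintegral_le_one` with `r = post_q`, `g_0 = 1`, `g_{i+1} = exp(logg q ss i.succ)` (this depends only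
on `ss_0 … ss_{i+1}`, as `uu ss i` only involves the `j < i`), and `step_le_one`:

**`step_le_one`.**  Fix `q` with `P(q) > 0`, and the prefix.  For a.e. `s'` under `post_q σ`,
Jensen in `X` (using `ae_integrable_logAq`, `integrable_logkap`) gives
`exp(∫ log kap(X, s') - ∫ log A_q(X, X s')) ≤ ∫ kap(X, s') / A_q(X, X s') dγ(X)`.
So with `κ` from `kap_factor`, by Tonelli and `test_normalisation` with `φ = post_q`:
`∫ post_q(s') exp(logg) ds' ≤ NN⁻¹ ∫∫ post_q(s') κ(X,Xs') fib ψ/fib post_q ≤ NN⁻¹ ∫∫ ψ(s') κ(X,Xs') = 1`.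

**The conclusion** is `tup_gibbs` (`E log V ≤ E log T`), with `tup_eval_logT`, `tup_eval_logP`, and
`log(post_q(s_j)) = log ψ(s_j) - log(ψ/post_q)(s_j)` a.s. (everything positive, by `tupP_ae`).
-/

set_option autoImplicit false
set_option linter.unusedSectionVars false

namespace Crest.Agent.MS

open MeasureTheory ProbabilityTheory
open Crest.StreamLearn (E Sphere sphereUniform)

variable {d B k n : ℕ} {Q : Type} [Fintype Q] [Nonempty Q] [MeasurableSpace Q]
  [MeasurableSingletonClass Q] {ψ : Sph d → ℝ} {F : Mat d B → (Fin B → ℝ) → Q} {δ : ℝ}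

open Classical in
/-- The test function of the block. -/
noncomputable def testV (k a : ℕ) (ψ : Sph d → ℝ) (F : Mat d B → (Fin B → ℝ) → Q) (δ : ℝ)
    (p : (Fin (n + 1) → Sph d) × Mat d B) : ℝ :=
  Real.exp (∑ i : Fin n, logg k a ψ F δ (lab F p) p.1 i.succ) * margP ψ (pF F) (lab F p) *
    (∏ j, post ψ (pF F) (lab F p) (p.1 j)) *
    (if ∀ j, zetaF F δ p.2 (p.1 j) = zetaF F δ p.2 (p.1 0) then 1 else 0) / bb B δ p.1

namespace BGAux

theorem measurable_coord (j : Fin (n + 1)) :
    Measurable (fun p : (Fin (n + 1) → Sph d) × Mat d B => (p.2, p.1 j)) := by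
  fun_prop

theorem measurable_lab (hF : Measurable (fun p : Mat d B × (Fin B → ℝ) => F p.1 p.2)) :
    Measurable (fun p : (Fin (n + 1) → Sph d) × Mat d B => lab F p) := by
  have h1 : Measurable (fun p : (Fin (n + 1) → Sph d) × Mat d B =>
      (p.2, mv p.2 ((p.1 0 : Sph d) : E d))) := by
    have h2 : Measurable (fun p : (Fin (n + 1) → Sph d) × Mat d B =>
        (p.2, ((p.1 0 : Sph d) : E d))) := by
      refine measurable_snd.prodMk ?_
      exact measurable_subtype_coe.comp ((measurable_pi_apply 0).comp measurable_fst)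
    exact measurable_snd.prodMk (measurable_mv.comp h2)
  exact hF.comp h1

/-- Joint measurability on `Q × _`. -/
theorem measurable_of_lab {α : Type*} [MeasurableSpace α] {G : Q → α → ℝ}
    (hG : ∀ q, Measurable (G q)) : Measurable (fun x : Q × α => G x.1 x.2) :=
  measurable_from_prod_countable_right hG

theorem measurable_post (hF : Measurable (fun p : Mat d B × (Fin B → ℝ) => F p.1 p.2))
    (hψ : IsDens ψ) (q : Q) : Measurable (post ψ (pF F) q) := by
  unfold post
  exact (hψ.meas.mul (pF_measurable hF q)).div_const _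

theorem post_nonneg (hd : 0 < d) (hψ : IsDens ψ) (q : Q) (s : Sph d) :
    0 ≤ post ψ (pF F) q s := by
  unfold post
  exact div_nonneg (mul_nonneg (hψ.nonneg s) (pF_nonneg q s)) (margP_nonneg hd hψ q)

end BGAux

open BGAux in
theorem measurable_testV (hd : 0 < d) (hψ : IsDens ψ)
    (hF : Measurable (fun p : Mat d B × (Fin B → ℝ) => F p.1 p.2)) (hδ : 0 < δ) (a : ℕ) :
    Measurable (testV (n := n) k a ψ F δ) := by
  classical
  have hlab := measurable_lab (n := n) hF
  have hpair : Measurable (fun p : (Fin (n + 1) → Sph d) × Mat d B => (lab F p, p.1)) :=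
    hlab.prodMk measurable_fst
  have h1 : Measurable (fun p : (Fin (n + 1) → Sph d) × Mat d B =>
      ∑ i : Fin n, logg k a ψ F δ (lab F p) p.1 i.succ) := by
    have := measurable_of_lab (Q := Q) (α := Fin (n + 1) → Sph d)
      (G := fun q ss => ∑ i : Fin n, logg k a ψ F δ q ss i.succ)
      (fun q => Finset.measurable_sum _ (fun i _ => measurable_logg hd hψ hF hδ a q i.succ))
    have h' := this.comp hpair
    exact h'
  have h2 : Measurable (fun p : (Fin (n + 1) → Sph d) × Mat d B =>
      margP ψ (pF F) (lab F p)) :=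
    (Measurable.of_discrete (f := fun q => margP ψ (pF F) q)).comp hlab
  have h3 : Measurable (fun p : (Fin (n + 1) → Sph d) × Mat d B =>
      ∏ j, post ψ (pF F) (lab F p) (p.1 j)) := by
    have := measurable_of_lab (Q := Q) (α := Fin (n + 1) → Sph d)
      (G := fun q ss => ∏ j, post ψ (pF F) q (ss j))
      (fun q => Finset.measurable_prod _ (fun j _ =>
        (measurable_post hF hψ q).comp (measurable_pi_apply j)))
    have h' := this.comp hpair
    exact h'
  have hZ := measurable_zetaF (d := d) (B := B) (Q := Q) hF hδ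
  have h4 : MeasurableSet {p : (Fin (n + 1) → Sph d) × Mat d B |
      ∀ j, zetaF F δ p.2 (p.1 j) = zetaF F δ p.2 (p.1 0)} := by
    have : {p : (Fin (n + 1) → Sph d) × Mat d B |
        ∀ j, zetaF F δ p.2 (p.1 j) = zetaF F δ p.2 (p.1 0)} =
        ⋂ j, {p | zetaF F δ p.2 (p.1 j) = zetaF F δ p.2 (p.1 0)} := by
      ext p; simp
    rw [this]
    refine MeasurableSet.iInter (fun j => ?_)
    have a1 := hZ.comp (measurable_coord (n := n) (B := B) (d := d) j)
    have a2 := hZ.comp (measurable_coord (n := n) (B := B) (d := d) 0)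
    exact measurableSet_eq_fun_of_countable a1 a2
  have h5 : Measurable (fun p : (Fin (n + 1) → Sph d) × Mat d B => bb B δ p.1) :=
    (measurable_bb hδ).comp measurable_fst
  unfold testV
  refine (((Real.measurable_exp.comp h1).mul h2).mul h3 |>.mul ?_).div h5
  exact Measurable.ite h4 measurable_const measurable_const

theorem testV_nonneg (hd : 0 < d) (hψ : IsDens ψ) (hδ : 0 < δ) (a : ℕ)
    (p : (Fin (n + 1) → Sph d) × Mat d B) : 0 ≤ testV k a ψ F δ p := by
  classical
  unfold testV
  refine div_nonneg (mul_nonneg (mul_nonneg (mul_nonneg (Real.exp_nonneg _)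
    (margP_nonneg hd hψ _)) (Finset.prod_nonneg (fun j _ => BGAux.post_nonneg hd hψ _ _))) ?_)
    (bb_pos hδ p.1).le
  split_ifs <;> norm_num

/-- The function `∑ logg` is integrable under the tuple law. -/
theorem tup_integrable_logg (hd : 0 < d) (hψ : IsDens ψ)
    (hF : Measurable (fun p : Mat d B × (Fin B → ℝ) => F p.1 p.2)) (hδ : 0 < δ) (a : ℕ)
    (i : Fin (n + 1)) :
    Integrable (fun p => logg k a ψ F δ (lab F p) p.1 i) (tupP n ψ F δ) := by
  have h1 : Integrable (fun p : (Fin (n + 1) → Sph d) × Mat d B =>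
      ∫ X, Real.log (kap a δ X p.1 i (p.1 i)) ∂(gam d k)) (tupP n ψ F δ) := by
    obtain ⟨C, hC⟩ := logkap_int_bound (d := d) (k := k) (n := n) hδ a
    exact tupP_integrable_of_bdd hd hψ hF hδ _
      ((measurable_logkap_int (k := k) hδ a i).comp measurable_fst) C (fun p => hC p.1 i)
  have h2 : Integrable (fun p : (Fin (n + 1) → Sph d) × Mat d B =>
      Real.log (NN k a ψ δ p.1 i)) (tupP n ψ F δ) := by
    obtain ⟨c, hc, C, hC⟩ := NN_pos_bound (d := d) (k := k) (n := n) hd hψ hδ a
    refine tupP_integrable_of_bdd hd hψ hF hδ _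
      ((Real.measurable_log.comp (measurable_NN hψ a i)).comp measurable_fst)
      (max |Real.log c| |Real.log C|) (fun p => ?_)
    have hc1 := (hC p.1 i).1
    have hc2 := (hC p.1 i).2
    have h3 : Real.log c ≤ Real.log (NN k a ψ δ p.1 i) := Real.log_le_log hc hc1
    have h4 : Real.log (NN k a ψ δ p.1 i) ≤ Real.log C := Real.log_le_log (hc.trans_le hc1) hc2
    rw [abs_le]
    constructor
    · have := neg_abs_le (Real.log c)
      have := le_max_left |Real.log c| |Real.log C|
      linarith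
    · have := le_abs_self (Real.log C)
      have := le_max_right |Real.log c| |Real.log C|
      linarith
  have h3 := tup_integrable_Aq (k := k) (n := n) hd hψ hF hδ i
  unfold logg
  exact (h1.sub h2).sub h3

namespace BGAux

/-- The weight of one label. -/
noncomputable def Phi' (k a : ℕ) (ψ : Sph d → ℝ) (F : Mat d B → (Fin B → ℝ) → Q) (δ : ℝ) (q : Q)
    (ss : Fin (n + 1) → Sph d) : ℝ :=
  Real.exp (∑ i : Fin n, logg k a ψ F δ q ss i.succ) * margP ψ (pF F) q *
    ∏ j, post ψ (pF F) q (ss j)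

theorem measurable_Phi' (hd : 0 < d) (hψ : IsDens ψ)
    (hF : Measurable (fun p : Mat d B × (Fin B → ℝ) => F p.1 p.2)) (hδ : 0 < δ) (a : ℕ) (q : Q) :
    Measurable (Phi' (n := n) k a ψ F δ q) := by
  unfold Phi'
  refine ((Real.measurable_exp.comp ?_).mul measurable_const).mul ?_
  · exact Finset.measurable_sum _ (fun i _ => measurable_logg hd hψ hF hδ a q i.succ)
  · exact Finset.measurable_prod _ (fun j _ =>
        (measurable_post hF hψ q).comp (measurable_pi_apply j))

theorem Phi'_nonneg (hd : 0 < d) (hψ : IsDens ψ) (a : ℕ) (q : Q) (ss : Fin (n + 1) → Sph d) :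
    0 ≤ Phi' k a ψ F δ q ss := by
  unfold Phi'
  exact mul_nonneg (mul_nonneg (Real.exp_nonneg _) (margP_nonneg hd hψ _))
    (Finset.prod_nonneg (fun j _ => post_nonneg hd hψ _ _))

/-- The mass of one label. -/
theorem mass_q (hd : 0 < d) (hψ : IsDens ψ)
    (hF : Measurable (fun p : Mat d B × (Fin B → ℝ) => F p.1 p.2)) (hδ : 0 < δ) (a : ℕ) (q : Q) :
    ∫⁻ ss, ENNReal.ofReal (Phi' (n := n) k a ψ F δ q ss) ∂(Measure.pi fun _ : Fin (n + 1) => sig d) ≤
      ENNReal.ofReal (margP ψ (pF F) q) := by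
  classical
  have hP0 := margP_nonneg (F := F) hd hψ q
  rcases hP0.eq_or_lt with h0 | hq
  · rw [← h0]
    have : ∀ ss : Fin (n + 1) → Sph d, ENNReal.ofReal (Phi' (n := n) k a ψ F δ q ss) = 0 := by
      intro ss
      unfold Phi'
      rw [← h0]
      simp
    simp [this]
  -- the posterior is a density
  have hpd : IsDens (post ψ (pF F) q) :=
    post_isDens hψ (pF F) q (pF_measurable hF q) (pF_nonneg q) (pF_le_one q) hq
  have hprob : IsProbabilityMeasure (sig d) := sig_isProb hd
  let r : Sph d → ENNReal := fun s => ENNReal.ofReal (post ψ (pF F) q s)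
  have hr : Measurable r := (measurable_post hF hψ q).ennreal_ofReal
  have hr1 : ∫⁻ x, r x ∂(sig d) ≤ 1 := by
    have hint : Integrable (post ψ (pF F) q) (sig d) := by
      by_contra hcon
      have := hpd.int_one
      rw [integral_undef hcon] at this
      norm_num at this
    have := ofReal_integral_eq_lintegral_ofReal hint
      (Filter.Eventually.of_forall (post_nonneg hd hψ q))
    rw [hpd.int_one] at this
    simp only [r]
    rw [← this]
    simp
  let g : Fin (n + 1) → (Fin (n + 1) → Sph d) → ENNReal := fun i ss =>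
    if i = 0 then 1 else ENNReal.ofReal (Real.exp (logg k a ψ F δ q ss i))
  have hg : ∀ i, Measurable (g i) := by
    intro i
    simp only [g]
    split_ifs
    · exact measurable_const
    · exact (Real.measurable_exp.comp (measurable_logg hd hψ hF hδ a q i)).ennreal_ofReal
  have hdep : ∀ i (x y : Fin (n + 1) → Sph d), (∀ j ≤ i, x j = y j) → g i x = g i y := by
    intro i x y hxy
    simp only [g]
    split_ifs with hi
    · rfl
    · obtain ⟨i', rfl⟩ := Fin.exists_succ_eq.mpr hi
      rw [logg_dep a q i' x y hxy]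
  have hstep : ∀ i (x : Fin (n + 1) → Sph d), ∫⁻ s, r s * g i (Function.update x i s) ∂(sig d) ≤ 1 := by
    intro i x
    simp only [g]
    split_ifs with hi
    · simpa using hr1
    · obtain ⟨i', rfl⟩ := Fin.exists_succ_eq.mpr hi
      exact step_le_one hd hψ hF hδ a q hq i' x
  have hiter := iter_lintegral_le_one (sig d) (n + 1) r hr hr1 g hg hdep hstep
  have hsplit : ∀ ss : Fin (n + 1) → Sph d, ENNReal.ofReal (Phi' (n := n) k a ψ F δ q ss) =
      ENNReal.ofReal (margP ψ (pF F) q) * ((∏ j, r (ss j)) * ∏ i, g i ss) := by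
    intro ss
    have hg' : ∏ i, g i ss = ENNReal.ofReal (Real.exp (∑ i : Fin n, logg k a ψ F δ q ss i.succ)) := by
      rw [Fin.prod_univ_succ, Real.exp_sum, ENNReal.ofReal_prod_of_nonneg
        (fun i _ => Real.exp_nonneg _)]
      simp [g, Fin.succ_ne_zero]
    have hr' : ∏ j, r (ss j) = ENNReal.ofReal (∏ j, post ψ (pF F) q (ss j)) := by
      rw [ENNReal.ofReal_prod_of_nonneg (fun j _ => post_nonneg hd hψ q _)]
    rw [hg', hr']
    unfold Phi'
    rw [ENNReal.ofReal_mul (mul_nonneg (Real.exp_nonneg _) hP0),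
      ENNReal.ofReal_mul (Real.exp_nonneg _)]
    ring
  simp only [hsplit]
  rw [lintegral_const_mul']
  · calc ENNReal.ofReal (margP ψ (pF F) q) * _ ≤ ENNReal.ofReal (margP ψ (pF F) q) * 1 := by
          gcongr
      _ = _ := mul_one _
  · exact ENNReal.ofReal_ne_top

end BGAux

open BGAux in
/-- The total mass of the test function is at most one. -/
theorem testV_mass (hd : 0 < d) (hψ : IsDens ψ)
    (hF : Measurable (fun p : Mat d B × (Fin B → ℝ) => F p.1 p.2)) (hδ : 0 < δ) (a : ℕ) :
    ∫⁻ p, ENNReal.ofReal (testV (n := n) k a ψ F δ p)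
      ∂((Measure.pi fun _ : Fin (n + 1) => sig d).prod (gam d B)) ≤ 1 := by
  classical
  have hprob : IsProbabilityMeasure (sig d) := sig_isProb hd
  have hm := (measurable_testV (n := n) (k := k) hd hψ hF hδ a).ennreal_ofReal
  rw [lintegral_prod _ hm.aemeasurable]
  -- the cube event
  let S : (Fin (n + 1) → Sph d) → Set (Mat d B) := fun ss =>
    {X | ∀ j, cell δ (mv X (ss j : E d)) = cell δ (mv X (ss 0 : E d))}
  have hSm : ∀ ss, MeasurableSet (S ss) := by
    intro ss
    have : S ss = ⋂ j, {X | cell δ (mv X (ss j : E d)) = cell δ (mv X (ss 0 : E d))} := by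
      ext X; simp [S]
    rw [this]
    refine MeasurableSet.iInter (fun j => ?_)
    have hZ := measurable_zetaC (d := d) (B := B) hδ
    have f : ∀ s : Sph d, Measurable (fun X : Mat d B => (X, s)) := fun s => by fun_prop
    have a1 := hZ.comp (f (ss j))
    have a2 := hZ.comp (f (ss 0))
    exact measurableSet_eq_fun_of_countable a1 a2
  have hinner : ∀ ss : Fin (n + 1) → Sph d,
      ∫⁻ X, ENNReal.ofReal (testV (n := n) k a ψ F δ (ss, X)) ∂(gam d B) ≤
        ∑ q : Q, ENNReal.ofReal (Phi' (n := n) k a ψ F δ q ss) := by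
    intro ss
    have hb := bb_pos (B := B) hδ ss
    have hpt : ∀ X, ENNReal.ofReal (testV (n := n) k a ψ F δ (ss, X)) ≤
        ∑ q : Q, (S ss).indicator (fun _ => ENNReal.ofReal (Phi' (n := n) k a ψ F δ q ss / bb B δ ss)) X := by
      intro X
      by_cases hz : ∀ j, zetaF F δ X (ss j) = zetaF F δ X (ss 0)
      · have hX : X ∈ S ss := by
          intro j
          have := congrArg Prod.fst (hz j)
          exact this
        have hval : testV (n := n) k a ψ F δ (ss, X) =
            Phi' (n := n) k a ψ F δ (lab F (ss, X)) ss / bb B δ ss := by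
          unfold testV Phi'
          simp only
          rw [if_pos hz, mul_one]
        rw [hval]
        refine le_trans ?_ (Finset.single_le_sum (f := fun q : Q => (S ss).indicator
          (fun _ => ENNReal.ofReal (Phi' (n := n) k a ψ F δ q ss / bb B δ ss)) X)
          (fun _ _ => zero_le) (Finset.mem_univ (lab F (ss, X))))
        simp [Set.indicator_of_mem hX]
      · have hval : testV (n := n) k a ψ F δ (ss, X) = 0 := by
          unfold testV
          simp only
          rw [if_neg hz]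
          simp
        rw [hval]
        simp
    calc ∫⁻ X, ENNReal.ofReal (testV (n := n) k a ψ F δ (ss, X)) ∂(gam d B)
        ≤ ∫⁻ X, ∑ q : Q, (S ss).indicator
            (fun _ => ENNReal.ofReal (Phi' (n := n) k a ψ F δ q ss / bb B δ ss)) X ∂(gam d B) :=
          lintegral_mono hpt
      _ = ∑ q : Q, ∫⁻ X, (S ss).indicator
            (fun _ => ENNReal.ofReal (Phi' (n := n) k a ψ F δ q ss / bb B δ ss)) X ∂(gam d B) := by
          rw [lintegral_finsetSum]
          intro q _
          exact measurable_const.indicator (hSm ss)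
      _ ≤ ∑ q : Q, ENNReal.ofReal (Phi' (n := n) k a ψ F δ q ss) := by
          refine Finset.sum_le_sum (fun q _ => ?_)
          rw [lintegral_indicator_const (hSm ss)]
          have hS : (gam d B) (S ss) ≤ ENNReal.ofReal (bb B δ ss) := by
            have := sameCube_le (B := B) hδ ss
            rw [← ENNReal.ofReal_toReal (measure_ne_top (gam d B) (S ss))]
            exact ENNReal.ofReal_le_ofReal this
          calc ENNReal.ofReal (Phi' (n := n) k a ψ F δ q ss / bb B δ ss) * (gam d B) (S ss)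
              ≤ ENNReal.ofReal (Phi' (n := n) k a ψ F δ q ss / bb B δ ss) *
                  ENNReal.ofReal (bb B δ ss) := by gcongr
            _ = ENNReal.ofReal (Phi' (n := n) k a ψ F δ q ss) := by
                rw [← ENNReal.ofReal_mul (div_nonneg (Phi'_nonneg hd hψ a q ss) hb.le)]
                congr 1
                field_simp
  calc ∫⁻ ss, ∫⁻ X, ENNReal.ofReal (testV (n := n) k a ψ F δ (ss, X)) ∂(gam d B)
        ∂(Measure.pi fun _ : Fin (n + 1) => sig d)
      ≤ ∫⁻ ss, ∑ q : Q, ENNReal.ofReal (Phi' (n := n) k a ψ F δ q ss)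
        ∂(Measure.pi fun _ : Fin (n + 1) => sig d) := lintegral_mono hinner
    _ = ∑ q : Q, ∫⁻ ss, ENNReal.ofReal (Phi' (n := n) k a ψ F δ q ss)
        ∂(Measure.pi fun _ : Fin (n + 1) => sig d) := by
        rw [lintegral_finsetSum]
        intro q _
        exact (measurable_Phi' hd hψ hF hδ a q).ennreal_ofReal
    _ ≤ ∑ q : Q, ENNReal.ofReal (margP ψ (pF F) q) :=
        Finset.sum_le_sum (fun q _ => mass_q hd hψ hF hδ a q)
    _ = ENNReal.ofReal (∑ q : Q, margP ψ (pF F) q) := by
        rw [ENNReal.ofReal_sum_of_nonneg (fun q _ => margP_nonneg hd hψ q)]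
    _ = 1 := by
        rw [margP_sum hd hψ hF]
        simp

namespace BGAux

theorem logbb_bound (hδ : 0 < δ) :
    ∃ C : ℝ, ∀ ss : Fin (n + 1) → Sph d, |Real.log (bb B δ ss)| ≤ C := by
  have ht : 0 < tt δ := tt_pos hδ
  set c : ℝ := tt δ / max 2 (tt δ) with hc
  have hm : 0 < max 2 (tt δ) := lt_max_of_lt_left two_pos
  have hc0 : 0 < c := div_pos ht hm
  refine ⟨B * (n * |Real.log c|), fun ss => ?_⟩
  have hfac : ∀ i : Fin n, |Real.log (tt δ / dtil δ ss i.succ)| ≤ |Real.log c| := by
    intro i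
    obtain ⟨h1, h2⟩ := dtil_bounds (d := d) (n := n) hδ ss i.succ
    have hd0 : 0 < dtil δ ss i.succ := ht.trans_le h1
    have hle1 : tt δ / dtil δ ss i.succ ≤ 1 := (div_le_one hd0).mpr h1
    have hlec : c ≤ tt δ / dtil δ ss i.succ := by
      rw [hc]
      exact div_le_div_of_nonneg_left ht.le hd0 h2
    have hlog1 : Real.log (tt δ / dtil δ ss i.succ) ≤ 0 :=
      Real.log_nonpos (div_pos ht hd0).le hle1
    have hlog2 : Real.log c ≤ Real.log (tt δ / dtil δ ss i.succ) := Real.log_le_log hc0 hlec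
    rw [abs_of_nonpos hlog1, abs_of_nonpos (hlog2.trans hlog1)]
    linarith
  unfold bb
  rw [Real.log_pow, Real.log_prod (fun i _ => by
    obtain ⟨h1, _⟩ := dtil_bounds (d := d) (n := n) hδ ss i.succ
    exact (div_pos ht (ht.trans_le h1)).ne'), abs_mul, Nat.abs_cast]
  refine mul_le_mul_of_nonneg_left ?_ (Nat.cast_nonneg _)
  calc |∑ i : Fin n, Real.log (tt δ / dtil δ ss i.succ)|
      ≤ ∑ i : Fin n, |Real.log (tt δ / dtil δ ss i.succ)| := Finset.abs_sum_le_sum_abs _ _
    _ ≤ ∑ _i : Fin n, |Real.log c| := Finset.sum_le_sum (fun i _ => hfac i)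
    _ = n * |Real.log c| := by simp

end BGAux

/-- The Gibbs inequality of the block. -/
theorem block_gibbs (hd : 0 < d) (hψ : IsDens ψ)
    (hF : Measurable (fun p : Mat d B × (Fin B → ℝ) => F p.1 p.2)) (hδ : 0 < δ) (a : ℕ) :
    ∫ p, ∑ i : Fin n, logg k a ψ F δ (lab F p) p.1 i.succ ∂(tupP n ψ F δ) ≤
      (∑ j : Fin (n + 1), ∫ p, Real.log (ψ (p.1 j) / post ψ (pF F) (lab F p) (p.1 j))
          ∂(tupP n ψ F δ))
        + n * Hz ψ F δ + (∫ p, Real.log (bb B δ p.1) ∂(tupP n ψ F δ)) + Hlab ψ (pF F) := by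
  classical
  have hT := block_tupData (B := B) hd hψ hF hδ
  have hprob := tupP_isProb (n := n) hd hψ hF hδ
  have hae := tupP_ae (n := n) hd hψ hF hδ
  set P := tupP n ψ F δ with hP
  -- the pieces
  have hA : Integrable (fun p : (Fin (n + 1) → Sph d) × Mat d B =>
      ∑ i : Fin n, logg k a ψ F δ (lab F p) p.1 i.succ) P :=
    integrable_finset_sum _ (fun i _ => tup_integrable_logg hd hψ hF hδ a i.succ)
  have hB' : Integrable (fun p : (Fin (n + 1) → Sph d) × Mat d B =>
      Real.log (margP ψ (pF F) (lab F p))) P := tup_integrable_logP hd hψ hF hδ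
  have hC : ∀ j : Fin (n + 1), Integrable (fun p : (Fin (n + 1) → Sph d) × Mat d B =>
      Real.log (ψ (p.1 j))) P := fun j => tup_integrable_logψ hd hψ hF hδ j
  have hD : ∀ j : Fin (n + 1), Integrable (fun p : (Fin (n + 1) → Sph d) × Mat d B =>
      Real.log (ψ (p.1 j) / post ψ (pF F) (lab F p) (p.1 j))) P :=
    fun j => tup_integrable_ratio hd hψ hF hδ j
  have hE : Integrable (fun p : (Fin (n + 1) → Sph d) × Mat d B => Real.log (bb B δ p.1)) P := by
    obtain ⟨C, hC⟩ := BGAux.logbb_bound (d := d) (B := B) (n := n) hδ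
    exact tupP_integrable_of_bdd hd hψ hF hδ _
      ((Real.measurable_log.comp (measurable_bb hδ)).comp measurable_fst) C (fun p => hC p.1)
  have hCD : Integrable (fun p : (Fin (n + 1) → Sph d) × Mat d B =>
      ∑ j : Fin (n + 1), (Real.log (ψ (p.1 j)) -
        Real.log (ψ (p.1 j) / post ψ (pF F) (lab F p) (p.1 j)))) P :=
    integrable_finset_sum _ (fun j _ => (hC j).sub (hD j))
  have hL : (fun p => Real.log (testV (n := n) k a ψ F δ p)) =ᵐ[P] fun p =>
      (∑ i : Fin n, logg k a ψ F δ (lab F p) p.1 i.succ) + Real.log (margP ψ (pF F) (lab F p)) +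
        (∑ j : Fin (n + 1), (Real.log (ψ (p.1 j)) -
          Real.log (ψ (p.1 j) / post ψ (pF F) (lab F p) (p.1 j)))) - Real.log (bb B δ p.1) := by
    filter_upwards [hae] with p hp
    obtain ⟨h1, _, _, h4, h5, h6⟩ := hp
    have hpost : ∀ j, 0 < post ψ (pF F) (lab F p) (p.1 j) := fun j =>
      div_pos (mul_pos (h4 j) (h5 j)) h6
    have hprod : 0 < ∏ j, post ψ (pF F) (lab F p) (p.1 j) := Finset.prod_pos (fun j _ => hpost j)
    have hb := bb_pos (B := B) hδ p.1
    have hval : testV (n := n) k a ψ F δ p = Real.exp (∑ i : Fin n, logg k a ψ F δ (lab F p) p.1 i.succ) *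
        margP ψ (pF F) (lab F p) * (∏ j, post ψ (pF F) (lab F p) (p.1 j)) / bb B δ p.1 := by
      unfold testV
      rw [if_pos h1, mul_one]
    rw [hval, Real.log_div (by positivity) hb.ne', Real.log_mul (by positivity) hprod.ne',
      Real.log_mul (Real.exp_pos _).ne' h6.ne', Real.log_exp,
      Real.log_prod (fun j _ => (hpost j).ne')]
    have hsum : ∑ j, Real.log (post ψ (pF F) (lab F p) (p.1 j)) =
        ∑ j : Fin (n + 1), (Real.log (ψ (p.1 j)) -
          Real.log (ψ (p.1 j) / post ψ (pF F) (lab F p) (p.1 j))) := by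
      refine Finset.sum_congr rfl (fun j _ => ?_)
      rw [Real.log_div (h4 j).ne' (hpost j).ne']
      ring
    rw [hsum]
  have hVpos : ∀ᵐ p ∂P, 0 < testV (n := n) k a ψ F δ p := by
    filter_upwards [hae] with p hp
    obtain ⟨h1, _, _, h4, h5, h6⟩ := hp
    have hpost : ∀ j, 0 < post ψ (pF F) (lab F p) (p.1 j) := fun j =>
      div_pos (mul_pos (h4 j) (h5 j)) h6
    have hprod : 0 < ∏ j, post ψ (pF F) (lab F p) (p.1 j) := Finset.prod_pos (fun j _ => hpost j)
    have hb := bb_pos (B := B) hδ p.1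
    unfold testV
    rw [if_pos h1, mul_one]
    positivity
  have hVi : Integrable (fun p => Real.log (testV (n := n) k a ψ F δ p)) P :=
    (((hA.add hB').add hCD).sub hE).congr hL.symm
  have hgibbs := tup_gibbs hT (testV (n := n) k a ψ F δ) (measurable_testV hd hψ hF hδ a)
    (testV_nonneg hd hψ hδ a) (testV_mass hd hψ hF hδ a) hVpos hVi
    (tup_integrable_logT hd hψ hF hδ)
  have hleft : ∫ p, Real.log (testV (n := n) k a ψ F δ p) ∂P =
      (∫ p, ∑ i : Fin n, logg k a ψ F δ (lab F p) p.1 i.succ ∂P) - Hlab ψ (pF F) +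
        (((n : ℝ) + 1) * D0 ψ -
          ∑ j : Fin (n + 1), ∫ p, Real.log (ψ (p.1 j) / post ψ (pF F) (lab F p) (p.1 j)) ∂P) -
        ∫ p, Real.log (bb B δ p.1) ∂P := by
    have hAB : Integrable (fun p : (Fin (n + 1) → Sph d) × Mat d B =>
        (∑ i : Fin n, logg k a ψ F δ (lab F p) p.1 i.succ) +
          Real.log (margP ψ (pF F) (lab F p))) P := hA.add hB'
    have hABC : Integrable (fun p : (Fin (n + 1) → Sph d) × Mat d B =>
        (∑ i : Fin n, logg k a ψ F δ (lab F p) p.1 i.succ) +
          Real.log (margP ψ (pF F) (lab F p)) +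
          ∑ j : Fin (n + 1), (Real.log (ψ (p.1 j)) -
            Real.log (ψ (p.1 j) / post ψ (pF F) (lab F p) (p.1 j)))) P := hAB.add hCD
    rw [integral_congr_ae hL, integral_sub hABC hE,
      integral_add hAB hCD, integral_add hA hB', tup_eval_logP hd hψ hF hδ]
    have hCDj : ∀ j ∈ (Finset.univ : Finset (Fin (n + 1))), Integrable
        (fun p : (Fin (n + 1) → Sph d) × Mat d B => Real.log (ψ (p.1 j)) -
          Real.log (ψ (p.1 j) / post ψ (pF F) (lab F p) (p.1 j))) P :=
      fun j _ => (hC j).sub (hD j)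
    rw [integral_finsetSum _ hCDj]
    have : ∑ j : Fin (n + 1), ∫ p, (Real.log (ψ (p.1 j)) -
        Real.log (ψ (p.1 j) / post ψ (pF F) (lab F p) (p.1 j))) ∂P =
        ((n : ℝ) + 1) * D0 ψ -
          ∑ j : Fin (n + 1), ∫ p, Real.log (ψ (p.1 j) / post ψ (pF F) (lab F p) (p.1 j)) ∂P := by
      rw [Finset.sum_congr rfl (fun j _ => integral_sub (hC j) (hD j)), Finset.sum_sub_distrib,
        Finset.sum_congr rfl (fun j _ => tup_eval_logψ hd hψ hF hδ j)]
      simp
    rw [this]
    ring
  have hright : ∫ p, Real.log (tupDens (sig d) ψ (zetaF F δ) n p) ∂P =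
      ((n : ℝ) + 1) * D0 ψ + n * Hz ψ F δ := tup_eval_logT hd hψ hF hδ
  have hg' : ∫ p, Real.log (testV (n := n) k a ψ F δ p) ∂P ≤
      ∫ p, Real.log (tupDens (sig d) ψ (zetaF F δ) n p) ∂P := hgibbs
  rw [hleft, hright] at hg'
  linarith

end Crest.Agent.MS
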