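import Crest.Agent.Lib.MS.BlockKernel
import Crest.Agent.Lib.MS.GaussBall

/-!
# S0499 module `BlockGibbs1`: the Gibbs inequality for the block.

The test function (with `q = lab F p`) is
`V(ss, X₀) = exp(∑_i logg q ss i.succ) * P(q) * ∏_j post_q(s_j) * 1{same ζ} / bb(ss)`.

**Mass ≤ 1** (`testV_mass`).  `1{same ζ} ≤ ∑_q 1{F X₀ (X₀ s₀) = q} 1{same cube}`, hence by `sameCube_le` the
integral over `X₀` of `V` is at most `∑_q P(q) ∏_j post_q(s_j) exp(∑ logg q ss i.succ)`.  Then
`iter_lintegral_le_one` with `r = post_q`, `g_0 = 1`, `g_{i+1} = exp(logg q ss i.succ)` (this depends only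
on `ss_0 … ss_{i+1}`, as `uu ss i` only involves the `j < i`), and `step_le_one`:

**`step_le_one`.**  Fix `q` with `P(q) > 0`, and the prefix.  For a.e. `s'` under `post_q σ`,
Jensen in `X` (using `ae_integrable_logAq`, `integrable_logkap`) gives
`exp(∫ log kap(X, s') - ∫ log A_q(X, X s')) ≤ ∫ kap(X, s') / A_q(X, X s') dγ(X)`.
So with `κ` from `kap_factor`, by Tonelli and `test_normalisation` with `φ = post_q`:
`∫ post_q(s') exp(logg) ds' ≤ NN⁻¹ ∫∫ post_q(s') κ(X,Xs') fib ψ/fib post_q ≤ NN⁻¹ ∫∫ ψ(s') κ(X,Xs') = 1`.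

**The conclusion** is `tup_gibbs` (`E log V ≤ E log T`), with `tup_eval_logT`, `tup_eval_logP`, and
`log(post_q(s_j)) = log ψ(s_j) - log(ψ/post_q)(s_j)` a.s. (everything positive, by `tupP_ae`).
-/

set_option autoImplicit false
set_option linter.unusedSectionVars false

namespace Crest.Agent.MS

open MeasureTheory ProbabilityTheory
open Crest.StreamLearn (E Sphere sphereUniform)

variable {d B k n : ℕ} {Q : Type} [Fintype Q] [Nonempty Q] [MeasurableSpace Q]
  [MeasurableSingletonClass Q] {ψ : Sph d → ℝ} {F : Mat d B → (Fin B → ℝ) → Q} {δ : ℝ}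

theorem abs_sub_lt_of_cell_eq {r : ℕ} (hδ : 0 < δ) (y z : Fin r → ℝ)
    (h : cell δ y = cell δ z) (j : Fin r) : |y j - z j| < δ := by
  have h1 : ⌊y j / δ⌋ = ⌊z j / δ⌋ := congrFun h j
  have hy1 := Int.floor_le (y j / δ)
  have hy2 := Int.lt_floor_add_one (y j / δ)
  have hz1 := Int.floor_le (z j / δ)
  have hz2 := Int.lt_floor_add_one (z j / δ)
  rw [h1] at hy1 hy2
  have h2 : |y j / δ - z j / δ| < 1 := by
    rw [abs_lt]; constructor <;> linarith
  have h3 : y j - z j = (y j / δ - z j / δ) * δ := by field_simp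
  rw [h3, abs_mul, abs_of_pos hδ]
  nlinarith

/-- Gaussian small ball for the tuple: `smallBall_mat` with `v j = ss j - ss 0`. -/
theorem sameCube_le (hδ : 0 < δ) (ss : Fin (n + 1) → Sph d) :
    (gam d B).real {X | ∀ j, cell δ (mv X (ss j : E d)) = cell δ (mv X (ss 0 : E d))} ≤
      bb B δ ss := by
  set v : Fin (n + 1) → E d := fun j => (ss j : E d) - (ss 0 : E d) with hv
  have hsub : {X : Mat d B | ∀ j, cell δ (mv X (ss j : E d)) = cell δ (mv X (ss 0 : E d))} ⊆
      {X | ∀ (r : Fin B) (i : Fin (n + 1)), |inner ℝ (X r) (v i)| < δ} := by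
    intro X hX r i
    have h1 := abs_sub_lt_of_cell_eq hδ _ _ (hX i) r
    simp only [mv] at h1
    simpa [hv, inner_sub_right] using h1
  refine (measureReal_mono hsub).trans ?_
  refine (smallBall_mat v δ hδ).trans (le_of_eq ?_)
  unfold bb
  congr 1
  rw [Fin.prod_univ_succ]
  have ht := tt_pos hδ
  have h0 : dS (prefixFam v 0) (v 0) = 0 := by
    have : v 0 = 0 := by simp [hv]
    rw [this]
    unfold dS
    exact Metric.infDist_zero_of_mem (Submodule.zero_mem _)
  have h2 : (2 * δ / Real.sqrt (2 * Real.pi)) = tt δ := rfl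
  rw [h0, h2, max_eq_right ht.le, div_self ht.ne', one_mul]
  refine Finset.prod_congr rfl fun i _ => ?_
  rfl

theorem bb_pos (hδ : 0 < δ) (ss : Fin (n + 1) → Sph d) : 0 < bb B δ ss := by
  unfold bb
  refine pow_pos (Finset.prod_pos fun i _ => ?_) _
  have ht := tt_pos hδ
  have := (dtil_bounds hδ ss i.succ).1
  exact div_pos ht (lt_of_lt_of_le ht this)

theorem measurable_bb (hδ : 0 < δ) : Measurable (fun ss : Fin (n + 1) → Sph d => bb B δ ss) := by
  unfold bb
  refine Measurable.pow_const ?_ _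
  refine Finset.measurable_prod _ fun i _ => ?_
  exact measurable_const.div (measurable_dtil i.succ)

/-- The `log A_q` integral is measurable. -/
theorem measurable_logAq_int (q : Q) :
    Measurable (fun s : Sph d => ∫ X, Real.log (Aq k ψ F q (X, mv X (s : E d))) ∂(gam d k)) := by
  have hAq : Measurable (fun p : Sph d × Mat d k => Real.log (Aq k ψ F q (p.2, mv p.2 (p.1 : E d)))) := by
    refine Real.measurable_log.comp ?_
    unfold Aq
    exact ((measurable_fib _).comp measurable_mv_pair).div ((measurable_fib _).comp measurable_mv_pair)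
  have := hAq.stronglyMeasurable.integral_prod_right' (ν := gam d k)
  exact this.measurable

/-- `logg` is measurable in the tuple. -/
theorem measurable_logg (hd : 0 < d) (hψ : IsDens ψ)
    (hF : Measurable (fun p : Mat d B × (Fin B → ℝ) => F p.1 p.2)) (hδ : 0 < δ) (a : ℕ) (q : Q)
    (i : Fin (n + 1)) :
    Measurable (fun ss : Fin (n + 1) → Sph d => logg k a ψ F δ q ss i) := by
  unfold logg
  refine ((measurable_logkap_int hδ a i).sub ?_).sub ?_
  · exact Real.measurable_log.comp (measurable_NN hψ a i)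
  · exact (measurable_logAq_int q).comp (measurable_pi_apply i)

theorem uu_congr (i : Fin (n + 1)) (ss ss' : Fin (n + 1) → Sph d)
    (h : ∀ j ≤ i, ss j = ss' j) : uu ss i = uu ss' i := by
  funext j
  unfold uu prefixFam
  by_cases hj : j < i
  · simp only [hj, if_true]
    rw [h j hj.le, h 0 (Fin.zero_le _)]
  · simp only [hj, if_false]

theorem DD_congr (i : Fin (n + 1)) (ss ss' : Fin (n + 1) → Sph d)
    (h : ∀ j ≤ i, ss j = ss' j) (X : Mat d k) (s' : Sph d) : DD δ X ss i s' = DD δ X ss' i s' := by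
  unfold DD
  rw [uu_congr i ss ss' h, h 0 (Fin.zero_le _)]

theorem NN_congr (a : ℕ) (i : Fin (n + 1)) (ss ss' : Fin (n + 1) → Sph d)
    (h : ∀ j ≤ i, ss j = ss' j) : NN k a ψ δ ss i = NN k a ψ δ ss' i := by
  unfold NN kap
  congr 1
  funext p
  rw [DD_congr i ss ss' h]

/-- `logg` at `i+1` only depends on the coordinates up to `i+1`. -/
theorem logg_dep (a : ℕ) (q : Q) (i : Fin n) (ss ss' : Fin (n + 1) → Sph d)
    (h : ∀ j ≤ i.succ, ss j = ss' j) :
    logg k a ψ F δ q ss i.succ = logg k a ψ F δ q ss' i.succ := by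
  unfold logg kap
  rw [NN_congr a i.succ ss ss' h, h i.succ le_rfl]
  congr 2
  refine integral_congr_ae (Filter.Eventually.of_forall fun X => ?_)
  simp only [DD_congr i.succ ss ss' h X]


/-- Jensen in `ENNReal` form. -/
theorem ofReal_exp_integral_le {α : Type*} [MeasurableSpace α] (μ : Measure α)
    [IsProbabilityMeasure μ] (g : α → ℝ) (hg : Integrable g μ) :
    ENNReal.ofReal (Real.exp (∫ x, g x ∂μ)) ≤ ∫⁻ x, ENNReal.ofReal (Real.exp (g x)) ∂μ := by
  by_cases htop : ∫⁻ x, ENNReal.ofReal (Real.exp (g x)) ∂μ = ⊤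
  · rw [htop]; exact le_top
  have hint : Integrable (fun x => Real.exp (g x)) μ := by
    refine ⟨(Real.measurable_exp.comp_aemeasurable hg.aemeasurable).aestronglyMeasurable, ?_⟩
    rw [hasFiniteIntegral_iff_ofReal (Filter.Eventually.of_forall fun x => (Real.exp_pos _).le)]
    exact lt_top_iff_ne_top.2 htop
  rw [← ofReal_integral_eq_lintegral_ofReal hint (Filter.Eventually.of_forall fun x => (Real.exp_pos _).le)]
  refine ENNReal.ofReal_le_ofReal ?_
  exact convexOn_exp.map_integral_le Real.continuous_exp.continuousOn isClosed_univ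
    (Filter.Eventually.of_forall fun _ => Set.mem_univ _) hg hint

theorem kap_pos_g (hδ : 0 < δ) (a : ℕ) (X : Mat d k) (ss : Fin (n + 1) → Sph d) (i : Fin (n + 1))
    (s' : Sph d) : 0 < kap a δ X ss i s' := by
  unfold kap DD
  have ht := tt_pos hδ
  have : 0 < max (dS (fun j => Aop X (uu ss i j)) (Aop X ((s' : E d) - (ss 0 : E d)))) (tt δ) :=
    lt_of_lt_of_le ht (le_max_right _ _)
  positivity

/-- One step: the posterior expectation of `exp logg` is at most one. -/
theorem step_le_one (hd : 0 < d) (hψ : IsDens ψ)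
    (hF : Measurable (fun p : Mat d B × (Fin B → ℝ) => F p.1 p.2)) (hδ : 0 < δ) (a : ℕ) (q : Q)
    (hq : 0 < margP ψ (pF F) q) (i : Fin n) (ss : Fin (n + 1) → Sph d) :
    ∫⁻ x, ENNReal.ofReal (post ψ (pF F) q x) *
        ENNReal.ofReal (Real.exp (logg k a ψ F δ q (Function.update ss i.succ x) i.succ)) ∂(sig d)
      ≤ 1 := by
  have := sig_isProb hd
  classical
  set j : Fin (n + 1) := i.succ with hj
  set φ : Sph d → ℝ := post ψ (pF F) q with hφ
  have hφD : IsDens φ := post_isDens hψ (pF F) q (pF_measurable hF q) (fun s => pF_nonneg q s)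
    (fun s => pF_le_one q s) hq
  obtain ⟨κ, hκm, hκ⟩ := kap_factor (k := k) hδ a ss j
  obtain ⟨c, hc, C, hcC⟩ := NN_pos_bound (k := k) (n := n) (δ := δ) hd hψ hδ a
  set N : ℝ := NN k a ψ δ ss j with hN
  have hNpos : 0 < N := lt_of_lt_of_le hc (hcC ss j).1
  -- the updated tuple
  have hupd : ∀ x : Sph d, ∀ l < j, Function.update ss j x l = ss l := by
    intro x l hl
    exact Function.update_of_ne hl.ne _ _
  have hupd' : ∀ x : Sph d, ∀ l ≤ j, l ≠ j → Function.update ss j x l = ss l := by
    intro x l _ hl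
    exact Function.update_of_ne hl _ _
  have hDD : ∀ (x : Sph d) (X : Mat d k) (s' : Sph d),
      DD δ X (Function.update ss j x) j s' = DD δ X ss j s' := by
    intro x X s'
    unfold DD
    have h0 : Function.update ss j x 0 = ss 0 := hupd x 0 (Fin.succ_pos i)
    have h1 : uu (Function.update ss j x) j = uu ss j := by
      funext l
      unfold uu prefixFam
      by_cases hl : l < j
      · simp only [hl, if_true]
        rw [hupd x l hl, h0]
      · simp only [hl, if_false]
    rw [h1, h0]
  have hNN : ∀ x : Sph d, NN k a ψ δ (Function.update ss j x) j = N := by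
    intro x
    rw [hN]
    unfold NN kap
    simp only [hDD]
  have hkapx : ∀ (x : Sph d) (X : Mat d k),
      kap a δ X (Function.update ss j x) j (Function.update ss j x j) = kap a δ X ss j x := by
    intro x X
    unfold kap
    rw [hDD, Function.update_self]
  have hlogg : ∀ x : Sph d, logg k a ψ F δ q (Function.update ss j x) j =
      (∫ X, Real.log (kap a δ X ss j x) ∂(gam d k)) - Real.log N -
        ∫ X, Real.log (Aq k ψ F q (X, mv X (x : E d))) ∂(gam d k) := by
    intro x
    unfold logg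
    rw [hNN, Function.update_self]
    have hk' : ∀ X : Mat d k, kap a δ X (Function.update ss j x) j x = kap a δ X ss j x := by
      intro X; unfold kap; rw [hDD]
    simp only [hk']
  -- the pointwise bound
  set G : Sph d × Mat d k → ENNReal := fun p =>
    κ (p.2, mv p.2 (p.1 : E d)) *
      ENNReal.ofReal (fib k ψ (p.2, mv p.2 (p.1 : E d)) / fib k φ (p.2, mv p.2 (p.1 : E d))) with hG
  have hGm : Measurable G :=
    (hκm.comp measurable_mv_pair).mul
      (((measurable_fib ψ).comp measurable_mv_pair).div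
        ((measurable_fib φ).comp measurable_mv_pair)).ennreal_ofReal
  have hpt : ∀ᵐ x ∂(sig d), ENNReal.ofReal (φ x) *
        ENNReal.ofReal (Real.exp (logg k a ψ F δ q (Function.update ss j x) j)) ≤
      ENNReal.ofReal N⁻¹ * (ENNReal.ofReal (φ x) * ∫⁻ X, G (x, X) ∂(gam d k)) := by
    filter_upwards [ae_integrable_logAq (k := k) hd hψ hF q hq] with x hx
    rcases (hφD.nonneg x).eq_or_lt with h0 | hpos
    · simp [← h0]
    obtain ⟨hAint, hApos⟩ := hx hpos
    have hkint := integrable_logkap (k := k) hδ a ss j x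
    have hgi := hkint.sub hAint
    have hJ := ofReal_exp_integral_le (gam d k) _ hgi
    have hle : ∫⁻ X, ENNReal.ofReal (Real.exp (Real.log (kap a δ X ss j x) -
        Real.log (Aq k ψ F q (X, mv X (x : E d))))) ∂(gam d k) ≤ ∫⁻ X, G (x, X) ∂(gam d k) := by
      refine lintegral_mono_ae ?_
      filter_upwards [hApos] with X hX
      have hk := kap_pos_g (k := k) hδ a X ss j x
      rw [Real.exp_sub, Real.exp_log hk, Real.exp_log hX]
      simp only [hG]
      rw [hκ, ← ENNReal.ofReal_mul hk.le]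
      refine le_of_eq ?_
      congr 1
      unfold Aq
      rw [div_eq_mul_inv, inv_div]
    have hexp : Real.exp (logg k a ψ F δ q (Function.update ss j x) j) =
        N⁻¹ * Real.exp (∫ X, (Real.log (kap a δ X ss j x) -
          Real.log (Aq k ψ F q (X, mv X (x : E d)))) ∂(gam d k)) := by
      rw [hlogg, integral_sub hkint hAint]
      have : (∫ X, Real.log (kap a δ X ss j x) ∂(gam d k)) - Real.log N -
          ∫ X, Real.log (Aq k ψ F q (X, mv X (x : E d))) ∂(gam d k) =
          - Real.log N + ((∫ X, Real.log (kap a δ X ss j x) ∂(gam d k)) -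
          ∫ X, Real.log (Aq k ψ F q (X, mv X (x : E d))) ∂(gam d k)) := by ring
      rw [this, Real.exp_add, Real.exp_neg, Real.exp_log hNpos]
    rw [hexp, ENNReal.ofReal_mul (inv_pos.2 hNpos).le]
    calc ENNReal.ofReal (φ x) * (ENNReal.ofReal N⁻¹ * ENNReal.ofReal (Real.exp _))
        = ENNReal.ofReal N⁻¹ * (ENNReal.ofReal (φ x) * ENNReal.ofReal (Real.exp _)) := by ring
      _ ≤ _ := by
        gcongr
        exact hJ.trans hle
  have hNint : Integrable (fun p : Sph d × Mat d k => ψ p.1 * kap a δ p.2 ss j p.1)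
      ((sig d).prod (gam d k)) := by
    by_contra hni
    have : N = 0 := by
      rw [hN]; unfold NN; exact integral_undef hni
    exact hNpos.ne' this
  calc ∫⁻ x, ENNReal.ofReal (φ x) *
        ENNReal.ofReal (Real.exp (logg k a ψ F δ q (Function.update ss j x) j)) ∂(sig d)
      ≤ ∫⁻ x, ENNReal.ofReal N⁻¹ * (ENNReal.ofReal (φ x) * ∫⁻ X, G (x, X) ∂(gam d k)) ∂(sig d) :=
        lintegral_mono_ae hpt
    _ = ENNReal.ofReal N⁻¹ * ∫⁻ x, ENNReal.ofReal (φ x) * ∫⁻ X, G (x, X) ∂(gam d k) ∂(sig d) := by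
        refine lintegral_const_mul _ ?_
        exact hφD.meas.ennreal_ofReal.mul (hGm.lintegral_prod_right')
    _ = ENNReal.ofReal N⁻¹ * ∫⁻ p : Sph d × Mat d k, ENNReal.ofReal (φ p.1) * G p
          ∂((sig d).prod (gam d k)) := by
        congr 1
        have hm : AEMeasurable (fun p : Sph d × Mat d k => ENNReal.ofReal (φ p.1) * G p)
            ((sig d).prod (gam d k)) :=
          ((measurable_ofReal_comp_fst hφD.meas).mul hGm).aemeasurable
        rw [lintegral_prod _ hm]
        refine lintegral_congr fun x => ?_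
        exact (lintegral_const_mul _ (hGm.comp measurable_prodMk_left)).symm
    _ ≤ ENNReal.ofReal N⁻¹ * ∫⁻ p : Sph d × Mat d k, ENNReal.ofReal (ψ p.1) *
            κ (p.2, mv p.2 (p.1 : E d)) ∂((sig d).prod (gam d k)) := by
        exact mul_le_mul_right (test_normalisation hd hψ hφD κ hκm) _
    _ = ENNReal.ofReal N⁻¹ * ENNReal.ofReal N := by
        congr 1
        rw [hN]; unfold NN
        rw [ofReal_integral_eq_lintegral_ofReal hNint (Filter.Eventually.of_forall fun p =>
          mul_nonneg (hψ.nonneg _) (kap_pos_g hδ a _ _ _ _).le)]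
        refine lintegral_congr fun p => ?_
        rw [hκ, ENNReal.ofReal_mul (hψ.nonneg _)]
    _ = 1 := by
        rw [← ENNReal.ofReal_mul (inv_pos.2 hNpos).le, inv_mul_cancel₀ hNpos.ne', ENNReal.ofReal_one]

end Crest.Agent.MS
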