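import Crest.Agent.Lib.MS.GaussBasic

/-!
# S0499 module `GaussKernel`: the kernel estimates T1 and T2.

`negMoment_dist_subspace`.  Let `q = k - dim T`.  `dist(g,T) = ‖P g‖`, `P` the projection on `Tᗮ`.
The law of `P g` on `Tᗮ` is the standard Gaussian of `Tᗮ` (characteristic functions), and by polar
coordinates (`integral_fun_norm_addHaar`, `lintegral_stdGaussian_eq`):
`E ‖g_q‖^{-2a} = 2^{-a} Γ(q/2 - a) / Γ(q/2) = ∏_{j=1}^a 1/(q - 2j) ≤ (q - 2a)^{-a}`.

`kernel_first_moment`.  Let `W = span u`, `p` the projection of `z` on `W`, `w = (z-p)/‖z-p‖`.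
Resample the direction `w` in all rows (`resample_mat`): writing `X' = Θ(X, g)`, `Aop X' v = Aop X v`
for `v ∈ W`, and `Aop X' z = Aop X p + ‖z-p‖ g`, with `Aop X p ∈ T := span (Aop X u_j)`.  So
`dS (Aop X' u) (Aop X' z) = ‖z-p‖ dist(g, T)`, with `dim T ≤ dim W ≤ m`, independent of `g`.

`kernel_log_moment`.  `dS (Aop X u) (Aop X z) ≤ ‖Aop X (z-p)‖ = dS u z ‖Aop X w‖`, hence
`log max(…, t₀) ≤ log max(dS u z, t₀) + log max(‖Aop X w‖, 1)`; and `Aop X w ~ γ_k` by `gam_map_Aop`,
`E log max(‖g‖,1) ≤ ½ log E(1+‖g‖²) = ½ log(k+1)`.  (If `dS u z = 0`, then the left side is `t₀`-level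
a.s.: `Aop X z ∈ T`.)
-/

set_option autoImplicit false

namespace Crest.Agent.MS

open MeasureTheory ProbabilityTheory
open Crest.StreamLearn (E Sphere sphereUniform)

variable {d r k : ℕ}

/-- Gamma function: `x^a Γ(x) ≤ Γ(x+a)`. -/
theorem gamma_add_nat_ge (x : ℝ) (hx : 0 < x) (a : ℕ) :
    x ^ a * Real.Gamma x ≤ Real.Gamma (x + a) := by
  induction a with
  | zero => simp
  | succ n ih =>
    have h1 : x + ((n + 1 : ℕ) : ℝ) = (x + n) + 1 := by
      push_cast
      ring
    have hpos : 0 < x + n := by positivity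
    rw [h1, Real.Gamma_add_one hpos.ne', pow_succ]
    have hG : 0 ≤ x ^ n * Real.Gamma x := by
      have := Real.Gamma_pos_of_pos hx
      positivity
    nlinarith [mul_le_mul_of_nonneg_left ih hpos.le, (Nat.cast_nonneg n : (0 : ℝ) ≤ n)]

/-- The radial integrals. -/
theorem radial_J (q b : ℕ) (h : 2 * b < q) :
    IntegrableOn (fun y : ℝ => y ^ (q - 1) • ((y ^ (2 * b))⁻¹ * Real.exp (-y ^ 2 / 2))) (Set.Ioi 0) ∧
    ∫ y in Set.Ioi (0 : ℝ), y ^ (q - 1) • ((y ^ (2 * b))⁻¹ * Real.exp (-y ^ 2 / 2)) =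
      (1 / 2 : ℝ) ^ (-((q : ℝ) - 2 * b) / 2) * (1 / 2) * Real.Gamma (((q : ℝ) - 2 * b) / 2) := by
  set n := q - 1 - 2 * b with hn
  have hq : (q : ℝ) = n + 2 * b + 1 := by
    have : q = n + 2 * b + 1 := by omega
    rw [this]
    push_cast
    ring
  have hs : (-1 : ℝ) < (n : ℝ) := by
    have : (0 : ℝ) ≤ n := Nat.cast_nonneg n
    linarith
  have hpt : ∀ y ∈ Set.Ioi (0 : ℝ), y ^ (n : ℝ) * Real.exp (-(1 / 2) * y ^ (2 : ℝ)) =
      y ^ (q - 1) • ((y ^ (2 * b))⁻¹ * Real.exp (-y ^ 2 / 2)) := by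
    intro y hy
    have hy' : y ≠ 0 := ne_of_gt hy
    rw [Real.rpow_natCast, Real.rpow_two, smul_eq_mul, ← mul_assoc]
    have h1 : y ^ (q - 1) * (y ^ (2 * b))⁻¹ = y ^ n := by
      rw [hn]
      exact (pow_sub₀ y hy' (by omega)).symm
    rw [h1]
    congr 2
    ring
  constructor
  · refine (integrableOn_rpow_mul_exp_neg_mul_rpow hs (by norm_num : (0 : ℝ) < 2)
      (by norm_num : (0 : ℝ) < 1 / 2)).congr_fun hpt measurableSet_Ioi
  · rw [← setIntegral_congr_fun measurableSet_Ioi hpt,
      integral_rpow_mul_exp_neg_mul_rpow (by norm_num : (0 : ℝ) < 2) hs (by norm_num : (0 : ℝ) < 1 / 2)]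
    have h2 : (n : ℝ) + 1 = (q : ℝ) - 2 * b := by
      rw [hq]
      ring
    rw [h2]

/-- Negative moments of the norm of a standard Gaussian vector. -/
theorem radial_moment (q a : ℕ) (h : 2 * a < q) :
    ∫⁻ g, ENNReal.ofReal ((‖g‖ ^ (2 * a))⁻¹) ∂(stdGaussian (E q)) ≤
      ENNReal.ofReal ((((q : ℝ) - 2 * a) ^ a)⁻¹) := by
  have hq0 : 0 < q := by omega
  have : Nontrivial (E q) := Module.nontrivial_of_finrank_pos (R := ℝ) (by simpa using hq0)
  set c : ℝ := (2 * Real.pi) ^ (-(q : ℝ) / 2) with hc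
  have hcpos : 0 < c := by
    rw [hc]
    exact Real.rpow_pos_of_pos (by positivity) _
  set V : ℝ := (volume : Measure (E q)).real (Metric.ball 0 1) with hV
  have hV0 : 0 ≤ V := measureReal_nonneg
  -- the Bochner integrals
  have hfin : Module.finrank ℝ (E q) = q := by simp
  have hInt : ∀ b : ℕ, 2 * b < q →
      Integrable (fun x : E q => (‖x‖ ^ (2 * b))⁻¹ * Real.exp (-‖x‖ ^ 2 / 2)) ∧
      ∫ x : E q, (‖x‖ ^ (2 * b))⁻¹ * Real.exp (-‖x‖ ^ 2 / 2) =
        q * (V * ((1 / 2 : ℝ) ^ (-((q : ℝ) - 2 * b) / 2) * (1 / 2) *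
          Real.Gamma (((q : ℝ) - 2 * b) / 2))) := by
    intro b hb
    obtain ⟨h1, h2⟩ := radial_J q b hb
    constructor
    · have := (integrable_fun_norm_addHaar (E := E q) (volume : Measure (E q))
        (f := fun y : ℝ => (y ^ (2 * b))⁻¹ * Real.exp (-y ^ 2 / 2))).2
      rw [hfin] at this
      exact this h1
    · have := integral_fun_norm_addHaar (E := E q) (volume : Measure (E q))
        (fun y : ℝ => (y ^ (2 * b))⁻¹ * Real.exp (-y ^ 2 / 2))
      rw [hfin, h2] at this
      rw [this, nsmul_eq_mul, smul_eq_mul]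
  -- the lintegrals
  have hLint : ∀ b : ℕ, 2 * b < q →
      ∫⁻ g, ENNReal.ofReal ((‖g‖ ^ (2 * b))⁻¹) ∂(stdGaussian (E q)) =
        ENNReal.ofReal (c * ∫ x : E q, (‖x‖ ^ (2 * b))⁻¹ * Real.exp (-‖x‖ ^ 2 / 2)) := by
    intro b hb
    have hmeas : Measurable (fun g : E q => ENNReal.ofReal ((‖g‖ ^ (2 * b))⁻¹)) := by
      apply ENNReal.measurable_ofReal.comp
      exact (measurable_norm.pow_const _).inv
    rw [lintegral_stdGaussian_eq _ hmeas, ← integral_const_mul]
    rw [ofReal_integral_eq_lintegral_ofReal ((hInt b hb).1.const_mul c)]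
    · refine lintegral_congr fun x => ?_
      rw [← ENNReal.ofReal_mul (by positivity)]
      congr 1
      ring
    · exact Filter.Eventually.of_forall fun x => by positivity
  -- normalisation
  have hnorm : c * ∫ x : E q, (‖x‖ ^ (2 * 0))⁻¹ * Real.exp (-‖x‖ ^ 2 / 2) = 1 := by
    have h1 := hLint 0 hq0
    have h2 : ∫⁻ g, ENNReal.ofReal ((‖g‖ ^ (2 * 0))⁻¹) ∂(stdGaussian (E q)) = 1 := by
      simp
    rw [h2] at h1
    have h3 := (ENNReal.ofReal_eq_one).1 h1.symm
    exact h3
  rw [hLint a h]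
  apply ENNReal.ofReal_le_ofReal
  obtain ⟨_, hJa⟩ := hInt a h
  obtain ⟨_, hJ0⟩ := hInt 0 hq0
  rw [hJ0] at hnorm
  rw [hJa]
  have hx : 0 < ((q : ℝ) - 2 * a) / 2 := by
    have : ((2 * a : ℕ) : ℝ) < q := by exact_mod_cast h
    push_cast at this
    linarith
  set x := ((q : ℝ) - 2 * a) / 2 with hxdef
  have hDa : 0 < (q : ℝ) - 2 * a := by linarith
  have hGa := gamma_add_nat_ge x hx a
  have hq2 : ((q : ℝ) - 2 * ((0 : ℕ) : ℝ)) / 2 = x + a := by
    rw [hxdef]
    push_cast
    ring
  have hq3 : -((q : ℝ) - 2 * ((0 : ℕ) : ℝ)) / 2 = -x + -(a : ℝ) := by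
    rw [hxdef]
    push_cast
    ring
  have hq4 : -((q : ℝ) - 2 * a) / 2 = -x := by
    rw [hxdef]
    ring
  rw [hq2, hq3] at hnorm
  rw [hq4]
  rw [Real.rpow_add (by norm_num), Real.rpow_neg (by norm_num : (0 : ℝ) ≤ 1 / 2) (a : ℝ),
    Real.rpow_natCast] at hnorm
  set A := (1 / 2 : ℝ) ^ (-x) with hA
  have hApos : 0 < A := Real.rpow_pos_of_pos (by norm_num) _
  have hG0 := Real.Gamma_pos_of_pos hx
  have h2pow : (((1 / 2 : ℝ) ^ a)⁻¹) = 2 ^ a := by
    rw [← inv_pow]
    norm_num
  rw [h2pow] at hnorm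
  have hDx : (q : ℝ) - 2 * a = 2 * x := by
    rw [hxdef]
    ring
  rw [hDx, ← one_div, le_div_iff₀ (by positivity)]
  have hK : 0 ≤ c * ((q : ℝ) * V) := by positivity
  have key : A * (1 / 2) * Real.Gamma x * (2 * x) ^ a ≤
      A * 2 ^ a * (1 / 2) * Real.Gamma (x + a) := by
    have h3 := mul_le_mul_of_nonneg_left hGa (by positivity : 0 ≤ A * 2 ^ a * (1 / 2))
    calc A * (1 / 2) * Real.Gamma x * (2 * x) ^ a
        = A * 2 ^ a * (1 / 2) * (x ^ a * Real.Gamma x) := by
          rw [mul_pow]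
          ring
      _ ≤ _ := h3
  calc c * ((q : ℝ) * (V * (A * (1 / 2) * Real.Gamma x))) * (2 * x) ^ a
      = c * ((q : ℝ) * V) * (A * (1 / 2) * Real.Gamma x * (2 * x) ^ a) := by ring
    _ ≤ c * ((q : ℝ) * V) * (A * 2 ^ a * (1 / 2) * Real.Gamma (x + a)) :=
        mul_le_mul_of_nonneg_left key hK
    _ = c * ((q : ℝ) * (V * (A * 2 ^ a * (1 / 2) * Real.Gamma (x + a)))) := by ring
    _ = 1 := hnorm

/-- Distance to a subspace via the projection. -/
theorem infDist_eq_norm_sub {F : Type*} [NormedAddCommGroup F] [InnerProductSpace ℝ F]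
    (K : Submodule ℝ F) [K.HasOrthogonalProjection] (u : F) :
    Metric.infDist u (K : Set F) = ‖u - K.starProjection u‖ := by
  rw [Metric.infDist_eq_iInf]
  have h := (K.norm_eq_iInf_iff_real_inner_eq_zero (u := u) (v := K.starProjection u)
    (Submodule.starProjection_apply_mem K u)).2 (fun w hw => ?_)
  · rw [h]
    simp only [dist_eq_norm]
  · exact (Submodule.mem_orthogonal' _ _).1 (K.sub_starProjection_mem_orthogonal u) w hw

/-- The coisometry onto `E q`, `q = dim Tᗮ`. -/
noncomputable def projE (T : Submodule ℝ (E k)) :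
    E k →L[ℝ] E (Module.finrank ℝ Tᗮ) :=
  (stdOrthonormalBasis ℝ Tᗮ).repr.toContinuousLinearEquiv.toContinuousLinearMap ∘L
    Tᗮ.orthogonalProjectionOnto

theorem norm_projE (T : Submodule ℝ (E k)) (g : E k) :
    ‖projE T g‖ = Metric.infDist g (T : Set (E k)) := by
  rw [infDist_eq_norm_sub]
  simp only [projE, ContinuousLinearMap.comp_apply]
  have : (stdOrthonormalBasis ℝ Tᗮ).repr.toContinuousLinearEquiv.toContinuousLinearMap
      (Tᗮ.orthogonalProjectionOnto g) = (stdOrthonormalBasis ℝ Tᗮ).repr (Tᗮ.orthogonalProjectionOnto g) := rfl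
  rw [this, LinearIsometryEquiv.norm_map, Submodule.orthogonalProjectionOnto_orthogonal]
  rfl

theorem map_projE (T : Submodule ℝ (E k)) :
    (stdGaussian (E k)).map (projE T) = stdGaussian (E (Module.finrank ℝ Tᗮ)) := by
  set Φ := projE T with hΦ
  apply Measure.ext_of_charFunDual
  ext M
  rw [charFunDual_map]
  -- the norm of `M ∘ Φ`
  let ι : E (Module.finrank ℝ Tᗮ) → E k := fun x => ((stdOrthonormalBasis ℝ Tᗮ).repr.symm x : Tᗮ)
  have hι : ∀ x, ‖ι x‖ = ‖x‖ := by
    intro x
    exact (stdOrthonormalBasis ℝ Tᗮ).repr.symm.norm_map x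
  have hΦι : ∀ x, Φ (ι x) = x := by
    intro x
    simp only [hΦ, projE, ContinuousLinearMap.comp_apply, ι]
    have h1 : Tᗮ.orthogonalProjectionOnto
        ((((stdOrthonormalBasis ℝ Tᗮ).repr.symm x : Tᗮ)) : E k) = (stdOrthonormalBasis ℝ Tᗮ).repr.symm x :=
      Submodule.orthogonalProjectionOnto_mem_subspace_eq_self _
    rw [h1]
    exact (stdOrthonormalBasis ℝ Tᗮ).repr.apply_symm_apply x
  have hΦle : ∀ g, ‖Φ g‖ ≤ ‖g‖ := by
    intro g
    rw [hΦ, norm_projE]
    have := Metric.infDist_le_dist_of_mem (x := g) (y := (0 : E k)) (s := (T : Set (E k))) T.zero_mem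
    simpa using this
  have hnorm : ‖M.comp Φ‖ = ‖M‖ := ?_
  · rw [charFunDual_stdGaussian, charFunDual_stdGaussian, hnorm]
  apply le_antisymm
  · refine ContinuousLinearMap.opNorm_le_bound _ (norm_nonneg _) fun g => ?_
    simp only [ContinuousLinearMap.comp_apply]
    calc ‖M (Φ g)‖ ≤ ‖M‖ * ‖Φ g‖ := M.le_opNorm _
      _ ≤ ‖M‖ * ‖g‖ := mul_le_mul_of_nonneg_left (hΦle g) (norm_nonneg _)
  · refine ContinuousLinearMap.opNorm_le_bound _ (norm_nonneg _) fun x => ?_
    have := (M.comp Φ).le_opNorm (ι x)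
    simp only [ContinuousLinearMap.comp_apply, hΦι, hι] at this
    exact this

/-- Negative moment of the distance of a Gaussian vector to a subspace. -/
theorem negMoment_dist_subspace (T : Submodule ℝ (E k)) (a m : ℕ) (hT : Module.finrank ℝ T ≤ m)
    (ha : m + 2 * a < k) :
    ∫⁻ g, ENNReal.ofReal ((Metric.infDist g (T : Set (E k)) ^ (2 * a))⁻¹) ∂(stdGaussian (E k)) ≤
      ENNReal.ofReal ((((k : ℝ) - m - 2 * a) ^ a)⁻¹) := by
  have hdim : Module.finrank ℝ T + Module.finrank ℝ Tᗮ = k := by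
    have := Submodule.finrank_add_finrank_orthogonal T
    simpa using this
  have hq2 : 2 * a < Module.finrank ℝ Tᗮ := by omega
  have hmeas : Measurable (fun g : E (Module.finrank ℝ Tᗮ) => ENNReal.ofReal ((‖g‖ ^ (2 * a))⁻¹)) := by
    apply ENNReal.measurable_ofReal.comp
    exact (measurable_norm.pow_const _).inv
  have h1 : ∫⁻ g, ENNReal.ofReal ((Metric.infDist g (T : Set (E k)) ^ (2 * a))⁻¹) ∂(stdGaussian (E k)) =
      ∫⁻ g, ENNReal.ofReal ((‖g‖ ^ (2 * a))⁻¹) ∂(stdGaussian (E (Module.finrank ℝ Tᗮ))) := by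
    rw [← map_projE T, lintegral_map hmeas (projE T).continuous.measurable]
    simp only [norm_projE]
  rw [h1]
  refine (radial_moment _ a hq2).trans (ENNReal.ofReal_le_ofReal ?_)
  have hmR : (k : ℝ) = ((Module.finrank ℝ T : ℕ) : ℝ) + ((Module.finrank ℝ Tᗮ : ℕ) : ℝ) := by
    exact_mod_cast hdim.symm
  have hTm : ((Module.finrank ℝ T : ℕ) : ℝ) ≤ m := by exact_mod_cast hT
  have h2 : (0 : ℝ) < (k : ℝ) - m - 2 * a := by
    have : ((m + 2 * a : ℕ) : ℝ) < k := by exact_mod_cast ha
    push_cast at this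
    linarith
  apply inv_anti₀ (by positivity)
  apply pow_le_pow_left₀ h2.le
  linarith

/-- Subspaces are null sets for the Gaussian. -/
theorem stdGaussian_submodule_null (T : Submodule ℝ (E k)) (hT : T ≠ ⊤) :
    stdGaussian (E k) (T : Set (E k)) = 0 := by
  have hTm : MeasurableSet (T : Set (E k)) := T.closed_of_finiteDimensional.measurableSet
  have h := lintegral_stdGaussian_eq (r := k) ((T : Set (E k)).indicator 1)
    (measurable_one.indicator hTm)
  rw [lintegral_indicator_one hTm] at h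
  rw [h]
  have hvol : (volume : Measure (E k)) (T : Set (E k)) = 0 := Measure.addHaar_submodule _ T hT
  have h2 : ∀ᵐ x ∂(volume : Measure (E k)), x ∉ (T : Set (E k)) := by
    rw [ae_iff]
    simpa using hvol
  rw [lintegral_eq_zero_iff' ?_]
  · filter_upwards [h2] with x hx
    simp [Set.indicator_of_notMem hx]
  · refine ((measurable_one.indicator hTm).mul ?_).aemeasurable
    apply ENNReal.measurable_ofReal.comp
    fun_prop

theorem Aop_apply (X : Mat d k) (v : E d) (j : Fin k) : (Aop X v) j = inner ℝ (X j) v := rfl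

theorem measurable_Aop_right (v : E d) : Measurable (fun X : Mat d k => Aop X v) := by
  have h := measurable_Aop (d := d) (r := k)
  have h2 : Measurable (fun X : Mat d k => (X, v)) := measurable_id.prodMk measurable_const
  exact h.comp h2

theorem measurable_dS_Aop {ι : Type*} [Fintype ι] (u : ι → E d) (z : E d) :
    Measurable (fun X : Mat d k => dS (fun j => Aop X (u j)) (Aop X z)) := by
  have h := measurable_dS (ι := ι) (F := E k)
  have h1 : Measurable (fun X : Mat d k => (fun j => Aop X (u j) : ι → E k)) :=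
    measurable_pi_iff.2 fun j => measurable_Aop_right (u j)
  have h2 : Measurable (fun X : Mat d k => ((fun j => Aop X (u j) : ι → E k), Aop X z)) :=
    h1.prodMk (measurable_Aop_right z)
  have h3 := h.comp h2
  exact h3

/-- The resampled matrix. -/
noncomputable def resam (w : E d) (X : Mat d k) (y : Fin k → ℝ) : Mat d k :=
  fun j => X j - (inner ℝ (X j) w : ℝ) • w + (y j) • w

theorem measurable_resam (w : E d) :
    Measurable (fun p : Mat d k × (Fin k → ℝ) => resam w p.1 p.2) := by
  refine measurable_pi_iff.2 fun j => ?_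
  have h1 : Measurable (fun p : Mat d k × (Fin k → ℝ) => p.1 j) :=
    (measurable_pi_apply j).comp measurable_fst
  have h2 : Measurable (fun p : Mat d k × (Fin k → ℝ) => p.2 j) :=
    (measurable_pi_apply j).comp measurable_snd
  have h3 : Measurable (fun p : Mat d k × (Fin k → ℝ) => (inner ℝ (p.1 j) w : ℝ)) :=
    h1.inner measurable_const
  have h4 : Measurable (fun p : Mat d k × (Fin k → ℝ) => (inner ℝ (p.1 j) w : ℝ) • w) :=
    h3.smul_const w
  have h5 : Measurable (fun p : Mat d k × (Fin k → ℝ) => (p.2 j) • w) := h2.smul_const w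
  have h6 := (h1.sub h4).add h5
  exact h6

theorem Aop_resam_of_perp {w v : E d} (hv : inner ℝ w v = (0 : ℝ)) (X : Mat d k)
    (y : Fin k → ℝ) : Aop (resam w X y) v = Aop X v := by
  ext j
  simp only [Aop_apply, resam]
  rw [inner_add_left, inner_sub_left, inner_smul_left, inner_smul_left, hv]
  simp

theorem Aop_resam_self {w : E d} (hw : ‖w‖ = 1) (X : Mat d k) (y : Fin k → ℝ) :
    Aop (resam w X y) w = WithLp.toLp 2 y := by
  ext j
  simp only [Aop_apply, resam]
  rw [inner_add_left, inner_sub_left, inner_smul_left, inner_smul_left, real_inner_self_eq_norm_sq, hw]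
  simp

theorem projE_of_mem (T : Submodule ℝ (E k)) {t : E k} (ht : t ∈ T) : projE T t = 0 := by
  rw [← norm_eq_zero, norm_projE]
  exact Metric.infDist_zero_of_mem ht

/-- Distance after a translation in the subspace and a dilation. -/
theorem infDist_add_smul (T : Submodule ℝ (E k)) {t : E k} (ht : t ∈ T) (g : E k) {c : ℝ}
    (hc : 0 ≤ c) :
    Metric.infDist (t + c • g) (T : Set (E k)) = c * Metric.infDist g (T : Set (E k)) := by
  rw [← norm_projE, ← norm_projE, map_add, map_smul, projE_of_mem T ht, zero_add, norm_smul,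
    Real.norm_of_nonneg hc]

/-- Decomposition of `z` relative to the span of `u`. -/
theorem exists_decomp {ι : Type*} [Fintype ι] (u : ι → E d) (z : E d) (hw : 0 < dS u z) :
    ∃ (p w : E d), p ∈ Submodule.span ℝ (Set.range u) ∧ ‖w‖ = 1 ∧
      (∀ v ∈ Submodule.span ℝ (Set.range u), inner ℝ w v = (0 : ℝ)) ∧
      z = p + dS u z • w := by
  set W := Submodule.span ℝ (Set.range u) with hW
  set D := dS u z with hD
  set p := W.starProjection z with hp
  have hDeq : D = ‖z - p‖ := infDist_eq_norm_sub W z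
  have hperp : ∀ v ∈ W, inner ℝ (z - p) v = (0 : ℝ) := fun v hv =>
    (Submodule.mem_orthogonal' _ _).1 (W.sub_starProjection_mem_orthogonal z) v hv
  refine ⟨p, D⁻¹ • (z - p), Submodule.starProjection_apply_mem W z, ?_, fun v hv => ?_, ?_⟩
  · rw [norm_smul, norm_inv, Real.norm_of_nonneg hw.le, ← hDeq, inv_mul_cancel₀ hw.ne']
  · rw [inner_smul_left, hperp v hv]
    simp
  · rw [smul_smul, mul_inv_cancel₀ hw.ne', one_smul]
    abel

/-- Finrank of the image of the span. -/
theorem finrank_span_Aop_le {ι : Type*} [Fintype ι] (u : ι → E d) (X : Mat d k) :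
    Module.finrank ℝ (Submodule.span ℝ (Set.range fun j => Aop X (u j))) ≤
      Module.finrank ℝ (Submodule.span ℝ (Set.range u)) := by
  have h : Submodule.span ℝ (Set.range fun j => Aop X (u j)) =
      (Submodule.span ℝ (Set.range u)).map (Aop X) := by
    rw [Submodule.map_span, ← Set.range_comp]
    rfl
  rw [h]
  exact Submodule.finrank_map_le _ _

theorem Aop_mem_span {ι : Type*} [Fintype ι] (u : ι → E d) (X : Mat d k) {p : E d}
    (hp : p ∈ Submodule.span ℝ (Set.range u)) :
    Aop X p ∈ Submodule.span ℝ (Set.range fun j => Aop X (u j)) := by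
  have h : Submodule.span ℝ (Set.range fun j => Aop X (u j)) =
      (Submodule.span ℝ (Set.range u)).map (Aop X) := by
    rw [Submodule.map_span, ← Set.range_comp]
    rfl
  rw [h]
  exact Submodule.mem_map_of_mem hp

/-- T1: the first-moment bound for the kernel. -/
theorem kernel_first_moment {ι : Type*} [Fintype ι] (u : ι → E d) (z : E d) (a m : ℕ)
    (hT : Module.finrank ℝ (Submodule.span ℝ (Set.range u)) ≤ m) (ha : m + 2 * a < k)
    (hw : 0 < dS u z) (t₀ : ℝ) (ht : 0 < t₀) :
    ∫ X, ((max (dS (fun j => Aop X (u j)) (Aop X z)) t₀) ^ (2 * a))⁻¹ ∂(gam d k) ≤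
      (((k : ℝ) - m - 2 * a) ^ a)⁻¹ * ((dS u z) ^ (2 * a))⁻¹ := by
  obtain ⟨p, w, hpW, hwn, hperp, hz⟩ := exists_decomp u z hw
  set D := dS u z with hD
  set F : Mat d k → ℝ := fun X => ((max (dS (fun j => Aop X (u j)) (Aop X z)) t₀) ^ (2 * a))⁻¹ with hF
  have hFm : Measurable F :=
    (((measurable_dS_Aop u z).max measurable_const).pow_const _).inv
  have hF0 : ∀ X, 0 ≤ F X := fun X => by
    have : 0 < max (dS (fun j => Aop X (u j)) (Aop X z)) t₀ := lt_max_of_lt_right ht
    simp only [hF]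
    positivity
  have hk0 : (0 : ℝ) < (k : ℝ) - m - 2 * a := by
    have : ((m + 2 * a : ℕ) : ℝ) < k := by exact_mod_cast ha
    push_cast at this
    linarith
  set C : ℝ := (((k : ℝ) - m - 2 * a) ^ a)⁻¹ * (D ^ (2 * a))⁻¹ with hC
  have hC0 : 0 ≤ C := by positivity
  rw [integral_eq_lintegral_of_nonneg_ae (Filter.Eventually.of_forall hF0)
    hFm.aestronglyMeasurable]
  apply ENNReal.toReal_le_of_le_ofReal hC0
  have hG := resample_mat (r := k) w hwn
  have hθm := measurable_resam (k := k) w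
  have hFE : Measurable (fun X => ENNReal.ofReal (F X)) := ENNReal.measurable_ofReal.comp hFm
  have h1 : ∫⁻ X, ENNReal.ofReal (F X) ∂(gam d k) =
      ∫⁻ X, ∫⁻ y, ENNReal.ofReal (F (resam w X y)) ∂(Measure.pi fun _ : Fin k => gaussianReal 0 1)
        ∂(gam d k) := by
    conv_lhs => rw [← hG]
    rw [lintegral_map hFE (by exact hθm)]
    exact lintegral_prod _ (hFE.comp hθm).aemeasurable
  rw [h1]
  have hinner : ∀ X, ∫⁻ y, ENNReal.ofReal (F (resam w X y))
      ∂(Measure.pi fun _ : Fin k => gaussianReal 0 1) ≤ ENNReal.ofReal C := by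
    intro X
    set T := Submodule.span ℝ (Set.range fun j => Aop X (u j)) with hTdef
    have hTm : Module.finrank ℝ T ≤ m := (finrank_span_Aop_le u X).trans hT
    have hTtop : T ≠ ⊤ := by
      intro htop
      have h2 : Module.finrank ℝ T = k := by
        rw [htop, finrank_top]
        simp
      omega
    have hmapπ := map_pi_eq_stdGaussian (ι := Fin k)
    have htoLp : Measurable (WithLp.toLp 2 : (Fin k → ℝ) → E k) :=
      (PiLp.continuous_toLp 2 _).measurable
    have hTmeas : MeasurableSet (T : Set (E k)) := T.closed_of_finiteDimensional.measurableSet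
    have hnull : ∀ᵐ y ∂(Measure.pi fun _ : Fin k => gaussianReal 0 1),
        WithLp.toLp 2 y ∉ (T : Set (E k)) := by
      rw [ae_iff]
      simp only [not_not]
      have := stdGaussian_submodule_null T hTtop
      rw [← hmapπ, Measure.map_apply htoLp hTmeas] at this
      exact this
    have hpt : ∀ᵐ y ∂(Measure.pi fun _ : Fin k => gaussianReal 0 1),
        ENNReal.ofReal (F (resam w X y)) ≤ ENNReal.ofReal ((D ^ (2 * a))⁻¹) *
          ENNReal.ofReal ((Metric.infDist (WithLp.toLp 2 y) (T : Set (E k)) ^ (2 * a))⁻¹) := by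
      filter_upwards [hnull] with y hy
      rw [← ENNReal.ofReal_mul (by positivity)]
      apply ENNReal.ofReal_le_ofReal
      have hδ : 0 < Metric.infDist (WithLp.toLp 2 y) (T : Set (E k)) :=
        (T.closed_of_finiteDimensional.notMem_iff_infDist_pos ⟨0, T.zero_mem⟩).1 hy
      set δ := Metric.infDist (WithLp.toLp 2 y) (T : Set (E k)) with hδdef
      have hu : (fun j => Aop (resam w X y) (u j)) = fun j => Aop X (u j) := by
        funext j
        exact Aop_resam_of_perp (hperp _ (Submodule.subset_span ⟨j, rfl⟩)) X y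
      have hAz : Aop (resam w X y) z = Aop X p + D • WithLp.toLp 2 y := by
        rw [hz, map_add, map_smul, Aop_resam_of_perp (hperp p hpW), Aop_resam_self hwn]
      have hdist : dS (fun j => Aop (resam w X y) (u j)) (Aop (resam w X y) z) = D * δ := by
        rw [hu, hAz, dS, ← hTdef, infDist_add_smul T (Aop_mem_span u X hpW) _ hw.le]
      have hmax : D * δ ≤ max (dS (fun j => Aop (resam w X y) (u j)) (Aop (resam w X y) z)) t₀ := by
        rw [hdist]
        exact le_max_left _ _
      have hDδ : 0 < D * δ := mul_pos hw hδ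
      simp only [hF]
      calc ((max (dS (fun j => Aop (resam w X y) (u j)) (Aop (resam w X y) z)) t₀) ^ (2 * a))⁻¹
          ≤ ((D * δ) ^ (2 * a))⁻¹ := by
            apply inv_anti₀ (by positivity)
            exact pow_le_pow_left₀ hDδ.le hmax _
        _ = (D ^ (2 * a))⁻¹ * (δ ^ (2 * a))⁻¹ := by
            rw [mul_pow, mul_inv]
    have hmeas2 : Measurable (fun g : E k =>
        ENNReal.ofReal ((Metric.infDist g (T : Set (E k)) ^ (2 * a))⁻¹)) := by
      apply ENNReal.measurable_ofReal.comp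
      exact ((Metric.continuous_infDist_pt _).measurable.pow_const _).inv
    calc ∫⁻ y, ENNReal.ofReal (F (resam w X y)) ∂(Measure.pi fun _ : Fin k => gaussianReal 0 1)
        ≤ ∫⁻ y, ENNReal.ofReal ((D ^ (2 * a))⁻¹) *
          ENNReal.ofReal ((Metric.infDist (WithLp.toLp 2 y) (T : Set (E k)) ^ (2 * a))⁻¹)
            ∂(Measure.pi fun _ : Fin k => gaussianReal 0 1) := lintegral_mono_ae hpt
      _ = ENNReal.ofReal ((D ^ (2 * a))⁻¹) * ∫⁻ g,
          ENNReal.ofReal ((Metric.infDist g (T : Set (E k)) ^ (2 * a))⁻¹) ∂(stdGaussian (E k)) := by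
          rw [lintegral_const_mul' _ _ ENNReal.ofReal_ne_top, ← hmapπ, lintegral_map hmeas2 htoLp]
      _ ≤ ENNReal.ofReal ((D ^ (2 * a))⁻¹) * ENNReal.ofReal ((((k : ℝ) - m - 2 * a) ^ a)⁻¹) := by
          gcongr
          exact negMoment_dist_subspace T a m hTm ha
      _ = ENNReal.ofReal C := by
          rw [← ENNReal.ofReal_mul (by positivity), hC, mul_comm]
  calc ∫⁻ X, ∫⁻ y, ENNReal.ofReal (F (resam w X y)) ∂(Measure.pi fun _ : Fin k => gaussianReal 0 1)
        ∂(gam d k) ≤ ∫⁻ _X, ENNReal.ofReal C ∂(gam d k) := lintegral_mono hinner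
    _ = ENNReal.ofReal C := by
        rw [lintegral_const, measure_univ, mul_one]

/-- `log max(‖g‖,1)` under the standard Gaussian. -/
theorem log_max_norm_bound (g : E k) :
    Real.log (max ‖g‖ 1) ≤ (1 / 2) * (Real.log (k + 1) + (1 + ‖g‖ ^ 2) / (k + 1) - 1) := by
  have hk : (0 : ℝ) < (k : ℝ) + 1 := by positivity
  have hm : 0 < max ‖g‖ 1 := lt_max_of_lt_right one_pos
  have h1 : (max ‖g‖ 1) ^ 2 ≤ 1 + ‖g‖ ^ 2 := by
    rcases le_total ‖g‖ 1 with h | h
    · rw [max_eq_right h]
      nlinarith [sq_nonneg ‖g‖]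
    · rw [max_eq_left h]
      linarith
  have h2 : Real.log ((max ‖g‖ 1) ^ 2 / (k + 1)) ≤ (max ‖g‖ 1) ^ 2 / (k + 1) - 1 :=
    Real.log_le_sub_one_of_pos (by positivity)
  rw [Real.log_div (by positivity) hk.ne', Real.log_pow] at h2
  have h3 : (max ‖g‖ 1) ^ 2 / ((k : ℝ) + 1) ≤ (1 + ‖g‖ ^ 2) / (k + 1) := by gcongr
  push_cast at h2
  linarith

theorem log_max_norm_nonneg (g : E k) : 0 ≤ Real.log (max ‖g‖ 1) :=
  Real.log_nonneg (le_max_right _ _)

theorem measurable_log_max_norm : Measurable (fun g : E k => Real.log (max ‖g‖ 1)) :=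
  Real.measurable_log.comp (measurable_norm.max measurable_const)

theorem integrable_log_max_norm :
    Integrable (fun g : E k => Real.log (max ‖g‖ 1)) (stdGaussian (E k)) := by
  have hb : Integrable (fun g : E k => (1 / 2) * (Real.log (k + 1) + (1 + ‖g‖ ^ 2) / (k + 1) - 1))
      (stdGaussian (E k)) := by
    refine Integrable.const_mul ?_ _
    refine Integrable.sub ?_ (integrable_const _)
    refine Integrable.add (integrable_const _) ?_
    exact ((integrable_const _).add integrable_norm_sq_stdGaussian).div_const _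
  refine hb.mono' measurable_log_max_norm.aestronglyMeasurable
    (Filter.Eventually.of_forall fun g => ?_)
  rw [Real.norm_of_nonneg (log_max_norm_nonneg g)]
  exact log_max_norm_bound g

theorem integral_log_max_norm_le :
    ∫ g, Real.log (max ‖g‖ 1) ∂(stdGaussian (E k)) ≤ (1 / 2) * Real.log (k + 1) := by
  have hk : (0 : ℝ) < (k : ℝ) + 1 := by positivity
  have h2 : Integrable (fun g : E k => ‖g‖ ^ 2) (stdGaussian (E k)) :=
    integrable_norm_sq_stdGaussian
  have hb1 : Integrable (fun g : E k => (1 + ‖g‖ ^ 2) / ((k : ℝ) + 1)) (stdGaussian (E k)) :=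
    ((integrable_const _).add h2).div_const _
  have hb0 : Integrable (fun g : E k => Real.log (k + 1) + (1 + ‖g‖ ^ 2) / ((k : ℝ) + 1))
      (stdGaussian (E k)) := (integrable_const _).add hb1
  have hb2 : Integrable (fun g : E k => Real.log (k + 1) + (1 + ‖g‖ ^ 2) / ((k : ℝ) + 1) - 1)
      (stdGaussian (E k)) :=
    hb0.sub (integrable_const _)
  have hmono := integral_mono integrable_log_max_norm (hb2.const_mul (1 / 2)) log_max_norm_bound
  refine hmono.trans (le_of_eq ?_)
  rw [integral_const_mul, integral_sub hb0 (integrable_const _),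
    integral_add (integrable_const _) hb1, integral_div, integral_add (integrable_const _) h2,
    integral_norm_sq_stdGaussian]
  simp only [integral_const, probReal_univ, one_smul]
  field_simp
  ring

/-- Pointwise bound in T2. -/
theorem log_max_dS_le {ι : Type*} [Fintype ι] (u : ι → E d) (z : E d) (hw : 0 < dS u z)
    {p w : E d} (hp : p ∈ Submodule.span ℝ (Set.range u)) (hz : z = p + dS u z • w)
    (t₀ : ℝ) (ht : 0 < t₀) (X : Mat d k) :
    Real.log (max (dS (fun j => Aop X (u j)) (Aop X z)) t₀) ≤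
      Real.log (max (dS u z) t₀) + Real.log (max ‖Aop X w‖ 1) := by
  set D := dS u z with hD
  have h0 : 0 < max D t₀ := lt_max_of_lt_right ht
  have h1 : 0 < max ‖Aop X w‖ 1 := lt_max_of_lt_right one_pos
  rw [← Real.log_mul h0.ne' h1.ne']
  apply Real.log_le_log (lt_max_of_lt_right ht)
  apply max_le
  · have h2 : dS (fun j => Aop X (u j)) (Aop X z) ≤ dist (Aop X z) (Aop X p) :=
      Metric.infDist_le_dist_of_mem (Aop_mem_span u X hp)
    have h3 : dist (Aop X z) (Aop X p) = D * ‖Aop X w‖ := by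
      rw [dist_eq_norm, hz, map_add, map_smul, add_sub_cancel_left, norm_smul,
        Real.norm_of_nonneg hw.le]
    rw [h3] at h2
    refine h2.trans ?_
    exact mul_le_mul (le_max_left _ _) (le_max_left _ _) (norm_nonneg _) h0.le
  · calc t₀ ≤ max D t₀ := le_max_right _ _
      _ = max D t₀ * 1 := (mul_one _).symm
      _ ≤ max D t₀ * max ‖Aop X w‖ 1 := mul_le_mul_of_nonneg_left (le_max_right _ _) h0.le

/-- If `z` lies in the span, the kernel is constant. -/
theorem dS_Aop_zero {ι : Type*} [Fintype ι] (u : ι → E d) (z : E d) (hw : dS u z = 0)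
    (X : Mat d k) : dS (fun j => Aop X (u j)) (Aop X z) = 0 := by
  have h1 : z ∈ Submodule.span ℝ (Set.range u) := by
    have hc : IsClosed ((Submodule.span ℝ (Set.range u) : Submodule ℝ (E d)) : Set (E d)) :=
      Submodule.closed_of_finiteDimensional _
    exact (hc.mem_iff_infDist_zero ⟨0, Submodule.zero_mem _⟩).2 hw
  exact Metric.infDist_zero_of_mem (Aop_mem_span u X h1)

theorem measurable_log_max_dS {ι : Type*} [Fintype ι] (u : ι → E d) (z : E d) (t₀ : ℝ) :
    Measurable (fun X : Mat d k => Real.log (max (dS (fun j => Aop X (u j)) (Aop X z)) t₀)) :=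
  Real.measurable_log.comp ((measurable_dS_Aop u z).max measurable_const)

theorem measurable_log_max_Aop (w : E d) :
    Measurable (fun X : Mat d k => Real.log (max ‖Aop X w‖ 1)) := by
  have h : Measurable (fun g : E k => Real.log (max ‖g‖ 1)) := measurable_log_max_norm
  have h2 := h.comp (measurable_Aop_right (k := k) w)
  exact h2

/-- Integrability of the dominating term, and its integral. -/
theorem log_max_Aop_moment (w : E d) (hw : ‖w‖ = 1) :
    Integrable (fun X : Mat d k => Real.log (max ‖Aop X w‖ 1)) (gam d k) ∧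
      ∫ X, Real.log (max ‖Aop X w‖ 1) ∂(gam d k) ≤ (1 / 2) * Real.log (k + 1) := by
  have hmap := gam_map_Aop (r := k) w hw
  have hm : Measurable (fun X : Mat d k => Aop X w) := measurable_Aop_right w
  have hL : Measurable (fun g : E k => Real.log (max ‖g‖ 1)) := measurable_log_max_norm
  constructor
  · have h := (integrable_log_max_norm (k := k))
    rw [← hmap] at h
    exact h.comp_measurable hm
  · have h : ∫ g, Real.log (max ‖g‖ 1) ∂((gam d k).map (fun X => Aop X w)) =
        ∫ X, Real.log (max ‖Aop X w‖ 1) ∂(gam d k) :=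
      integral_map hm.aemeasurable hL.aestronglyMeasurable
    rw [← h, hmap]
    exact integral_log_max_norm_le

/-- T2: the logarithmic bound for the kernel. -/
theorem kernel_log_moment {ι : Type*} [Fintype ι] (u : ι → E d) (z : E d) (t₀ : ℝ) (ht : 0 < t₀) :
    ∫ X, Real.log (max (dS (fun j => Aop X (u j)) (Aop X z)) t₀) ∂(gam d k) ≤
      Real.log (max (dS u z) t₀) + (1 / 2) * Real.log (k + 1) := by
  have hk : (0 : ℝ) ≤ Real.log ((k : ℝ) + 1) := Real.log_nonneg (by
    have : (0 : ℝ) ≤ k := Nat.cast_nonneg k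
    linarith)
  rcases (Metric.infDist_nonneg : 0 ≤ dS u z).eq_or_lt with h0 | hpos
  · have h1 : ∀ X : Mat d k, Real.log (max (dS (fun j => Aop X (u j)) (Aop X z)) t₀) =
        Real.log (max 0 t₀) := by
      intro X
      rw [dS_Aop_zero u z h0.symm X]
    simp only [h1]
    have h0' : dS u z = 0 := h0.symm
    rw [h0', integral_const, probReal_univ, one_smul]
    linarith
  · obtain ⟨p, w, hp, hwn, _, hz⟩ := exists_decomp u z hpos
    obtain ⟨hi, hle⟩ := log_max_Aop_moment (k := k) w hwn
    have hint : Integrable (fun X : Mat d k => Real.log (max (dS u z) t₀) +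
        Real.log (max ‖Aop X w‖ 1)) (gam d k) := (integrable_const _).add hi
    have h3 : Integrable (fun X : Mat d k =>
        Real.log (max (dS (fun j => Aop X (u j)) (Aop X z)) t₀)) (gam d k) := by
      have hb : Integrable (fun X : Mat d k => |Real.log t₀| + |Real.log (max (dS u z) t₀)| +
          Real.log (max ‖Aop X w‖ 1)) (gam d k) := (integrable_const _).add hi
      refine hb.mono' (measurable_log_max_dS u z t₀).aestronglyMeasurable
        (Filter.Eventually.of_forall fun X => ?_)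
      have h4 := log_max_dS_le u z hpos hp hz t₀ ht X
      have h5 : Real.log t₀ ≤ Real.log (max (dS (fun j => Aop X (u j)) (Aop X z)) t₀) :=
        Real.log_le_log ht (le_max_right _ _)
      have h6 := log_max_norm_nonneg (Aop X w)
      rw [Real.norm_eq_abs, abs_le]
      constructor
      · linarith [neg_abs_le (Real.log t₀), abs_nonneg (Real.log (max (dS u z) t₀))]
      · linarith [le_abs_self (Real.log (max (dS u z) t₀)), abs_nonneg (Real.log t₀)]
    have hmono := integral_mono h3 hint (log_max_dS_le u z hpos hp hz t₀ ht)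
    refine hmono.trans ?_
    rw [integral_add (integrable_const _) hi, integral_const, probReal_univ, one_smul]
    linarith

/-- Integrability that goes with T2. -/
theorem kernel_log_integrable {ι : Type*} [Fintype ι] (u : ι → E d) (z : E d) (t₀ : ℝ)
    (ht : 0 < t₀) :
    Integrable (fun X => Real.log (max (dS (fun j => Aop X (u j)) (Aop X z)) t₀)) (gam d k) := by
  rcases (Metric.infDist_nonneg : 0 ≤ dS u z).eq_or_lt with h0 | hpos
  · have h1 : ∀ X : Mat d k, Real.log (max (dS (fun j => Aop X (u j)) (Aop X z)) t₀) =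
        Real.log (max 0 t₀) := by
      intro X
      rw [dS_Aop_zero u z h0.symm X]
    simp only [h1]
    exact integrable_const _
  · obtain ⟨p, w, hp, hwn, _, hz⟩ := exists_decomp u z hpos
    obtain ⟨hi, hle⟩ := log_max_Aop_moment (k := k) w hwn
    have hb : Integrable (fun X : Mat d k => |Real.log t₀| + |Real.log (max (dS u z) t₀)| +
        Real.log (max ‖Aop X w‖ 1)) (gam d k) := (integrable_const _).add hi
    refine hb.mono' (measurable_log_max_dS u z t₀).aestronglyMeasurable
      (Filter.Eventually.of_forall fun X => ?_)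
    have h4 := log_max_dS_le u z hpos hp hz t₀ ht X
    have h5 : Real.log t₀ ≤ Real.log (max (dS (fun j => Aop X (u j)) (Aop X z)) t₀) :=
      Real.log_le_log ht (le_max_right _ _)
    have h6 := log_max_norm_nonneg (Aop X w)
    rw [Real.norm_eq_abs, abs_le]
    constructor
    · linarith [neg_abs_le (Real.log t₀), abs_nonneg (Real.log (max (dS u z) t₀))]
    · linarith [le_abs_self (Real.log (max (dS u z) t₀)), abs_nonneg (Real.log t₀)]

end Crest.Agent.MS
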