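import Crest.Agent.Lib.MS.SphereBasic

/-!
# S0499 module `SphereFlat`: the uniform law near a flat.

All constants are very crude on purpose: only `log C = O(d log d)` matters.

`sig_nearFlat_le` proof: let `A` be the set.  For `τ ∈ (1-t,1)` and `s ∈ A`, `x = τ s` satisfies
`dist(x - a, W) ≤ 2t` and `‖x‖ ≤ 1`.  In an orthonormal basis adapted to `W` (dim `m' ≤ m`) this point
lies in a box of volume `2^{m'} (4t)^{d-m'}`.  The truncated cone has volume
`σ(A) vol(B₁) (1-(1-t)^d) ≥ σ(A) vol(B₁) t`, and `vol(B₁) ≥ (2/√d)^d` (cube inside the ball, or the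
formula `EuclideanSpace.volume_ball`). Hence `σ(A) ≤ (2√d)^d t^{d-m-1}`.

`sig_negMoment_le`: layer cake over dyadic scales `t = 2^{-j}`:
`(max D t₀)^{-l} ≤ 1 + ∑_j 2^{(j+1) l} 1{D < 2^{-j}}`, then sum the geometric series (ratio `≤ 1/2`
because `l + 1 + m + 1 ≤ d`).
-/

set_option autoImplicit false

namespace Crest.Agent.MS

open MeasureTheory ProbabilityTheory
open Crest.StreamLearn (E Sphere sphereUniform)

variable {d : ℕ}

private lemma finrank_E' : Module.finrank ℝ (E d) = d := by simp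

/-- Volume of a box in an orthonormal basis. -/
private lemma vol_box (b : OrthonormalBasis (Fin d) ℝ (E d)) (lo hi : Fin d → ℝ) :
    (volume : Measure (E d)) {x | ∀ i, inner ℝ (b i) x ∈ Set.Icc (lo i) (hi i)} =
      ∏ i, ENNReal.ofReal (hi i - lo i) := by
  have hmp : MeasurePreserving (fun x : E d => WithLp.ofLp (b.repr x)) volume volume :=
    (PiLp.volume_preserving_ofLp (Fin d)).comp b.measurePreserving_repr
  have hset : {x : E d | ∀ i, inner ℝ (b i) x ∈ Set.Icc (lo i) (hi i)} =
      (fun x : E d => WithLp.ofLp (b.repr x)) ⁻¹' (Set.Icc lo hi) := by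
    ext x
    simp only [Set.mem_ofPred_eq, Set.mem_preimage, Set.mem_Icc, Pi.le_def,
      ← forall_and]
    refine forall_congr' fun i => ?_
    rw [← b.repr_apply_apply]
  rw [hset, hmp.measure_preimage measurableSet_Icc.nullMeasurableSet, Real.volume_Icc_pi]

/-- The unit ball contains a cube. -/
private lemma bv_ge (hd : 0 < d) :
    (2 / Real.sqrt d) ^ d ≤ (volume : Measure (E d)).real (Metric.ball 0 1) := by
  have hd' : (0 : ℝ) < d := by exact_mod_cast hd
  have hs : 0 < Real.sqrt d := Real.sqrt_pos.2 hd'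
  have : Nontrivial (E d) := Module.nontrivial_of_finrank_pos (R := ℝ) (by simpa using hd)
  set c := 1 / Real.sqrt d with hc
  have hcpos : 0 < c := by positivity
  have hcube := vol_box (EuclideanSpace.basisFun (Fin d) ℝ) (fun _ => -c) (fun _ => c)
  have hsub : {x : E d | ∀ i, inner ℝ ((EuclideanSpace.basisFun (Fin d) ℝ) i) x ∈
      Set.Icc (-c) c} ⊆ Metric.closedBall 0 1 := by
    intro x hx
    have hcoord : ∀ i, (x i) ^ 2 ≤ c ^ 2 := by
      intro i
      have h1 := hx i
      rw [← OrthonormalBasis.repr_apply_apply] at h1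
      simp only [EuclideanSpace.basisFun_repr] at h1
      exact sq_le_sq' h1.1 h1.2
    simp only [Metric.mem_closedBall, dist_zero_right]
    rw [EuclideanSpace.norm_eq]
    have h2 : ∑ i, ‖x i‖ ^ 2 ≤ 1 := by
      calc ∑ i, ‖x i‖ ^ 2 = ∑ i, (x i) ^ 2 := by simp
        _ ≤ ∑ _i : Fin d, c ^ 2 := Finset.sum_le_sum fun i _ => hcoord i
        _ = 1 := by
          simp only [Finset.sum_const, Finset.card_univ, Fintype.card_fin, nsmul_eq_mul]
          rw [hc, div_pow, Real.sq_sqrt hd'.le]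
          field_simp
    calc Real.sqrt (∑ i, ‖x i‖ ^ 2) ≤ Real.sqrt 1 := Real.sqrt_le_sqrt h2
      _ = 1 := Real.sqrt_one
  have hle := measure_mono (μ := (volume : Measure (E d))) hsub
  rw [hcube, Measure.addHaar_closedBall_eq_addHaar_ball] at hle
  have hreal := ENNReal.toReal_mono measure_ball_lt_top.ne hle
  rw [ENNReal.toReal_prod] at hreal
  refine le_trans (le_of_eq ?_) hreal
  simp only [Finset.prod_const, Finset.card_univ, Fintype.card_fin]
  rw [ENNReal.toReal_ofReal (by linarith)]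
  congr 1
  rw [hc]
  ring

/-- An orthonormal basis adapted to a subspace. -/
private lemma exists_adapted (W : Submodule ℝ (E d)) :
    ∃ (b : OrthonormalBasis (Fin d) ℝ (E d)) (S : Finset (Fin d)),
      S.card = Module.finrank ℝ W ∧ ∀ i, i ∉ S → ∀ w ∈ W, inner ℝ (b i) w = 0 := by
  classical
  set m' := Module.finrank ℝ W with hm'
  have hm'd : m' ≤ d := by
    have := Submodule.finrank_le W
    simpa using this
  let e := stdOrthonormalBasis ℝ W
  let em : Fin m' → Fin d := Fin.castLE hm'd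
  have hem : Function.Injective em := Fin.castLE_injective hm'd
  -- the partial family
  let v : Fin d → E d := fun i => if h : (i : ℕ) < m' then (e ⟨i, h⟩ : E d) else 0
  let S : Set (Fin d) := {i | (i : ℕ) < m'}
  have hv : Orthonormal ℝ (S.domRestrict v) := by
    have he := e.orthonormal
    rw [orthonormal_iff_ite] at he ⊢
    rintro ⟨i, hi⟩ ⟨j, hj⟩
    have hi' : (i : ℕ) < m' := hi
    have hj' : (j : ℕ) < m' := hj
    have hvi : v i = (e ⟨i, hi'⟩ : E d) := dif_pos hi'
    have hvj : v j = (e ⟨j, hj'⟩ : E d) := dif_pos hj'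
    show inner ℝ (v i) (v j) = _
    have h1 := he ⟨i, hi'⟩ ⟨j, hj'⟩
    rw [Submodule.coe_inner] at h1
    rw [hvi, hvj, h1]
    simp [Fin.ext_iff]
  obtain ⟨b, hb⟩ := hv.exists_orthonormalBasis_extension_of_card_eq
    (by simp : Module.finrank ℝ (E d) = Fintype.card (Fin d))
  refine ⟨b, Finset.univ.map ⟨em, hem⟩, ?_, ?_⟩
  · simp [m']
  · intro i hi w hw
    have hi' : ¬ (i : ℕ) < m' := by
      intro h
      apply hi
      simp only [Finset.mem_map, Finset.mem_univ, true_and, Function.Embedding.coeFn_mk]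
      exact ⟨⟨i, h⟩, by ext; rfl⟩
    have hw' := e.sum_repr' ⟨w, hw⟩
    have hw2 : w = ∑ j, (inner ℝ (e j) (⟨w, hw⟩ : W)) • ((e j : W) : E d) := by
      have := congrArg (Subtype.val) hw'
      simpa using this.symm
    rw [hw2, inner_sum]
    refine Finset.sum_eq_zero fun j _ => ?_
    rw [inner_smul_right]
    have hbj : ((e j : W) : E d) = b (em j) := by
      have h1 := hb (em j) (by show ((em j : Fin d) : ℕ) < m'; simp [em])
      rw [h1]
      simp [v, em]
    rw [hbj]
    have hne : i ≠ em j := by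
      intro h
      apply hi'
      rw [h]
      simp [em]
    rw [orthonormal_iff_ite.1 b.orthonormal i (em j), if_neg hne, mul_zero]

/-- The set near a flat is open in the sphere. -/
private lemma continuous_D {ι : Type*} (u : ι → E d) (a : E d) :
    Continuous fun s : Sph d => dS u ((s : E d) - a) :=
  (Metric.continuous_infDist_pt _).comp (continuous_subtype_val.sub continuous_const)

/-- `σ`-measure of the `t`-neighbourhood of a flat `a + W`, `W` of dimension `≤ m`:
at most `(8 √d)^d t^(d-m-1)`. -/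
theorem sig_nearFlat_le {ι : Type*} [Fintype ι] (hd : 2 ≤ d) (u : ι → E d) (a : E d) (m : ℕ)
    (hm : Module.finrank ℝ (Submodule.span ℝ (Set.range u)) ≤ m) (hmd : m + 1 < d)
    (t : ℝ) (ht : 0 < t) (ht1 : t ≤ 1) :
    (sig d).real {s : Sph d | dS u ((s : E d) - a) < t} ≤
      (8 * Real.sqrt d) ^ d * t ^ (d - m - 1) := by
  classical
  have hd0 : 0 < d := by omega
  have hd' : (0 : ℝ) < d := by exact_mod_cast hd0
  have hs : 0 < Real.sqrt d := Real.sqrt_pos.2 hd'
  have hbv := bv_ge hd0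
  set W := Submodule.span ℝ (Set.range u) with hW
  obtain ⟨b, S, hS, hperp⟩ := exists_adapted W
  set A := {s : Sph d | dS u ((s : E d) - a) < t} with hA
  have hAmeas : MeasurableSet A :=
    (isOpen_lt (continuous_D u a) continuous_const).measurableSet
  -- the box
  let lo : Fin d → ℝ := fun i => if i ∈ S then -1 else inner ℝ (b i) a - 2 * t
  let hi : Fin d → ℝ := fun i => if i ∈ S then 1 else inner ℝ (b i) a + 2 * t
  set K := {x : E d | ∀ i, inner ℝ (b i) x ∈ Set.Icc (lo i) (hi i)} with hK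
  have hvolK := vol_box b lo hi
  rw [← hK] at hvolK
  have hwidth : ∀ i, hi i - lo i = if i ∈ S then 2 else 4 * t := by
    intro i
    by_cases h : i ∈ S
    · simp [hi, lo, h]
      norm_num
    · simp only [hi, lo, h, if_false]
      ring
  have hKfin : (volume : Measure (E d)) K ≠ ⊤ := by
    rw [hvolK]
    exact ENNReal.prod_ne_top fun i _ => ENNReal.ofReal_ne_top
  have hKreal : (volume : Measure (E d)).real K ≤ 4 ^ d * t ^ (d - Module.finrank ℝ W) := by
    simp only [Measure.real]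
    rw [hvolK, ENNReal.toReal_prod]
    have h1 : ∀ i, (ENNReal.ofReal (hi i - lo i)).toReal = if i ∈ S then (2 : ℝ) else 4 * t := by
      intro i
      rw [hwidth i]
      split_ifs
      · rw [ENNReal.toReal_ofReal (by norm_num)]
      · rw [ENNReal.toReal_ofReal (by positivity)]
    simp_rw [h1]
    rw [Finset.prod_ite]
    simp only [Finset.prod_const]
    have hc1 : (Finset.univ.filter fun i => i ∈ S).card = Module.finrank ℝ W := by
      rw [← hS]
      congr 1
      ext i
      simp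
    have hc2 : (Finset.univ.filter fun i => i ∉ S).card = d - Module.finrank ℝ W := by
      have := Finset.card_filter_add_card_filter_not (s := (Finset.univ : Finset (Fin d)))
        (fun i => i ∈ S)
      rw [hc1] at this
      simp only [Finset.card_univ, Fintype.card_fin] at this
      omega
    rw [hc1, hc2, mul_pow]
    have hfin : Module.finrank ℝ W ≤ d := by omega
    have h2 : (2 : ℝ) ^ Module.finrank ℝ W ≤ 4 ^ Module.finrank ℝ W := by
      gcongr
      norm_num
    have h3 : (4 : ℝ) ^ d = 4 ^ Module.finrank ℝ W * 4 ^ (d - Module.finrank ℝ W) := by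
      rw [← pow_add]
      congr 1
      omega
    rw [h3]
    have h4 : (0 : ℝ) ≤ 4 ^ (d - Module.finrank ℝ W) * t ^ (d - Module.finrank ℝ W) := by positivity
    calc (2 : ℝ) ^ Module.finrank ℝ W * (4 ^ (d - Module.finrank ℝ W) * t ^ (d - Module.finrank ℝ W))
        ≤ 4 ^ Module.finrank ℝ W * (4 ^ (d - Module.finrank ℝ W) * t ^ (d - Module.finrank ℝ W)) :=
          mul_le_mul_of_nonneg_right h2 h4
      _ = _ := by ring
  -- the truncated cone is in the box
  have hcone : ∀ s ∈ A, ∀ τ ∈ Set.Ico (1 - t) 1, τ • (s : E d) ∈ K := by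
    intro s hsA τ hτ i
    have hsn : ‖(s : E d)‖ = 1 := by simp
    have hτ0 : 0 ≤ τ ∨ τ < 0 := le_or_gt 0 τ
    have hτabs : |τ| ≤ 1 := by
      rw [abs_le]
      constructor <;> linarith [hτ.1, hτ.2]
    have hbi : ‖b i‖ = 1 := b.orthonormal.1 i
    by_cases hiS : i ∈ S
    · simp only [lo, hi, hiS, if_true, Set.mem_Icc]
      have h1 := abs_real_inner_le_norm (b i) (τ • (s : E d))
      rw [hbi, one_mul, norm_smul, hsn, mul_one, Real.norm_eq_abs] at h1
      exact abs_le.1 (h1.trans hτabs)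
    · simp only [lo, hi, hiS, if_false, Set.mem_Icc]
      have hinf : Metric.infDist ((s : E d) - a) (W : Set (E d)) < t := hsA
      obtain ⟨w, hw, hdist⟩ := (Metric.infDist_lt_iff ⟨0, W.zero_mem⟩).1 hinf
      have hw0 := hperp i hiS w hw
      have e1 : inner ℝ (b i) (τ • (s : E d)) - inner ℝ (b i) a =
          inner ℝ (b i) (((s : E d) - a - w) + (τ - 1) • (s : E d)) := by
        rw [inner_add_right, inner_sub_right, inner_sub_right, hw0, inner_smul_right,
          inner_smul_right]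
        ring
      have h2 : ‖((s : E d) - a - w) + (τ - 1) • (s : E d)‖ ≤ 2 * t := by
        have h3 : ‖(s : E d) - a - w‖ < t := by
          rw [dist_eq_norm] at hdist
          exact hdist
        have h4 : ‖(τ - 1) • (s : E d)‖ ≤ t := by
          rw [norm_smul, hsn, mul_one, Real.norm_eq_abs, abs_of_neg (by linarith [hτ.2])]
          linarith [hτ.1]
        calc _ ≤ ‖(s : E d) - a - w‖ + ‖(τ - 1) • (s : E d)‖ := norm_add_le _ _
          _ ≤ 2 * t := by linarith
      have h5 := abs_real_inner_le_norm (b i) (((s : E d) - a - w) + (τ - 1) • (s : E d))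
      rw [hbi, one_mul, ← e1] at h5
      have h6 := abs_le.1 (h5.trans h2)
      constructor <;> linarith [h6.1, h6.2]
  have hmain := sig_cone_le hd0 hAmeas ht ht1 hKfin hcone
  set σA := (sig d).real A with hσA
  have hσ0 : 0 ≤ σA := measureReal_nonneg
  -- conclude
  have hpow1 : t ^ (d - Module.finrank ℝ W) ≤ t * t ^ (d - m - 1) := by
    have h1 : t * t ^ (d - m - 1) = t ^ (d - m) := by
      rw [← pow_succ']
      congr 1
      omega
    rw [h1]
    exact pow_le_pow_of_le_one ht.le ht1 (by omega)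
  have h7 : t * (σA * (2 / Real.sqrt d) ^ d) ≤ t * (4 ^ d * t ^ (d - m - 1)) := by
    calc t * (σA * (2 / Real.sqrt d) ^ d) = t * σA * (2 / Real.sqrt d) ^ d := by ring
      _ ≤ t * σA * (volume : Measure (E d)).real (Metric.ball 0 1) :=
        mul_le_mul_of_nonneg_left hbv (by positivity)
      _ ≤ (volume : Measure (E d)).real K := hmain
      _ ≤ 4 ^ d * t ^ (d - Module.finrank ℝ W) := hKreal
      _ ≤ 4 ^ d * (t * t ^ (d - m - 1)) := mul_le_mul_of_nonneg_left hpow1 (by positivity)
      _ = t * (4 ^ d * t ^ (d - m - 1)) := by ring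
  have h8 : σA * (2 / Real.sqrt d) ^ d ≤ 4 ^ d * t ^ (d - m - 1) := le_of_mul_le_mul_left h7 ht
  have h9 : (4 : ℝ) ^ d = (2 * Real.sqrt d) ^ d * (2 / Real.sqrt d) ^ d := by
    rw [← mul_pow]
    congr 1
    field_simp
    norm_num
  have h10 : (0 : ℝ) < (2 / Real.sqrt d) ^ d := by positivity
  have h11 : σA ≤ (2 * Real.sqrt d) ^ d * t ^ (d - m - 1) := by
    rw [h9] at h8
    have : σA * (2 / Real.sqrt d) ^ d ≤
        ((2 * Real.sqrt d) ^ d * t ^ (d - m - 1)) * (2 / Real.sqrt d) ^ d := by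
      calc _ ≤ _ := h8
        _ = _ := by ring
    exact le_of_mul_le_mul_right this h10
  refine h11.trans ?_
  apply mul_le_mul_of_nonneg_right _ (by positivity)
  gcongr
  norm_num

/-- Consequently the flat itself is a null set. -/
theorem sig_flat_null {ι : Type*} [Fintype ι] (hd : 2 ≤ d) (u : ι → E d) (a : E d) (m : ℕ)
    (hm : Module.finrank ℝ (Submodule.span ℝ (Set.range u)) ≤ m) (hmd : m + 1 < d) :
    (sig d) {s : Sph d | dS u ((s : E d) - a) = 0} = 0 := by
  have hd0 : 0 < d := by omega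
  have := sig_isProb hd0
  set C := (8 * Real.sqrt d) ^ d with hC
  have hC0 : 0 ≤ C := by positivity
  have hlim : Filter.Tendsto (fun k : ℕ => C * (1 / 2 : ℝ) ^ k) Filter.atTop (nhds 0) := by
    have := (tendsto_pow_atTop_nhds_zero_of_lt_one (r := (1 / 2 : ℝ)) (by norm_num)
      (by norm_num)).const_mul C
    simpa using this
  have hle : (sig d).real {s : Sph d | dS u ((s : E d) - a) = 0} ≤ 0 := by
    refine ge_of_tendsto' hlim fun k => ?_
    have ht : (0 : ℝ) < (1 / 2) ^ k := by positivity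
    have ht1 : ((1 : ℝ) / 2) ^ k ≤ 1 := pow_le_one₀ (by norm_num) (by norm_num)
    have h1 := sig_nearFlat_le hd u a m hm hmd _ ht ht1
    have hsub : {s : Sph d | dS u ((s : E d) - a) = 0} ⊆
        {s : Sph d | dS u ((s : E d) - a) < (1 / 2) ^ k} := by
      intro s hs
      have h0 : dS u ((s : E d) - a) = 0 := hs
      show dS u ((s : E d) - a) < (1 / 2) ^ k
      rw [h0]
      exact ht
    have h2 : ((1 / 2 : ℝ) ^ k) ^ (d - m - 1) ≤ (1 / 2) ^ k := by
      calc ((1 / 2 : ℝ) ^ k) ^ (d - m - 1) ≤ ((1 / 2 : ℝ) ^ k) ^ 1 :=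
            pow_le_pow_of_le_one ht.le ht1 (by omega)
        _ = _ := pow_one _
    calc (sig d).real {s : Sph d | dS u ((s : E d) - a) = 0}
        ≤ (sig d).real {s : Sph d | dS u ((s : E d) - a) < (1 / 2) ^ k} :=
          measureReal_mono hsub
      _ ≤ C * ((1 / 2 : ℝ) ^ k) ^ (d - m - 1) := h1
      _ ≤ C * (1 / 2) ^ k := mul_le_mul_of_nonneg_left h2 hC0
  exact (measureReal_eq_zero_iff).1 (le_antisymm hle measureReal_nonneg)

/-- dyadic localisation -/
private lemma dyadic {e v : ℝ} (J : ℕ) (h1 : e * (1 / 2) ^ J ≤ v) (h2 : v < e) :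
    ∃ j, j < J ∧ e * (1 / 2) ^ (j + 1) ≤ v ∧ v < e * (1 / 2) ^ j := by
  induction J with
  | zero =>
    simp only [pow_zero, mul_one] at h1
    linarith
  | succ J ih =>
    by_cases h : e * (1 / 2) ^ J ≤ v
    · obtain ⟨j, hj, h3, h4⟩ := ih h
      exact ⟨j, by omega, h3, h4⟩
    · exact ⟨J, by omega, h1, not_le.1 h⟩

/-- Core dyadic estimate: the truncated kernel near the flat. -/
private lemma core_moment {ι : Type*} [Fintype ι] (hd : 2 ≤ d) (u : ι → E d) (a : E d) (m l : ℕ)
    (hm : Module.finrank ℝ (Submodule.span ℝ (Set.range u)) ≤ m) (hl : l + 1 + m + 1 ≤ d)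
    (e : ℝ) (he : 0 < e) (he1 : e ≤ 1) (t₀ : ℝ) (ht : 0 < t₀) :
    ∫ s : Sph d, (if dS u ((s : E d) - a) < e then ((max (dS u ((s : E d) - a)) t₀) ^ l)⁻¹ else 0)
        ∂(sig d) ≤ (8 * Real.sqrt d) ^ d * 2 ^ (l + 1) * e := by
  classical
  have hd0 : 0 < d := by omega
  have := sig_isProb hd0
  set D : Sph d → ℝ := fun s => dS u ((s : E d) - a) with hD
  have hDcont : Continuous D := continuous_D u a
  set C := (8 * Real.sqrt d) ^ d with hC
  have hC0 : 0 ≤ C := by positivity
  -- number of scales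
  obtain ⟨J₀, hJ₀⟩ := exists_pow_lt_of_lt_one (show 0 < t₀ / e by positivity)
    (show (1 / 2 : ℝ) < 1 by norm_num)
  set J := J₀ + 1 with hJ
  have hJ1 : e * (1 / 2) ^ J ≤ t₀ := by
    have h1 : ((1 : ℝ) / 2) ^ J ≤ (1 / 2) ^ J₀ :=
      pow_le_pow_of_le_one (by norm_num) (by norm_num) (by omega)
    have h2 : ((1 : ℝ) / 2) ^ J < t₀ / e := lt_of_le_of_lt h1 hJ₀
    rw [lt_div_iff₀ he] at h2
    linarith
  -- the majorant
  let G : Sph d → ℝ := fun s => ∑ j ∈ Finset.range J,
    (if D s < e * (1 / 2) ^ j then (2 : ℝ) ^ ((j + 1) * l) * (e ^ l)⁻¹ else 0)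
  have hterm_int : ∀ j, Integrable (fun s : Sph d =>
      if D s < e * (1 / 2) ^ j then (2 : ℝ) ^ ((j + 1) * l) * (e ^ l)⁻¹ else 0) (sig d) := by
    intro j
    have hm' : MeasurableSet {s : Sph d | D s < e * (1 / 2) ^ j} :=
      (isOpen_lt hDcont continuous_const).measurableSet
    exact (integrable_const ((2 : ℝ) ^ ((j + 1) * l) * (e ^ l)⁻¹)).indicator hm'
  have hG_int : Integrable G (sig d) := integrable_finsetSum _ fun j _ => hterm_int j
  have hterm_nonneg : ∀ s j, 0 ≤ (if D s < e * (1 / 2) ^ j then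
      (2 : ℝ) ^ ((j + 1) * l) * (e ^ l)⁻¹ else 0) := by
    intro s j
    split_ifs
    · positivity
    · exact le_rfl
  -- pointwise bound
  have hpt : ∀ s, (if D s < e then ((max (D s) t₀) ^ l)⁻¹ else 0) ≤ G s := by
    intro s
    by_cases hDe : D s < e
    · rw [if_pos hDe]
      set w := max (D s) t₀ with hw
      have hwt : t₀ ≤ w := le_max_right _ _
      have hwD : D s ≤ w := le_max_left _ _
      have hwpos : 0 < w := lt_of_lt_of_le ht hwt
      by_cases hwe : w < e
      · obtain ⟨j, hj, h1, h2⟩ := dyadic J (hJ1.trans hwt) hwe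
        have hj' : j ∈ Finset.range J := Finset.mem_range.2 hj
        refine le_trans ?_ (Finset.single_le_sum (f := fun j =>
          (if D s < e * (1 / 2) ^ j then (2 : ℝ) ^ ((j + 1) * l) * (e ^ l)⁻¹ else 0))
          (fun j _ => hterm_nonneg s j) hj')
        rw [if_pos (lt_of_le_of_lt hwD h2)]
        have hpos : 0 < e * (1 / 2) ^ (j + 1) := by positivity
        have h3 : (e * (1 / 2) ^ (j + 1)) ^ l ≤ w ^ l := pow_le_pow_left₀ hpos.le h1 l
        have h4 : (w ^ l)⁻¹ ≤ ((e * (1 / 2) ^ (j + 1)) ^ l)⁻¹ :=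
          inv_anti₀ (by positivity) h3
        refine h4.trans (le_of_eq ?_)
        rw [mul_pow, mul_inv, ← pow_mul, one_div, inv_pow, inv_inv, mul_comm]
      · have hJmem : 0 ∈ Finset.range J := Finset.mem_range.2 (by omega)
        refine le_trans ?_ (Finset.single_le_sum (f := fun j =>
          (if D s < e * (1 / 2) ^ j then (2 : ℝ) ^ ((j + 1) * l) * (e ^ l)⁻¹ else 0))
          (fun j _ => hterm_nonneg s j) hJmem)
        simp only [pow_zero, mul_one, zero_add, one_mul]
        rw [if_pos hDe]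
        have h3 : e ^ l ≤ w ^ l := pow_le_pow_left₀ he.le (not_lt.1 hwe) l
        have h4 : (w ^ l)⁻¹ ≤ (e ^ l)⁻¹ := inv_anti₀ (by positivity) h3
        have h5 : (1 : ℝ) ≤ 2 ^ l := one_le_pow₀ (by norm_num)
        have h6 : 0 ≤ (e ^ l)⁻¹ := by positivity
        nlinarith
    · rw [if_neg hDe]
      exact Finset.sum_nonneg fun j _ => hterm_nonneg s j
  have hnonneg : ∀ s, 0 ≤ (if D s < e then ((max (D s) t₀) ^ l)⁻¹ else 0) := by
    intro s
    split_ifs
    · have : 0 < max (D s) t₀ := lt_of_lt_of_le ht (le_max_right _ _)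
      positivity
    · exact le_rfl
  refine (integral_mono_of_nonneg (Filter.Eventually.of_forall hnonneg) hG_int
    (Filter.Eventually.of_forall hpt)).trans ?_
  -- integrate the majorant
  have hGint : ∫ s, G s ∂(sig d) = ∑ j ∈ Finset.range J, ((2 : ℝ) ^ ((j + 1) * l) * (e ^ l)⁻¹) *
      (sig d).real {s : Sph d | D s < e * (1 / 2) ^ j} := by
    simp only [G]
    rw [integral_finsetSum _ fun j _ => hterm_int j]
    refine Finset.sum_congr rfl fun j _ => ?_
    have hm' : MeasurableSet {s : Sph d | D s < e * (1 / 2) ^ j} :=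
      (isOpen_lt hDcont continuous_const).measurableSet
    have : (fun s : Sph d => if D s < e * (1 / 2) ^ j then (2 : ℝ) ^ ((j + 1) * l) * (e ^ l)⁻¹ else 0) =
        Set.indicator {s : Sph d | D s < e * (1 / 2) ^ j}
          (fun _ => (2 : ℝ) ^ ((j + 1) * l) * (e ^ l)⁻¹) := by
      ext s
      simp [Set.indicator]
    rw [this, integral_indicator hm', setIntegral_const, smul_eq_mul, mul_comm]
  rw [hGint]
  have hbound : ∀ j ∈ Finset.range J, ((2 : ℝ) ^ ((j + 1) * l) * (e ^ l)⁻¹) *
      (sig d).real {s : Sph d | D s < e * (1 / 2) ^ j} ≤ (C * 2 ^ l * e) * (1 / 2) ^ j := by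
    intro j _
    have htj : 0 < e * (1 / 2 : ℝ) ^ j := by positivity
    have htj1 : e * (1 / 2 : ℝ) ^ j ≤ 1 := by
      have : ((1 : ℝ) / 2) ^ j ≤ 1 := pow_le_one₀ (by norm_num) (by norm_num)
      nlinarith
    have h1 := sig_nearFlat_le hd u a m hm (by omega) _ htj htj1
    have h2 : (e * (1 / 2 : ℝ) ^ j) ^ (d - m - 1) ≤ (e * (1 / 2 : ℝ) ^ j) ^ (l + 1) :=
      pow_le_pow_of_le_one htj.le htj1 (by omega)
    have h3 : (sig d).real {s : Sph d | D s < e * (1 / 2) ^ j} ≤
        C * (e * (1 / 2 : ℝ) ^ j) ^ (l + 1) :=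
      h1.trans (mul_le_mul_of_nonneg_left h2 hC0)
    calc ((2 : ℝ) ^ ((j + 1) * l) * (e ^ l)⁻¹) * (sig d).real {s : Sph d | D s < e * (1 / 2) ^ j}
        ≤ ((2 : ℝ) ^ ((j + 1) * l) * (e ^ l)⁻¹) * (C * (e * (1 / 2 : ℝ) ^ j) ^ (l + 1)) :=
          mul_le_mul_of_nonneg_left h3 (by positivity)
      _ = (C * 2 ^ l * e) * (1 / 2) ^ j := by
        have h4 : (2 : ℝ) ^ ((j + 1) * l) = 2 ^ l * (2 ^ j) ^ l := by
          rw [← pow_mul, ← pow_add]
          congr 1
          ring
        have h5 : (e * (1 / 2 : ℝ) ^ j) ^ (l + 1) = e ^ l * e * ((1 / 2 : ℝ) ^ j) ^ l * (1 / 2) ^ j := by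
          rw [mul_pow, pow_succ, pow_succ]
          ring
        have h6 : ((2 : ℝ) ^ j) ^ l * ((1 / 2 : ℝ) ^ j) ^ l = 1 := by
          rw [← mul_pow, ← mul_pow]
          norm_num
        rw [h4, h5]
        have h7 : (e ^ l)⁻¹ * e ^ l = 1 := inv_mul_cancel₀ (by positivity)
        calc 2 ^ l * (2 ^ j) ^ l * (e ^ l)⁻¹ * (C * (e ^ l * e * ((1 / 2 : ℝ) ^ j) ^ l * (1 / 2) ^ j))
            = C * 2 ^ l * e * (1 / 2) ^ j * (((2 : ℝ) ^ j) ^ l * ((1 / 2 : ℝ) ^ j) ^ l) *
                ((e ^ l)⁻¹ * e ^ l) := by ring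
          _ = _ := by rw [h6, h7]; ring
  refine (Finset.sum_le_sum hbound).trans ?_
  rw [← Finset.mul_sum]
  have hgeo : ∑ j ∈ Finset.range J, ((1 : ℝ) / 2) ^ j ≤ 2 := sum_geometric_two_le J
  calc C * 2 ^ l * e * ∑ j ∈ Finset.range J, ((1 : ℝ) / 2) ^ j
      ≤ C * 2 ^ l * e * 2 := mul_le_mul_of_nonneg_left hgeo (by positivity)
    _ = C * 2 ^ (l + 1) * e := by ring

private lemma const_le {l : ℕ} (hl : l + 1 ≤ d) :
    (8 * Real.sqrt d) ^ d * 2 ^ (l + 1) ≤ (32 * Real.sqrt d) ^ d := by
  have hs : 0 ≤ Real.sqrt d := Real.sqrt_nonneg _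
  have h1 : (2 : ℝ) ^ (l + 1) ≤ 2 ^ d := pow_le_pow_right₀ (by norm_num) hl
  calc (8 * Real.sqrt d) ^ d * 2 ^ (l + 1) ≤ (8 * Real.sqrt d) ^ d * 2 ^ d :=
        mul_le_mul_of_nonneg_left h1 (by positivity)
    _ = (16 * Real.sqrt d) ^ d := by
      rw [← mul_pow]
      congr 1
      ring
    _ ≤ (32 * Real.sqrt d) ^ d := by
      gcongr
      norm_num

private lemma one_le_const (hd : 2 ≤ d) : (1 : ℝ) ≤ (32 * Real.sqrt d) ^ d := by
  have h1 : (1 : ℝ) ≤ Real.sqrt d := by
    rw [Real.one_le_sqrt]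
    have : (2 : ℝ) ≤ d := by exact_mod_cast hd
    linarith
  exact one_le_pow₀ (by nlinarith)

private lemma measurable_trunc {ι : Type*} (u : ι → E d) (a : E d) (l : ℕ) (e t₀ : ℝ) :
    Measurable fun s : Sph d =>
      (if dS u ((s : E d) - a) < e then ((max (dS u ((s : E d) - a)) t₀) ^ l)⁻¹ else 0) := by
  have hD := (continuous_D u a).measurable
  refine Measurable.ite (measurableSet_lt hD measurable_const) ?_ measurable_const
  exact ((hD.max measurable_const).pow_const l).inv

private lemma integrable_trunc {ι : Type*} (hd0 : 0 < d) (u : ι → E d) (a : E d) (l : ℕ) (e t₀ : ℝ)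
    (ht : 0 < t₀) :
    Integrable (fun s : Sph d =>
      (if dS u ((s : E d) - a) < e then ((max (dS u ((s : E d) - a)) t₀) ^ l)⁻¹ else 0)) (sig d) := by
  have := sig_isProb hd0
  refine Integrable.of_bound (measurable_trunc u a l e t₀).aestronglyMeasurable ((t₀ ^ l)⁻¹)
    (Filter.Eventually.of_forall fun s => ?_)
  set x := dS u ((s : E d) - a)
  have hm : t₀ ≤ max x t₀ := le_max_right _ _
  have hmp : 0 < max x t₀ := lt_of_lt_of_le ht hm
  have h1 : ((max x t₀) ^ l)⁻¹ ≤ (t₀ ^ l)⁻¹ :=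
    inv_anti₀ (by positivity) (pow_le_pow_left₀ ht.le hm l)
  split_ifs
  · rw [Real.norm_of_nonneg (by positivity)]
    exact h1
  · simp only [norm_zero]
    positivity

/-- Negative moments of the distance to a flat, uniformly in the flat and in `t₀ > 0`. -/
theorem sig_negMoment_le {ι : Type*} [Fintype ι] (hd : 2 ≤ d) (u : ι → E d) (a : E d) (m l : ℕ)
    (hm : Module.finrank ℝ (Submodule.span ℝ (Set.range u)) ≤ m) (hl : l + 1 + m + 1 ≤ d)
    (t₀ : ℝ) (ht : 0 < t₀) :
    ∫ s : Sph d, ((max (dS u ((s : E d) - a)) t₀) ^ l)⁻¹ ∂(sig d) ≤ 2 * (32 * Real.sqrt d) ^ d := by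
  have hd0 : 0 < d := by omega
  have := sig_isProb hd0
  have hcore := core_moment hd u a m l hm hl 1 one_pos le_rfl t₀ ht
  have hint := integrable_trunc hd0 u a l 1 t₀ ht
  have hle : ∀ s : Sph d, ((max (dS u ((s : E d) - a)) t₀) ^ l)⁻¹ ≤
      1 + (if dS u ((s : E d) - a) < 1 then ((max (dS u ((s : E d) - a)) t₀) ^ l)⁻¹ else 0) := by
    intro s
    set x := dS u ((s : E d) - a)
    have hmp : 0 < max x t₀ := lt_of_lt_of_le ht (le_max_right _ _)
    split_ifs with h
    · have : 0 ≤ ((max x t₀) ^ l)⁻¹ := by positivity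
      linarith
    · have h1 : 1 ≤ max x t₀ := (not_lt.1 h).trans (le_max_left _ _)
      have h2 : 1 ≤ (max x t₀) ^ l := one_le_pow₀ h1
      have h3 := inv_anti₀ one_pos h2
      simp only [inv_one] at h3
      linarith
  have hnn : ∀ s : Sph d, 0 ≤ ((max (dS u ((s : E d) - a)) t₀) ^ l)⁻¹ := by
    intro s
    have hmp : 0 < max (dS u ((s : E d) - a)) t₀ := lt_of_lt_of_le ht (le_max_right _ _)
    positivity
  refine (integral_mono_of_nonneg (Filter.Eventually.of_forall hnn)
    ((integrable_const 1).add hint) (Filter.Eventually.of_forall hle)).trans ?_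
  rw [integral_add' (integrable_const 1) hint, integral_const]
  simp only [probReal_univ, smul_eq_mul, mul_one]
  have h1 := const_le (d := d) (l := l) (by omega)
  have h2 := one_le_const hd
  simp only [mul_one] at hcore
  linarith

/-- Fatou: the untruncated kernel near the flat. -/
private lemma near_fatou {ι : Type*} [Fintype ι] (hd : 2 ≤ d) (u : ι → E d) (a : E d) (m l : ℕ)
    (hm : Module.finrank ℝ (Submodule.span ℝ (Set.range u)) ≤ m) (hl : l + 1 + m + 1 ≤ d)
    (e : ℝ) (he : 0 < e) (he1 : e ≤ 1) :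
    Integrable (fun s : Sph d =>
      (if dS u ((s : E d) - a) < e then ((dS u ((s : E d) - a)) ^ l)⁻¹ else 0)) (sig d) ∧
    ∫ s : Sph d, (if dS u ((s : E d) - a) < e then ((dS u ((s : E d) - a)) ^ l)⁻¹ else 0) ∂(sig d)
      ≤ (8 * Real.sqrt d) ^ d * 2 ^ (l + 1) * e := by
  have hd0 : 0 < d := by omega
  have := sig_isProb hd0
  set K := (8 * Real.sqrt d) ^ d * 2 ^ (l + 1) * e with hK
  have hK0 : 0 ≤ K := by positivity
  have hD := (continuous_D u a).measurable
  set f : Sph d → ℝ := fun s =>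
    if dS u ((s : E d) - a) < e then ((dS u ((s : E d) - a)) ^ l)⁻¹ else 0 with hf
  have hfmeas : Measurable f :=
    Measurable.ite (measurableSet_lt hD measurable_const) ((hD.pow_const l).inv) measurable_const
  have hfnn : ∀ s, 0 ≤ f s := by
    intro s
    simp only [hf]
    split_ifs
    · have : 0 ≤ dS u ((s : E d) - a) := Metric.infDist_nonneg
      positivity
    · exact le_rfl
  let g : ℕ → Sph d → ℝ := fun n s =>
    if dS u ((s : E d) - a) < e then
      ((max (dS u ((s : E d) - a)) (1 / ((n : ℝ) + 1))) ^ l)⁻¹ else 0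
  have hgmeas : ∀ n, Measurable (g n) := fun n => measurable_trunc u a l e _
  have hgpos : ∀ (n : ℕ), (0 : ℝ) < 1 / ((n : ℝ) + 1) := fun n => by positivity
  have hgint : ∀ n, Integrable (g n) (sig d) := fun n => integrable_trunc hd0 u a l e _ (hgpos n)
  have hgnn : ∀ n s, 0 ≤ g n s := by
    intro n s
    simp only [g]
    split_ifs
    · have : 0 < max (dS u ((s : E d) - a)) (1 / ((n : ℝ) + 1)) :=
        lt_of_lt_of_le (hgpos n) (le_max_right _ _)
      positivity
    · exact le_rfl
  have hgle : ∀ n, ∫ s, g n s ∂(sig d) ≤ K := fun n =>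
    core_moment hd u a m l hm hl e he he1 _ (hgpos n)
  -- pointwise
  have hev : ∀ s, ∀ᶠ n in Filter.atTop, f s ≤ g n s := by
    intro s
    simp only [hf, g]
    by_cases hDe : dS u ((s : E d) - a) < e
    · simp only [if_pos hDe]
      set x := dS u ((s : E d) - a) with hx
      have hx0 : 0 ≤ x := Metric.infDist_nonneg
      rcases hx0.eq_or_lt with hx0' | hxpos
      · rcases Nat.eq_zero_or_pos l with rfl | hl0
        · simp
        · rw [← hx0', zero_pow hl0.ne']
          simp only [inv_zero]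
          refine Filter.Eventually.of_forall fun n => ?_
          have : 0 < max (0 : ℝ) (1 / ((n : ℝ) + 1)) := lt_of_lt_of_le (hgpos n) (le_max_right _ _)
          positivity
      · have hlim : Filter.Tendsto (fun n : ℕ => 1 / ((n : ℝ) + 1)) Filter.atTop (nhds 0) :=
          tendsto_one_div_add_atTop_nhds_zero_nat
        filter_upwards [hlim.eventually (gt_mem_nhds hxpos)] with n hn
        rw [max_eq_left hn.le]
    · simp only [if_neg hDe]
      exact Filter.Eventually.of_forall fun n => le_rfl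
  have hlint : ∫⁻ s, ENNReal.ofReal (f s) ∂(sig d) ≤ ENNReal.ofReal K := by
    have h1 : ∀ s, ENNReal.ofReal (f s) ≤
        Filter.liminf (fun n => ENNReal.ofReal (g n s)) Filter.atTop := by
      intro s
      refine Filter.le_liminf_of_le (by isBoundedDefault) ?_
      filter_upwards [hev s] with n hn
      exact ENNReal.ofReal_le_ofReal hn
    calc ∫⁻ s, ENNReal.ofReal (f s) ∂(sig d)
        ≤ ∫⁻ s, Filter.liminf (fun n => ENNReal.ofReal (g n s)) Filter.atTop ∂(sig d) :=
          lintegral_mono h1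
      _ ≤ Filter.liminf (fun n => ∫⁻ s, ENNReal.ofReal (g n s) ∂(sig d)) Filter.atTop :=
          lintegral_liminf_le fun n => (hgmeas n).ennreal_ofReal
      _ ≤ ENNReal.ofReal K := by
          refine Filter.liminf_le_of_le (by isBoundedDefault) fun b hb => ?_
          obtain ⟨n, hn⟩ := hb.exists
          refine hn.trans ?_
          rw [← ofReal_integral_eq_lintegral_ofReal (hgint n)
            (Filter.Eventually.of_forall (hgnn n))]
          exact ENNReal.ofReal_le_ofReal (hgle n)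
  have hfint : Integrable f (sig d) := by
    refine ⟨hfmeas.aestronglyMeasurable, ?_⟩
    rw [hasFiniteIntegral_iff_ofReal (Filter.Eventually.of_forall hfnn)]
    exact lt_of_le_of_lt hlint ENNReal.ofReal_lt_top
  refine ⟨hfint, ?_⟩
  rw [integral_eq_lintegral_of_nonneg_ae (Filter.Eventually.of_forall hfnn)
    hfmeas.aestronglyMeasurable]
  exact ENNReal.toReal_le_of_le_ofReal hK0 hlint

/-- Integrability of the (untruncated) negative power, and the same bound. -/
theorem sig_negMoment_integrable {ι : Type*} [Fintype ι] (hd : 2 ≤ d) (u : ι → E d) (a : E d)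
    (m l : ℕ) (hm : Module.finrank ℝ (Submodule.span ℝ (Set.range u)) ≤ m)
    (hl : l + 1 + m + 1 ≤ d) :
    Integrable (fun s : Sph d => ((dS u ((s : E d) - a)) ^ l)⁻¹) (sig d) ∧
    ∫ s : Sph d, ((dS u ((s : E d) - a)) ^ l)⁻¹ ∂(sig d) ≤ 2 * (32 * Real.sqrt d) ^ d := by
  have hd0 : 0 < d := by omega
  have := sig_isProb hd0
  obtain ⟨h1, h2⟩ := near_fatou hd u a m l hm hl 1 one_pos le_rfl
  have hD := (continuous_D u a).measurable
  have hle : ∀ s : Sph d, ((dS u ((s : E d) - a)) ^ l)⁻¹ ≤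
      1 + (if dS u ((s : E d) - a) < 1 then ((dS u ((s : E d) - a)) ^ l)⁻¹ else 0) := by
    intro s
    have hx0 : 0 ≤ dS u ((s : E d) - a) := Metric.infDist_nonneg
    split_ifs with h
    · have : 0 ≤ ((dS u ((s : E d) - a)) ^ l)⁻¹ := by positivity
      linarith
    · have h2 : 1 ≤ (dS u ((s : E d) - a)) ^ l := one_le_pow₀ (not_lt.1 h)
      have h3 := inv_anti₀ one_pos h2
      simp only [inv_one] at h3
      linarith
  have hnn : ∀ s : Sph d, 0 ≤ ((dS u ((s : E d) - a)) ^ l)⁻¹ := by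
    intro s
    have hx0 : 0 ≤ dS u ((s : E d) - a) := Metric.infDist_nonneg
    positivity
  have hmajint := (integrable_const (1 : ℝ)).add h1
  have hint : Integrable (fun s : Sph d => ((dS u ((s : E d) - a)) ^ l)⁻¹) (sig d) := by
    refine hmajint.mono' ((hD.pow_const l).inv).aestronglyMeasurable
      (Filter.Eventually.of_forall fun s => ?_)
    rw [Real.norm_of_nonneg (hnn s)]
    exact hle s
  refine ⟨hint, ?_⟩
  refine (integral_mono hint hmajint hle).trans ?_
  rw [integral_add' (integrable_const 1) h1, integral_const]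
  simp only [probReal_univ, smul_eq_mul, mul_one] at h2 ⊢
  have h3 := const_le (d := d) (l := l) (by omega)
  have h4 := one_le_const hd
  linarith

/-- The part of the Riesz integral near the flat is small, for `e ≤ 1`. -/
theorem sig_negMoment_near_le {ι : Type*} [Fintype ι] (hd : 2 ≤ d) (u : ι → E d) (a : E d) (m l : ℕ)
    (hm : Module.finrank ℝ (Submodule.span ℝ (Set.range u)) ≤ m) (hl : l + 1 + m + 1 ≤ d)
    (e : ℝ) (he : 0 < e) (he1 : e ≤ 1) :
    ∫ s : Sph d, (if dS u ((s : E d) - a) < e then ((dS u ((s : E d) - a)) ^ l)⁻¹ else 0) ∂(sig d)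
      ≤ 2 * (32 * Real.sqrt d) ^ d * e := by
  obtain ⟨-, h2⟩ := near_fatou hd u a m l hm hl e he he1
  have h3 := const_le (d := d) (l := l) (by omega)
  have h4 := one_le_const hd
  refine h2.trans ?_
  apply mul_le_mul_of_nonneg_right _ he.le
  linarith

end Crest.Agent.MS
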