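import Crest.Agent.Lib.MS.BlockEval
import Crest.Agent.Lib.MS.GaussKernel
import Crest.Agent.Lib.MS.SphereFlat

/-!
# S0499 module `BlockKernel`: the Riesz kernel in `ℝ^k` and its normaliser.

* `logkap_lower` is `kernel_log_moment` for `u = uu ss i`, `z = ss i - ss 0`, `t₀ = tt δ`, multiplied
by `-2a` (`Real.log_inv`, `Real.log_pow`).
* `NN_le_RR`: Fubini, then `kernel_first_moment` for `u = uu ss i`, `z = s' - ss 0`, for a.e. `s'`
(`sig_flat_null` gives `dS > 0`), `finrank_span_uu` bounds the dimension.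
* Bounds: `dS … ≤ ‖X(s' - s₀)‖ ≤ 2 ‖X‖` gives `kap ≥ max(2‖X‖_F, t₀)^{-2a}`, so `NN` is bounded below by
the `γ`-expectation of this positive function, uniformly in the tuple.  And `kap ≤ t₀^{-2a}`.
`RR ≥ 2^{-2a}` as `dS ≤ ‖s' - s₀‖ ≤ 2`, `RR ≤ L · 2 (32 √d)^d` by `sig_negMoment_integrable`.
-/

set_option autoImplicit false
set_option linter.unusedSectionVars false

namespace Crest.Agent.MS

open MeasureTheory ProbabilityTheory
open Crest.StreamLearn (E Sphere sphereUniform)

variable {d B k n : ℕ} {Q : Type} [Fintype Q] [Nonempty Q] [MeasurableSpace Q]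
  [MeasurableSingletonClass Q] {ψ : Sph d → ℝ} {F : Mat d B → (Fin B → ℝ) → Q} {δ : ℝ}

/-- The prefix flat has dimension at most `n`. -/
theorem finrank_span_uu (ss : Fin (n + 1) → Sph d) (i : Fin (n + 1)) :
    Module.finrank ℝ (Submodule.span ℝ (Set.range (uu ss i))) ≤ n := by
  classical
  have hsub : Submodule.span ℝ (Set.range (uu ss i)) ≤
      Submodule.span ℝ (((Finset.univ.filter (fun j : Fin (n + 1) => j < i)).image
        (fun j => (ss j : E d) - (ss 0 : E d)) : Finset (E d)) : Set (E d)) := by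
    rw [Submodule.span_le]
    rintro _ ⟨j, rfl⟩
    by_cases hj : j < i
    · refine Submodule.subset_span ?_
      simp only [uu, prefixFam, hj, if_true, Finset.coe_image, Finset.coe_filter, Finset.mem_univ,
        true_and, Set.mem_image, Set.mem_ofPred_eq]
      exact ⟨j, hj, rfl⟩
    · simp only [uu, prefixFam, hj, if_false]
      exact Submodule.zero_mem _
  refine (Submodule.finrank_mono hsub).trans ?_
  refine (finrank_span_finset_le_card _).trans ?_
  refine Finset.card_image_le.trans ?_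
  have hc : (Finset.univ.filter (fun j : Fin (n + 1) => j < i)) ⊆ Finset.univ.erase i := by
    intro j hj
    simp only [Finset.mem_filter, Finset.mem_univ, true_and] at hj
    simp only [Finset.mem_erase, Finset.mem_univ, and_true]
    exact hj.ne
  refine (Finset.card_le_card hc).trans ?_
  rw [Finset.card_erase_of_mem (Finset.mem_univ _), Finset.card_univ, Fintype.card_fin]
  omega

theorem tt_pos (hδ : 0 < δ) : 0 < tt δ := by
  unfold tt
  have : 0 < Real.sqrt (2 * Real.pi) := Real.sqrt_pos.2 (by positivity)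
  positivity

private lemma sph_norm (s : Sph d) : ‖(s : E d)‖ = 1 := by simpa using s.2

private lemma norm_sub_sph_le (s s' : Sph d) : ‖(s : E d) - (s' : E d)‖ ≤ 2 := by
  calc ‖(s : E d) - (s' : E d)‖ ≤ ‖(s : E d)‖ + ‖(s' : E d)‖ := norm_sub_le _ _
    _ = 2 := by rw [sph_norm, sph_norm]; norm_num

private lemma sph_zero_false (s : Sph 0) : False := by
  have h := sph_norm s
  rw [Subsingleton.elim (s : E 0) 0, norm_zero] at h
  exact zero_ne_one h

private lemma measurable_dS_comp {α F : Type*} [MeasurableSpace α] [NormedAddCommGroup F]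
    [InnerProductSpace ℝ F] [MeasurableSpace F] [BorelSpace F] [SecondCountableTopology F]
    {ι : Type*} [Fintype ι] {f : α → ι → F} {g : α → F} (hf : Measurable f) (hg : Measurable g) :
    Measurable (fun x => dS (f x) (g x)) := by
  have h := measurable_dS (ι := ι) (F := F)
  have h2 := h.comp (hf.prodMk hg)
  exact h2

private lemma measurable_Aop_comp {α : Type*} [MeasurableSpace α] {f : α → Mat d k} {g : α → E d}
    (hf : Measurable f) (hg : Measurable g) : Measurable (fun x => Aop (f x) (g x)) := by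
  have h := measurable_Aop (d := d) (r := k)
  have h2 := h.comp (hf.prodMk hg)
  exact h2

private lemma measurable_integral_of_joint {α β : Type*} [MeasurableSpace α] [MeasurableSpace β]
    {ν : Measure β} [SFinite ν] {f : α → β → ℝ} (h : Measurable (fun z : α × β => f z.1 z.2)) :
    Measurable (fun x => ∫ y, f x y ∂ν) := by
  have h2 := h.stronglyMeasurable.integral_prod_right' (ν := ν)
  exact h2.measurable

theorem measurable_uu (i : Fin (n + 1)) :
    Measurable (fun ss : Fin (n + 1) → Sph d => uu ss i) := by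
  refine measurable_pi_iff.2 fun j => ?_
  by_cases hj : j < i
  · simp only [uu, prefixFam, hj, if_true]
    exact (measurable_subtype_coe.comp (measurable_pi_apply j)).sub
      (measurable_subtype_coe.comp (measurable_pi_apply 0))
  · simp only [uu, prefixFam, hj, if_false]
    exact measurable_const

/-- Joint measurability of the distance in `ℝ^k`. -/
private lemma measurable_dist_joint (i : Fin (n + 1)) :
    Measurable (fun p : Mat d k × (Fin (n + 1) → Sph d) × Sph d =>
      dS (fun j => Aop p.1 (uu p.2.1 i j)) (Aop p.1 ((p.2.2 : E d) - (p.2.1 0 : E d)))) := by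
  have h1 : Measurable (fun p : Mat d k × (Fin (n + 1) → Sph d) × Sph d =>
      (fun j => Aop p.1 (uu p.2.1 i j) : Fin (n + 1) → E k)) := by
    refine measurable_pi_iff.2 fun j => ?_
    have h1 : Measurable fun p : Mat d k × (Fin (n + 1) → Sph d) × Sph d => uu p.2.1 i j :=
      (measurable_pi_iff.1 (measurable_uu i) j).comp (measurable_fst.comp measurable_snd)
    exact measurable_Aop_comp measurable_fst h1
  have h2 : Measurable (fun p : Mat d k × (Fin (n + 1) → Sph d) × Sph d =>
      Aop p.1 ((p.2.2 : E d) - (p.2.1 0 : E d))) := by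
    have h2 : Measurable fun p : Mat d k × (Fin (n + 1) → Sph d) × Sph d =>
        (p.2.2 : E d) - (p.2.1 0 : E d) :=
      (measurable_subtype_coe.comp (measurable_snd.comp measurable_snd)).sub
        (measurable_subtype_coe.comp
          ((measurable_pi_apply 0).comp (measurable_fst.comp measurable_snd)))
    exact measurable_Aop_comp measurable_fst h2
  exact measurable_dS_comp h1 h2

theorem measurable_kap_joint (a : ℕ) (δ : ℝ) (i : Fin (n + 1)) :
    Measurable (fun p : Mat d k × (Fin (n + 1) → Sph d) × Sph d =>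
      kap a δ p.1 p.2.1 i p.2.2) :=
  (((measurable_dist_joint i).max measurable_const).pow_const _).inv

private lemma measurable_kap_comp {α : Type*} [MeasurableSpace α] (a : ℕ) (δ : ℝ) (i : Fin (n + 1))
    {f : α → Mat d k} {g : α → Fin (n + 1) → Sph d} {h : α → Sph d}
    (hf : Measurable f) (hg : Measurable g) (hh : Measurable h) :
    Measurable (fun x => kap a δ (f x) (g x) i (h x)) := by
  have h0 := measurable_kap_joint (d := d) (k := k) (n := n) a δ i
  have h2 := h0.comp (hf.prodMk (hg.prodMk hh))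
  exact h2

theorem log_kap (a : ℕ) (δ : ℝ) (X : Mat d k) (ss : Fin (n + 1) → Sph d) (i : Fin (n + 1))
    (s' : Sph d) : Real.log (kap a δ X ss i s') = -(2 * a : ℝ) * Real.log
      (max (dS (fun j => Aop X (uu ss i j)) (Aop X ((s' : E d) - (ss 0 : E d)))) (tt δ)) := by
  unfold kap DD
  rw [Real.log_inv, Real.log_pow]
  push_cast
  ring

theorem kap_le (hδ : 0 < δ) (a : ℕ) (X : Mat d k) (ss : Fin (n + 1) → Sph d) (i : Fin (n + 1))
    (s' : Sph d) : kap a δ X ss i s' ≤ ((tt δ) ^ (2 * a))⁻¹ := by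
  have ht := tt_pos hδ
  exact inv_anti₀ (by positivity) (pow_le_pow_left₀ ht.le (le_max_right _ _) _)

theorem kap_pos (hδ : 0 < δ) (a : ℕ) (X : Mat d k) (ss : Fin (n + 1) → Sph d) (i : Fin (n + 1))
    (s' : Sph d) : 0 < kap a δ X ss i s' := by
  have ht := tt_pos hδ
  have h : 0 < DD δ X ss i s' := lt_max_of_lt_right ht
  unfold kap
  positivity

/-- The Frobenius norm of a matrix. -/
private noncomputable def frob (X : Mat d k) : ℝ := Real.sqrt (∑ j, ‖X j‖ ^ 2)

private lemma measurable_frob : Measurable (frob (d := d) (k := k)) := by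
  have : Continuous (frob (d := d) (k := k)) := by
    unfold frob
    fun_prop
  exact this.measurable

private lemma norm_Aop_le (X : Mat d k) (v : E d) : ‖Aop X v‖ ≤ frob X * ‖v‖ := by
  rw [EuclideanSpace.norm_eq, frob]
  have h : Real.sqrt (∑ j, ‖X j‖ ^ 2) * ‖v‖ = Real.sqrt ((∑ j, ‖X j‖ ^ 2) * ‖v‖ ^ 2) := by
    rw [Real.sqrt_mul (Finset.sum_nonneg fun _ _ => by positivity), Real.sqrt_sq (norm_nonneg v)]
  rw [h]
  refine Real.sqrt_le_sqrt ?_
  rw [Finset.sum_mul]
  refine Finset.sum_le_sum fun j _ => ?_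
  rw [← mul_pow]
  refine pow_le_pow_left₀ (norm_nonneg _) ?_ _
  exact norm_inner_le_norm (𝕜 := ℝ) (X j) v

private lemma g_le_kap (hδ : 0 < δ) (a : ℕ) (X : Mat d k) (ss : Fin (n + 1) → Sph d)
    (i : Fin (n + 1)) (s' : Sph d) :
    ((max (2 * frob X) (tt δ)) ^ (2 * a))⁻¹ ≤ kap a δ X ss i s' := by
  have ht := tt_pos hδ
  have h : 0 < DD δ X ss i s' := lt_max_of_lt_right ht
  refine inv_anti₀ (by positivity) (pow_le_pow_left₀ h.le ?_ _)
  refine max_le_max_right _ ?_
  have h0 : (0 : E k) ∈ (Submodule.span ℝ (Set.range (fun j => Aop X (uu ss i j))) : Set (E k)) :=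
    Submodule.zero_mem _
  have h1 : dS (fun j => Aop X (uu ss i j)) (Aop X ((s' : E d) - (ss 0 : E d))) ≤
      dist (Aop X ((s' : E d) - (ss 0 : E d))) 0 := Metric.infDist_le_dist_of_mem h0
  rw [dist_zero_right] at h1
  have hf : 0 ≤ frob X := Real.sqrt_nonneg _
  calc _ ≤ _ := h1
    _ ≤ frob X * ‖(s' : E d) - (ss 0 : E d)‖ := norm_Aop_le _ _
    _ ≤ frob X * 2 := mul_le_mul_of_nonneg_left (norm_sub_sph_le _ _) hf
    _ = 2 * frob X := mul_comm _ _

private lemma integrable_psi_kap (hd : 0 < d) (hψ : IsDens ψ) (hδ : 0 < δ) (a : ℕ)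
    (ss : Fin (n + 1) → Sph d) (i : Fin (n + 1)) :
    Integrable (fun p : Sph d × Mat d k => ψ p.1 * kap a δ p.2 ss i p.1)
      ((sig d).prod (gam d k)) := by
  have := sig_isProb (d := d) hd
  obtain ⟨L, hL⟩ := hψ.bdd
  have ht := tt_pos hδ
  have hm : Measurable (fun p : Sph d × Mat d k => ψ p.1 * kap a δ p.2 ss i p.1) :=
    (hψ.meas.comp measurable_fst).mul (measurable_kap_comp a δ i measurable_snd measurable_const
      measurable_fst)
  refine Integrable.of_bound hm.aestronglyMeasurable (|L| * ((tt δ) ^ (2 * a))⁻¹)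
    (Filter.Eventually.of_forall fun p => ?_)
  have h1 := kap_pos hδ a p.2 ss i p.1
  rw [Real.norm_eq_abs, abs_of_nonneg (mul_nonneg (hψ.nonneg _) h1.le)]
  exact mul_le_mul ((hL _).trans (le_abs_self L)) (kap_le hδ a p.2 ss i p.1) h1.le (abs_nonneg _)

private lemma measurable_riesz_right (ss : Fin (n + 1) → Sph d) (i : Fin (n + 1)) (a : ℕ) :
    Measurable (fun s' : Sph d => ((dS (uu ss i) ((s' : E d) - (ss 0 : E d))) ^ (2 * a))⁻¹) := by
  have h2 : Measurable (fun s' : Sph d => (s' : E d) - (ss 0 : E d)) :=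
    measurable_subtype_coe.sub measurable_const
  have h1 : Measurable (fun s' : Sph d => dS (uu ss i) ((s' : E d) - (ss 0 : E d))) :=
    measurable_dS_comp measurable_const h2
  exact (h1.pow_const _).inv

private lemma integrable_psi_riesz (hψ : IsDens ψ) (a : ℕ) (hl : 2 * a + 1 + n + 1 ≤ d)
    (ss : Fin (n + 1) → Sph d) (i : Fin (n + 1)) :
    Integrable (fun s' : Sph d => ψ s' * ((dS (uu ss i) ((s' : E d) - (ss 0 : E d))) ^ (2 * a))⁻¹)
      (sig d) := by
  have hd : 2 ≤ d := by omega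
  obtain ⟨L, hL⟩ := hψ.bdd
  obtain ⟨hRi, -⟩ := sig_negMoment_integrable hd (uu ss i) (ss 0 : E d) n (2 * a)
    (finrank_span_uu ss i) (by omega)
  refine Integrable.bdd_mul (c := |L|) hRi hψ.meas.aestronglyMeasurable
    (Filter.Eventually.of_forall fun s => ?_)
  rw [Real.norm_eq_abs, abs_of_nonneg (hψ.nonneg s)]
  exact (hL s).trans (le_abs_self L)

private lemma ae_dS_pos {a' : ℕ} (hl : 2 * a' + 1 + n + 1 ≤ d) (ss : Fin (n + 1) → Sph d)
    (i : Fin (n + 1)) :
    ∀ᵐ s' : Sph d ∂(sig d), 0 < dS (uu ss i) ((s' : E d) - (ss 0 : E d)) := by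
  have hd : 2 ≤ d := by omega
  have hflat := sig_flat_null hd (uu ss i) (ss 0 : E d) n (finrank_span_uu ss i) (by omega)
  rw [ae_iff]
  refine measure_mono_null (fun s' hs' => ?_) hflat
  have h0 : 0 ≤ dS (uu ss i) ((s' : E d) - (ss 0 : E d)) := Metric.infDist_nonneg
  exact le_antisymm (not_lt.1 hs') h0

/-- The distance `di` only sees `‖ss i - ss 0‖ ≤ 2`. -/
theorem dtil_bounds (hδ : 0 < δ) (ss : Fin (n + 1) → Sph d) (i : Fin (n + 1)) :
    tt δ ≤ dtil δ ss i ∧ dtil δ ss i ≤ max 2 (tt δ) := by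
  refine ⟨le_max_right _ _, max_le_max_right _ ?_⟩
  have h0 : (0 : E d) ∈ (Submodule.span ℝ (Set.range (uu ss i)) : Set (E d)) :=
    Submodule.zero_mem _
  have h1 : di ss i ≤ dist ((ss i : E d) - (ss 0 : E d)) 0 := Metric.infDist_le_dist_of_mem h0
  refine h1.trans ?_
  rw [dist_zero_right]
  exact norm_sub_sph_le _ _

theorem measurable_di (i : Fin (n + 1)) :
    Measurable (fun ss : Fin (n + 1) → Sph d => di ss i) := by
  have h2 : Measurable (fun ss : Fin (n + 1) → Sph d => (ss i : E d) - (ss 0 : E d)) :=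
    (measurable_subtype_coe.comp (measurable_pi_apply i)).sub
      (measurable_subtype_coe.comp (measurable_pi_apply 0))
  exact measurable_dS_comp (measurable_uu i) h2

theorem measurable_dtil (i : Fin (n + 1)) :
    Measurable (fun ss : Fin (n + 1) → Sph d => dtil δ ss i) := by
  exact (measurable_di i).max measurable_const

/-- T2 for the block. -/
theorem logkap_lower (hδ : 0 < δ) (a : ℕ) (ss : Fin (n + 1) → Sph d) (i : Fin (n + 1)) :
    -(2 * a : ℝ) * (Real.log (dtil δ ss i) + (1 / 2) * Real.log (k + 1)) ≤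
      ∫ X, Real.log (kap a δ X ss i (ss i)) ∂(gam d k) := by
  have ht := tt_pos hδ
  have h := kernel_log_moment (k := k) (uu ss i) ((ss i : E d) - (ss 0 : E d)) (tt δ) ht
  have h1 : ∀ X : Mat d k, Real.log (kap a δ X ss i (ss i)) = -(2 * a : ℝ) * Real.log
      (max (dS (fun j => Aop X (uu ss i j)) (Aop X ((ss i : E d) - (ss 0 : E d)))) (tt δ)) :=
    fun X => log_kap a δ X ss i (ss i)
  simp only [h1]
  rw [integral_const_mul]
  have h2 : dtil δ ss i = max (dS (uu ss i) ((ss i : E d) - (ss 0 : E d))) (tt δ) := rfl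
  rw [h2]
  have ha : (0 : ℝ) ≤ 2 * a := by positivity
  exact mul_le_mul_of_nonpos_left h (by linarith)

/-- T1 for the block. -/
theorem NN_le_RR (hψ : IsDens ψ) (hδ : 0 < δ) (a : ℕ) (hl : 2 * a + 1 + n + 1 ≤ d)
    (ha : n + 2 * a < k) (ss : Fin (n + 1) → Sph d) (i : Fin (n + 1)) :
    NN k a ψ δ ss i ≤ (((k : ℝ) - n - 2 * a) ^ a)⁻¹ * RR a ψ ss i := by
  have hd : 2 ≤ d := by omega
  have hd0 : 0 < d := by omega
  have := sig_isProb (d := d) hd0
  have ht := tt_pos hδ
  set c : ℝ := (((k : ℝ) - n - 2 * a) ^ a)⁻¹ with hc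
  have hT := finrank_span_uu ss i
  have hint := integrable_psi_kap (k := k) hd0 hψ hδ a ss i
  have hψi := integrable_psi_riesz hψ a (n := n) hl ss i
  have hae := ae_dS_pos (d := d) hl ss i
  unfold NN RR
  rw [integral_prod _ hint, ← integral_const_mul]
  refine integral_mono_ae hint.integral_prod_left (hψi.const_mul c) ?_
  filter_upwards [hae] with s' hs'
  change ∫ X, ψ s' * kap a δ X ss i s' ∂(gam d k) ≤ c * (ψ s' *
    ((dS (uu ss i) ((s' : E d) - (ss 0 : E d))) ^ (2 * a))⁻¹)
  rw [integral_const_mul]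
  have h3 := kernel_first_moment (k := k) (uu ss i) ((s' : E d) - (ss 0 : E d)) a n hT ha hs'
    (tt δ) ht
  calc ψ s' * ∫ X, kap a δ X ss i s' ∂(gam d k)
      ≤ ψ s' * (c * ((dS (uu ss i) ((s' : E d) - (ss 0 : E d))) ^ (2 * a))⁻¹) :=
        mul_le_mul_of_nonneg_left h3 (hψ.nonneg s')
    _ = c * (ψ s' * ((dS (uu ss i) ((s' : E d) - (ss 0 : E d))) ^ (2 * a))⁻¹) := by ring

/-- Uniform bounds for `NN`. -/
theorem NN_pos_bound (hd : 0 < d) (hψ : IsDens ψ) (hδ : 0 < δ) (a : ℕ) :
    ∃ c : ℝ, 0 < c ∧ ∃ C : ℝ, ∀ (ss : Fin (n + 1) → Sph d) (i : Fin (n + 1)),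
      c ≤ NN k a ψ δ ss i ∧ NN k a ψ δ ss i ≤ C := by
  have := sig_isProb (d := d) hd
  have ht := tt_pos hδ
  set g : Mat d k → ℝ := fun X => ((max (2 * frob X) (tt δ)) ^ (2 * a))⁻¹ with hg
  have hmaxpos : ∀ X : Mat d k, 0 < max (2 * frob X) (tt δ) := fun X => lt_max_of_lt_right ht
  have hg0 : ∀ X, 0 < g X := fun X => by
    have := hmaxpos X
    simp only [hg]; positivity
  have hgm : Measurable g :=
    (((measurable_frob.const_mul 2).max measurable_const).pow_const _).inv
  have hgle : ∀ X, g X ≤ ((tt δ) ^ (2 * a))⁻¹ := fun X =>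
    inv_anti₀ (by positivity) (pow_le_pow_left₀ ht.le (le_max_right _ _) _)
  have hgi : Integrable g (gam d k) := by
    refine Integrable.of_bound hgm.aestronglyMeasurable (((tt δ) ^ (2 * a))⁻¹)
      (Filter.Eventually.of_forall fun X => ?_)
    rw [Real.norm_eq_abs, abs_of_pos (hg0 X)]
    exact hgle X
  have hc : 0 < ∫ X, g X ∂(gam d k) := by
    rw [integral_pos_iff_support_of_nonneg (fun X => (hg0 X).le) hgi]
    have hs : Function.support g = Set.univ := by
      ext X
      simp only [Function.mem_support, Set.mem_univ, iff_true]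
      exact (hg0 X).ne'
    rw [hs, measure_univ]
    exact one_pos
  obtain ⟨L, hL⟩ := hψ.bdd
  have hψi : Integrable ψ (sig d) := by
    refine Integrable.of_bound hψ.meas.aestronglyMeasurable |L|
      (Filter.Eventually.of_forall fun s => ?_)
    rw [Real.norm_eq_abs, abs_of_nonneg (hψ.nonneg s)]
    exact (hL s).trans (le_abs_self L)
  refine ⟨_, hc, ((tt δ) ^ (2 * a))⁻¹, fun ss i => ⟨?_, ?_⟩⟩
  · have hint := integrable_psi_kap (k := k) hd hψ hδ a ss i
    have h1 : ∫ p : Sph d × Mat d k, ψ p.1 * g p.2 ∂((sig d).prod (gam d k)) =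
        ∫ X, g X ∂(gam d k) := by
      rw [integral_prod_mul, hψ.int_one, one_mul]
    rw [← h1]
    refine integral_mono (hψi.mul_prod hgi) hint fun p => ?_
    refine mul_le_mul_of_nonneg_left ?_ (hψ.nonneg _)
    exact g_le_kap hδ a p.2 ss i p.1
  · have hint := integrable_psi_kap (k := k) hd hψ hδ a ss i
    have h1 : ∫ p : Sph d × Mat d k, ψ p.1 * (fun _ : Mat d k => ((tt δ) ^ (2 * a))⁻¹) p.2
        ∂((sig d).prod (gam d k)) = ((tt δ) ^ (2 * a))⁻¹ :=
      (integral_prod_mul ψ (fun _ : Mat d k => ((tt δ) ^ (2 * a))⁻¹)).trans (by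
        rw [hψ.int_one, one_mul, integral_const, probReal_univ, one_smul])
    rw [← h1]
    refine integral_mono hint (hψi.mul_prod (integrable_const _)) fun p => ?_
    exact mul_le_mul_of_nonneg_left (kap_le hδ a p.2 ss i p.1) (hψ.nonneg _)

/-- Uniform bounds for `RR`. -/
theorem RR_pos_bound (hψ : IsDens ψ) (a : ℕ) (hl : 2 * a + 1 + n + 1 ≤ d) :
    ∃ c : ℝ, 0 < c ∧ ∃ C : ℝ, ∀ (ss : Fin (n + 1) → Sph d) (i : Fin (n + 1)),
      c ≤ RR a ψ ss i ∧ RR a ψ ss i ≤ C := by
  have hd : 2 ≤ d := by omega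
  have hd0 : 0 < d := by omega
  have := sig_isProb (d := d) hd0
  obtain ⟨L, hL⟩ := hψ.bdd
  have hψi : Integrable ψ (sig d) := by
    refine Integrable.of_bound hψ.meas.aestronglyMeasurable |L|
      (Filter.Eventually.of_forall fun s => ?_)
    rw [Real.norm_eq_abs, abs_of_nonneg (hψ.nonneg s)]
    exact (hL s).trans (le_abs_self L)
  refine ⟨(2 ^ (2 * a))⁻¹, by positivity, |L| * (2 * (32 * Real.sqrt d) ^ d), fun ss i => ⟨?_, ?_⟩⟩
  · have hψr := integrable_psi_riesz hψ a (n := n) hl ss i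
    have hae := ae_dS_pos (d := d) hl ss i
    have h1 : ∫ s', ψ s' * ((2 : ℝ) ^ (2 * a))⁻¹ ∂(sig d) = ((2 : ℝ) ^ (2 * a))⁻¹ := by
      rw [integral_mul_const, hψ.int_one, one_mul]
    unfold RR
    rw [← h1]
    refine integral_mono_ae (hψi.mul_const _) hψr ?_
    filter_upwards [hae] with s' hs'
    refine mul_le_mul_of_nonneg_left ?_ (hψ.nonneg s')
    refine inv_anti₀ (by positivity) (pow_le_pow_left₀ hs'.le ?_ _)
    have h0 : (0 : E d) ∈ (Submodule.span ℝ (Set.range (uu ss i)) : Set (E d)) :=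
      Submodule.zero_mem _
    have h2 : dS (uu ss i) ((s' : E d) - (ss 0 : E d)) ≤ dist ((s' : E d) - (ss 0 : E d)) 0 :=
      Metric.infDist_le_dist_of_mem h0
    rw [dist_zero_right] at h2
    exact h2.trans (norm_sub_sph_le _ _)
  · have hT := finrank_span_uu ss i
    obtain ⟨hRi, hRle⟩ := sig_negMoment_integrable hd (uu ss i) (ss 0 : E d) n (2 * a) hT
      (by omega)
    have hψr := integrable_psi_riesz hψ a (n := n) hl ss i
    unfold RR
    calc ∫ s', ψ s' * ((dS (uu ss i) ((s' : E d) - (ss 0 : E d))) ^ (2 * a))⁻¹ ∂(sig d)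
        ≤ ∫ s', |L| * ((dS (uu ss i) ((s' : E d) - (ss 0 : E d))) ^ (2 * a))⁻¹ ∂(sig d) := by
          refine integral_mono hψr (hRi.const_mul _) fun s' => ?_
          refine mul_le_mul_of_nonneg_right ((hL s').trans (le_abs_self L)) ?_
          have : 0 ≤ dS (uu ss i) ((s' : E d) - (ss 0 : E d)) := Metric.infDist_nonneg
          positivity
      _ = |L| * ∫ s', ((dS (uu ss i) ((s' : E d) - (ss 0 : E d))) ^ (2 * a))⁻¹ ∂(sig d) :=
          integral_const_mul _ _
      _ ≤ _ := mul_le_mul_of_nonneg_left hRle (abs_nonneg _)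

theorem measurable_NN (hψ : IsDens ψ) (a : ℕ) (i : Fin (n + 1)) :
    Measurable (fun ss : Fin (n + 1) → Sph d => NN k a ψ δ ss i) := by
  rcases Nat.eq_zero_or_pos d with rfl | hd
  · have : IsEmpty (Fin (n + 1) → Sph 0) := ⟨fun ss => sph_zero_false (ss 0)⟩
    exact measurable_of_empty _
  have := sig_isProb (d := d) hd
  have h : Measurable (fun z : (Fin (n + 1) → Sph d) × (Sph d × Mat d k) =>
      ψ z.2.1 * kap a δ z.2.2 z.1 i z.2.1) :=
    (hψ.meas.comp (measurable_fst.comp measurable_snd)).mul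
      (measurable_kap_comp a δ i (measurable_snd.comp measurable_snd) measurable_fst
        (measurable_fst.comp measurable_snd))
  exact measurable_integral_of_joint (ν := (sig d).prod (gam d k))
    (f := fun ss p => ψ p.1 * kap a δ p.2 ss i p.1) h

theorem measurable_RR (hψ : IsDens ψ) (a : ℕ) (i : Fin (n + 1)) :
    Measurable (fun ss : Fin (n + 1) → Sph d => RR a ψ ss i) := by
  rcases Nat.eq_zero_or_pos d with rfl | hd
  · have : IsEmpty (Fin (n + 1) → Sph 0) := ⟨fun ss => sph_zero_false (ss 0)⟩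
    exact measurable_of_empty _
  have := sig_isProb (d := d) hd
  have h2 : Measurable (fun z : (Fin (n + 1) → Sph d) × Sph d => (z.2 : E d) - (z.1 0 : E d)) :=
    (measurable_subtype_coe.comp measurable_snd).sub
      (measurable_subtype_coe.comp ((measurable_pi_apply 0).comp measurable_fst))
  have h1 : Measurable (fun z : (Fin (n + 1) → Sph d) × Sph d =>
      dS (uu z.1 i) ((z.2 : E d) - (z.1 0 : E d))) :=
    measurable_dS_comp ((measurable_uu i).comp measurable_fst) h2
  have h : Measurable (fun z : (Fin (n + 1) → Sph d) × Sph d =>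
      ψ z.2 * ((dS (uu z.1 i) ((z.2 : E d) - (z.1 0 : E d))) ^ (2 * a))⁻¹) :=
    (hψ.meas.comp measurable_snd).mul ((h1.pow_const _).inv)
  exact measurable_integral_of_joint (ν := sig d)
    (f := fun ss s' => ψ s' * ((dS (uu ss i) ((s' : E d) - (ss 0 : E d))) ^ (2 * a))⁻¹) h

/-- Integrability of `log kap` in `X`, for each tuple. -/
theorem integrable_logkap (hδ : 0 < δ) (a : ℕ) (ss : Fin (n + 1) → Sph d) (i : Fin (n + 1))
    (s' : Sph d) : Integrable (fun X => Real.log (kap a δ X ss i s')) (gam d k) := by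
  have ht := tt_pos hδ
  have h := kernel_log_integrable (k := k) (uu ss i) ((s' : E d) - (ss 0 : E d)) (tt δ) ht
  have h1 : (fun X : Mat d k => Real.log (kap a δ X ss i s')) = fun X => -(2 * a : ℝ) * Real.log
      (max (dS (fun j => Aop X (uu ss i j)) (Aop X ((s' : E d) - (ss 0 : E d)))) (tt δ)) :=
    funext fun X => log_kap a δ X ss i s'
  rw [h1]
  exact h.const_mul _

theorem measurable_logkap_int (hδ : 0 < δ) (a : ℕ) (i : Fin (n + 1)) :
    Measurable (fun ss : Fin (n + 1) → Sph d =>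
      ∫ X, Real.log (kap a δ X ss i (ss i)) ∂(gam d k)) := by
  have h : Measurable (fun z : (Fin (n + 1) → Sph d) × Mat d k =>
      Real.log (kap a δ z.2 z.1 i (z.1 i))) :=
    Real.measurable_log.comp (measurable_kap_comp a δ i measurable_snd measurable_fst
      ((measurable_pi_apply i).comp measurable_fst))
  exact measurable_integral_of_joint (ν := gam d k)
    (f := fun ss X => Real.log (kap a δ X ss i (ss i))) h

/-- Uniform bound for the integral of `log kap`. -/
theorem logkap_int_bound (hδ : 0 < δ) (a : ℕ) :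
    ∃ C : ℝ, ∀ (ss : Fin (n + 1) → Sph d) (i : Fin (n + 1)),
      |∫ X, Real.log (kap a δ X ss i (ss i)) ∂(gam d k)| ≤ C := by
  have ht := tt_pos hδ
  set A : ℝ := -(2 * a : ℝ) * (Real.log (max 2 (tt δ)) + (1 / 2) * Real.log (k + 1)) with hA
  set B : ℝ := -(2 * a : ℝ) * Real.log (tt δ) with hB
  refine ⟨|A| + |B|, fun ss i => ?_⟩
  have h1 : A ≤ ∫ X, Real.log (kap a δ X ss i (ss i)) ∂(gam d k) := by
    refine le_trans ?_ (logkap_lower hδ a ss i)
    obtain ⟨h2, h3⟩ := dtil_bounds hδ ss i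
    have h4 : Real.log (dtil δ ss i) ≤ Real.log (max 2 (tt δ)) :=
      Real.log_le_log (lt_of_lt_of_le ht h2) h3
    have ha : (0 : ℝ) ≤ 2 * a := by positivity
    simp only [hA]
    exact mul_le_mul_of_nonpos_left (by linarith) (by linarith)
  have h2 : ∫ X, Real.log (kap a δ X ss i (ss i)) ∂(gam d k) ≤ B := by
    have h3 : ∫ _X : Mat d k, B ∂(gam d k) = B := by
      rw [integral_const, probReal_univ, one_smul]
    rw [← h3]
    refine integral_mono (integrable_logkap hδ a ss i (ss i)) (integrable_const _) fun X => ?_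
    simp only [log_kap a δ X ss i (ss i), hB]
    have ha : (0 : ℝ) ≤ 2 * a := by positivity
    refine mul_le_mul_of_nonpos_left ?_ (by linarith)
    exact Real.log_le_log ht (le_max_right _ _)
  rw [abs_le]
  constructor
  · linarith [neg_abs_le A, abs_nonneg B]
  · linarith [le_abs_self B, abs_nonneg A]

/-- The measurability of `kap` as a function of `(X, y)`, where `y = X s'`: `kap` only depends on
`s'` via `X s'`. -/
theorem kap_factor (hδ : 0 < δ) (a : ℕ) (ss : Fin (n + 1) → Sph d) (i : Fin (n + 1)) :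
    ∃ κ : Mat d k × (Fin k → ℝ) → ENNReal, Measurable κ ∧ ∀ (X : Mat d k) (s' : Sph d),
      κ (X, mv X (s' : E d)) = ENNReal.ofReal (kap a δ X ss i s') := by
  refine ⟨fun p => ENNReal.ofReal (((max (dS (fun j => Aop p.1 (uu ss i j))
    (WithLp.toLp 2 p.2 - Aop p.1 (ss 0 : E d))) (tt δ)) ^ (2 * a))⁻¹), ?_, ?_⟩
  · have h1 : Measurable (fun p : Mat d k × (Fin k → ℝ) => (WithLp.toLp 2 p.2 : E k)) :=
      (MeasurableEquiv.toLp 2 (Fin k → ℝ)).measurable.comp measurable_snd
    have h2 : ∀ v : E d, Measurable (fun p : Mat d k × (Fin k → ℝ) => Aop p.1 v) := fun v =>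
      (measurable_Aop_right v).comp measurable_fst
    have h3 : Measurable (fun p : Mat d k × (Fin k → ℝ) =>
        dS (fun j => Aop p.1 (uu ss i j)) (WithLp.toLp 2 p.2 - Aop p.1 (ss 0 : E d))) :=
      measurable_dS_comp (measurable_pi_iff.2 fun j => h2 _) (h1.sub (h2 _))
    exact ENNReal.measurable_ofReal.comp (((h3.max measurable_const).pow_const _).inv)
  · intro X s'
    have h : Aop X ((s' : E d) - (ss 0 : E d)) =
        WithLp.toLp 2 (mv X (s' : E d)) - Aop X (ss 0 : E d) := by
      rw [map_sub]; rfl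
    simp only [kap, DD, h]

end Crest.Agent.MS
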