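import Crest.Agent.Lib.MS.BlockDefs

/-!
# S0499 module `BlockNum`: numerics of the block lemma.
-/

set_option autoImplicit false

namespace Crest.Agent.MS

open Real
open Crest.StreamLearn (E)

/-- The threshold dimension. -/
def dZero : ℕ := 2 ^ 20

/-- Volume of the unit ball in even dimension. -/
theorem ballVol_even (b : ℕ) (hb : 0 < b) : ballVol (2 * b) = π ^ b / (b.factorial : ℝ) := by
  unfold ballVol
  have : Nonempty (Fin (2 * b)) := ⟨⟨0, by omega⟩⟩
  rw [EuclideanSpace.volume_ball]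
  simp only [Fintype.card_fin, ENNReal.ofReal_one, one_pow, one_mul]
  have hG : Real.Gamma (((2 * b : ℕ) : ℝ) / 2 + 1) = (b.factorial : ℝ) := by
    have : ((2 * b : ℕ) : ℝ) / 2 + 1 = (b : ℝ) + 1 := by push_cast; ring
    rw [this, Real.Gamma_nat_eq_factorial]
  have hs : (√π) ^ (2 * b) = π ^ b := by
    rw [pow_mul, Real.sq_sqrt Real.pi_pos.le]
  rw [hG, hs, ENNReal.toReal_ofReal]
  positivity

/-- `log d ≤ d / 1000 + 7`. -/
theorem log_le_linear {x : ℝ} (hx : 0 < x) : Real.log x ≤ x / 1000 + 6 := by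
  have h1 : Real.log (x / 1000) ≤ x / 1000 - 1 := Real.log_le_sub_one_of_pos (by positivity)
  have h2 : Real.log (x / 1000) = Real.log x - Real.log 1000 := Real.log_div hx.ne' (by norm_num)
  have h3 : Real.log 1000 ≤ Real.log ((2 : ℝ) ^ 10) := Real.log_le_log (by norm_num) (by norm_num)
  rw [Real.log_pow] at h3
  have h4 := Real.log_two_lt_d9
  push_cast at h3
  linarith

/-- Numerics of the block lemma. -/
theorem block_numeric {d : ℕ} (hd : dZero ≤ d) :
    (2 / (((d / 2 : ℕ) : ℝ) - bB d)) * (Real.log (2 * (32 * Real.sqrt d) ^ d) + 1.2 * bB d)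
      + (((d / 64 - 1 : ℕ) : ℝ) * Real.log (kV d + 1) -
          ((d / 64 - 1 : ℕ) : ℝ) * Real.log ((kV d : ℝ) - nT d - 2 * (d / 64 - 1 : ℕ)))
      + CR d (bB d) + 1 ≤ d := by
  have hd' : (2 : ℕ) ^ 20 ≤ d := hd
  norm_num at hd'
  have hdR : (1048576 : ℝ) ≤ d := by exact_mod_cast hd'
  set b := d / 64 with hb
  have hb1 : 64 * b ≤ d := by omega
  have hb2 : d < 64 * b + 64 := by omega
  have hb3 : 16384 ≤ b := by omega
  have hb1R : 64 * (b : ℝ) ≤ d := by exact_mod_cast hb1
  have hb2R : (d : ℝ) + 1 ≤ 64 * (b : ℝ) + 64 := by exact_mod_cast hb2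
  have hb3R : (16384 : ℝ) ≤ b := by exact_mod_cast hb3
  have hbpos : (0 : ℝ) < b := by linarith
  have hdpos : (0 : ℝ) < d := by linarith
  have hlog2 := Real.log_two_lt_d9
  have hlog2pos : 0 < Real.log 2 := Real.log_pos (by norm_num)
  -- first term
  have hBdef : bB d = 2 * b := rfl
  have hl : (d : ℝ) / 3 ≤ ((d / 2 : ℕ) : ℝ) - bB d := by
    have h1 : d ≤ 2 * (d / 2) + 1 := by omega
    have h2 : (d : ℝ) ≤ 2 * ((d / 2 : ℕ) : ℝ) + 1 := by exact_mod_cast h1
    rw [hBdef]
    push_cast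
    linarith
  have hlpos : (0 : ℝ) < ((d / 2 : ℕ) : ℝ) - bB d := lt_of_lt_of_le (by positivity) hl
  have hlogd := log_le_linear hdpos
  have hlogC : Real.log (2 * (32 * Real.sqrt d) ^ d) ≤ 1 + d * (3.5 + (d / 1000 + 6) / 2) := by
    have h1 : Real.log (2 * (32 * Real.sqrt d) ^ d) =
        Real.log 2 + d * (Real.log 32 + Real.log d / 2) := by
      have hs : 0 < Real.sqrt d := Real.sqrt_pos.mpr hdpos
      rw [Real.log_mul (by norm_num) (by positivity), Real.log_pow,
        Real.log_mul (by norm_num) hs.ne', Real.log_sqrt hdpos.le]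
    have h2 : Real.log 32 ≤ 3.5 := by
      have : Real.log 32 = 5 * Real.log 2 := by
        rw [show (32 : ℝ) = 2 ^ 5 by norm_num, Real.log_pow]; norm_num
      rw [this]; linarith
    rw [h1]
    have h3 : Real.log 2 ≤ 1 := by linarith
    have h4 : Real.log 32 + Real.log d / 2 ≤ 3.5 + (d / 1000 + 6) / 2 := by linarith
    have := mul_le_mul_of_nonneg_left h4 hdpos.le
    linarith
  have hfirst : (2 / (((d / 2 : ℕ) : ℝ) - bB d)) *
      (Real.log (2 * (32 * Real.sqrt d) ^ d) + 1.2 * bB d) ≤ 41 + 0.004 * d := by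
    have hb' : (bB d : ℝ) = 2 * b := by rw [hBdef]; push_cast; ring
    have hC : Real.log (2 * (32 * Real.sqrt d) ^ d) + 1.2 * bB d ≤
        1 + d * (3.5 + (d / 1000 + 6) / 2) + 0.04 * d := by
      rw [hb']; linarith
    have hrhs : 0 ≤ 1 + (d : ℝ) * (3.5 + ((d : ℝ) / 1000 + 6) / 2) + 0.04 * (d : ℝ) := by positivity
    calc _ ≤ (2 / (((d / 2 : ℕ) : ℝ) - bB d)) * (1 + d * (3.5 + (d / 1000 + 6) / 2) + 0.04 * d) :=
          mul_le_mul_of_nonneg_left hC (by positivity)
      _ ≤ (2 / ((d : ℝ) / 3)) * (1 + d * (3.5 + (d / 1000 + 6) / 2) + 0.04 * d) := by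
          apply mul_le_mul_of_nonneg_right _ hrhs
          exact div_le_div_of_nonneg_left (by norm_num) (by positivity) hl
      _ ≤ 41 + 0.004 * d := by
          have : (2 / ((d : ℝ) / 3)) * (1 + d * (3.5 + (d / 1000 + 6) / 2) + 0.04 * d) =
              6 / d + 6 * (3.5 + (d / 1000 + 6) / 2 + 0.04) := by
            field_simp
            ring
          rw [this]
          have h6 : 6 / (d : ℝ) ≤ 1 := by
            rw [div_le_one hdpos]; linarith
          linarith
  -- second term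
  have hkn : kV d + 1 ≤ 2 * (kV d - nT d - 2 * (b - 1)) ∧ nT d + 2 * (b - 1) < kV d := by
    unfold kV nT
    omega
  have hsecond : ((b - 1 : ℕ) : ℝ) * Real.log (kV d + 1) -
      ((b - 1 : ℕ) : ℝ) * Real.log ((kV d : ℝ) - nT d - 2 * (b - 1 : ℕ)) ≤ 0.011 * d := by
    have hcast : ((kV d - nT d - 2 * (b - 1) : ℕ) : ℝ) = (kV d : ℝ) - nT d - 2 * (b - 1 : ℕ) := by
      have h1 : nT d + 2 * (b - 1) ≤ kV d := hkn.2.le
      rw [Nat.sub_sub, Nat.cast_sub h1]
      push_cast
      ring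
    rw [← hcast]
    have hpos : (0 : ℝ) < ((kV d - nT d - 2 * (b - 1) : ℕ) : ℝ) := by
      have : 0 < kV d - nT d - 2 * (b - 1) := by omega
      exact_mod_cast this
    have h2 : ((kV d : ℝ) + 1) ≤ 2 * ((kV d - nT d - 2 * (b - 1) : ℕ) : ℝ) := by
      exact_mod_cast hkn.1
    have h3 : Real.log ((kV d : ℝ) + 1) ≤ Real.log 2 + Real.log ((kV d - nT d - 2 * (b - 1) : ℕ) : ℝ) := by
      rw [← Real.log_mul (by norm_num) hpos.ne']
      exact Real.log_le_log (by positivity) h2
    have ha0 : (0 : ℝ) ≤ ((b - 1 : ℕ) : ℝ) := by positivity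
    have ha1 : ((b - 1 : ℕ) : ℝ) ≤ b := by
      exact_mod_cast Nat.sub_le b 1
    have h4 : ((b - 1 : ℕ) : ℝ) * (Real.log ((kV d : ℝ) + 1) -
        Real.log ((kV d - nT d - 2 * (b - 1) : ℕ) : ℝ)) ≤ ((b - 1 : ℕ) : ℝ) * 0.7 :=
      mul_le_mul_of_nonneg_left (by linarith) ha0
    rw [mul_sub] at h4
    have h5 : ((b - 1 : ℕ) : ℝ) * 0.7 ≤ b * 0.7 := by linarith
    linarith
  -- third term
  have hthird : CR d (bB d) ≤ 0.16 * d + 7 := by
    unfold CR
    rw [hBdef]
    have hvol := ballVol_even b (by omega)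
    have hfact : (0 : ℝ) < (b.factorial : ℝ) := by exact_mod_cast Nat.factorial_pos b
    have h1 : Real.log (8 * ((2 * b : ℕ) : ℝ) * ballVol (2 * b)) + (((2 * b : ℕ) : ℝ) / 2) * Real.log (1 + d) =
        Real.log (16 * b) + Real.log (π ^ b * (1 + (d : ℝ)) ^ b / (b.factorial : ℝ)) := by
      rw [hvol]
      have h2 : (8 * ((2 * b : ℕ) : ℝ) * (π ^ b / (b.factorial : ℝ))) =
          (16 * b) * (π ^ b / (b.factorial : ℝ)) := by push_cast; ring
      have e1 : Real.log ((16 * b) * (π ^ b / (b.factorial : ℝ))) =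
          Real.log (16 * b) + Real.log (π ^ b / (b.factorial : ℝ)) :=
        Real.log_mul (by positivity) (by positivity)
      have e2 : Real.log (π ^ b * (1 + (d : ℝ)) ^ b / (b.factorial : ℝ)) =
          Real.log (π ^ b / (b.factorial : ℝ)) + b * Real.log (1 + d) := by
        rw [show π ^ b * (1 + (d : ℝ)) ^ b / (b.factorial : ℝ) =
          (π ^ b / (b.factorial : ℝ)) * (1 + (d : ℝ)) ^ b by ring]
        rw [Real.log_mul (by positivity) (by positivity), Real.log_pow]
      rw [h2, e1, e2]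
      push_cast
      ring
    have h3 : π ^ b * (1 + (d : ℝ)) ^ b / (b.factorial : ℝ) ≤ (260 : ℝ) ^ b * Real.exp b := by
      have h4 := Real.pow_div_factorial_le_exp (b : ℝ) hbpos.le b
      have h5 : π * (1 + (d : ℝ)) ≤ 260 * b := by
        have : π ≤ 4 := Real.pi_le_four
        nlinarith
      have h6 : π ^ b * (1 + (d : ℝ)) ^ b ≤ (260 : ℝ) ^ b * (b : ℝ) ^ b := by
        rw [← mul_pow, ← mul_pow]
        exact pow_le_pow_left₀ (by positivity) h5 b
      calc π ^ b * (1 + (d : ℝ)) ^ b / (b.factorial : ℝ) ≤ (260 : ℝ) ^ b * (b : ℝ) ^ b / (b.factorial : ℝ) :=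
            div_le_div_of_nonneg_right h6 hfact.le
        _ = (260 : ℝ) ^ b * ((b : ℝ) ^ b / (b.factorial : ℝ)) := by ring
        _ ≤ _ := mul_le_mul_of_nonneg_left h4 (by positivity)
    have h7 : Real.log (π ^ b * (1 + (d : ℝ)) ^ b / (b.factorial : ℝ)) ≤ b * Real.log 260 + b := by
      have hpos : 0 < π ^ b * (1 + (d : ℝ)) ^ b / (b.factorial : ℝ) := by positivity
      have := Real.log_le_log hpos h3
      rw [Real.log_mul (by positivity) (Real.exp_pos _).ne', Real.log_pow, Real.log_exp] at this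
      exact this
    have h8 : Real.log 260 ≤ 6.3 := by
      have h9 : Real.log 260 ≤ Real.log ((2 : ℝ) ^ 9) := Real.log_le_log (by norm_num) (by norm_num)
      rw [Real.log_pow] at h9
      push_cast at h9
      linarith
    have h10 : Real.log 3 ≤ 1.4 := by
      have h9 : Real.log 3 ≤ Real.log ((2 : ℝ) ^ 2) := Real.log_le_log (by norm_num) (by norm_num)
      rw [Real.log_pow] at h9
      push_cast at h9
      linarith
    have h11 : Real.log (16 * b) ≤ d / 1000 + 6 := by
      have : Real.log (16 * b) ≤ Real.log d := Real.log_le_log (by positivity) (by linarith)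
      linarith
    have h12 : (2 * (b : ℝ)) * Real.log 3 ≤ 2 * b * 1.4 := mul_le_mul_of_nonneg_left h10 (by positivity)
    have h13 : (b : ℝ) * Real.log 260 ≤ b * 6.3 := mul_le_mul_of_nonneg_left h8 hbpos.le
    have h14 : ((2 * b : ℕ) : ℝ) * Real.log 3 = 2 * b * Real.log 3 := by push_cast; ring
    rw [add_assoc, h1, h14]
    linarith
  have hfinal := add_le_add (add_le_add (add_le_add hfirst hsecond) hthird) (le_refl (1 : ℝ))
  refine hfinal.trans ?_
  linarith

end Crest.Agent.MS
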