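import Crest.Agent.Lib.MS.BlockCore
import Crest.Agent.Lib.MS.BlockNum

/-!
# S0499 module `BlockMain`: the block lemma.
-/

set_option autoImplicit false
set_option linter.unusedSectionVars false

namespace Crest.Agent.MS

open MeasureTheory ProbabilityTheory Filter Topology
open Crest.StreamLearn (E Sphere sphereUniform)

variable {d B k n : ℕ} {Q : Type} [Fintype Q] [Nonempty Q] [MeasurableSpace Q]
  [MeasurableSingletonClass Q] {ψ : Sph d → ℝ} {F : Mat d B → (Fin B → ℝ) → Q} {δ : ℝ}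

theorem tt_div (hδ : 0 < δ) : tt δ / δ = 2 / Real.sqrt (2 * Real.pi) := by
  unfold tt
  field_simp

theorem log_tt_div_le (hδ : 0 < δ) : Real.log (tt δ / δ) ≤ 0 := by
  rw [tt_div hδ]
  have hpi := Real.pi_gt_three
  have h1 : (2 : ℝ) ≤ Real.sqrt (2 * Real.pi) := by
    apply Real.le_sqrt_of_sq_le
    nlinarith
  have h2 : 0 < Real.sqrt (2 * Real.pi) := by positivity
  apply Real.log_nonpos (by positivity)
  rw [div_le_one h2]
  exact h1

/-- `Hz + B log t₀ ≤ (Hz - Hc) + 1.2 B + 2 B δ`. -/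
theorem Hz_add_le (hψ : IsDens ψ) (hδ : 0 < δ) (hδ1 : δ ≤ 1) (hd : 0 < d) :
    Hz ψ F δ + B * Real.log (tt δ) ≤ (Hz ψ F δ - Hc B ψ δ) + 1.2 * B + 2 * B * δ := by
  have h1 := Hc_le (B := B) hd hψ hδ hδ1
  have hpi := Real.pi_pos
  have h2 : Real.log (2 * Real.pi * Real.exp 1) = Real.log (2 * Real.pi) + 1 := by
    rw [Real.log_mul (by positivity) (Real.exp_pos _).ne', Real.log_exp]
  have h3 : Real.log (tt δ) = Real.log δ + (Real.log 2 - (1 / 2) * Real.log (2 * Real.pi)) := by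
    have h4 : tt δ = δ * (2 / Real.sqrt (2 * Real.pi)) := by
      unfold tt; ring
    have hs : 0 < Real.sqrt (2 * Real.pi) := by positivity
    rw [h4, Real.log_mul hδ.ne' (by positivity), Real.log_div (by norm_num) hs.ne',
      Real.log_sqrt (by positivity)]
    ring
  rw [h2] at h1
  rw [h3]
  have hB : (0 : ℝ) ≤ B := Nat.cast_nonneg B
  have hlog2 := Real.log_two_lt_d9
  have h5 : (B : ℝ) * Real.log 2 ≤ B * 0.7 := mul_le_mul_of_nonneg_left (by linarith) hB
  nlinarith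

/-- The block inequality without `δ`, for general parameters. -/
theorem block_limit {a l : ℕ} (hB : B = 2 * a + 2) (hn : B + n + 3 ≤ d) (ha : n + 2 * a < k)
    (hl : l + 1 + n + 1 ≤ d) (hlB : B < l)
    (hψ : IsDens ψ) (hF : Measurable (fun p : Mat d B × (Fin B → ℝ) => F p.1 p.2)) :
    n * (Iq ψ (pF F) - Jq k ψ (pF F)) ≤ Hcond ψ (pF F) +
      (2 / ((l : ℝ) - B)) * (n * Real.log (2 * (32 * Real.sqrt d) ^ d) + (n + 1) * D0 ψ
        + n * (1.2 * B)) +
      n * (a * Real.log (k + 1) - a * Real.log ((k : ℝ) - n - 2 * a) + CR d B + 1) := by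
  have hd : 0 < d := by omega
  obtain ⟨δ₀, hδ₀, hR⟩ := riesz_bound (F := F) (n := n) hB hn hψ hF 1 one_pos
  have hlB' : (0 : ℝ) < (l : ℝ) - B := by
    have : (B : ℝ) < l := by exact_mod_cast hlB
    linarith
  have hcoef : (0 : ℝ) ≤ 2 / ((l : ℝ) - B) := by positivity
  have hn0 : (0 : ℝ) ≤ n := Nat.cast_nonneg n
  have hB0 : (0 : ℝ) ≤ B := Nat.cast_nonneg B
  -- the sequence of scales
  have hδj : Tendsto (fun j : ℕ => (1 / 2 : ℝ) ^ j) atTop (𝓝 0) :=
    tendsto_pow_atTop_nhds_zero_of_lt_one (by norm_num) (by norm_num)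
  have hx := Hz_sub_Hc_tendsto hd hψ hF
  -- right side
  set f : ℕ → ℝ := fun j => Hcond ψ (pF F) + n * (Hz ψ F ((1 / 2 : ℝ) ^ j) - Hc B ψ ((1 / 2 : ℝ) ^ j)) +
      (2 / ((l : ℝ) - B)) * (n * Real.log (2 * (32 * Real.sqrt d) ^ d) + (n + 1) * D0 ψ
        + n * ((Hz ψ F ((1 / 2 : ℝ) ^ j) - Hc B ψ ((1 / 2 : ℝ) ^ j)) + 1.2 * B + 2 * B * (1 / 2 : ℝ) ^ j)) +
      n * (a * Real.log (k + 1) - a * Real.log ((k : ℝ) - n - 2 * a) + CR d B + 1) with hf
  have hlim : Tendsto f atTop (𝓝 (Hcond ψ (pF F) + n * 0 +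
      (2 / ((l : ℝ) - B)) * (n * Real.log (2 * (32 * Real.sqrt d) ^ d) + (n + 1) * D0 ψ
        + n * (0 + 1.2 * B + 2 * B * 0)) +
      n * (a * Real.log (k + 1) - a * Real.log ((k : ℝ) - n - 2 * a) + CR d B + 1))) := by
    refine Tendsto.add (Tendsto.add (Tendsto.add tendsto_const_nhds (hx.const_mul _))
      (Tendsto.const_mul _ (Tendsto.add tendsto_const_nhds (Tendsto.const_mul _
        (Tendsto.add (Tendsto.add hx tendsto_const_nhds) (hδj.const_mul _))))))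
      tendsto_const_nhds
  have hle : ∀ᶠ j : ℕ in atTop, n * (Iq ψ (pF F) - Jq k ψ (pF F)) ≤ f j := by
    have h1 : ∀ᶠ j : ℕ in atTop, (1 / 2 : ℝ) ^ j < δ₀ := hδj.eventually (gt_mem_nhds hδ₀)
    filter_upwards [h1] with j hj
    set δ := (1 / 2 : ℝ) ^ j with hδdef
    have hδ : 0 < δ := by positivity
    have hδ1 : δ ≤ 1 := pow_le_one₀ (by norm_num) (by norm_num)
    have hcore := block_core (k := k) hB hn ha hψ hF hδ 1 (hR δ hδ hj)
    have hself := block_self (B := B) (F := F) hψ hF hδ l hl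
    have hHz := Hz_add_le (F := F) (B := B) hψ hδ hδ1 hd
    have hlt := log_tt_div_le hδ
    set Ξ := ∑ i : Fin n, (- ∫ p, Real.log (dtil δ p.1 i.succ) ∂(tupP n ψ F δ)) with hΞ
    set x := Hz ψ F δ - Hc B ψ δ with hxdef
    have h2 : ((n : ℝ) * B) * Real.log (tt δ / δ) ≤ 0 :=
      mul_nonpos_of_nonneg_of_nonpos (by positivity) hlt
    have h3 : Ξ ≤ (1 / ((l : ℝ) - B)) * (n * Real.log (2 * (32 * Real.sqrt d) ^ d) + (n + 1) * D0 ψ
        + n * (x + 1.2 * B + 2 * B * δ)) := by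
      rw [one_div, inv_mul_eq_div, le_div_iff₀ hlB']
      have h4 : (n : ℝ) * (Hz ψ F δ + B * Real.log (tt δ)) ≤ n * (x + 1.2 * B + 2 * B * δ) :=
        mul_le_mul_of_nonneg_left hHz hn0
      have h5 : Ξ * ((l : ℝ) - B) = ((l : ℝ) - B) * Ξ := by ring
      rw [h5]
      linarith
    have h6 : 2 * Ξ ≤ (2 / ((l : ℝ) - B)) * (n * Real.log (2 * (32 * Real.sqrt d) ^ d) + (n + 1) * D0 ψ
        + n * (x + 1.2 * B + 2 * B * δ)) := by
      have : (2 / ((l : ℝ) - B)) * (n * Real.log (2 * (32 * Real.sqrt d) ^ d) + (n + 1) * D0 ψ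
        + n * (x + 1.2 * B + 2 * B * δ)) = 2 * ((1 / ((l : ℝ) - B)) * (n * Real.log (2 * (32 * Real.sqrt d) ^ d) + (n + 1) * D0 ψ
        + n * (x + 1.2 * B + 2 * B * δ))) := by ring
      rw [this]
      linarith
    simp only [hf]
    linarith
  have hge : n * (Iq ψ (pF F) - Jq k ψ (pF F)) ≤ (Hcond ψ (pF F) + n * 0 +
      (2 / ((l : ℝ) - B)) * (n * Real.log (2 * (32 * Real.sqrt d) ^ d) + (n + 1) * D0 ψ
        + n * (0 + 1.2 * B + 2 * B * 0)) +
      n * (a * Real.log (k + 1) - a * Real.log ((k : ℝ) - n - 2 * a) + CR d B + 1)) :=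
    ge_of_tendsto hlim hle
  have e : (Hcond ψ (pF F) + n * 0 +
      (2 / ((l : ℝ) - B)) * (n * Real.log (2 * (32 * Real.sqrt d) ^ d) + (n + 1) * D0 ψ
        + n * (0 + 1.2 * B + 2 * B * 0)) +
      n * (a * Real.log (k + 1) - a * Real.log ((k : ℝ) - n - 2 * a) + CR d B + 1)) =
      Hcond ψ (pF F) +
      (2 / ((l : ℝ) - B)) * (n * Real.log (2 * (32 * Real.sqrt d) ^ d) + (n + 1) * D0 ψ
        + n * (1.2 * B)) +
      n * (a * Real.log (k + 1) - a * Real.log ((k : ℝ) - n - 2 * a) + CR d B + 1) := by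
    ring
  rw [e] at hge
  exact hge

/-- The block lemma: one block of `bB d` rows increases the potential by at most
`17 log |Q| / d + 12 D₀(ψ) / d + d`. -/
theorem block_main {d : ℕ} (hd : dZero ≤ d) {Q : Type} [Fintype Q] [Nonempty Q] [MeasurableSpace Q]
    [MeasurableSingletonClass Q] {ψ : Sph d → ℝ} (hψ : IsDens ψ)
    {F : Mat d (bB d) → (Fin (bB d) → ℝ) → Q}
    (hF : Measurable (fun p : Mat d (bB d) × (Fin (bB d) → ℝ) => F p.1 p.2)) :
    (∑ q, margP ψ (pF F) q * Phi (kV d) (post ψ (pF F) q)) - Phi (kV d) ψ ≤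
      17 * Real.log (Fintype.card Q) / d + 12 * D0 ψ / d + d := by
  have hd' : (2 : ℕ) ^ 20 ≤ d := hd
  norm_num at hd'
  have hd0 : 0 < d := by omega
  have hdR : (1048576 : ℝ) ≤ d := by exact_mod_cast hd'
  have hdpos : (0 : ℝ) < d := by linarith
  have hinc := Phi_increment (k := kV d) hd0 hψ (pF F) (pF_measurable hF) (pF_nonneg (F := F))
    (pF_sum hF)
  rw [hinc]
  set b := d / 64 with hb
  have hb1 : 64 * b ≤ d := by omega
  have hb2 : d < 64 * b + 64 := by omega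
  have hb3 : 16384 ≤ b := by omega
  have hbB : bB d = 2 * b := rfl
  have hB : bB d = 2 * (b - 1) + 2 := by omega
  have hn : bB d + nT d + 3 ≤ d := by unfold nT; omega
  have ha : nT d + 2 * (b - 1) < kV d := by unfold nT kV; omega
  have hl : d / 2 + 1 + nT d + 1 ≤ d := by unfold nT; omega
  have hlB : bB d < d / 2 := by omega
  have hlim := block_limit (F := F) (k := kV d) (n := nT d) (a := b - 1) (l := d / 2) hB hn ha hl hlB
    hψ hF
  have hnum := block_numeric hd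
  rw [← hb] at hnum
  have hnR : (d : ℝ) / 17 ≤ nT d := by
    have h1 : d ≤ 17 * nT d := by unfold nT; omega
    have h2 : (d : ℝ) ≤ 17 * nT d := by exact_mod_cast h1
    linarith
  have hnpos : (0 : ℝ) < nT d := lt_of_lt_of_le (by positivity) hnR
  have hl2 : (d : ℝ) / 3 ≤ ((d / 2 : ℕ) : ℝ) - bB d := by
    have h1 : d ≤ 2 * (d / 2) + 1 := by omega
    have h2 : (d : ℝ) ≤ 2 * ((d / 2 : ℕ) : ℝ) + 1 := by exact_mod_cast h1
    have h3 : (64 * b : ℝ) ≤ d := by exact_mod_cast hb1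
    rw [hbB]
    push_cast
    linarith
  have hlpos : (0 : ℝ) < ((d / 2 : ℕ) : ℝ) - bB d := lt_of_lt_of_le (by positivity) hl2
  have hD := D0_nonneg hd0 hψ
  have hC := Hcond_le (B := bB d) (ψ := ψ) hd0 hψ hF
  have hlogQ : 0 ≤ Real.log (Fintype.card Q) := by
    apply Real.log_natCast_nonneg
  set I := Iq ψ (pF F) with hI
  set J := Jq (kV d) ψ (pF F) with hJ
  -- divide by `n`
  have h1 : Hcond ψ (pF F) ≤ (nT d) * (17 * Real.log (Fintype.card Q) / d) := by
    have : (nT d : ℝ) * (17 * Real.log (Fintype.card Q) / d) =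
        (17 * (nT d : ℝ) / d) * Real.log (Fintype.card Q) := by ring
    rw [this]
    have h2 : 1 ≤ 17 * (nT d : ℝ) / d := by
      rw [le_div_iff₀ hdpos]; linarith
    nlinarith
  set c := 2 / (((d / 2 : ℕ) : ℝ) - bB d) with hc
  have hc0 : 0 ≤ c := by positivity
  have hc1 : c ≤ 6 / d := by
    rw [hc]
    calc 2 / (((d / 2 : ℕ) : ℝ) - bB d) ≤ 2 / ((d : ℝ) / 3) :=
          div_le_div_of_nonneg_left (by norm_num) (by positivity) hl2
      _ = 6 / d := by field_simp; norm_num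
  have h2 : c * (((nT d : ℝ) + 1) * D0 ψ) ≤ (nT d) * (12 * D0 ψ / d) := by
    have h3 : ((nT d : ℝ) + 1) ≤ 2 * nT d := by
      have : 1 ≤ nT d := by unfold nT; omega
      have : (1 : ℝ) ≤ nT d := by exact_mod_cast this
      linarith
    have h4 : c * (((nT d : ℝ) + 1) * D0 ψ) ≤ (6 / d) * ((2 * nT d) * D0 ψ) := by
      apply mul_le_mul hc1 _ (by positivity) (by positivity)
      exact mul_le_mul_of_nonneg_right h3 hD
    have h5 : (6 / (d : ℝ)) * ((2 * nT d) * D0 ψ) = (nT d) * (12 * D0 ψ / d) := by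
      field_simp; ring
    linarith
  have h3 : (nT d : ℝ) * (I - J) ≤ (nT d) * (17 * Real.log (Fintype.card Q) / d + 12 * D0 ψ / d + d) := by
    have e : c * ((nT d) * Real.log (2 * (32 * Real.sqrt d) ^ d) + ((nT d : ℝ) + 1) * D0 ψ
        + (nT d) * (1.2 * bB d)) = (nT d) * (c * (Real.log (2 * (32 * Real.sqrt d) ^ d) + 1.2 * bB d))
          + c * (((nT d : ℝ) + 1) * D0 ψ) := by ring
    rw [e] at hlim
    have h4 := mul_le_mul_of_nonneg_left hnum hnpos.le
    nlinarith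
  exact le_of_mul_le_mul_left h3 hnpos

end Crest.Agent.MS
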