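import Crest.Agent.Lib.MS.BlockGibbs

/-!
# S0499 module `BlockSelf`: the self bound for the pivots.

`block_self` is `tup_gibbs` for the test function (no `ψ`!)
`V' = 1{same ζ} ∏_i [ d̃_i^{-l} / Cneg ] [ d̃_i / t₀ ]^B`, with `Cneg = 2 (32 √d)^d`:
its mass is `≤ ∫ ∏_i d̃_i^{-l} / Cneg dσ^{n+1} ≤ 1` by `sameCube_le`, `iter_lintegral_le_one` with `r = 1`
and `sig_negMoment_le`.  Then `E log V' = (B-l) ∑ L_i - n log Cneg - n B log t₀` and
`E log T = (n+1) D₀ + n Hz`.
-/

set_option autoImplicit false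
set_option linter.unusedSectionVars false

namespace Crest.Agent.MS

open MeasureTheory ProbabilityTheory
open Crest.StreamLearn (E Sphere sphereUniform)

variable {d B k n : ℕ} {Q : Type} [Fintype Q] [Nonempty Q] [MeasurableSpace Q]
  [MeasurableSingletonClass Q] {ψ : Sph d → ℝ} {F : Mat d B → (Fin B → ℝ) → Q} {δ : ℝ}

/-- `log d̃_i` is bounded and measurable. -/
theorem tup_integrable_logdtil (hd : 0 < d) (hψ : IsDens ψ)
    (hF : Measurable (fun p : Mat d B × (Fin B → ℝ) => F p.1 p.2)) (hδ : 0 < δ) (i : Fin (n + 1)) :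
    Integrable (fun p => Real.log (dtil δ p.1 i)) (tupP n ψ F δ) := by
  have hm : Measurable (fun p : (Fin (n + 1) → Sph d) × Mat d B => Real.log (dtil δ p.1 i)) :=
    Real.measurable_log.comp ((measurable_dtil i).comp measurable_fst)
  refine tupP_integrable_of_bdd hd hψ hF hδ _ hm (|Real.log (tt δ)| + |Real.log (max 2 (tt δ))|) ?_
  intro p
  obtain ⟨h1, h2⟩ := dtil_bounds (n := n) hδ p.1 i
  have ht := tt_pos hδ
  have hd0 : 0 < dtil δ p.1 i := lt_of_lt_of_le ht h1
  have h3 : Real.log (tt δ) ≤ Real.log (dtil δ p.1 i) := Real.log_le_log ht h1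
  have h4 : Real.log (dtil δ p.1 i) ≤ Real.log (max 2 (tt δ)) := Real.log_le_log hd0 h2
  rw [abs_le]
  constructor
  · have := neg_abs_le (Real.log (tt δ))
    have := abs_nonneg (Real.log (max 2 (tt δ)))
    linarith
  · have := le_abs_self (Real.log (max 2 (tt δ)))
    have := abs_nonneg (Real.log (tt δ))
    linarith

private theorem dtil_pos (hδ : 0 < δ) (ss : Fin (n + 1) → Sph d) (i : Fin (n + 1)) :
    0 < dtil δ ss i :=
  lt_of_lt_of_le (tt_pos hδ) (dtil_bounds hδ ss i).1

private theorem log_bb_eq (hδ : 0 < δ) (ss : Fin (n + 1) → Sph d) :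
    Real.log (bb B δ ss) =
      B * ∑ i : Fin n, (Real.log (tt δ) - Real.log (dtil δ ss i.succ)) := by
  have ht := tt_pos hδ
  unfold bb
  rw [Real.log_pow, Real.log_prod]
  · congr 1
    apply Finset.sum_congr rfl
    intro i _
    rw [Real.log_div ht.ne' (dtil_pos hδ ss _).ne']
  · intro i _
    exact (div_pos ht (dtil_pos hδ ss _)).ne'

theorem tup_eval_logbb (hd : 0 < d) (hψ : IsDens ψ)
    (hF : Measurable (fun p : Mat d B × (Fin B → ℝ) => F p.1 p.2)) (hδ : 0 < δ) :
    ∫ p, Real.log (bb B δ p.1) ∂(tupP n ψ F δ) =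
      B * ∑ i : Fin n, (Real.log (tt δ) - ∫ p, Real.log (dtil δ p.1 i.succ) ∂(tupP n ψ F δ)) := by
  haveI := tupP_isProb (n := n) hd hψ hF hδ
  simp_rw [log_bb_eq (B := B) hδ]
  rw [integral_const_mul, integral_finsetSum]
  · congr 1
    apply Finset.sum_congr rfl
    intro i _
    rw [integral_sub (integrable_const _) (tup_integrable_logdtil hd hψ hF hδ _)]
    simp
  · intro i _
    exact (integrable_const _).sub (tup_integrable_logdtil hd hψ hF hδ _)

/-- `dtil` at `i` only depends on the coordinates up to `i`. -/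
private theorem dtil_dep (i : Fin (n + 1)) (a b : Fin (n + 1) → Sph d)
    (h : ∀ j ≤ i, a j = b j) : dtil δ a i = dtil δ b i := by
  have h0 : a 0 = b 0 := h 0 (Fin.zero_le _)
  have hu : uu a i = uu b i := by
    funext j
    unfold uu prefixFam
    by_cases hj : j < i
    · simp only [hj, if_true, h j hj.le, h0]
    · simp only [hj, if_false]
  unfold dtil di
  rw [hu, h i le_rfl, h0]

/-- The value of `dtil` after updating the last relevant coordinate. -/
private theorem dtil_update (i : Fin n) (a : Fin (n + 1) → Sph d) (x : Sph d) :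
    dtil δ (Function.update a i.succ x) i.succ =
      max (dS (uu a i.succ) ((x : E d) - (a 0 : E d))) (tt δ) := by
  have h0 : Function.update a i.succ x 0 = a 0 :=
    Function.update_of_ne (Fin.succ_ne_zero i).symm _ _
  have hu : uu (Function.update a i.succ x) i.succ = uu a i.succ := by
    funext j
    unfold uu prefixFam
    by_cases hj : j < i.succ
    · have hne : j ≠ i.succ := ne_of_lt hj
      simp only [hj, if_true, h0, Function.update_of_ne hne]
    · simp only [hj, if_false]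
  unfold dtil di
  rw [hu, h0, Function.update_self]

/-- One step of the iterated integral. -/
private theorem negMoment_step (hd : 2 ≤ d) (hδ : 0 < δ) (l : ℕ) (hl : l + 1 + n + 1 ≤ d)
    (i : Fin n) (a : Fin (n + 1) → Sph d) :
    ∫⁻ x : Sph d, ENNReal.ofReal (((dtil δ (Function.update a i.succ x) i.succ) ^ l)⁻¹ /
        (2 * (32 * Real.sqrt d) ^ d)) ∂(sig d) ≤ 1 := by
  have hd0 : 0 < d := by omega
  haveI := sig_isProb hd0
  have ht := tt_pos hδ
  have hC : 0 < 2 * (32 * Real.sqrt d) ^ d := by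
    have : 0 < Real.sqrt d := Real.sqrt_pos.2 (by exact_mod_cast hd0)
    positivity
  set C := 2 * (32 * Real.sqrt d) ^ d with hCdef
  set u := uu a i.succ with hu
  simp_rw [dtil_update]
  set f : Sph d → ℝ := fun x => ((max (dS u ((x : E d) - (a 0 : E d))) (tt δ)) ^ l)⁻¹ with hf
  have hfm : Measurable f := by
    have h1 : Continuous (fun z : E d => dS u z) := Metric.continuous_infDist_pt _
    have h2 : Measurable (fun x : Sph d => dS u ((x : E d) - (a 0 : E d))) :=
      h1.measurable.comp (measurable_subtype_coe.sub_const _)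
    exact ((h2.max measurable_const).pow_const l).inv
  have hfpos : ∀ x, 0 ≤ f x := fun x => by
    have : 0 < max (dS u ((x : E d) - (a 0 : E d))) (tt δ) := lt_of_lt_of_le ht (le_max_right _ _)
    simp only [hf]
    positivity
  have hfb : ∀ x, f x ≤ ((tt δ) ^ l)⁻¹ := fun x => by
    simp only [hf]
    apply inv_anti₀ (by positivity)
    exact pow_le_pow_left₀ ht.le (le_max_right _ _) l
  have hfi : Integrable f (sig d) := by
    refine Integrable.of_bound hfm.aestronglyMeasurable (((tt δ) ^ l)⁻¹)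
      (Filter.Eventually.of_forall fun x => ?_)
    rw [Real.norm_eq_abs, abs_of_nonneg (hfpos x)]
    exact hfb x
  have hfin : Integrable (fun x => f x / C) (sig d) := hfi.div_const C
  have hmom : ∫ x, f x ∂(sig d) ≤ C := by
    have hm : Module.finrank ℝ (Submodule.span ℝ (Set.range u)) ≤ n := finrank_span_uu _ _
    exact sig_negMoment_le hd u (a 0 : E d) n l hm hl (tt δ) ht
  rw [← ofReal_integral_eq_lintegral_ofReal hfin
    (Filter.Eventually.of_forall fun x => div_nonneg (hfpos x) hC.le)]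
  rw [ENNReal.ofReal_le_one, integral_div]
  rw [div_le_one hC]
  exact hmom

/-- The factors of the iterated integral. -/
private noncomputable def gS (δ C : ℝ) (l : ℕ) (i : Fin (n + 1)) (a : Fin (n + 1) → Sph d) : ENNReal :=
  if i = 0 then 1 else ENNReal.ofReal (((dtil δ a i) ^ l)⁻¹ / C)

private theorem gS_zero (δ C : ℝ) (l : ℕ) (a : Fin (n + 1) → Sph d) : gS δ C l 0 a = 1 := by
  simp [gS]

private theorem gS_succ (δ C : ℝ) (l : ℕ) (i : Fin n) (a : Fin (n + 1) → Sph d) :
    gS δ C l i.succ a = ENNReal.ofReal (((dtil δ a i.succ) ^ l)⁻¹ / C) := by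
  simp [gS, Fin.succ_ne_zero]

private theorem measurable_gS (δ C : ℝ) (l : ℕ) (i : Fin (n + 1)) :
    Measurable (gS (d := d) δ C l i) := by
  unfold gS
  by_cases hi : i = 0
  · simp only [hi, if_true]
    exact measurable_const
  · simp only [hi, if_false]
    exact ENNReal.measurable_ofReal.comp
      (((measurable_dtil (δ := δ) i).pow_const l).inv.div_const C)

/-- The mass of the product of the negative moments. -/
private theorem negMoment_mass (hd : 2 ≤ d) (hδ : 0 < δ) (l : ℕ) (hl : l + 1 + n + 1 ≤ d) :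
    ∫⁻ ss : Fin (n + 1) → Sph d, ENNReal.ofReal (∏ i : Fin n, (((dtil δ ss i.succ) ^ l)⁻¹ /
        (2 * (32 * Real.sqrt d) ^ d))) ∂(Measure.pi fun _ : Fin (n + 1) => sig d) ≤ 1 := by
  have hd0 : 0 < d := by omega
  have hprob := sig_isProb hd0
  have hC : 0 < 2 * (32 * Real.sqrt d) ^ d := by
    have : 0 < Real.sqrt d := Real.sqrt_pos.2 (by exact_mod_cast hd0)
    positivity
  generalize hCdef : 2 * (32 * Real.sqrt d) ^ d = C at hC
  have hdep : ∀ i (a b : Fin (n + 1) → Sph d), (∀ j ≤ i, a j = b j) →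
      gS δ C l i a = gS δ C l i b := by
    intro i a b h
    unfold gS
    rw [dtil_dep (δ := δ) i a b h]
  have hstep : ∀ i (a : Fin (n + 1) → Sph d),
      ∫⁻ x, (1 : ENNReal) * gS δ C l i (Function.update a i x) ∂(sig d) ≤ 1 := by
    intro i a
    refine Fin.cases ?_ (fun i' => ?_) i
    · simp only [gS_zero, lintegral_const, measure_univ, mul_one, le_refl]
    · simp only [gS_succ, one_mul]
      rw [← hCdef]
      exact negMoment_step hd hδ l hl i' a
  have h := iter_lintegral_le_one (sig d) (n + 1) (fun _ => (1 : ENNReal)) measurable_const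
    (by simp only [lintegral_const, measure_univ, mul_one, le_refl]) (gS δ C l)
    (measurable_gS δ C l) hdep hstep
  refine le_trans (le_of_eq ?_) h
  apply lintegral_congr
  intro ss
  simp only [Finset.prod_const_one, one_mul]
  rw [Fin.prod_univ_succ]
  simp only [gS_zero, gS_succ, one_mul]
  rw [ENNReal.ofReal_prod_of_nonneg]
  intro i _
  have : 0 < dtil δ ss i.succ := dtil_pos hδ _ _
  positivity

/-- The product factor of the test function. -/
private noncomputable def AS (δ C : ℝ) (l : ℕ) (ss : Fin (n + 1) → Sph d) : ℝ :=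
  ∏ i : Fin n, (((dtil δ ss i.succ) ^ l)⁻¹ / C)

private theorem measurable_AS (δ C : ℝ) (l : ℕ) : Measurable (AS (n := n) (d := d) δ C l) := by
  unfold AS
  apply Finset.measurable_prod
  intro i _
  exact ((measurable_dtil (δ := δ) i.succ).pow_const l).inv.div_const C

private theorem AS_pos (hδ : 0 < δ) {C : ℝ} (hC : 0 < C) (l : ℕ) (ss : Fin (n + 1) → Sph d) :
    0 < AS δ C l ss := by
  unfold AS
  apply Finset.prod_pos
  intro i _
  have : 0 < dtil δ ss i.succ := dtil_pos hδ _ _
  positivity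

private theorem log_AS (hδ : 0 < δ) {C : ℝ} (hC : 0 < C) (l : ℕ) (ss : Fin (n + 1) → Sph d) :
    Real.log (AS δ C l ss) =
      ∑ i : Fin n, (-(l : ℝ) * Real.log (dtil δ ss i.succ) - Real.log C) := by
  unfold AS
  rw [Real.log_prod]
  · apply Finset.sum_congr rfl
    intro i _
    have h1 : 0 < dtil δ ss i.succ := dtil_pos hδ _ _
    rw [Real.log_div (by positivity) hC.ne', Real.log_inv, Real.log_pow]
    ring
  · intro i _
    have h1 : 0 < dtil δ ss i.succ := dtil_pos hδ _ _
    positivity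

private theorem meas_same (hF : Measurable (fun p : Mat d B × (Fin B → ℝ) => F p.1 p.2))
    (hδ : 0 < δ) : MeasurableSet {p : (Fin (n + 1) → Sph d) × Mat d B |
      ∀ j, zetaF F δ p.2 (p.1 j) = zetaF F δ p.2 (p.1 0)} := by
  have hzm := measurable_zetaF (d := d) (B := B) hF hδ
  have : {p : (Fin (n + 1) → Sph d) × Mat d B |
      ∀ j, zetaF F δ p.2 (p.1 j) = zetaF F δ p.2 (p.1 0)} =
      ⋂ j, {p : (Fin (n + 1) → Sph d) × Mat d B |
        zetaF F δ p.2 (p.1 j) = zetaF F δ p.2 (p.1 0)} := by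
    ext p
    simp only [Set.mem_ofPred_eq, Set.mem_iInter]
  rw [this]
  refine MeasurableSet.iInter fun j => ?_
  have h1 : Measurable (fun p : (Fin (n + 1) → Sph d) × Mat d B => (p.2, p.1 j)) :=
    measurable_snd.prodMk ((measurable_pi_apply j).comp measurable_fst)
  have h2 : Measurable (fun p : (Fin (n + 1) → Sph d) × Mat d B => (p.2, p.1 0)) :=
    measurable_snd.prodMk ((measurable_pi_apply 0).comp measurable_fst)
  have h3 := hzm.comp h1
  have h4 := hzm.comp h2
  exact measurableSet_eq_fun_of_countable h3 h4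

open Classical in
/-- The test function of the self bound. -/
private noncomputable def testS (F : Mat d B → (Fin B → ℝ) → Q) (δ C : ℝ) (l : ℕ)
    (p : (Fin (n + 1) → Sph d) × Mat d B) : ℝ :=
  (if ∀ j, zetaF F δ p.2 (p.1 j) = zetaF F δ p.2 (p.1 0) then 1 else 0) * AS δ C l p.1 / bb B δ p.1

private theorem measurable_testS (hF : Measurable (fun p : Mat d B × (Fin B → ℝ) => F p.1 p.2))
    (hδ : 0 < δ) (C : ℝ) (l : ℕ) : Measurable (testS (n := n) F δ C l) := by
  classical
  unfold testS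
  refine Measurable.div ?_ ((measurable_bb hδ).comp measurable_fst)
  exact (Measurable.ite (meas_same hF hδ) measurable_const measurable_const).mul
    ((measurable_AS δ C l).comp measurable_fst)

private theorem testS_nonneg (hδ : 0 < δ) {C : ℝ} (hC : 0 < C) (l : ℕ)
    (p : (Fin (n + 1) → Sph d) × Mat d B) : 0 ≤ testS F δ C l p := by
  classical
  unfold testS
  apply div_nonneg _ (bb_pos hδ _).le
  apply mul_nonneg _ (AS_pos hδ hC l _).le
  split_ifs <;> norm_num

private theorem testS_of_same (δ C : ℝ) (l : ℕ) (p : (Fin (n + 1) → Sph d) × Mat d B)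
    (hp : ∀ j, zetaF F δ p.2 (p.1 j) = zetaF F δ p.2 (p.1 0)) :
    testS F δ C l p = AS δ C l p.1 / bb B δ p.1 := by
  classical
  unfold testS
  rw [if_pos hp, one_mul]

private theorem testS_of_not (δ C : ℝ) (l : ℕ) (p : (Fin (n + 1) → Sph d) × Mat d B)
    (hp : ¬ ∀ j, zetaF F δ p.2 (p.1 j) = zetaF F δ p.2 (p.1 0)) :
    testS F δ C l p = 0 := by
  classical
  unfold testS
  rw [if_neg hp, zero_mul, zero_div]

private theorem testS_inner (hδ : 0 < δ) {C : ℝ} (hC : 0 < C) (l : ℕ)
    (ss : Fin (n + 1) → Sph d) :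
    ∫⁻ X, ENNReal.ofReal (testS F δ C l (ss, X)) ∂(gam d B) ≤ ENNReal.ofReal (AS δ C l ss) := by
  have hA := AS_pos hδ hC l ss
  have hb : 0 < bb B δ ss := bb_pos hδ ss
  set S : Set (Mat d B) := {X | ∀ j, cell δ (mv X (ss j : E d)) = cell δ (mv X (ss 0 : E d))}
    with hS
  have h1 : ∀ X, ENNReal.ofReal (testS F δ C l (ss, X)) ≤
      S.indicator (fun _ => ENNReal.ofReal (AS δ C l ss / bb B δ ss)) X := by
    intro X
    by_cases hX : ∀ j, zetaF F δ X (ss j) = zetaF F δ X (ss 0)
    · have hXS : X ∈ S := by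
        intro j
        have := hX j
        exact congrArg Prod.fst this
      rw [Set.indicator_of_mem hXS, testS_of_same δ C l (ss, X) hX]
    · rw [testS_of_not δ C l (ss, X) hX, ENNReal.ofReal_zero]
      exact bot_le
  refine le_trans (lintegral_mono h1) ?_
  refine le_trans (lintegral_indicator_const_le _ _) ?_
  have h2 : (gam d B) S ≤ ENNReal.ofReal (bb B δ ss) := by
    have h3 : (gam d B).real S ≤ bb B δ ss := sameCube_le hδ ss
    have h4 : (gam d B) S = ENNReal.ofReal ((gam d B).real S) := by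
      rw [measureReal_def, ENNReal.ofReal_toReal (measure_ne_top _ _)]
    rw [h4]
    exact ENNReal.ofReal_le_ofReal h3
  calc ENNReal.ofReal (AS δ C l ss / bb B δ ss) * (gam d B) S
      ≤ ENNReal.ofReal (AS δ C l ss / bb B δ ss) * ENNReal.ofReal (bb B δ ss) := by gcongr
    _ = ENNReal.ofReal (AS δ C l ss / bb B δ ss * bb B δ ss) := by
        rw [ENNReal.ofReal_mul (div_nonneg hA.le hb.le)]
    _ = ENNReal.ofReal (AS δ C l ss) := by
        rw [div_mul_cancel₀ _ hb.ne']

private theorem testS_mass (hd : 2 ≤ d) (hF : Measurable (fun p : Mat d B × (Fin B → ℝ) => F p.1 p.2))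
    (hδ : 0 < δ) (l : ℕ) (hl : l + 1 + n + 1 ≤ d) :
    ∫⁻ p, ENNReal.ofReal (testS F δ (2 * (32 * Real.sqrt d) ^ d) l p)
      ∂((Measure.pi fun _ : Fin (n + 1) => sig d).prod (gam d B)) ≤ 1 := by
  have hd0 : 0 < d := by omega
  have hprob := sig_isProb hd0
  have hC : 0 < 2 * (32 * Real.sqrt d) ^ d := by
    have : 0 < Real.sqrt d := Real.sqrt_pos.2 (by exact_mod_cast hd0)
    positivity
  have hm : Measurable (fun p : (Fin (n + 1) → Sph d) × Mat d B =>
      ENNReal.ofReal (testS F δ (2 * (32 * Real.sqrt d) ^ d) l p)) :=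
    ENNReal.measurable_ofReal.comp (measurable_testS hF hδ _ l)
  rw [lintegral_prod (fun p : (Fin (n + 1) → Sph d) × Mat d B =>
      ENNReal.ofReal (testS F δ (2 * (32 * Real.sqrt d) ^ d) l p)) hm.aemeasurable]
  exact le_trans (lintegral_mono (fun ss => testS_inner hδ hC l ss)) (negMoment_mass hd hδ l hl)

private theorem log_testS (hδ : 0 < δ) {C : ℝ} (hC : 0 < C) (l : ℕ)
    (p : (Fin (n + 1) → Sph d) × Mat d B)
    (hp : ∀ j, zetaF F δ p.2 (p.1 j) = zetaF F δ p.2 (p.1 0)) :
    Real.log (testS F δ C l p) = ∑ i : Fin n,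
      (((B : ℝ) - l) * Real.log (dtil δ p.1 i.succ) - Real.log C - B * Real.log (tt δ)) := by
  rw [testS_of_same δ C l p hp, Real.log_div (AS_pos hδ hC l _).ne' (bb_pos hδ _).ne',
    log_bb_eq hδ, log_AS hδ hC, Finset.mul_sum, ← Finset.sum_sub_distrib]
  apply Finset.sum_congr rfl
  intro i _
  ring

/-- The self bound. -/
theorem block_self (hψ : IsDens ψ)
    (hF : Measurable (fun p : Mat d B × (Fin B → ℝ) => F p.1 p.2)) (hδ : 0 < δ) (l : ℕ)
    (hl : l + 1 + n + 1 ≤ d) :
    ((l : ℝ) - B) * ∑ i : Fin n, (- ∫ p, Real.log (dtil δ p.1 i.succ) ∂(tupP n ψ F δ)) ≤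
      n * Real.log (2 * (32 * Real.sqrt d) ^ d) + (n + 1) * D0 ψ +
        n * (Hz ψ F δ + B * Real.log (tt δ)) := by
  have hd2 : 2 ≤ d := by omega
  have hd0 : 0 < d := by omega
  have hdata := block_tupData hd0 hψ hF hδ
  have hprob := tupP_isProb (n := n) hd0 hψ hF hδ
  have hC : 0 < 2 * (32 * Real.sqrt d) ^ d := by
    have : 0 < Real.sqrt d := Real.sqrt_pos.2 (by exact_mod_cast hd0)
    positivity
  have hmass := testS_mass (n := n) (F := F) hd2 hF hδ l hl
  generalize 2 * (32 * Real.sqrt d) ^ d = C at hC hmass ⊢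
  have hae := tupP_ae (n := n) hd0 hψ hF hδ
  have hVpos : ∀ᵐ p ∂(tupP n ψ F δ), 0 < testS F δ C l p := by
    refine hae.mono fun p hp => ?_
    rw [testS_of_same δ C l p hp.1]
    exact div_pos (AS_pos hδ hC l _) (bb_pos hδ _)
  have hLi : ∀ i : Fin n, Integrable (fun p => Real.log (dtil δ p.1 i.succ)) (tupP n ψ F δ) :=
    fun i => tup_integrable_logdtil hd0 hψ hF hδ i.succ
  have hWi1 : ∀ i : Fin n, Integrable (fun p => ((B : ℝ) - l) * Real.log (dtil δ p.1 i.succ) -
      Real.log C - B * Real.log (tt δ)) (tupP n ψ F δ) := fun i =>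
    (((hLi i).const_mul _).sub (integrable_const _)).sub (integrable_const _)
  have hWi : Integrable (fun p => ∑ i : Fin n, (((B : ℝ) - l) * Real.log (dtil δ p.1 i.succ) -
      Real.log C - B * Real.log (tt δ))) (tupP n ψ F δ) :=
    integrable_finsetSum _ (fun i _ => hWi1 i)
  have hlogV : ∀ᵐ p ∂(tupP n ψ F δ), Real.log (testS F δ C l p) = ∑ i : Fin n,
      (((B : ℝ) - l) * Real.log (dtil δ p.1 i.succ) - Real.log C - B * Real.log (tt δ)) :=
    hae.mono fun p hp => log_testS hδ hC l p hp.1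
  have hVi : Integrable (fun p => Real.log (testS F δ C l p)) (tupP n ψ F δ) :=
    hWi.congr (hlogV.mono fun p hp => hp.symm)
  have hTi := tup_integrable_logT (n := n) hd0 hψ hF hδ
  have hg := tup_gibbs (n := n) hdata (testS F δ C l) (measurable_testS hF hδ C l)
    (testS_nonneg hδ hC l) hmass hVpos hVi hTi
  have hT := tup_eval_logT (n := n) hd0 hψ hF hδ
  have hint : ∫ p, Real.log (testS F δ C l p) ∂(tupP n ψ F δ) =
      ∑ i : Fin n, (((B : ℝ) - l) * ∫ p, Real.log (dtil δ p.1 i.succ) ∂(tupP n ψ F δ) -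
        Real.log C - B * Real.log (tt δ)) := by
    rw [integral_congr_ae hlogV, integral_finsetSum _ (fun i _ => hWi1 i)]
    apply Finset.sum_congr rfl
    intro i _
    have h1 : Integrable (fun p : (Fin (n + 1) → Sph d) × Mat d B =>
        ((B : ℝ) - l) * Real.log (dtil δ p.1 i.succ)) (tupP n ψ F δ) := (hLi i).const_mul _
    have h2 : Integrable (fun p : (Fin (n + 1) → Sph d) × Mat d B =>
        ((B : ℝ) - l) * Real.log (dtil δ p.1 i.succ) - Real.log C) (tupP n ψ F δ) :=
      h1.sub (integrable_const _)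
    have h3 : ∫ p, ((B : ℝ) - l) * Real.log (dtil δ p.1 i.succ) - Real.log C -
          B * Real.log (tt δ) ∂(tupP n ψ F δ) =
        ∫ p, ((B : ℝ) - l) * Real.log (dtil δ p.1 i.succ) - Real.log C ∂(tupP n ψ F δ) -
          ∫ _p, (B : ℝ) * Real.log (tt δ) ∂(tupP n ψ F δ) :=
      integral_sub h2 (integrable_const _)
    have h4 : ∫ p, ((B : ℝ) - l) * Real.log (dtil δ p.1 i.succ) - Real.log C ∂(tupP n ψ F δ) =
        ∫ p, ((B : ℝ) - l) * Real.log (dtil δ p.1 i.succ) ∂(tupP n ψ F δ) -
          ∫ _p, Real.log C ∂(tupP n ψ F δ) :=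
      integral_sub h1 (integrable_const _)
    rw [h3, h4, integral_const_mul]
    simp
  have hg' : ∫ p, Real.log (testS F δ C l p) ∂(tupP n ψ F δ) ≤
      ∫ p, Real.log (tupDens (sig d) ψ (zetaF F δ) n p) ∂(tupP n ψ F δ) := hg
  rw [hint, hT] at hg'
  have hsum : ∑ i : Fin n, (((B : ℝ) - l) * ∫ p, Real.log (dtil δ p.1 i.succ) ∂(tupP n ψ F δ) -
      Real.log C - B * Real.log (tt δ)) =
      ((B : ℝ) - l) * ∑ i : Fin n, (∫ p, Real.log (dtil δ p.1 i.succ) ∂(tupP n ψ F δ)) -
        n * Real.log C - n * (B * Real.log (tt δ)) := by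
    rw [Finset.sum_sub_distrib, Finset.sum_sub_distrib, Finset.mul_sum]
    simp
  rw [hsum] at hg'
  have hneg : ((l : ℝ) - B) * ∑ i : Fin n, (- ∫ p, Real.log (dtil δ p.1 i.succ) ∂(tupP n ψ F δ)) =
      ((B : ℝ) - l) * ∑ i : Fin n, (∫ p, Real.log (dtil δ p.1 i.succ) ∂(tupP n ψ F δ)) := by
    rw [Finset.sum_neg_distrib]
    ring
  rw [hneg]
  have e : (n : ℝ) * (Hz ψ F δ + B * Real.log (tt δ)) = n * Hz ψ F δ + n * (B * Real.log (tt δ)) := by
    ring
  rw [e]
  linarith

end Crest.Agent.MS
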