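import Crest.Agent.Lib.MS.CellsAux2

/-!
# Auxiliary lemmas for `Cells`: the conditional entropy of the label given the cube.
-/

set_option autoImplicit false
set_option linter.unusedSectionVars false

namespace Crest.Agent.MS

open MeasureTheory ProbabilityTheory Filter Topology
open Crest.StreamLearn (E Sphere sphereUniform)

variable {d B : ℕ} {Q : Type} [Fintype Q] [Nonempty Q] [MeasurableSpace Q]
  [MeasurableSingletonClass Q] {ψ : Sph d → ℝ} {F : Mat d B → (Fin B → ℝ) → Q} {δ : ℝ}

/-- Mass of the cube `c`. -/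
noncomputable abbrev mC (ψ : Sph d → ℝ) (δ : ℝ) (X : Mat d B) (c : Fin B → ℤ) : ℝ :=
  slm (sig d) ψ (zetaC δ) X c

/-- Mass of the cube `c` and the label `q`. -/
noncomputable abbrev mF (ψ : Sph d → ℝ) (F : Mat d B → (Fin B → ℝ) → Q) (δ : ℝ) (X : Mat d B)
    (c : Fin B → ℤ) (q : Q) : ℝ :=
  slm (sig d) ψ (zetaF F δ) X (c, q)

theorem measurable_zetaC_X (hδ : 0 < δ) (X : Mat d B) : Measurable (zetaC (d := d) δ X) := by
  have h1 := measurable_zetaC (d := d) (B := B) hδ
  have h2 : Measurable (fun s : Sph d => ((X, s) : Mat d B × Sph d)) := measurable_prodMk_left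
  have h3 := h1.comp h2
  exact h3

theorem measurable_zetaF_X (hF : Measurable (fun p : Mat d B × (Fin B → ℝ) => F p.1 p.2))
    (hδ : 0 < δ) (X : Mat d B) : Measurable (zetaF (d := d) F δ X) := by
  have h1 := measurable_zetaF (d := d) hF hδ
  have h2 : Measurable (fun s : Sph d => ((X, s) : Mat d B × Sph d)) := measurable_prodMk_left
  have h3 := h1.comp h2
  exact h3

theorem sum_mF (hd : 0 < d) (hψ : IsDens ψ)
    (hF : Measurable (fun p : Mat d B × (Fin B → ℝ) => F p.1 p.2)) (hδ : 0 < δ) (X : Mat d B)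
    (c : Fin B → ℤ) : ∑ q, mF ψ F δ X c q = mC ψ δ X c := by
  classical
  unfold mF mC slm
  rw [← integral_finsetSum _
    (fun q _ => integrable_cell_of_dens hd hψ (zetaF F δ) X (measurable_zetaF_X hF hδ X) (c, q))]
  refine integral_congr_ae (Eventually.of_forall fun s => ?_)
  dsimp only
  by_cases hs : zetaC δ X s = c
  · rw [if_pos hs, Finset.sum_eq_single (F X (mv X (s : E d)))]
    · rw [if_pos]
      exact Prod.ext hs rfl
    · intro q _ hq
      rw [if_neg]
      intro h
      exact hq (congrArg Prod.snd h).symm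
    · intro h
      exact absurd (Finset.mem_univ _) h
  · rw [if_neg hs]
    refine Finset.sum_eq_zero fun q _ => ?_
    rw [if_neg]
    intro h
    exact hs (congrArg Prod.fst h)

theorem mF_nonneg (hψ : IsDens ψ) (X : Mat d B) (c : Fin B → ℤ) (q : Q) : 0 ≤ mF ψ F δ X c q :=
  slm_nonneg_of_dens hψ _ _ _

theorem mC_nonneg (hψ : IsDens ψ) (X : Mat d B) (c : Fin B → ℤ) : 0 ≤ mC ψ δ X c :=
  slm_nonneg_of_dens hψ _ _ _

/-- The cellwise identity. -/
theorem cell_entropy_identity (a : Q → ℝ) (ha : ∀ q, 0 ≤ a q) :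
    ∑ q, a q * (- Real.log (a q)) - (∑ q, a q) * (- Real.log (∑ q, a q)) =
      (∑ q, a q) * ∑ q, Real.negMulLog (a q / ∑ q, a q) := by
  set M := ∑ q, a q with hM
  have hM0 : 0 ≤ M := Finset.sum_nonneg fun q _ => ha q
  rcases hM0.eq_or_lt with h0 | h0
  · have hzero : ∀ q, a q = 0 := by
      intro q
      have := (Finset.sum_eq_zero_iff_of_nonneg (fun q _ => ha q)).mp h0.symm q (Finset.mem_univ q)
      exact this
    simp [hzero, ← h0]
  · rw [Finset.mul_sum]
    have hterm : ∀ q, M * Real.negMulLog (a q / M) = a q * (- Real.log (a q)) + a q * Real.log M := by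
      intro q
      unfold Real.negMulLog
      rcases (ha q).eq_or_lt with h1 | h1
      · rw [← h1]
        simp
      · rw [Real.log_div h1.ne' h0.ne']
        field_simp
        ring
    rw [Finset.sum_congr rfl fun q _ => hterm q, Finset.sum_add_distrib, ← Finset.sum_mul]
    ring

/-- The conditional entropy of the label given the cube `c`. -/
noncomputable def EE (ψ : Sph d → ℝ) (F : Mat d B → (Fin B → ℝ) → Q) (δ : ℝ) (X : Mat d B)
    (c : Fin B → ℤ) : ℝ :=
  ∑ q, Real.negMulLog (mF ψ F δ X c q / mC ψ δ X c)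

theorem EE_nonneg (hd : 0 < d) (hψ : IsDens ψ)
    (hF : Measurable (fun p : Mat d B × (Fin B → ℝ) => F p.1 p.2)) (hδ : 0 < δ) (X : Mat d B)
    (c : Fin B → ℤ) : 0 ≤ EE ψ F δ X c := by
  unfold EE
  refine Finset.sum_nonneg fun q _ => ?_
  refine Real.negMulLog_nonneg (div_nonneg (mF_nonneg hψ X c q) (mC_nonneg hψ X c)) ?_
  refine div_le_one_of_le₀ ?_ (mC_nonneg hψ X c)
  rw [← sum_mF hd hψ hF hδ X c]
  exact Finset.single_le_sum (f := fun q => mF ψ F δ X c q) (fun q _ => mF_nonneg hψ X c q)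
    (Finset.mem_univ q)

theorem one_le_card_Q : (1 : ℝ) ≤ Fintype.card Q := by
  exact_mod_cast Fintype.card_pos (α := Q)

theorem log_card_Q_nonneg : 0 ≤ Real.log (Fintype.card Q) :=
  Real.log_nonneg one_le_card_Q

theorem EE_le (hd : 0 < d) (hψ : IsDens ψ)
    (hF : Measurable (fun p : Mat d B × (Fin B → ℝ) => F p.1 p.2)) (hδ : 0 < δ) (X : Mat d B)
    (c : Fin B → ℤ) : EE ψ F δ X c ≤ Real.log (Fintype.card Q) := by
  unfold EE
  rcases (mC_nonneg (δ := δ) hψ X c).eq_or_lt with h0 | h0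
  · simp only [← h0, div_zero]
    simp [log_card_Q_nonneg (Q := Q)]
  · refine sum_negMulLog_le_log_card _ (fun q => div_nonneg (mF_nonneg hψ X c q) h0.le) ?_
    rw [← Finset.sum_div, sum_mF hd hψ hF hδ X c, div_self h0.ne']

theorem measurable_EE_comp (hδ : 0 < δ) (X : Mat d B) :
    Measurable (fun s : Sph d => EE ψ F δ X (zetaC δ X s)) :=
  (Measurable.of_discrete (f := EE ψ F δ X)).comp (measurable_zetaC_X hδ X)

/-- The main formula for fixed `X`: `H(cube, label) - H(cube)` is the average of `EE`. -/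
theorem HFX_sub_HX (hd : 0 < d) (hψ : IsDens ψ)
    (hF : Measurable (fun p : Mat d B × (Fin B → ℝ) => F p.1 p.2)) (hδ : 0 < δ) (X : Mat d B) :
    (∫ s, ψ s * (- Real.log (slm (sig d) ψ (zetaF F δ) X (zetaF F δ X s))) ∂(sig d)) -
      (∫ s, ψ s * (- Real.log (slm (sig d) ψ (zetaC δ) X (zetaC δ X s))) ∂(sig d)) =
      ∫ s, ψ s * EE ψ F δ X (zetaC δ X s) ∂(sig d) := by
  classical
  obtain ⟨T, hT, -, -⟩ := cube_count (d := d) hδ X
  have hTF : ∀ s, zetaF F δ X s ∈ T ×ˢ (Finset.univ : Finset Q) := fun s =>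
    Finset.mem_product.mpr ⟨hT s, Finset.mem_univ _⟩
  rw [integral_psi_mul_comp hd hψ (zetaF F δ) X (measurable_zetaF_X hF hδ X) _ hTF
      (fun z => - Real.log (slm (sig d) ψ (zetaF F δ) X z)),
    integral_psi_mul_comp hd hψ (zetaC δ) X (measurable_zetaC_X hδ X) T hT
      (fun z => - Real.log (slm (sig d) ψ (zetaC δ) X z)),
    integral_psi_mul_comp hd hψ (zetaC δ) X (measurable_zetaC_X hδ X) T hT (EE ψ F δ X),
    Finset.sum_product, ← Finset.sum_sub_distrib]
  refine Finset.sum_congr rfl fun c _ => ?_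
  have h := cell_entropy_identity (fun q => mF ψ F δ X c q) (fun q => mF_nonneg hψ X c q)
  rw [sum_mF hd hψ hF hδ X c] at h
  exact h

theorem integral_psi_EE_nonneg (hd : 0 < d) (hψ : IsDens ψ)
    (hF : Measurable (fun p : Mat d B × (Fin B → ℝ) => F p.1 p.2)) (hδ : 0 < δ) (X : Mat d B) :
    0 ≤ ∫ s, ψ s * EE ψ F δ X (zetaC δ X s) ∂(sig d) :=
  integral_nonneg fun s => mul_nonneg (hψ.nonneg s) (EE_nonneg hd hψ hF hδ X _)

theorem integral_psi_EE_le (hd : 0 < d) (hψ : IsDens ψ)
    (hF : Measurable (fun p : Mat d B × (Fin B → ℝ) => F p.1 p.2)) (hδ : 0 < δ) (X : Mat d B) :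
    ∫ s, ψ s * EE ψ F δ X (zetaC δ X s) ∂(sig d) ≤ Real.log (Fintype.card Q) := by
  obtain ⟨T, hT, -, -⟩ := cube_count (d := d) hδ X
  rw [integral_psi_mul_comp hd hψ (zetaC δ) X (measurable_zetaC_X hδ X) T hT (EE ψ F δ X)]
  have h1 : ∑ z ∈ T, slm (sig d) ψ (zetaC δ) X z * EE ψ F δ X z ≤
      ∑ z ∈ T, slm (sig d) ψ (zetaC δ) X z * Real.log (Fintype.card Q) :=
    Finset.sum_le_sum fun z _ =>
      mul_le_mul_of_nonneg_left (EE_le hd hψ hF hδ X z) (mC_nonneg hψ X z)
  rw [← Finset.sum_mul, sum_slm_eq_one hd hψ (zetaC δ) X (measurable_zetaC_X hδ X) T hT, one_mul] at h1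
  exact h1

/-! ### The measure `ψ σ` -/

/-- The probability measure with density `ψ`. -/
noncomputable def muψ (ψ : Sph d → ℝ) : Measure (Sph d) :=
  (sig d).withDensity fun s => ENNReal.ofReal (ψ s)

theorem integral_muψ (hψ : IsDens ψ) (k : Sph d → ℝ) :
    ∫ s, k s ∂(muψ ψ) = ∫ s, ψ s * k s ∂(sig d) := by
  unfold muψ
  rw [integral_withDensity_eq_integral_toReal_smul (f := fun s => ENNReal.ofReal (ψ s))
    (ENNReal.measurable_ofReal.comp hψ.meas)
    (Eventually.of_forall fun s => ENNReal.ofReal_lt_top)]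
  refine integral_congr_ae (Eventually.of_forall fun s => ?_)
  dsimp only
  rw [ENNReal.toReal_ofReal (hψ.nonneg s), smul_eq_mul]

theorem muψ_isProb (hd : 0 < d) (hψ : IsDens ψ) : IsProbabilityMeasure (muψ ψ) := by
  constructor
  unfold muψ
  rw [withDensity_apply _ MeasurableSet.univ, Measure.restrict_univ,
    ← ofReal_integral_eq_lintegral_ofReal (hψ.integrable' hd)
      (Eventually.of_forall hψ.nonneg), hψ.int_one, ENNReal.ofReal_one]

/-- Measurements as a function on the sphere. -/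
noncomputable def YY (X : Mat d B) (s : Sph d) : Fin B → ℝ := mv X (s : E d)

theorem measurable_YY (X : Mat d B) : Measurable (YY (d := d) X) :=
  (measurable_mv (d := d) (r := B)).comp (measurable_const.prodMk measurable_subtype_coe)

theorem mu_real_cell (hd : 0 < d) (hψ : IsDens ψ) (hδ : 0 < δ) (X : Mat d B) (c : Fin B → ℤ) :
    (muψ ψ).real ((fun s => cell δ (YY X s)) ⁻¹' {c}) = mC ψ δ X c := by
  classical
  have hS : MeasurableSet ((fun s : Sph d => cell δ (YY X s)) ⁻¹' {c}) :=
    measurable_zetaC_X hδ X (measurableSet_singleton c)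
  rw [← integral_indicator_one hS, integral_muψ hψ]
  unfold mC slm
  refine integral_congr_ae (Eventually.of_forall fun s => ?_)
  dsimp only
  by_cases hs : zetaC δ X s = c
  · rw [if_pos hs, Set.indicator_of_mem (show s ∈ _ from hs)]
    simp
  · rw [if_neg hs, Set.indicator_of_notMem (show s ∉ _ from hs)]
    simp

theorem mu_set_cell (hd : 0 < d) (hψ : IsDens ψ)
    (hF : Measurable (fun p : Mat d B × (Fin B → ℝ) => F p.1 p.2)) (hδ : 0 < δ) (X : Mat d B)
    (c : Fin B → ℤ) (q : Q) :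
    ∫ x in (fun s => cell δ (YY X s)) ⁻¹' {c},
        ({y | F X y = q} : Set (Fin B → ℝ)).indicator (fun _ => (1 : ℝ)) (YY X x) ∂(muψ ψ) =
      mF ψ F δ X c q := by
  classical
  have hS : MeasurableSet ((fun s : Sph d => cell δ (YY X s)) ⁻¹' {c}) :=
    measurable_zetaC_X hδ X (measurableSet_singleton c)
  rw [← integral_indicator hS, integral_muψ hψ]
  unfold mF slm
  refine integral_congr_ae (Eventually.of_forall fun s => ?_)
  dsimp only
  by_cases hs : zetaC δ X s = c
  · rw [Set.indicator_of_mem (show s ∈ _ from hs)]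
    by_cases hq : F X (YY X s) = q
    · rw [Set.indicator_of_mem (show YY X s ∈ _ from hq), if_pos (Prod.ext hs hq), mul_one]
    · rw [Set.indicator_of_notMem (show YY X s ∉ _ from hq), if_neg, mul_zero]
      intro h
      exact hq (congrArg Prod.snd h)
  · rw [Set.indicator_of_notMem (show s ∉ _ from hs), if_neg, mul_zero]
    intro h
    exact hs (congrArg Prod.fst h)

/-- Lévy: the conditional probabilities of a label converge. -/
theorem ratio_tendsto (hd : 0 < d) (hψ : IsDens ψ)
    (hF : Measurable (fun p : Mat d B × (Fin B → ℝ) => F p.1 p.2)) (X : Mat d B) (q : Q) :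
    ∀ᵐ s ∂(muψ ψ), Tendsto
      (fun j => mF ψ F (dy j) X (zetaC (dy j) X s) q / mC ψ (dy j) X (zetaC (dy j) X s)) atTop
      (𝓝 (({y | F X y = q} : Set (Fin B → ℝ)).indicator (fun _ => (1 : ℝ)) (YY X s))) := by
  haveI := muψ_isProb hd hψ
  have hA : MeasurableSet ({y | F X y = q} : Set (Fin B → ℝ)) := by
    have h1 : Measurable (F X) := hF.comp (measurable_const.prodMk measurable_id)
    exact h1 (measurableSet_singleton q)
  have hfin : ∀ j, ∃ T : Finset (Fin B → ℤ), ∀ s : Sph d, cell (dy j) (YY X s) ∈ T := by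
    intro j
    obtain ⟨T, hT, -, -⟩ := cube_count (d := d) (dy_pos j) X
    exact ⟨T, hT⟩
  have h := levy_dyadic (μ := muψ ψ) (YY (d := d) X) (measurable_YY X) hfin _ hA
  filter_upwards [h] with s hs
  refine hs.congr fun j => ?_
  have e1 := mu_set_cell hd hψ hF (dy_pos j) X (cell (dy j) (YY X s)) q
  have e2 := mu_real_cell hd hψ (dy_pos j) X (cell (dy j) (YY X s))
  rw [e1, e2]
  rfl

/-- The entropy of the label given the cube tends to zero, for fixed `X`. -/
theorem EE_tendsto (hd : 0 < d) (hψ : IsDens ψ)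
    (hF : Measurable (fun p : Mat d B × (Fin B → ℝ) => F p.1 p.2)) (X : Mat d B) :
    Tendsto (fun j => ∫ s, ψ s * EE ψ F (dy j) X (zetaC (dy j) X s) ∂(sig d)) atTop (𝓝 0) := by
  haveI := muψ_isProb hd hψ
  simp_rw [← integral_muψ hψ]
  have hae : ∀ᵐ s ∂(muψ ψ), ∀ q : Q, Tendsto
      (fun j => mF ψ F (dy j) X (zetaC (dy j) X s) q / mC ψ (dy j) X (zetaC (dy j) X s)) atTop
      (𝓝 (({y | F X y = q} : Set (Fin B → ℝ)).indicator (fun _ => (1 : ℝ)) (YY X s))) :=
    ae_all_iff.mpr fun q => ratio_tendsto hd hψ hF X q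
  have h0 := tendsto_integral_of_dominated_convergence (μ := muψ ψ)
    (F := fun j s => EE ψ F (dy j) X (zetaC (dy j) X s)) (f := fun _ => (0 : ℝ))
    (fun _ => Real.log (Fintype.card Q))
    (fun j => (measurable_EE_comp (dy_pos j) X).aestronglyMeasurable)
    (integrable_const _)
    (fun j => Eventually.of_forall fun s => by
      rw [Real.norm_eq_abs, abs_of_nonneg (EE_nonneg hd hψ hF (dy_pos j) X _)]
      exact EE_le hd hψ hF (dy_pos j) X _)
    (by
      filter_upwards [hae] with s hs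
      have h1 : Tendsto (fun j => ∑ q, Real.negMulLog
          (mF ψ F (dy j) X (zetaC (dy j) X s) q / mC ψ (dy j) X (zetaC (dy j) X s))) atTop
          (𝓝 (∑ q, Real.negMulLog (({y | F X y = q} : Set (Fin B → ℝ)).indicator
            (fun _ => (1 : ℝ)) (YY X s)))) := by
        refine tendsto_finsetSum _ fun q _ => ?_
        exact (Real.continuous_negMulLog.tendsto _).comp (hs q)
      have h2 : ∑ q, Real.negMulLog (({y | F X y = q} : Set (Fin B → ℝ)).indicator
            (fun _ => (1 : ℝ)) (YY X s)) = 0 := by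
        refine Finset.sum_eq_zero fun q _ => ?_
        by_cases hq : F X (YY X s) = q
        · rw [Set.indicator_of_mem (show YY X s ∈ _ from hq)]
          simp
        · rw [Set.indicator_of_notMem (show YY X s ∉ _ from hq)]
          simp
      rw [h2] at h1
      exact h1)
  simpa using h0

end Crest.Agent.MS
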