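import Crest.Agent.Lib.MS.BlockEval
import Crest.Agent.Lib.MS.CellsAux3

/-!
# S0499 module `Cells`: entropies of cube partitions.

`HX` is the entropy of the cubes for a fixed block `X`: `Hc = ∫ HX dγ` (`Hc_eq`).

`HX_add_log_le` : `Xs` stays in the box `∏_r [-‖X r‖, ‖X r‖]`, which meets at most `∏_r (2 ‖X r‖/δ + 2)` cubes,
and an entropy is at most the log of the number of cells: `∑ m_c log(1/m_c) ≤ log N` (Gibbs).
`Φ(X) = ∑_r log (2 ‖X r‖ + 2)` is integrable under `γ`.

`Hc_le`: For fixed `X`, Gibbs against the sub-probability `r(c) = ∏_j r₁(c_j)` gives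
`HX ≤ ∫ ψ(s) (-log r(cell (X s)))`.  Here `r₁(z) = δ f(x_z) / Z`, `f` is the standard normal density
on `ℝ`, `x_z` the point of `[zδ, (z+1)δ)` closest to `0`, `Z = ∑_z δ f(x_z) ≤ 1 + δ` (unimodal
function: Riemann sum ≤ integral + δ · total variation).  Integrating over `X` and using
`gam_map_mv` (the law of `X s` is `N(0, I_B)` for every fixed `s`):
`Hc ≤ B E[-log r₁(⌊g/δ⌋)] ≤ B (-log δ + ½ log (2π) + log Z + E g²/2)`, since `x_z² ≤ g²` on the cell.

`Hz_sub_Hc_bounds`: `Hz - Hc = ∫∫ψ (-log (m(c,q)/m(c)))` is the conditional entropy of the label given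
the cube and `X`, between `0` and `log |Q|`.

`Hz_sub_Hc_tendsto`: for fixed `X` let `ℱ_j` be the σ-algebra of the dyadic cubes of side `2^{-j}` for `s ↦ X s` under
`ψ σ`.  `E[1{F X (Xs) = q} | ℱ_j] = m(c,q)/m(c)`, converges a.s. to the indicator by Lévy's upward theorem
(`MeasureTheory.Integrable.tendsto_ae_condExp`) as the label is `⨆ ℱ_j`-measurable.  So the
conditional entropy `E ∑_q negMulLog(E[1_q | ℱ_j])` tends to `0` (bounded convergence), and then bounded
convergence in `X`.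
-/

set_option autoImplicit false
set_option linter.unusedSectionVars false

namespace Crest.Agent.MS

open MeasureTheory ProbabilityTheory Filter Topology
open Crest.StreamLearn (E Sphere sphereUniform)

variable {d B : ℕ} {Q : Type} [Fintype Q] [Nonempty Q] [MeasurableSpace Q]
  [MeasurableSingletonClass Q] {ψ : Sph d → ℝ} {F : Mat d B → (Fin B → ℝ) → Q} {δ : ℝ}

/-- Entropy of the cubes for fixed `X`. -/
noncomputable def HX (ψ : Sph d → ℝ) (δ : ℝ) (X : Mat d B) : ℝ :=
  ∫ s, ψ s * (- Real.log (slm (sig d) ψ (zetaC δ) X (zetaC δ X s))) ∂(sig d)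

/-- Upper bound for the entropy at scale `δ`. -/
noncomputable def PhiX (X : Mat d B) : ℝ := ∑ r, Real.log (2 * ‖X r‖ + 2)

theorem PhiX_nonneg (X : Mat d B) : 0 ≤ PhiX X := by
  unfold PhiX
  refine Finset.sum_nonneg fun r _ => Real.log_nonneg ?_
  have := norm_nonneg (X r)
  linarith

private theorem integrable_log_norm (a : ℝ) (ha : 0 < a) :
    Integrable (fun x : E d => Real.log (a * ‖x‖ + 2)) (stdGaussian (E d)) := by
  have h1 : Integrable (fun x : E d => a * (‖x‖ ^ 2 + 1) + 1) (stdGaussian (E d)) :=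
    ((integrable_norm_sq_stdGaussian.add (integrable_const _)).const_mul a).add (integrable_const _)
  refine h1.mono' ?_ (Eventually.of_forall fun x => ?_)
  · refine (Real.measurable_log.comp ?_).aestronglyMeasurable
    fun_prop
  · have h0 := norm_nonneg x
    have h2 : 0 ≤ a * ‖x‖ := by positivity
    rw [Real.norm_of_nonneg (Real.log_nonneg (by linarith))]
    have h3 := Real.log_le_sub_one_of_pos (show 0 < a * ‖x‖ + 2 by linarith)
    have h4 : ‖x‖ ≤ ‖x‖ ^ 2 + 1 := by nlinarith [sq_nonneg (‖x‖ - 1)]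
    have h5 := mul_le_mul_of_nonneg_left h4 ha.le
    linarith

private theorem integrable_sum_log_norm (a : ℝ) (ha : 0 < a) :
    Integrable (fun X : Mat d B => ∑ r, Real.log (a * ‖X r‖ + 2)) (gam d B) :=
  integrable_finsetSum _ fun r _ =>
    integrable_comp_eval (μ := fun _ : Fin B => stdGaussian (E d)) (i := r)
      (integrable_log_norm a ha)

theorem integrable_PhiX : Integrable (PhiX (d := d) (B := B)) (gam d B) := by
  exact integrable_sum_log_norm 2 (by norm_num)

/-- `ψ log m` is integrable in `s`, for each `X`. -/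
theorem integrable_HX_inner (hd : 0 < d) (hψ : IsDens ψ) (hδ : 0 < δ) (X : Mat d B) :
    Integrable (fun s => ψ s * (- Real.log (slm (sig d) ψ (zetaC δ) X (zetaC δ X s)))) (sig d) := by
  obtain ⟨T, hT, hT0, -⟩ := cube_count (d := d) hδ X
  exact (entropy_le_of_finite hd hψ (zetaC δ) X (measurable_zetaC_X hδ X) T hT hT0).1

theorem HX_nonneg (hd : 0 < d) (hψ : IsDens ψ) (hδ : 0 < δ) (X : Mat d B) : 0 ≤ HX ψ δ X := by
  unfold HX
  refine integral_nonneg fun s => mul_nonneg (hψ.nonneg s) ?_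
  have h0 := slm_nonneg_of_dens hψ (zetaC δ) X (zetaC δ X s)
  have h1 := slm_le_one_of_dens hd hψ (zetaC δ) X (measurable_zetaC_X hδ X) (zetaC δ X s)
  have := Real.log_nonpos h0 h1
  linarith

private theorem HX_le_sum_log (hd : 0 < d) (hψ : IsDens ψ) (hδ : 0 < δ) (X : Mat d B) :
    HX ψ δ X ≤ ∑ r, Real.log ((2 / δ) * ‖X r‖ + 2) := by
  obtain ⟨T, hT, hT0, hc⟩ := cube_count (d := d) hδ X
  have h1 := (entropy_le_of_finite hd hψ (zetaC δ) X (measurable_zetaC_X hδ X) T hT hT0).2
  refine h1.trans ?_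
  have hcpos : (0 : ℝ) < T.card := by exact_mod_cast hT0.card_pos
  have h2 := Real.log_le_log hcpos hc
  refine h2.trans (le_of_eq ?_)
  rw [Real.log_prod]
  · refine Finset.sum_congr rfl fun r _ => ?_
    congr 1
    ring
  · intro r _
    have : 0 ≤ 2 * ‖X r‖ / δ := by positivity
    linarith

theorem HX_add_log_le (hd : 0 < d) (hψ : IsDens ψ) (hδ : 0 < δ) (hδ1 : δ ≤ 1) (X : Mat d B) :
    HX ψ δ X + B * Real.log δ ≤ PhiX X := by
  have h1 := HX_le_sum_log hd hψ hδ X
  have h2 : (B : ℝ) * Real.log δ + ∑ r, Real.log ((2 / δ) * ‖X r‖ + 2) ≤ PhiX X := by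
    have e1 : (B : ℝ) * Real.log δ = ∑ _r : Fin B, Real.log δ := by
      simp
    rw [e1, ← Finset.sum_add_distrib]
    unfold PhiX
    refine Finset.sum_le_sum fun r _ => ?_
    have h3 : 0 ≤ (2 / δ) * ‖X r‖ := by positivity
    rw [← Real.log_mul hδ.ne' (by linarith)]
    refine Real.log_le_log (by positivity) ?_
    have h4 : δ * ((2 / δ) * ‖X r‖ + 2) = 2 * ‖X r‖ + 2 * δ := by
      field_simp
    rw [h4]
    linarith
  linarith

private theorem measurable_HX_integrand (hd : 0 < d) (hψ : IsDens ψ) (hδ : 0 < δ) :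
    Measurable (fun p : Mat d B × Sph d =>
      ψ p.2 * (- Real.log (slm (sig d) ψ (zetaC δ) p.1 (zetaC δ p.1 p.2)))) := by
  have hT := block_tupDataC (B := B) hd hψ hδ
  have h1 := hT.measurable_slm_cell
  exact (hψ.meas.comp measurable_snd).mul (Real.measurable_log.comp h1).neg

private theorem measurable_HX (hd : 0 < d) (hψ : IsDens ψ) (hδ : 0 < δ) :
    StronglyMeasurable (HX (B := B) ψ δ) := by
  haveI := sig_isProb hd
  have h1 := (measurable_HX_integrand (B := B) hd hψ hδ).stronglyMeasurable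
  exact h1.integral_prod_right (f := fun (X : Mat d B) (s : Sph d) =>
    ψ s * (- Real.log (slm (sig d) ψ (zetaC δ) X (zetaC δ X s))))

theorem integrable_HX (hd : 0 < d) (hψ : IsDens ψ) (hδ : 0 < δ) :
    Integrable (HX (B := B) ψ δ) (gam d B) := by
  have h1 := integrable_sum_log_norm (d := d) (B := B) (2 / δ) (by positivity)
  refine h1.mono' (measurable_HX hd hψ hδ).aestronglyMeasurable (Eventually.of_forall fun X => ?_)
  rw [Real.norm_of_nonneg (HX_nonneg hd hψ hδ X)]
  exact HX_le_sum_log hd hψ hδ X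

private theorem integrable_Hc_prod (hd : 0 < d) (hψ : IsDens ψ) (hδ : 0 < δ) :
    Integrable (fun p : Sph d × Mat d B =>
      ψ p.1 * (- Real.log (slm (sig d) ψ (zetaC δ) p.2 (zetaC δ p.2 p.1))))
      ((sig d).prod (gam d B)) := by
  haveI := sig_isProb hd
  have hm : Measurable (fun p : Sph d × Mat d B =>
      ψ p.1 * (- Real.log (slm (sig d) ψ (zetaC δ) p.2 (zetaC δ p.2 p.1)))) := by
    have h1 := measurable_HX_integrand (B := B) hd hψ hδ
    have h2 := h1.comp (measurable_swap (α := Sph d) (β := Mat d B))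
    exact h2
  rw [integrable_prod_iff' hm.aestronglyMeasurable]
  refine ⟨Eventually.of_forall fun X => integrable_HX_inner hd hψ hδ X, ?_⟩
  refine (integrable_HX (B := B) hd hψ hδ).congr (Eventually.of_forall fun X => ?_)
  refine integral_congr_ae (Eventually.of_forall fun s => ?_)
  dsimp only
  rw [Real.norm_of_nonneg]
  refine mul_nonneg (hψ.nonneg s) ?_
  have h0 := slm_nonneg_of_dens hψ (zetaC δ) X (zetaC δ X s)
  have h1 := slm_le_one_of_dens hd hψ (zetaC δ) X (measurable_zetaC_X hδ X) (zetaC δ X s)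
  have := Real.log_nonpos h0 h1
  linarith

theorem Hc_eq (hd : 0 < d) (hψ : IsDens ψ) (hδ : 0 < δ) :
    Hc B ψ δ = ∫ X, HX ψ δ X ∂(gam d B) := by
  haveI := sig_isProb hd
  unfold Hc
  rw [integral_prod_symm _ (integrable_Hc_prod hd hψ hδ)]
  rfl

private theorem gcB_pos' (hδ : 0 < δ) (c : Fin B → ℤ) : 0 < gcB δ c := by
  have h := gcB_pos hδ (fun j => (c j : ℝ) * δ)
  have e : cell δ (fun j => (c j : ℝ) * δ) = c := by
    funext j
    unfold cell
    simp only
    rw [mul_div_cancel_right₀ _ hδ.ne', Int.floor_intCast]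
  rwa [e] at h

private theorem continuous_UU : Continuous (UU B δ) := by
  unfold UU
  fun_prop

private theorem abs_mv_le (X : Mat d B) (s : Sph d) (j : Fin B) :
    (mv X (s : E d) j) ^ 2 ≤ ‖X j‖ ^ 2 := by
  have h1 : ‖(s : E d)‖ = 1 := by
    simpa using s.2
  have h2 := abs_real_inner_le_norm (X j) (s : E d)
  rw [h1, mul_one] at h2
  unfold mv
  rw [← sq_abs]
  exact pow_le_pow_left₀ (abs_nonneg _) h2 2

/-- The constant term of `UU`. -/
private noncomputable def κ (B : ℕ) (δ : ℝ) : ℝ :=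
  B * (- Real.log δ + (1 / 2) * Real.log (2 * Real.pi) + δ / 2 + δ ^ 2 / 2)

private noncomputable def GG (δ : ℝ) (X : Mat d B) : ℝ :=
  |κ B δ| + ((1 + δ) / 2) * ∑ j, ‖X j‖ ^ 2

private theorem abs_UU_le (hδ : 0 < δ) (X : Mat d B) (s : Sph d) :
    |UU B δ (mv X (s : E d))| ≤ GG δ X := by
  have h1 : UU B δ (mv X (s : E d)) = κ B δ + ((1 + δ) / 2) * ∑ j, (mv X (s : E d) j) ^ 2 := rfl
  rw [h1]
  unfold GG
  refine (abs_add_le _ _).trans (add_le_add le_rfl ?_)
  rw [abs_of_nonneg]
  · exact mul_le_mul_of_nonneg_left (Finset.sum_le_sum fun j _ => abs_mv_le X s j) (by positivity)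
  · have : 0 ≤ ∑ j, (mv X (s : E d) j) ^ 2 := Finset.sum_nonneg fun j _ => sq_nonneg _
    positivity

private theorem integrable_GG (hδ : 0 < δ) : Integrable (GG (d := d) (B := B) δ) (gam d B) := by
  unfold GG
  refine (integrable_const _).add (Integrable.const_mul ?_ _)
  exact integrable_finsetSum _ fun r _ =>
    integrable_comp_eval (μ := fun _ : Fin B => stdGaussian (E d)) (i := r)
      (integrable_norm_sq_stdGaussian (d := d))

private theorem measurable_UU_mv :
    Measurable (fun p : Sph d × Mat d B => UU B δ (mv p.2 (p.1 : E d))) := by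
  have h1 := (continuous_UU (B := B) (δ := δ)).measurable
  have h2 : Measurable (fun p : Sph d × Mat d B => mv p.2 (p.1 : E d)) :=
    (measurable_mv (d := d) (r := B)).comp
      (measurable_snd.prodMk (measurable_subtype_coe.comp measurable_fst))
  have h3 := h1.comp h2
  exact h3

private theorem integrable_UU_prod (hd : 0 < d) (hψ : IsDens ψ) (hδ : 0 < δ) :
    Integrable (fun p : Sph d × Mat d B => ψ p.1 * UU B δ (mv p.2 (p.1 : E d)))
      ((sig d).prod (gam d B)) := by
  haveI := sig_isProb hd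
  obtain ⟨L, hL⟩ := hψ.bdd
  have hb : Integrable (fun p : Sph d × Mat d B => |L| * GG δ p.2) ((sig d).prod (gam d B)) :=
    ((integrable_GG hδ).comp_snd (sig d)).const_mul _
  refine hb.mono' ?_ (Eventually.of_forall fun p => ?_)
  · exact ((hψ.meas.comp measurable_fst).mul measurable_UU_mv).aestronglyMeasurable
  · rw [norm_mul, Real.norm_eq_abs, Real.norm_eq_abs, abs_of_nonneg (hψ.nonneg _)]
    have h1 := abs_UU_le hδ p.2 p.1
    have h2 : ψ p.1 ≤ |L| := (hL _).trans (le_abs_self L)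
    exact mul_le_mul h2 h1 (abs_nonneg _) (abs_nonneg _)

private theorem integrable_UU_X (hd : 0 < d) (hψ : IsDens ψ) (hδ : 0 < δ) (X : Mat d B) :
    Integrable (fun s : Sph d => ψ s * UU B δ (mv X (s : E d))) (sig d) := by
  haveI := sig_isProb hd
  obtain ⟨L, hL⟩ := hψ.bdd
  refine Integrable.of_bound ?_ (|L| * GG δ X) (Eventually.of_forall fun s => ?_)
  · have h1 := (continuous_UU (B := B) (δ := δ)).measurable
    have h2 : Measurable (fun s : Sph d => mv X (s : E d)) := measurable_YY X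
    have h3 := h1.comp h2
    exact (hψ.meas.mul h3).aestronglyMeasurable
  · rw [norm_mul, Real.norm_eq_abs, Real.norm_eq_abs, abs_of_nonneg (hψ.nonneg _)]
    have h1 := abs_UU_le hδ X s
    have h2 : ψ s ≤ |L| := (hL _).trans (le_abs_self L)
    exact mul_le_mul h2 h1 (abs_nonneg _) (abs_nonneg _)

private theorem integrable_psi_comp {Z : Type*} [MeasurableSpace Z] [MeasurableSingletonClass Z]
    (hd : 0 < d) (hψ : IsDens ψ) (ζ : Sph d → Z) (hζ : Measurable ζ) (T : Finset Z)
    (hT : ∀ s, ζ s ∈ T) (g : Z → ℝ) : Integrable (fun s => ψ s * g (ζ s)) (sig d) := by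
  classical
  have e : ∀ s, ψ s * g (ζ s) = ∑ z ∈ T, (if ζ s = z then ψ s else 0) * g z := by
    intro s
    rw [Finset.sum_eq_single (ζ s)]
    · simp
    · intro b _ hb
      simp [Ne.symm hb]
    · intro h
      exact absurd (hT s) h
  simp_rw [e]
  exact integrable_finsetSum _ fun z _ =>
    (integrable_cell_of_dens (Y := Unit) hd hψ (fun _ => ζ) () hζ z).mul_const _

/-- Gibbs for fixed `X`. -/
private theorem HX_le_UU (hd : 0 < d) (hψ : IsDens ψ) (hδ : 0 < δ) (X : Mat d B) :
    HX ψ δ X ≤ ∫ s, ψ s * UU B δ (mv X (s : E d)) ∂(sig d) := by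
  obtain ⟨T, hT, -, -⟩ := cube_count (d := d) hδ X
  have hm := measurable_zetaC_X (d := d) hδ X
  have h1 : HX ψ δ X = ∑ c ∈ T, mC ψ δ X c * (- Real.log (mC ψ δ X c)) :=
    integral_psi_mul_comp hd hψ (zetaC δ) X hm T hT (fun c => - Real.log (mC ψ δ X c))
  have h2 : ∫ s, ψ s * (- Real.log (gcB δ (zetaC δ X s))) ∂(sig d) =
      ∑ c ∈ T, mC ψ δ X c * (- Real.log (gcB δ c)) :=
    integral_psi_mul_comp hd hψ (zetaC δ) X hm T hT (fun c => - Real.log (gcB δ c))
  have h3 : ∑ c ∈ T, mC ψ δ X c * (- Real.log (mC ψ δ X c)) ≤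
      ∑ c ∈ T, mC ψ δ X c * (- Real.log (gcB δ c)) :=
    finite_gibbs T _ _ (fun c _ => mC_nonneg hψ X c) (fun c _ => gcB_pos' hδ c)
      (sum_slm_eq_one hd hψ (zetaC δ) X hm T hT) (sum_gcB_le_one hδ T)
  rw [h1]
  refine h3.trans ?_
  rw [← h2]
  refine integral_mono (integrable_psi_comp hd hψ (zetaC δ X) hm T hT
    (fun c => - Real.log (gcB δ c))) (integrable_UU_X hd hψ hδ X) fun s => ?_
  exact mul_le_mul_of_nonneg_left (neg_log_gcB_le hδ _) (hψ.nonneg s)

private theorem integral_sq_pi (j : Fin B) :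
    ∫ y : Fin B → ℝ, y j ^ 2 ∂(Measure.pi fun _ : Fin B => gaussianReal 0 1) = 1 := by
  have hint : Integrable (fun y : ℝ => y ^ 2) (gaussianReal 0 1) :=
    (IsGaussian.memLp_two_id (μ := gaussianReal 0 1)).integrable_sq
  rw [integral_comp_eval (μ := fun _ : Fin B => gaussianReal 0 1) (i := j)
    (f := fun y : ℝ => y ^ 2) hint.aestronglyMeasurable]
  have hv := variance_of_integral_eq_zero (μ := gaussianReal 0 1) (X := id)
    aemeasurable_id (by simp)
  rw [variance_id_gaussianReal] at hv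
  simpa using hv.symm

private theorem integral_UU_pi :
    ∫ y : Fin B → ℝ, UU B δ y ∂(Measure.pi fun _ : Fin B => gaussianReal 0 1) =
      κ B δ + ((1 + δ) / 2) * B := by
  have hint : Integrable (fun y : ℝ => y ^ 2) (gaussianReal 0 1) :=
    (IsGaussian.memLp_two_id (μ := gaussianReal 0 1)).integrable_sq
  have hi : ∀ j : Fin B, Integrable (fun y : Fin B → ℝ => y j ^ 2)
      (Measure.pi fun _ : Fin B => gaussianReal 0 1) := fun j =>
    integrable_comp_eval (μ := fun _ : Fin B => gaussianReal 0 1) (i := j) hint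
  have hs : Integrable (fun y : Fin B → ℝ => ∑ j, y j ^ 2)
      (Measure.pi fun _ : Fin B => gaussianReal 0 1) := integrable_finsetSum _ fun j _ => hi j
  have e0 : ∀ y : Fin B → ℝ, UU B δ y = κ B δ + ((1 + δ) / 2) * ∑ j, y j ^ 2 := fun y => rfl
  simp_rw [e0]
  rw [integral_add (integrable_const _) (hs.const_mul _), integral_const, integral_const_mul,
    integral_finsetSum _ fun j _ => hi j]
  simp [integral_sq_pi]

private theorem integral_UU_X (s : Sph d) :
    ∫ X : Mat d B, UU B δ (mv X (s : E d)) ∂(gam d B) = κ B δ + ((1 + δ) / 2) * B := by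
  have h1 : ‖(s : E d)‖ = 1 := by
    simpa using s.2
  have hmeas : Measurable (fun X : Mat d B => mv X (s : E d)) :=
    (measurable_mv (d := d) (r := B)).comp (measurable_id.prodMk measurable_const)
  have h2 := integral_map (μ := gam d B) hmeas.aemeasurable
    (f := UU B δ) (continuous_UU.aestronglyMeasurable)
  rw [gam_map_mv _ h1] at h2
  rw [← h2, integral_UU_pi]

/-- The entropy of the discretised standard Gaussian. -/
theorem Hc_le (hd : 0 < d) (hψ : IsDens ψ) (hδ : 0 < δ) (hδ1 : δ ≤ 1) :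
    Hc B ψ δ + B * Real.log δ ≤ (B / 2 : ℝ) * Real.log (2 * Real.pi * Real.exp 1) + 2 * B * δ := by
  haveI := sig_isProb hd
  have hP := integrable_UU_prod (B := B) hd hψ hδ
  have h1 : Hc B ψ δ ≤ ∫ X : Mat d B, ∫ s, ψ s * UU B δ (mv X (s : E d)) ∂(sig d) ∂(gam d B) := by
    rw [Hc_eq hd hψ hδ]
    exact integral_mono (integrable_HX hd hψ hδ) hP.integral_prod_right (HX_le_UU hd hψ hδ)
  have h2 : ∫ X : Mat d B, ∫ s, ψ s * UU B δ (mv X (s : E d)) ∂(sig d) ∂(gam d B) =
      κ B δ + ((1 + δ) / 2) * B := by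
    rw [← integral_prod_symm (f := fun p : Sph d × Mat d B => ψ p.1 * UU B δ (mv p.2 (p.1 : E d))) hP,
      integral_prod _ hP]
    simp_rw [integral_const_mul, integral_UU_X, integral_mul_const, hψ.int_one, one_mul]
  rw [h2] at h1
  have hpi := Real.pi_pos
  have h3 : Real.log (2 * Real.pi * Real.exp 1) = Real.log (2 * Real.pi) + 1 := by
    rw [Real.log_mul (by positivity) (Real.exp_pos _).ne', Real.log_exp]
  rw [h3]
  have hB0 : (0 : ℝ) ≤ B := Nat.cast_nonneg B
  unfold κ at h1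
  have h4 : δ ^ 2 ≤ δ := by nlinarith
  have h5 := mul_le_mul_of_nonneg_left h4 hB0
  nlinarith

private theorem integrable_Hz_prod (hd : 0 < d) (hψ : IsDens ψ)
    (hF : Measurable (fun p : Mat d B × (Fin B → ℝ) => F p.1 p.2)) (hδ : 0 < δ) :
    Integrable (fun p : Sph d × Mat d B =>
      ψ p.1 * (- Real.log (slm (sig d) ψ (zetaF F δ) p.2 (zetaF F δ p.2 p.1))))
      ((sig d).prod (gam d B)) := by
  have h := (tup_integrable_logm hd hψ hF hδ).neg
  refine h.congr (Eventually.of_forall fun p => ?_)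
  simp

/-- The conditional entropy as an average. -/
private theorem Hz_sub_Hc_eq (hd : 0 < d) (hψ : IsDens ψ)
    (hF : Measurable (fun p : Mat d B × (Fin B → ℝ) => F p.1 p.2)) (hδ : 0 < δ) :
    Integrable (fun X : Mat d B => ∫ s, ψ s * EE ψ F δ X (zetaC δ X s) ∂(sig d)) (gam d B) ∧
    Hz ψ F δ - Hc B ψ δ = ∫ X : Mat d B, ∫ s, ψ s * EE ψ F δ X (zetaC δ X s) ∂(sig d) ∂(gam d B) := by
  haveI := sig_isProb hd
  have h1 := integrable_Hz_prod hd hψ hF hδ
  have h2 := integrable_Hc_prod (B := B) hd hψ hδ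
  have hI := (h1.integral_prod_right).sub (h2.integral_prod_right)
  have hcongr : ∀ X : Mat d B,
      (∫ s, ψ s * (- Real.log (slm (sig d) ψ (zetaF F δ) X (zetaF F δ X s))) ∂(sig d)) -
      (∫ s, ψ s * (- Real.log (slm (sig d) ψ (zetaC δ) X (zetaC δ X s))) ∂(sig d)) =
      ∫ s, ψ s * EE ψ F δ X (zetaC δ X s) ∂(sig d) := fun X => HFX_sub_HX hd hψ hF hδ X
  constructor
  · exact hI.congr (Eventually.of_forall hcongr)
  · unfold Hz Hc
    rw [integral_prod_symm _ h1, integral_prod_symm _ h2, ← integral_sub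
      (h1.integral_prod_right) (h2.integral_prod_right)]
    exact integral_congr_ae (Eventually.of_forall hcongr)

theorem Hz_sub_Hc_bounds (hd : 0 < d) (hψ : IsDens ψ)
    (hF : Measurable (fun p : Mat d B × (Fin B → ℝ) => F p.1 p.2)) (hδ : 0 < δ) :
    0 ≤ Hz ψ F δ - Hc B ψ δ ∧ Hz ψ F δ - Hc B ψ δ ≤ Real.log (Fintype.card Q) := by
  obtain ⟨hI, he⟩ := Hz_sub_Hc_eq hd hψ hF hδ
  rw [he]
  constructor
  · exact integral_nonneg fun X => integral_psi_EE_nonneg hd hψ hF hδ X
  · have h := integral_mono hI (integrable_const (Real.log (Fintype.card Q)))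
      (fun X => integral_psi_EE_le hd hψ hF hδ X)
    simpa using h

theorem Hz_sub_Hc_tendsto (hd : 0 < d) (hψ : IsDens ψ)
    (hF : Measurable (fun p : Mat d B × (Fin B → ℝ) => F p.1 p.2)) :
    Tendsto (fun j : ℕ => Hz ψ F ((1 / 2 : ℝ) ^ j) - Hc B ψ ((1 / 2 : ℝ) ^ j)) atTop (𝓝 0) := by
  have h0 := tendsto_integral_of_dominated_convergence (μ := gam d B)
    (F := fun (j : ℕ) (X : Mat d B) => ∫ s, ψ s * EE ψ F (dy j) X (zetaC (dy j) X s) ∂(sig d))
    (f := fun _ => (0 : ℝ)) (fun _ => Real.log (Fintype.card Q))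
    (fun j => (Hz_sub_Hc_eq hd hψ hF (dy_pos j)).1.aestronglyMeasurable)
    (integrable_const _)
    (fun j => Eventually.of_forall fun X => by
      rw [Real.norm_of_nonneg (integral_psi_EE_nonneg hd hψ hF (dy_pos j) X)]
      exact integral_psi_EE_le hd hψ hF (dy_pos j) X)
    (Eventually.of_forall fun X => EE_tendsto hd hψ hF X)
  simp only [integral_zero] at h0
  refine h0.congr fun j => ?_
  exact ((Hz_sub_Hc_eq hd hψ hF (dy_pos j)).2).symm

end Crest.Agent.MS
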