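import Crest.Agent.Lib.MS.BlockEval

/-!
# Auxiliary lemmas for `Cells`: finite partitions, finite Gibbs, Gaussian mass of cells.
-/

set_option autoImplicit false
set_option linter.unusedSectionVars false

namespace Crest.Agent.MS

open MeasureTheory ProbabilityTheory Filter Topology
open Crest.StreamLearn (E Sphere sphereUniform)

variable {d B : ℕ} {ψ : Sph d → ℝ} {δ : ℝ}

/-- A density is integrable. -/
theorem IsDens.integrable' (hd : 0 < d) (hψ : IsDens ψ) : Integrable ψ (sig d) := by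
  haveI := sig_isProb hd
  obtain ⟨L, hL⟩ := hψ.bdd
  refine Integrable.of_bound hψ.meas.aestronglyMeasurable L (Eventually.of_forall fun s => ?_)
  rw [Real.norm_eq_abs, abs_of_nonneg (hψ.nonneg s)]
  exact hL s

open Classical in
theorem IsDens.integrable_ite (hd : 0 < d) (hψ : IsDens ψ) {A : Set (Sph d)} (hA : MeasurableSet A) :
    Integrable (fun s => if s ∈ A then ψ s else 0) (sig d) := by
  have h1 := (hψ.integrable' hd).indicator hA
  refine h1.congr (Eventually.of_forall fun s => ?_)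
  by_cases hs : s ∈ A <;> simp [hs]

section partition

variable {Y Z : Type*} [MeasurableSpace Z] [MeasurableSingletonClass Z]

open Classical in
theorem integrable_cell_of_dens (hd : 0 < d) (hψ : IsDens ψ) (ζ : Y → Sph d → Z) (y : Y)
    (hζ : Measurable (ζ y)) (z : Z) :
    Integrable (fun s => if ζ y s = z then ψ s else 0) (sig d) :=
  hψ.integrable_ite hd (A := {s | ζ y s = z}) (hζ (measurableSet_singleton z))

theorem slm_nonneg_of_dens (hψ : IsDens ψ) (ζ : Y → Sph d → Z) (y : Y) (z : Z) :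
    0 ≤ slm (sig d) ψ ζ y z := by
  classical
  unfold slm
  refine integral_nonneg fun s => ?_
  dsimp only
  split_ifs
  · exact hψ.nonneg s
  · exact le_refl _

theorem slm_le_one_of_dens (hd : 0 < d) (hψ : IsDens ψ) (ζ : Y → Sph d → Z) (y : Y)
    (hζ : Measurable (ζ y)) (z : Z) : slm (sig d) ψ ζ y z ≤ 1 := by
  classical
  unfold slm
  rw [← hψ.int_one]
  refine integral_mono (integrable_cell_of_dens hd hψ ζ y hζ z) (hψ.integrable' hd) fun s => ?_
  dsimp only
  split_ifs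
  · exact le_refl _
  · exact hψ.nonneg s

open Classical in
/-- Decomposition of an integral along a finite partition. -/
theorem integral_psi_mul_comp (hd : 0 < d) (hψ : IsDens ψ) (ζ : Y → Sph d → Z) (y : Y)
    (hζ : Measurable (ζ y)) (T : Finset Z) (hT : ∀ s, ζ y s ∈ T) (g : Z → ℝ) :
    ∫ s, ψ s * g (ζ y s) ∂(sig d) = ∑ z ∈ T, slm (sig d) ψ ζ y z * g z := by
  have e : ∀ s, ψ s * g (ζ y s) = ∑ z ∈ T, (if ζ y s = z then ψ s else 0) * g z := by
    intro s
    rw [Finset.sum_eq_single (ζ y s)]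
    · simp
    · intro b _ hb
      simp [Ne.symm hb]
    · intro h
      exact absurd (hT s) h
  simp_rw [e]
  rw [integral_finsetSum _ (fun z _ => (integrable_cell_of_dens hd hψ ζ y hζ z).mul_const _)]
  refine Finset.sum_congr rfl fun z _ => ?_
  rw [integral_mul_const]
  rfl

/-- The masses sum to one. -/
theorem sum_slm_eq_one (hd : 0 < d) (hψ : IsDens ψ) (ζ : Y → Sph d → Z) (y : Y)
    (hζ : Measurable (ζ y)) (T : Finset Z) (hT : ∀ s, ζ y s ∈ T) :
    ∑ z ∈ T, slm (sig d) ψ ζ y z = 1 := by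
  have := integral_psi_mul_comp hd hψ ζ y hζ T hT (fun _ => 1)
  simp only [mul_one] at this
  rw [← this, hψ.int_one]

end partition

/-- Finite Gibbs inequality. -/
theorem finite_gibbs {Z : Type*} (T : Finset Z) (m r : Z → ℝ) (hm : ∀ z ∈ T, 0 ≤ m z)
    (hr : ∀ z ∈ T, 0 < r z) (hsm : ∑ z ∈ T, m z = 1) (hsr : ∑ z ∈ T, r z ≤ 1) :
    ∑ z ∈ T, m z * (- Real.log (m z)) ≤ ∑ z ∈ T, m z * (- Real.log (r z)) := by
  have hterm : ∀ z ∈ T, m z * (- Real.log (m z)) - m z * (- Real.log (r z)) ≤ r z - m z := by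
    intro z hz
    rcases (hm z hz).eq_or_lt with h0 | h0
    · rw [← h0]
      simp only [zero_mul, sub_zero]
      exact (hr z hz).le
    · have h1 := Real.log_le_sub_one_of_pos (div_pos (hr z hz) h0)
      rw [Real.log_div (hr z hz).ne' h0.ne'] at h1
      have h2 := mul_le_mul_of_nonneg_left h1 h0.le
      have h3 : m z * (r z / m z - 1) = r z - m z := by
        field_simp
      rw [h3] at h2
      linarith
  have h4 := Finset.sum_le_sum hterm
  rw [Finset.sum_sub_distrib, Finset.sum_sub_distrib, hsm] at h4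
  linarith

/-- Entropy of a finite probability vector is at most the log of the number of values. -/
theorem sum_negMulLog_le_log_card {Q : Type*} [Fintype Q] [Nonempty Q] (p : Q → ℝ)
    (hp : ∀ q, 0 ≤ p q) (hs : ∑ q, p q = 1) :
    ∑ q, Real.negMulLog (p q) ≤ Real.log (Fintype.card Q) := by
  have hc : (0 : ℝ) < Fintype.card Q := by exact_mod_cast Fintype.card_pos
  have h := finite_gibbs (Z := Q) Finset.univ p (fun _ => (Fintype.card Q : ℝ)⁻¹)
    (fun q _ => hp q) (fun _ _ => by positivity) hs (by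
      simp only [Finset.sum_const, Finset.card_univ, nsmul_eq_mul]
      rw [mul_inv_cancel₀ hc.ne'])
  simp only [Real.log_inv, neg_neg] at h
  have e1 : ∑ q, Real.negMulLog (p q) = ∑ q, p q * (- Real.log (p q)) := by
    refine Finset.sum_congr rfl fun q _ => ?_
    unfold Real.negMulLog
    ring
  rw [e1]
  refine le_trans h ?_
  rw [← Finset.sum_mul, hs, one_mul]

/-- `negMulLog` on `[0,1]` is at most `1`. -/
theorem negMulLog_le_one_of_nonneg {x : ℝ} (hx : 0 ≤ x) : Real.negMulLog x ≤ 1 := by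
  rcases hx.eq_or_lt with h0 | h0
  · rw [← h0]
    simp
  · have h1 := Real.log_le_sub_one_of_pos (inv_pos.mpr h0)
    rw [Real.log_inv] at h1
    have h2 := mul_le_mul_of_nonneg_left h1 h0.le
    have h3 : x * (x⁻¹ - 1) = 1 - x := by
      field_simp
    rw [h3] at h2
    unfold Real.negMulLog
    nlinarith

/-! ### Gaussian mass of a cell -/

/-- Cells of `ℝ` are measurable. -/
theorem measurableSet_cell1 (hδ : 0 < δ) (z : ℤ) : MeasurableSet {t : ℝ | ⌊t / δ⌋ = z} := by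
  have : Measurable (fun t : ℝ => ⌊t / δ⌋) := Int.measurable_floor.comp (by fun_prop)
  exact this (measurableSet_singleton z)

/-- Lower bound for the Gaussian mass of a cell. -/
theorem gauss_cell_lower (hδ : 0 < δ) (y : ℝ) :
    ENNReal.ofReal ((Real.sqrt (2 * Real.pi))⁻¹ * Real.exp (-(|y| + δ) ^ 2 / 2) * δ) ≤
      (gaussianReal 0 1) {t : ℝ | ⌊t / δ⌋ = ⌊y / δ⌋} := by
  set z := ⌊y / δ⌋ with hz
  have hS : MeasurableSet {t : ℝ | ⌊t / δ⌋ = z} := measurableSet_cell1 hδ z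
  have hy1 : (z : ℝ) * δ ≤ y := by
    have := Int.floor_le (y / δ)
    rw [← hz, le_div_iff₀ hδ] at this
    exact this
  have hy2 : y < ((z : ℝ) + 1) * δ := by
    have := Int.lt_floor_add_one (y / δ)
    rw [← hz, div_lt_iff₀ hδ] at this
    exact this
  have hIco : {t : ℝ | ⌊t / δ⌋ = z} = Set.Ico ((z : ℝ) * δ) (((z : ℝ) + 1) * δ) := by
    ext t
    simp only [Set.mem_ofPred_eq, Set.mem_Ico, Int.floor_eq_iff]
    rw [le_div_iff₀ hδ, div_lt_iff₀ hδ]
  have hvol : volume {t : ℝ | ⌊t / δ⌋ = z} = ENNReal.ofReal δ := by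
    rw [hIco, Real.volume_Ico]
    congr 1
    ring
  have hpdf : ∀ t ∈ {t : ℝ | ⌊t / δ⌋ = z},
      ENNReal.ofReal ((Real.sqrt (2 * Real.pi))⁻¹ * Real.exp (-(|y| + δ) ^ 2 / 2)) ≤
        gaussianPDF 0 1 t := by
    intro t ht
    rw [hIco] at ht
    obtain ⟨ht1, ht2⟩ := ht
    have hab : |t| ≤ |y| + δ := by
      have h1 : |t - y| ≤ δ := by
        rw [abs_le]
        constructor <;> nlinarith
      calc |t| = |y + (t - y)| := by ring_nf
        _ ≤ |y| + |t - y| := abs_add_le _ _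
        _ ≤ _ := by linarith
    unfold gaussianPDF gaussianPDFReal
    apply ENNReal.ofReal_le_ofReal
    simp only [NNReal.coe_one, mul_one, sub_zero]
    have : t ^ 2 ≤ (|y| + δ) ^ 2 := by
      rw [← sq_abs t]
      exact pow_le_pow_left₀ (abs_nonneg _) hab 2
    have hexp : Real.exp (-(|y| + δ) ^ 2 / 2) ≤ Real.exp (-t ^ 2 / 2) := by
      apply Real.exp_le_exp.mpr
      linarith
    exact mul_le_mul_of_nonneg_left hexp (by positivity)
  rw [gaussianReal_of_var_ne_zero 0 one_ne_zero, withDensity_apply _ hS]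
  have hc0 : 0 ≤ (Real.sqrt (2 * Real.pi))⁻¹ * Real.exp (-(|y| + δ) ^ 2 / 2) := by positivity
  rw [ENNReal.ofReal_mul hc0, ← hvol]
  calc _ = ∫⁻ _ in {t : ℝ | ⌊t / δ⌋ = z},
        ENNReal.ofReal ((Real.sqrt (2 * Real.pi))⁻¹ * Real.exp (-(|y| + δ) ^ 2 / 2)) := by
        rw [setLIntegral_const]
    _ ≤ _ := setLIntegral_mono' hS hpdf

/-- `r z = ` Gaussian mass of the cell `z`. -/
noncomputable def gc1 (δ : ℝ) (z : ℤ) : ℝ := (gaussianReal 0 1).real {t : ℝ | ⌊t / δ⌋ = z}

theorem gc1_lower (hδ : 0 < δ) (y : ℝ) :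
    (Real.sqrt (2 * Real.pi))⁻¹ * Real.exp (-(|y| + δ) ^ 2 / 2) * δ ≤ gc1 δ ⌊y / δ⌋ := by
  unfold gc1
  have h := gauss_cell_lower hδ y
  have h2 := ENNReal.toReal_mono (measure_ne_top _ _) h
  rwa [ENNReal.toReal_ofReal (by positivity)] at h2

theorem gc1_pos (hδ : 0 < δ) (y : ℝ) : 0 < gc1 δ ⌊y / δ⌋ :=
  lt_of_lt_of_le (by positivity) (gc1_lower hδ y)

theorem gc1_log_lower (hδ : 0 < δ) (y : ℝ) :
    Real.log δ - (1 / 2) * Real.log (2 * Real.pi) - (|y| + δ) ^ 2 / 2 ≤ Real.log (gc1 δ ⌊y / δ⌋) := by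
  have hpi := Real.pi_pos
  have h1 : 0 < (Real.sqrt (2 * Real.pi))⁻¹ * Real.exp (-(|y| + δ) ^ 2 / 2) * δ := by positivity
  have h2 := Real.log_le_log h1 (gc1_lower hδ y)
  rw [Real.log_mul (by positivity) hδ.ne', Real.log_mul (by positivity) (Real.exp_pos _).ne',
    Real.log_inv, Real.log_sqrt (by positivity), Real.log_exp] at h2
  have e : -(|y| + δ) ^ 2 / 2 = - ((|y| + δ) ^ 2 / 2) := by ring
  rw [e] at h2
  linarith

/-- The Gaussian mass of a cube. -/
noncomputable def gcB (δ : ℝ) (c : Fin B → ℤ) : ℝ :=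
  (Measure.pi fun _ : Fin B => gaussianReal 0 1).real {y : Fin B → ℝ | cell δ y = c}

theorem cell_set_eq (c : Fin B → ℤ) :
    {y : Fin B → ℝ | cell δ y = c} = Set.pi Set.univ (fun j => {t : ℝ | ⌊t / δ⌋ = c j}) := by
  ext y
  simp only [Set.mem_ofPred_eq, Set.mem_pi, Set.mem_univ, true_imp_iff]
  constructor
  · intro h j
    rw [← h]
    rfl
  · intro h
    funext j
    exact h j

theorem gcB_eq (c : Fin B → ℤ) : gcB δ c = ∏ j, gc1 δ (c j) := by
  unfold gcB gc1
  rw [cell_set_eq, measureReal_def, Measure.pi_pi, ENNReal.toReal_prod]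
  rfl

theorem measurableSet_cellB (hδ : 0 < δ) (c : Fin B → ℤ) :
    MeasurableSet {y : Fin B → ℝ | cell δ y = c} := by
  rw [cell_set_eq]
  exact MeasurableSet.univ_pi fun j => measurableSet_cell1 hδ (c j)

theorem sum_gcB_le_one (hδ : 0 < δ) (T : Finset (Fin B → ℤ)) : ∑ c ∈ T, gcB δ c ≤ 1 := by
  unfold gcB
  rw [← measureReal_biUnion_finset]
  · exact measureReal_le_one
  · intro a _ b _ hab
    refine Set.disjoint_left.mpr ?_
    intro y hya hyb
    exact hab (hya.symm.trans hyb)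
  · exact fun c _ => measurableSet_cellB hδ c

/-- The upper bound function. -/
noncomputable def UU (B : ℕ) (δ : ℝ) (y : Fin B → ℝ) : ℝ :=
  B * (- Real.log δ + (1 / 2) * Real.log (2 * Real.pi) + δ / 2 + δ ^ 2 / 2) +
    ((1 + δ) / 2) * ∑ j, y j ^ 2

theorem gcB_pos (hδ : 0 < δ) (y : Fin B → ℝ) : 0 < gcB δ (cell δ y) := by
  rw [gcB_eq]
  exact Finset.prod_pos fun j _ => gc1_pos hδ (y j)

theorem neg_log_gcB_le (hδ : 0 < δ) (y : Fin B → ℝ) : - Real.log (gcB δ (cell δ y)) ≤ UU B δ y := by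
  have h0 : gcB δ (cell δ y) = ∏ j, gc1 δ ⌊y j / δ⌋ := gcB_eq _
  rw [h0, Real.log_prod (fun j _ => (gc1_pos hδ (y j)).ne')]
  have h : ∀ j : Fin B, - Real.log (gc1 δ ⌊y j / δ⌋) ≤
      (- Real.log δ + (1 / 2) * Real.log (2 * Real.pi) + δ / 2 + δ ^ 2 / 2) +
        ((1 + δ) / 2) * y j ^ 2 := by
    intro j
    have h1 := gc1_log_lower hδ (y j)
    have h2 : (|y j| + δ) ^ 2 / 2 ≤ (δ / 2 + δ ^ 2 / 2) + ((1 + δ) / 2) * y j ^ 2 := by
      have h3 : |y j| ^ 2 = y j ^ 2 := sq_abs _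
      have h4 : 0 ≤ (|y j| - 1) ^ 2 := sq_nonneg _
      nlinarith [mul_nonneg hδ.le h4]
    linarith
  have h2 := Finset.sum_le_sum fun j (_ : j ∈ Finset.univ) => h j
  unfold UU
  rw [Finset.sum_add_distrib, Finset.sum_const, Finset.card_univ, Fintype.card_fin, nsmul_eq_mul,
    ← Finset.mul_sum] at h2
  rw [← Finset.sum_neg_distrib]
  exact h2

end Crest.Agent.MS
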