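import Crest.Agent.Lib.MS.CellsAux1

/-!
# Auxiliary lemmas for `Cells`: conditional expectation on a finite partition, Lévy's theorem on
dyadic cubes.
-/

set_option autoImplicit false
set_option linter.unusedSectionVars false

namespace Crest.Agent.MS

open MeasureTheory ProbabilityTheory Filter Topology

section condexp

variable {Ω Z : Type*} {m0 : MeasurableSpace Ω} [MeasurableSpace Z] [MeasurableSingletonClass Z]
  [Countable Z]

/-- Conditional expectation for a finite partition. -/
theorem condExp_finite_partition {μ : Measure Ω} [IsFiniteMeasure μ] (ζ : Ω → Z) (hζ : Measurable ζ)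
    (T : Finset Z) (hT : ∀ s, ζ s ∈ T) (f : Ω → ℝ) (hf : Integrable f μ) :
    (fun s => (∫ x in ζ ⁻¹' {ζ s}, f x ∂μ) / μ.real (ζ ⁻¹' {ζ s})) =ᵐ[μ]
      μ[f | MeasurableSpace.comap ζ inferInstance] := by
  classical
  have hm : MeasurableSpace.comap ζ inferInstance ≤ m0 := hζ.comap_le
  set φ : Z → ℝ := fun z => (∫ x in ζ ⁻¹' {z}, f x ∂μ) / μ.real (ζ ⁻¹' {z}) with hφ
  have hgm : Measurable[MeasurableSpace.comap ζ inferInstance] (fun s => φ (ζ s)) :=
    (Measurable.of_discrete (f := φ)).comp (comap_measurable ζ)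
  have hgi : Integrable (fun s => φ (ζ s)) μ := by
    refine Integrable.of_bound ((hgm.mono hm le_rfl).aestronglyMeasurable) (∑ z ∈ T, |φ z|)
      (Eventually.of_forall fun s => ?_)
    rw [Real.norm_eq_abs]
    exact Finset.single_le_sum (f := fun z => |φ z|) (fun z _ => abs_nonneg _) (hT s)
  have hsets : ∀ C : Set Z, ζ ⁻¹' C = ⋃ z ∈ T.filter (· ∈ C), ζ ⁻¹' {z} := by
    intro C
    ext x
    simp only [Set.mem_preimage, Set.mem_iUnion, Finset.mem_filter, Set.mem_singleton_iff,
      exists_prop]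
    constructor
    · intro hx
      exact ⟨ζ x, ⟨hT x, hx⟩, rfl⟩
    · rintro ⟨z, ⟨_, hz⟩, hxz⟩
      rwa [hxz]
  have hdec : ∀ (C : Set Z) (h : Ω → ℝ), Integrable h μ →
      ∫ x in ζ ⁻¹' C, h x ∂μ = ∑ z ∈ T.filter (· ∈ C), ∫ x in ζ ⁻¹' {z}, h x ∂μ := by
    intro C h hh
    rw [hsets C]
    refine integral_biUnion_finset _ (fun z _ => hζ (measurableSet_singleton z)) ?_
      (fun z _ => hh.integrableOn)
    intro a _ b _ hab
    refine Set.disjoint_left.mpr ?_
    intro x hxa hxb
    exact hab (hxa.symm.trans hxb)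
  have hcell : ∀ z, ∫ x in ζ ⁻¹' {z}, φ (ζ x) ∂μ = ∫ x in ζ ⁻¹' {z}, f x ∂μ := by
    intro z
    have h1 : ∫ x in ζ ⁻¹' {z}, φ (ζ x) ∂μ = ∫ _ in ζ ⁻¹' {z}, φ z ∂μ := by
      refine setIntegral_congr_fun (hζ (measurableSet_singleton z)) ?_
      intro x hx
      have hx' : ζ x = z := hx
      simp only [hx']
    rw [h1, setIntegral_const, smul_eq_mul]
    by_cases h0 : μ.real (ζ ⁻¹' {z}) = 0
    · have h2 : μ (ζ ⁻¹' {z}) = 0 := by
        rw [measureReal_def, ENNReal.toReal_eq_zero_iff] at h0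
        exact h0.resolve_right (measure_ne_top _ _)
      rw [Measure.restrict_eq_zero.mpr h2]
      simp [h0]
    · rw [hφ]
      dsimp only
      field_simp
  have key := ae_eq_condExp_of_forall_setIntegral_eq hm hf (fun _ _ _ => hgi.integrableOn) ?_
    hgm.stronglyMeasurable.aestronglyMeasurable
  · exact key
  · rintro A ⟨C, hC, rfl⟩ _
    rw [hdec C _ hgi, hdec C _ hf]
    exact Finset.sum_congr rfl fun z _ => hcell z

end condexp

section dyadic

variable {B : ℕ}

/-- The dyadic scale. -/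
noncomputable def dy (j : ℕ) : ℝ := (1 / 2 : ℝ) ^ j

theorem dy_pos (j : ℕ) : 0 < dy j := by unfold dy; positivity

theorem cell_succ (y : Fin B → ℝ) (j : ℕ) (r : Fin B) :
    cell (dy j) y r = cell (dy (j + 1)) y r / 2 := by
  unfold cell
  have h1 : y r / dy j = (y r / dy (j + 1)) / ((2 : ℕ) : ℝ) := by
    unfold dy
    rw [pow_succ]
    field_simp
    norm_num
  rw [h1, Int.floor_div_natCast]
  rfl

theorem measurable_cell {δ : ℝ} : Measurable (cell (r := B) δ) := by
  refine measurable_pi_lambda _ fun j => ?_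
  unfold cell
  have h : Measurable (fun c : Fin B → ℝ => c j / δ) := by fun_prop
  exact Int.measurable_floor.comp h

variable {Ω : Type*} {m0 : MeasurableSpace Ω}

/-- The filtration of the dyadic cubes of a map to `ℝ^B`. -/
noncomputable def dyFilt (Y : Ω → Fin B → ℝ) (hY : Measurable Y) : Filtration ℕ m0 where
  seq j := MeasurableSpace.comap (fun s => cell (dy j) (Y s)) inferInstance
  mono' := by
    refine monotone_nat_of_le_succ fun j => ?_
    have h : (fun s => cell (dy j) (Y s)) =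
        (fun c : Fin B → ℤ => fun r => c r / 2) ∘ (fun s => cell (dy (j + 1)) (Y s)) := by
      funext s r
      exact cell_succ (Y s) j r
    rw [h, ← MeasurableSpace.comap_comp]
    exact MeasurableSpace.comap_mono (Measurable.of_discrete).comap_le
  le' j := (measurable_cell.comp hY).comap_le

theorem dyFilt_apply (Y : Ω → Fin B → ℝ) (hY : Measurable Y) (j : ℕ) :
    (dyFilt Y hY : Filtration ℕ m0) j = MeasurableSpace.comap (fun s => cell (dy j) (Y s)) inferInstance :=
  rfl

/-- `⌊y/δ⌋ δ → y`. -/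
theorem tendsto_floor_dy (y : ℝ) :
    Tendsto (fun j => ((⌊y / dy j⌋ : ℤ) : ℝ) * dy j) atTop (𝓝 y) := by
  have hdy : Tendsto dy atTop (𝓝 0) :=
    tendsto_pow_atTop_nhds_zero_of_lt_one (by norm_num) (by norm_num)
  have h1 : Tendsto (fun j => y - dy j) atTop (𝓝 y) := by
    simpa using (tendsto_const_nhds (x := y)).sub hdy
  refine tendsto_of_tendsto_of_tendsto_of_le_of_le h1 tendsto_const_nhds ?_ ?_
  · intro j
    have h2 := (Int.lt_floor_add_one (y / dy j)).le
    have h3 := mul_le_mul_of_nonneg_right h2 (dy_pos j).le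
    rw [div_mul_cancel₀ _ (dy_pos j).ne', add_mul, one_mul] at h3
    dsimp only
    linarith
  · intro j
    have h2 := Int.floor_le (y / dy j)
    have h3 := mul_le_mul_of_nonneg_right h2 (dy_pos j).le
    rw [div_mul_cancel₀ _ (dy_pos j).ne'] at h3
    exact h3

/-- The map `Y` is measurable for the limit σ-algebra. -/
theorem measurable_Y_iSup (Y : Ω → Fin B → ℝ) (hY : Measurable Y) :
    Measurable[⨆ j, (dyFilt Y hY : Filtration ℕ m0) j] Y := by
  set ms : MeasurableSpace Ω := ⨆ j, (dyFilt Y hY : Filtration ℕ m0) j with hms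
  have hle : ∀ j, (dyFilt Y hY : Filtration ℕ m0) j ≤ ms := fun j => le_iSup _ j
  refine @measurable_pi_lambda _ _ _ ms _ _ (fun r => ?_)
  refine @measurable_of_tendsto_metrizable Ω ℝ ms _ _ _ _
    (fun j s => ((cell (dy j) (Y s) r : ℤ) : ℝ) * dy j) _ ?_ ?_
  · intro j
    have h1 : Measurable[(dyFilt Y hY : Filtration ℕ m0) j] (fun s => cell (dy j) (Y s)) :=
      comap_measurable _
    have h2 : Measurable (fun c : Fin B → ℤ => ((c r : ℤ) : ℝ) * dy j) := Measurable.of_discrete
    exact (h2.comp h1).mono (hle j) le_rfl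
  · rw [tendsto_pi_nhds]
    intro s
    exact tendsto_floor_dy (Y s r)

/-- Lévy's upward theorem on dyadic cubes, for a map with bounded range. -/
theorem levy_dyadic {μ : Measure Ω} [IsProbabilityMeasure μ] (Y : Ω → Fin B → ℝ) (hY : Measurable Y)
    (hfin : ∀ j, ∃ T : Finset (Fin B → ℤ), ∀ s, cell (dy j) (Y s) ∈ T)
    (A : Set (Fin B → ℝ)) (hA : MeasurableSet A) :
    ∀ᵐ s ∂μ, Tendsto (fun j =>
        (∫ x in (fun s => cell (dy j) (Y s)) ⁻¹' {cell (dy j) (Y s)}, A.indicator (fun _ => (1 : ℝ)) (Y x) ∂μ) /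
          μ.real ((fun s => cell (dy j) (Y s)) ⁻¹' {cell (dy j) (Y s)})) atTop
      (𝓝 (A.indicator (fun _ => (1 : ℝ)) (Y s))) := by
  set f : Ω → ℝ := fun x => A.indicator (fun _ => (1 : ℝ)) (Y x) with hf
  have hind : Measurable (A.indicator (fun _ => (1 : ℝ))) := measurable_const.indicator hA
  have hfm : Measurable f := hind.comp hY
  have hfi : Integrable f μ := by
    refine Integrable.of_bound hfm.aestronglyMeasurable 1 (Eventually.of_forall fun s => ?_)
    simp only [hf, Real.norm_eq_abs]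
    by_cases h : Y s ∈ A <;> simp [h]
  have hfs : StronglyMeasurable[⨆ j, (dyFilt Y hY : Filtration ℕ m0) j] f := by
    have h1 := measurable_Y_iSup (m0 := m0) Y hY
    exact (hind.comp h1).stronglyMeasurable
  have hL := hfi.tendsto_ae_condExp (ℱ := dyFilt Y hY) hfs
  have hce : ∀ j, (fun s => (∫ x in (fun s => cell (dy j) (Y s)) ⁻¹' {cell (dy j) (Y s)}, f x ∂μ) /
      μ.real ((fun s => cell (dy j) (Y s)) ⁻¹' {cell (dy j) (Y s)})) =ᵐ[μ]
      μ[f | (dyFilt Y hY : Filtration ℕ m0) j] := by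
    intro j
    obtain ⟨T, hT⟩ := hfin j
    exact condExp_finite_partition (fun s => cell (dy j) (Y s)) (measurable_cell.comp hY) T hT f hfi
  have hall := ae_all_iff.mpr hce
  filter_upwards [hL, hall] with s hs1 hs2
  refine hs1.congr fun j => ?_
  exact (hs2 j).symm

end dyadic

end Crest.Agent.MS
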