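import Crest.Agent.Lib.MS.FibPhi
import Crest.Agent.Lib.MS.GaussBall

/-!
# S0499 module `FibEnd`: the potential of a concentrated density.

Fix `X` with `ρ := dS X v ≥ 1/2` (probability `≥ 2/3` by `gam_dist_row`).  `W := (row space)ᗮ`,
`m' = dim W ≥ d - k`, `v' = P_W v`, `‖v'‖ = ρ`.  Let `{v_a}_{a ≤ N}` be a maximal subset of the sphere of
radius `ρ` in `W` with pairwise distances `> 4 ε ρ` (`≥ 2ε`); by `sig_ball_le` in dimension `m'`
(identify `W ≃ E m'`) one gets `N ≥ (1/2) (8ε)^{-(m'-1)} ≥ (1/2) (8ε)^{-(d-k-1)}`.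
`R_a` := the reflection in the hyperplane orthogonal to `v' - v_a` (identity when equal).  It fixes the
row space pointwise, so `mv X (R_a s) = mv X s`, preserves `σ` (`sig_map_sphMap`), and maps the cap
`A = {s : arccos⟪v,s⟫ ≤ ε} ⊆ closedBall v ε` into `closedBall (R_a v) ε`, `R_a v - R_b v = v_a - v_b`,
so the `R_a A` are pairwise disjoint.  Hence for `h(s) := fib k ψ (X, X s)`:
`N ∫ h 1_A = ∑_a ∫ h 1_{R_a A} ≤ ∫ h = 1` (for a.e. `X`, by `fib_ae_int_one`).

Gibbs for fixed `X`, `w = 1 + N 1_A`: `∫ ψ log(h w/ψ) ≤ log ∫ h w ≤ log 2`, so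
`∫ ψ log(ψ/h) ≥ ∫ ψ log w - log 2 ≥ θ log N - log 2`.  And `∫ ψ log(ψ/h) ≥ 0` for a.e. `X` (Gibbs).
Integrate over `X`: `Φ(ψ) ≥ P(good) (θ log N - log 2)₊`.
-/

set_option autoImplicit false

namespace Crest.Agent.MS

open MeasureTheory ProbabilityTheory
open Crest.StreamLearn (E Sphere sphereUniform)

namespace FibEndAux

variable {d k : ℕ}

/-- a spherical cap of angular radius `ε` lies in the chordal ball of radius `ε`. -/
lemma cap_subset_ball (v : E d) (hv : ‖v‖ = 1) (s : Sph d) (ε : ℝ)
    (h : Real.arccos (inner ℝ v (s : E d)) ≤ ε) : ‖(s : E d) - v‖ ≤ ε := by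
  have hs : ‖(s : E d)‖ = 1 := by simpa using s.2
  have hinner : |inner ℝ v (s : E d)| ≤ 1 := by
    have := abs_real_inner_le_norm v (s : E d)
    simpa [hv, hs] using this
  have h1 := abs_le.mp hinner
  set α := Real.arccos (inner ℝ v (s : E d)) with hα
  have hα0 : 0 ≤ α := Real.arccos_nonneg _
  have hcos : Real.cos α = inner ℝ v (s : E d) := Real.cos_arccos h1.1 h1.2
  have hsq : ‖(s : E d) - v‖ ^ 2 = 2 - 2 * inner ℝ v (s : E d) := by
    rw [@norm_sub_sq_real, hv, hs, real_inner_comm]
    ring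
  have hc2 := Real.one_sub_sq_div_two_le_cos (x := α)
  have hε0 : 0 ≤ ε := hα0.trans h
  have : ‖(s : E d) - v‖ ^ 2 ≤ ε ^ 2 := by
    rw [hsq, ← hcos]
    nlinarith
  exact abs_le_of_sq_le_sq' this hε0 |>.2

/-- measure-theoretic packing: the uniform law of the sphere contains a large `r`-separated set -/
lemma exists_separated {m : ℕ} (hm : 2 ≤ m) (r : ℝ) (hr : 0 < r) (hr1 : r ≤ 1) :
    ∃ T : Finset (Sph m), (∀ a ∈ T, ∀ b ∈ T, a ≠ b → r < ‖(a : E m) - (b : E m)‖) ∧
      1 ≤ (T.card : ℝ) * (2 ^ m * r ^ (m - 1)) := by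
  classical
  haveI : IsProbabilityMeasure (sig m) := sig_isProb (by omega)
  set c : ℝ := 2 ^ m * r ^ (m - 1) with hc
  have hc0 : 0 < c := by positivity
  -- growth step
  have key : ∀ n : ℕ, ((n : ℝ) - 1) * c < 1 →
      ∃ T : Finset (Sph m), (∀ a ∈ T, ∀ b ∈ T, a ≠ b → r < ‖(a : E m) - (b : E m)‖) ∧
        T.card = n := by
    intro n
    induction n with
    | zero =>
      intro _
      exact ⟨∅, by simp, rfl⟩
    | succ n ih =>
      intro hn
      have hn' : ((n : ℝ)) * c < 1 := by
        push_cast at hn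
        linarith
      have hprev : ((n : ℝ) - 1) * c < 1 := by nlinarith
      obtain ⟨T, hT, hcard⟩ := ih hprev
      -- the union of balls does not cover
      have hU : (sig m).real (⋃ a ∈ T, {s : Sph m | ‖(s : E m) - (a : E m)‖ ≤ r}) ≤ n * c := by
        calc (sig m).real (⋃ a ∈ T, {s : Sph m | ‖(s : E m) - (a : E m)‖ ≤ r})
            ≤ ∑ a ∈ T, (sig m).real {s : Sph m | ‖(s : E m) - (a : E m)‖ ≤ r} :=
              measureReal_biUnion_finset_le _ _
          _ ≤ ∑ _a ∈ T, c := Finset.sum_le_sum fun a _ => sig_ball_le hm (a : E m) r hr hr1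
          _ = n * c := by simp [hcard]
      have hnotcover : ∃ s : Sph m, s ∉ ⋃ a ∈ T, {s : Sph m | ‖(s : E m) - (a : E m)‖ ≤ r} := by
        by_contra hcon
        push Not at hcon
        have : (⋃ a ∈ T, {s : Sph m | ‖(s : E m) - (a : E m)‖ ≤ r}) = Set.univ :=
          Set.eq_univ_of_forall hcon
        rw [this] at hU
        simp at hU
        linarith
      obtain ⟨s, hs⟩ := hnotcover
      simp only [Set.mem_iUnion, Set.mem_ofPred_eq, not_exists, not_le] at hs
      have hsT : s ∉ T := by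
        intro hmem
        have := hs s hmem
        simp at this
        linarith
      refine ⟨insert s T, ?_, by rw [Finset.card_insert_of_notMem hsT, hcard]⟩
      intro a ha b hb hab
      rcases Finset.mem_insert.mp ha with rfl | ha'
      · rcases Finset.mem_insert.mp hb with rfl | hb'
        · exact absurd rfl hab
        · exact hs b hb'
      · rcases Finset.mem_insert.mp hb with rfl | hb'
        · rw [norm_sub_rev]; exact hs a ha'
        · exact hT a ha' b hb' hab
  -- choose n
  set n := ⌈1 / c⌉₊ with hn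
  have h1 : 1 / c ≤ n := Nat.le_ceil _
  have h2 : ((n : ℝ) - 1) * c < 1 := by
    have hpos : 0 < 1 / c := by positivity
    have := Nat.ceil_lt_add_one hpos.le
    have h3 : (n : ℝ) - 1 < 1 / c := by linarith
    calc ((n : ℝ) - 1) * c < 1 / c * c := by exact mul_lt_mul_of_pos_right h3 hc0
      _ = 1 := by field_simp
  obtain ⟨T, hT, hcard⟩ := key n h2
  refine ⟨T, hT, ?_⟩
  rw [hcard]
  calc (1 : ℝ) = 1 / c * c := by field_simp
    _ ≤ n * c := by exact mul_le_mul_of_nonneg_right h1 hc0.le


/-- The family of isometries fixing the rows and moving `v` to separated points. -/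
lemma exists_reflections (hd : 8 ≤ d) (hk : 4 * k ≤ d) (X : Mat d k) (v : E d)
    (hX : 1 / 2 ≤ dS X v) (ε : ℝ) (hε : 0 < ε) (hε' : ε ≤ 1 / 10) :
    ∃ (ι : Type) (_ : Fintype ι) (R : ι → (E d ≃ₗᵢ[ℝ] E d)),
      (∀ a j, R a (X j) = X j) ∧
      (∀ a b, a ≠ b → 2 * ε < ‖(R a).symm v - (R b).symm v‖) ∧
      ((d : ℝ) - k - 1) * Real.log (1 / (8 * ε)) - Real.log 2 ≤ Real.log (Fintype.card ι) := by
  classical
  set S : Submodule ℝ (E d) := Submodule.span ℝ (Set.range X) with hS
  set W : Submodule ℝ (E d) := Sᗮ with hW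
  set p : E d := S.starProjection v with hp
  have hpS : p ∈ S := Submodule.starProjection_apply_mem S v
  set v' : E d := v - p with hv'
  have hv'W : v' ∈ W := Submodule.sub_starProjection_mem_orthogonal v
  have hnv' : 1 / 2 ≤ ‖v'‖ := by
    have : dS X v ≤ dist v p := Metric.infDist_le_dist_of_mem (by exact_mod_cast hpS)
    rw [dist_eq_norm] at this
    linarith
  -- dimension
  set m := Module.finrank ℝ W with hm
  have hSrank : Module.finrank ℝ S ≤ k := by
    have := finrank_range_le_card (R := ℝ) X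
    simpa [Set.finrank] using this
  have hsum : Module.finrank ℝ S + m = d := by
    have := S.finrank_add_finrank_orthogonal
    simpa using this
  have hmk : d ≤ m + k := by omega
  have hm2 : 2 ≤ m := by omega
  let φ : W ≃ₗᵢ[ℝ] E m := (stdOrthonormalBasis ℝ W).repr
  have hr : (0 : ℝ) < 4 * ε := by positivity
  have hr1 : 4 * ε ≤ 1 := by linarith
  obtain ⟨T, hT, hcard⟩ := exists_separated hm2 (4 * ε) hr hr1
  let u : T → E d := fun a => ‖v'‖ • ((φ.symm (a.1 : E m) : W) : E d)
  have hunorm : ∀ a, ‖u a‖ = ‖v'‖ := by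
    intro a
    have h1 : ‖((φ.symm (a.1 : E m) : W) : E d)‖ = 1 := by
      have : ‖(φ.symm (a.1 : E m) : W)‖ = ‖(a.1 : E m)‖ := φ.symm.norm_map _
      rw [← Submodule.coe_norm, this]
      simpa using a.1.2
    simp [u, norm_smul, h1]
  have huW : ∀ a, u a ∈ W := fun a => W.smul_mem _ (φ.symm (a.1 : E m)).2
  have hdiff : ∀ a b, a ≠ b → 2 * ε < ‖u a - u b‖ := by
    intro a b hab
    have hne : a.1 ≠ b.1 := fun h => hab (Subtype.ext h)
    have h1 := hT a.1 a.2 b.1 b.2 hne
    have h2 : u a - u b = ‖v'‖ • (((φ.symm ((a.1 : E m) - (b.1 : E m)) : W)) : E d) := by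
      simp [u, smul_sub, map_sub]
    have h3 : ‖((φ.symm ((a.1 : E m) - (b.1 : E m)) : W) : E d)‖ = ‖(a.1 : E m) - (b.1 : E m)‖ := by
      rw [← Submodule.coe_norm]
      exact φ.symm.norm_map _
    rw [h2, norm_smul, norm_norm, h3]
    nlinarith
  let R : T → (E d ≃ₗᵢ[ℝ] E d) := fun a => (ℝ ∙ (v' - u a))ᗮ.reflection
  have hRself : ∀ a, R a v' = u a := fun a => Submodule.reflection_sub (hunorm a).symm
  have hRS : ∀ a, ∀ y ∈ S, R a y = y := by
    intro a y hy
    apply Submodule.reflection_mem_subspace_eq_self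
    rw [Submodule.mem_orthogonal_singleton_iff_inner_right]
    have : v' - u a ∈ W := W.sub_mem hv'W (huW a)
    exact (Submodule.mem_orthogonal' S _).mp this y hy
  have hRv : ∀ a, R a v = p + u a := by
    intro a
    have : v = p + v' := by simp [hv']
    conv_lhs => rw [this]
    rw [map_add, hRS a p hpS, hRself]
  have hsymm : ∀ a, (R a).symm v = p + u a := by
    intro a
    have : (R a).symm = R a := Submodule.reflection_symm
    rw [this, hRv]
  refine ⟨T, inferInstance, R, ?_, ?_, ?_⟩
  · intro a j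
    exact hRS a _ (Submodule.subset_span ⟨j, rfl⟩)
  · intro a b hab
    rw [hsymm, hsymm, add_sub_add_left_eq_sub]
    exact hdiff a b hab
  · -- counting
    have hcardT : Fintype.card T = T.card := Fintype.card_coe T
    rw [hcardT]
    set N : ℝ := (T.card : ℝ) with hN
    have h8 : 0 < 8 * ε := by positivity
    have h81 : 8 * ε ≤ 1 := by linarith
    have hN0 : 0 < N := by
      by_contra hcon
      have hN' : N = 0 := le_antisymm (not_lt.mp hcon) (Nat.cast_nonneg _)
      rw [hN'] at hcard
      simp at hcard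
      linarith
    have hc : (2 : ℝ) ^ m * (4 * ε) ^ (m - 1) = 2 * (8 * ε) ^ (m - 1) := by
      obtain ⟨m', hm'⟩ : ∃ m', m = m' + 1 := ⟨m - 1, by omega⟩
      rw [hm']
      simp only [Nat.add_sub_cancel]
      have h8' : (8 * ε) ^ m' = 2 ^ m' * (4 * ε) ^ m' := by
        rw [← mul_pow]; ring_nf
      rw [h8', pow_succ]
      ring
    rw [hc] at hcard
    have hlog : 0 ≤ Real.log (N * (2 * (8 * ε) ^ (m - 1))) := Real.log_nonneg hcard
    rw [Real.log_mul hN0.ne' (by positivity), Real.log_mul (by norm_num) (by positivity),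
      Real.log_pow] at hlog
    have hlog8 : Real.log (8 * ε) ≤ 0 := Real.log_nonpos h8.le h81
    have hl : Real.log (1 / (8 * ε)) = - Real.log (8 * ε) := by
      rw [one_div, Real.log_inv]
    rw [hl]
    have hcast : ((m - 1 : ℕ) : ℝ) = (m : ℝ) - 1 := by
      rw [Nat.cast_sub (by omega)]; simp
    rw [hcast] at hlog
    have hmk' : (d : ℝ) ≤ m + k := by exact_mod_cast hmk
    have : ((d : ℝ) - k - 1) * (- Real.log (8 * ε)) ≤ ((m : ℝ) - 1) * (- Real.log (8 * ε)) :=
      mul_le_mul_of_nonneg_right (by linarith) (by linarith)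
    nlinarith

/-- Invariance of the measurement under an isometry fixing the rows. -/
lemma mv_map (X : Mat d k) (R : E d ≃ₗᵢ[ℝ] E d) (hR : ∀ j, R (X j) = X j) (z : E d) :
    mv X (R z) = mv X z := by
  funext j
  simp only [mv]
  conv_lhs => rw [← hR j]
  exact R.inner_map_map _ _

lemma measurable_sphMap (R : E d ≃ₗᵢ[ℝ] E d) : Measurable (sphMap R) := by
  apply Continuous.measurable
  unfold sphMap
  exact (R.continuous.comp continuous_subtype_val).subtype_mk _

/-- The packing bound: the fibre density gives small mass to the cap. -/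
lemma cap_mass_le (hd : 0 < d) {h : Sph d → ℝ} (hh : Measurable h) (hh0 : ∀ s, 0 ≤ h s)
    (hint : ∫ s, h s ∂(sig d) = 1) {ι : Type} [Fintype ι] (R : ι → E d ≃ₗᵢ[ℝ] E d)
    (hR : ∀ a s, h (sphMap (R a) s) = h s) {A : Set (Sph d)} (hA : MeasurableSet A) (v : E d)
    (ε : ℝ) (hAball : ∀ s ∈ A, ‖(s : E d) - v‖ ≤ ε)
    (hsep : ∀ a b, a ≠ b → 2 * ε < ‖(R a).symm v - (R b).symm v‖) :
    (Fintype.card ι : ℝ) * ∫ s in A, h s ∂(sig d) ≤ 1 := by
  classical
  have hprob : IsProbabilityMeasure (sig d) := sig_isProb hd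
  have hhi : Integrable h (sig d) := by
    by_contra hcon
    rw [integral_undef hcon] at hint
    norm_num at hint
  let Q := fun a => sphMap (R a)
  have hQ : ∀ a, Measurable (Q a) := fun a => measurable_sphMap _
  let B : ι → Set (Sph d) := fun a => Q a ⁻¹' A
  have hB : ∀ a, MeasurableSet (B a) := fun a => hQ a hA
  have hBint : ∀ a, ∫ s in B a, h s ∂(sig d) = ∫ s in A, h s ∂(sig d) := by
    intro a
    have h1 : ∫ s in A, h s ∂(sig d) = ∫ s in A, h s ∂((sig d).map (Q a)) := by
      rw [show (sig d).map (Q a) = sig d from sig_map_sphMap hd (R a)]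
    rw [h1, setIntegral_map hA hh.aestronglyMeasurable (hQ a).aemeasurable]
    exact setIntegral_congr_fun (hB a) (fun s _ => (hR a s).symm)
  have hdisj : Pairwise (Function.onFun Disjoint B) := by
    intro a b hab
    rw [Function.onFun, Set.disjoint_left]
    intro s hsa hsb
    have h1 := hAball (sphMap (R a) s) hsa
    have h2 := hAball (sphMap (R b) s) hsb
    have e1 : ((sphMap (R a) s : Sph d) : E d) = R a (s : E d) := rfl
    have e2 : ((sphMap (R b) s : Sph d) : E d) = R b (s : E d) := rfl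
    rw [e1] at h1
    rw [e2] at h2
    have h1' : ‖(s : E d) - (R a).symm v‖ ≤ ε := by
      have : (s : E d) - (R a).symm v = (R a).symm (R a (s : E d) - v) := by simp [map_sub]
      rw [this, LinearIsometryEquiv.norm_map]
      exact h1
    have h2' : ‖(s : E d) - (R b).symm v‖ ≤ ε := by
      have : (s : E d) - (R b).symm v = (R b).symm (R b (s : E d) - v) := by simp [map_sub]
      rw [this, LinearIsometryEquiv.norm_map]
      exact h2
    have h3 := hsep a b hab
    have h4 : ‖(R a).symm v - (R b).symm v‖ ≤ ‖(s : E d) - (R a).symm v‖ + ‖(s : E d) - (R b).symm v‖ := by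
      have := norm_sub_le ((s : E d) - (R b).symm v) ((s : E d) - (R a).symm v)
      simp only [sub_sub_sub_cancel_left] at this
      linarith
    linarith
  have hU : ∫ s in ⋃ a, B a, h s ∂(sig d) = ∑ a, ∫ s in B a, h s ∂(sig d) :=
    integral_iUnion_fintype hB hdisj (fun a => hhi.integrableOn)
  have hle : ∫ s in ⋃ a, B a, h s ∂(sig d) ≤ ∫ s, h s ∂(sig d) :=
    setIntegral_le_integral hhi (Filter.Eventually.of_forall hh0)
  rw [hU, hint] at hle
  simp only [hBint, Finset.sum_const, Finset.card_univ, nsmul_eq_mul] at hle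
  exact hle

/-- `x log x` is bounded on bounded sets. -/
lemma abs_mul_log_le {x L : ℝ} (hx : 0 ≤ x) (hL : x ≤ L) : |x * Real.log x| ≤ L ^ 2 + 1 := by
  rcases hx.eq_or_lt with rfl | hx0
  · simp; positivity
  rcases le_or_gt x 1 with h1 | h1
  · have := Real.abs_log_mul_self_lt x hx0 h1
    rw [mul_comm]
    nlinarith [sq_nonneg L]
  · have h2 : 0 ≤ Real.log x := Real.log_nonneg h1.le
    have h3 : Real.log x ≤ x := (Real.log_le_sub_one_of_pos hx0).trans (by linarith)
    rw [abs_of_nonneg (by positivity)]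
    nlinarith

/-- Gibbs inequality for a fixed matrix. -/
lemma gibbs_fixed (hd : 0 < d) {ψ h w : Sph d → ℝ} (hψ : IsDens ψ) (hh : Measurable h)
    (hh0 : ∀ s, 0 ≤ h s) (hhi : Integrable h (sig d))
    (hw : Measurable w) (W : ℝ) (hw1 : ∀ s, 1 ≤ w s) (hwW : ∀ s, w s ≤ W) (C : ℝ) (hC : 0 < C)
    (hint : ∫ s, h s * w s ∂(sig d) ≤ C)
    (hpos : ∀ᵐ s ∂(sig d), 0 < ψ s → 0 < h s)
    (hG : Integrable (fun s => ψ s * Real.log (ψ s / h s)) (sig d)) :
    ∫ s, ψ s * Real.log (w s) ∂(sig d) - Real.log C ≤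
      ∫ s, ψ s * Real.log (ψ s / h s) ∂(sig d) := by
  have hprob : IsProbabilityMeasure (sig d) := sig_isProb hd
  obtain ⟨L, hL⟩ := hψ.bdd
  have hψint : Integrable ψ (sig d) := by
    refine Integrable.of_bound hψ.meas.aestronglyMeasurable (|L|) (Filter.Eventually.of_forall ?_)
    intro s
    rw [Real.norm_eq_abs, abs_of_nonneg (hψ.nonneg s)]
    exact (hL s).trans (le_abs_self L)
  have hlw : ∀ s, 0 ≤ Real.log (w s) := fun s => Real.log_nonneg (hw1 s)
  have hlW : ∀ s, Real.log (w s) ≤ Real.log W := fun s =>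
    Real.log_le_log (by linarith [hw1 s]) (hwW s)
  have hplint : Integrable (fun s => ψ s * Real.log (w s)) (sig d) := by
    refine Integrable.of_bound (hψ.meas.mul (Real.measurable_log.comp hw)).aestronglyMeasurable
      (|L| * Real.log W) (Filter.Eventually.of_forall ?_)
    intro s
    rw [Real.norm_eq_abs, abs_of_nonneg (mul_nonneg (hψ.nonneg s) (hlw s))]
    exact mul_le_mul ((hL s).trans (le_abs_self L)) (hlW s) (hlw s) (abs_nonneg L)
  have hhw : Integrable (fun s => h s * w s) (sig d) := by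
    refine Integrable.mono' (hhi.norm.mul_const W) (hh.mul hw).aestronglyMeasurable
      (Filter.Eventually.of_forall ?_)
    intro s
    have h1 : 0 ≤ w s := by linarith [hw1 s]
    rw [Real.norm_eq_abs, abs_of_nonneg (mul_nonneg (hh0 s) h1), Real.norm_eq_abs,
      abs_of_nonneg (hh0 s)]
    exact mul_le_mul_of_nonneg_left (hwW s) (hh0 s)
  have hpt : ∀ᵐ s ∂(sig d), ψ s * Real.log (w s) - ψ s * Real.log C -
      ψ s * Real.log (ψ s / h s) ≤ h s * w s / C - ψ s := by
    filter_upwards [hpos] with s hs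
    have hψ0 := hψ.nonneg s
    rcases hψ0.eq_or_lt with h0 | h0
    · rw [← h0]
      have : 0 ≤ h s * w s / C := div_nonneg (mul_nonneg (hh0 s) (by linarith [hw1 s])) hC.le
      simpa using this
    · have hh1 := hs h0
      have hw0 : 0 < w s := by linarith [hw1 s]
      have ht : 0 < h s * w s / (C * ψ s) := by positivity
      have hlog := Real.log_le_sub_one_of_pos ht
      rw [Real.log_div (by positivity) (by positivity), Real.log_mul hh1.ne' hw0.ne',
        Real.log_mul hC.ne' h0.ne'] at hlog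
      have hmul := mul_le_mul_of_nonneg_left hlog h0.le
      have e1 : ψ s * (h s * w s / (C * ψ s) - 1) = h s * w s / C - ψ s := by
        field_simp
      rw [e1] at hmul
      rw [Real.log_div h0.ne' hh1.ne']
      nlinarith
  have hcon : Integrable (fun s => ψ s * Real.log C) (sig d) := hψint.mul_const _
  have hsub1 : Integrable (fun s => ψ s * Real.log (w s) - ψ s * Real.log C) (sig d) :=
    hplint.sub hcon
  have hsub2 : Integrable (fun s => ψ s * Real.log (w s) - ψ s * Real.log C -
      ψ s * Real.log (ψ s / h s)) (sig d) := hsub1.sub hG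
  have hdiv : Integrable (fun s => h s * w s / C) (sig d) := hhw.div_const C
  have hsub3 : Integrable (fun s => h s * w s / C - ψ s) (sig d) := hdiv.sub hψint
  have hmono := integral_mono_ae hsub2 hsub3 hpt
  rw [integral_sub hsub1 hG, integral_sub hplint hcon, integral_sub hdiv hψint,
    integral_mul_const, hψ.int_one, integral_div] at hmono
  have h3 : (∫ s, h s * w s ∂(sig d)) / C ≤ 1 := (div_le_one hC).mpr hint
  linarith

lemma measurable_dS_mat (v : E d) : Measurable (fun X : Mat d k => dS X v) := by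
  have h : Measurable (fun p : (Fin k → E d) × E d => dS p.1 p.2) := measurable_dS
  have h2 : Measurable (fun X : Fin k → E d => (X, v)) := by fun_prop
  have h3 := h.comp h2
  have e : ((fun p : (Fin k → E d) × E d => dS p.1 p.2) ∘ (fun X : Fin k → E d => (X, v))) =
      (fun X : Mat d k => dS X v) := by
    funext X; rfl
  rw [e] at h3
  exact h3

lemma measurableSet_good (v : E d) : MeasurableSet {X : Mat d k | 1 / 2 ≤ dS X v} :=
  measurableSet_le measurable_const (measurable_dS_mat v)

end FibEndAux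

variable {d k : ℕ}

/-- END BOUND. -/
theorem Phi_end (hd : 8 ≤ d) (hk : 4 * k ≤ d) {ψ : Sph d → ℝ} (hψ : IsDens ψ) (v : E d)
    (hv : ‖v‖ = 1) (ε : ℝ) (hε : 0 < ε) (hε' : ε ≤ 1 / 10) :
    (2 / 3) * ((∫ s : Sph d, ψ s * (if Real.arccos (inner ℝ v (s : E d)) ≤ ε then 1 else 0) ∂(sig d)) *
        (((d : ℝ) - k - 1) * Real.log (1 / (8 * ε)) - Real.log 2) - Real.log 2) ≤ Phi k ψ := by
  classical
  have hd0 : 0 < d := by omega
  have hprob : IsProbabilityMeasure (sig d) := sig_isProb hd0
  obtain ⟨L, hL⟩ := hψ.bdd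
  set μ := (sig d).prod (gam d k) with hμ
  set G : Sph d × Mat d k → ℝ :=
    fun p => ψ p.1 * Real.log (ψ p.1 / fib k ψ (p.2, mv p.2 (p.1 : E d))) with hG
  -- integrability of `G`
  have hGint : Integrable G μ := by
    have h1 : Integrable (fun p : Sph d × Mat d k => ψ p.1 * Real.log (ψ p.1)) μ := by
      refine Integrable.of_bound ?_ (L ^ 2 + 1) (Filter.Eventually.of_forall ?_)
      · exact ((hψ.meas.comp measurable_fst).mul
          (Real.measurable_log.comp (hψ.meas.comp measurable_fst))).aestronglyMeasurable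
      · intro p
        rw [Real.norm_eq_abs]
        exact FibEndAux.abs_mul_log_le (hψ.nonneg _) (hL _)
    have h2 := integrable_mul_log_fib (k := k) hd0 hψ hψ 1 (by simp)
    refine (h1.sub h2).congr ?_
    filter_upwards [fib_ae_pos (k := k) hd0 hψ] with p hp
    simp only [hG, Pi.sub_apply]
    rcases (hψ.nonneg p.1).eq_or_lt with h0 | h0
    · rw [← h0]; simp
    · rw [Real.log_div h0.ne' (hp h0).ne']; ring
  have hPhi : Phi k ψ = ∫ X, ∫ s, G (s, X) ∂(sig d) ∂(gam d k) := integral_prod_symm G hGint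
  set θ : ℝ := ∫ s : Sph d, ψ s * (if Real.arccos (inner ℝ v (s : E d)) ≤ ε then 1 else 0) ∂(sig d)
    with hθ
  have hθ0 : 0 ≤ θ := by
    apply integral_nonneg
    intro s
    apply mul_nonneg (hψ.nonneg s)
    split_ifs <;> norm_num
  set A : Set (Sph d) := {s | Real.arccos (inner ℝ v (s : E d)) ≤ ε} with hA
  have hAm : MeasurableSet A := by
    apply measurableSet_le _ measurable_const
    exact (Real.continuous_arccos.comp (continuous_const.inner continuous_subtype_val)).measurable
  have hAball : ∀ s ∈ A, ‖(s : E d) - v‖ ≤ ε := fun s hs =>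
    FibEndAux.cap_subset_ball v hv s ε hs
  set K : ℝ := θ * (((d : ℝ) - k - 1) * Real.log (1 / (8 * ε)) - Real.log 2) - Real.log 2 with hK
  -- a.e. facts
  have hae1 := fib_ae_int_one (k := k) hd0 hψ
  have hae2 : ∀ᵐ X ∂(gam d k), ∀ᵐ s ∂(sig d), 0 < ψ s → 0 < fib k ψ (X, mv X (s : E d)) := by
    have h1 : ∀ᵐ q ∂((gam d k).prod (sig d)), 0 < ψ q.2 → 0 < fib k ψ (q.1, mv q.1 (q.2 : E d)) :=
      (Measure.measurePreserving_swap (μ := gam d k) (ν := sig d)).quasiMeasurePreserving.ae
        (fib_ae_pos (k := k) hd0 hψ)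
    exact Measure.ae_ae_of_ae_prod h1
  have hae3 : ∀ᵐ X ∂(gam d k), Integrable (fun s => G (s, X)) (sig d) :=
    hGint.swap.prod_right_ae
  have hfibm : ∀ X : Mat d k, Measurable (fun s : Sph d => fib k ψ (X, mv X (s : E d))) := by
    intro X
    exact (measurable_fib ψ).comp (measurable_mv_pair.comp (measurable_id.prodMk measurable_const))
  -- the pointwise lower bounds
  have hI0 : ∀ᵐ X ∂(gam d k), 0 ≤ ∫ s, G (s, X) ∂(sig d) := by
    filter_upwards [hae1, hae2, hae3] with X h1 h2 h3
    have hhi : Integrable (fun s : Sph d => fib k ψ (X, mv X (s : E d))) (sig d) := by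
      by_contra hcon
      rw [integral_undef hcon] at h1
      norm_num at h1
    have := FibEndAux.gibbs_fixed hd0 hψ (hfibm X) (fun s => fib_nonneg ψ _) hhi
      (w := fun _ => 1) measurable_const 1 (fun _ => le_rfl) (fun _ => le_rfl) 1 one_pos
      (by simp [h1]) h2 h3
    simpa using this
  have hIK : ∀ᵐ X ∂(gam d k), 1 / 2 ≤ dS X v → K ≤ ∫ s, G (s, X) ∂(sig d) := by
    filter_upwards [hae1, hae2, hae3] with X h1 h2 h3 hX
    have hhi : Integrable (fun s : Sph d => fib k ψ (X, mv X (s : E d))) (sig d) := by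
      by_contra hcon
      rw [integral_undef hcon] at h1
      norm_num at h1
    obtain ⟨ι, hι, R, hR1, hR2, hR3⟩ := FibEndAux.exists_reflections hd hk X v hX ε hε hε'
    have hcap := FibEndAux.cap_mass_le hd0 (hfibm X) (fun s => fib_nonneg ψ _) h1 R
      (fun a s => by
        have : mv X ((sphMap (R a) s : Sph d) : E d) = mv X (s : E d) :=
          FibEndAux.mv_map X (R a) (hR1 a) _
        simp only [this]) hAm v ε hAball hR2
    set N : ℝ := (Fintype.card ι : ℝ) with hN
    have hN0 : 0 ≤ N := Nat.cast_nonneg _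
    set h : Sph d → ℝ := fun s => fib k ψ (X, mv X (s : E d)) with hh
    -- the weight
    let w : Sph d → ℝ := fun s => 1 + N * A.indicator (fun _ => (1 : ℝ)) s
    have hwm : Measurable w :=
      measurable_const.add (measurable_const.mul (measurable_const.indicator hAm))
    have hw1 : ∀ s, 1 ≤ w s := by
      intro s
      have : 0 ≤ A.indicator (fun _ => (1 : ℝ)) s := Set.indicator_nonneg (fun _ _ => zero_le_one) s
      have := mul_nonneg hN0 this
      simp only [w]
      linarith
    have hwW : ∀ s, w s ≤ 1 + N := by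
      intro s
      have : A.indicator (fun _ => (1 : ℝ)) s ≤ 1 := Set.indicator_le_self' (fun _ _ => zero_le_one) s
      have := mul_le_mul_of_nonneg_left this hN0
      simp only [w]
      linarith
    have hhw : ∫ s, h s * w s ∂(sig d) ≤ 2 := by
      have e : ∀ s, h s * w s = h s + N * A.indicator h s := by
        intro s
        by_cases hs : s ∈ A <;> simp [w, hs] <;> ring
      simp only [e]
      rw [integral_add hhi ((hhi.indicator hAm).const_mul N), integral_const_mul,
        integral_indicator hAm, h1]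
      linarith
    have hgibbs := FibEndAux.gibbs_fixed hd0 hψ (hfibm X) (fun s => fib_nonneg ψ _) hhi hwm (1 + N)
      hw1 hwW 2 two_pos hhw h2 h3
    have hlw : ∫ s, ψ s * Real.log (w s) ∂(sig d) = θ * Real.log (1 + N) := by
      rw [hθ, ← integral_mul_const]
      congr 1
      funext s
      by_cases hs : s ∈ A
      · have hs' : Real.arccos (inner ℝ v (s : E d)) ≤ ε := hs
        simp [w, hs, hs']
      · have hs' : ¬ Real.arccos (inner ℝ v (s : E d)) ≤ ε := hs
        simp [w, hs, hs']
    rw [hlw] at hgibbs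
    have hlogN : Real.log N ≤ Real.log (1 + N) := by
      rcases hN0.eq_or_lt with h0 | h0
      · rw [← h0]; simp
      · exact Real.log_le_log h0 (by linarith)
    have := mul_le_mul_of_nonneg_left (hR3.trans hlogN) hθ0
    simp only [hK]
    linarith
  -- integrate
  set S : Set (Mat d k) := {X | 1 / 2 ≤ dS X v} with hS
  have hSm : MeasurableSet S := FibEndAux.measurableSet_good v
  have hSp : 2 / 3 ≤ (gam d k).real S := gam_dist_row hd0 hk v hv
  have hIi : Integrable (fun X => ∫ s, G (s, X) ∂(sig d)) (gam d k) := hGint.integral_prod_right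
  have hfinal : ∫ X, S.indicator (fun _ => max K 0) X ∂(gam d k) ≤
      ∫ X, ∫ s, G (s, X) ∂(sig d) ∂(gam d k) := by
    refine integral_mono_ae ((integrable_const _).indicator hSm) hIi ?_
    filter_upwards [hI0, hIK] with X h1 h2
    by_cases hX : X ∈ S
    · rw [Set.indicator_of_mem hX]
      exact max_le (h2 hX) h1
    · rw [Set.indicator_of_notMem hX]
      exact h1
  rw [integral_indicator_const _ hSm, smul_eq_mul] at hfinal
  rw [hPhi]
  have hmax : 0 ≤ max K 0 := le_max_right _ _
  have hKm : K ≤ max K 0 := le_max_left _ _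
  calc 2 / 3 * K ≤ 2 / 3 * max K 0 := by linarith
    _ ≤ (gam d k).real S * max K 0 := mul_le_mul_of_nonneg_right hSp hmax
    _ ≤ _ := hfinal

end Crest.Agent.MS
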