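import Crest.Agent.Lib.MS.BlockMain
import Crest.Agent.Lib.MS.FibEnd

/-!
# S0499 module `Chain`: finite-label chains.

`p_t(q|s) = chainLaw F q0 t q s`, `P_t(q) = ∫ p_t(q|s) dσ(s)`, `ψ_{t,q} = p_t(q|·)/P_t(q)` (bounded density when
`P_t(q) > 0`), `Pot_t = ∑_q P_t(q) Phi k ψ_{t,q}`.

`Pot_succ_le`.  With `p_q = labelProb (F t q)`: for `P_{t+1}(q') > 0`,
`ψ_{t+1,q'} = ∑_q w_q post(ψ_{t,q})(p_q)(q')` a.e., with `w_q = P_t(q) margP(ψ_{t,q}, p_q, q') / P_{t+1}(q')`, summing over `q` with
`w_q > 0` (where `P_t(q) = 0`: `p_t(q|·) = 0` a.e.; where `margP = 0`: `ψ_{t,q} p_q(q') = 0` a.e.; use `Phi_congr_ae`).  So `Phi_mixture`: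
`P_{t+1}(q') Phi(ψ_{t+1,q'}) ≤ ∑_q P_t(q) margP(ψ_{t,q}, p_q, q') Phi(post(ψ_{t,q})(p_q)(q'))`.  Sum over `q'`, apply `block_main` to each `ψ_{t,q}`, `F t q`:
`Pot_{t+1} ≤ ∑_q P_t(q) [Phi ψ_{t,q} + 17 log|Q|/d + 12 D₀(ψ_{t,q})/d + d]`, and
`∑_q P_t(q) D₀(ψ_{t,q}) = ∑_q ∫ p_t(q|s) log(p_t(q|s)/P_t(q)) ≤ ∑_q P_t(q) (-log P_t(q)) ≤ log |Q|` (`sum_D0_le`).

`chain_main`.  `Pot_0 = Phi 1 = 0`, so `Pot_m ≤ m (29 log|Q|/d + d)`.  By `Phi_end` applied to each `ψ_{m,q}`, `v q`, with
`θ_q = ∫ ψ_{m,q} 1_{A_q}`, `Λ = (d-k-1) log(1/(8ε)) - log 2 ≥ 0`: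
`Pot_m ≥ (2/3)(Λ ∑ P_m(q) θ_q - log 2)` and `∑_q P_m(q) θ_q` is the left integral of `hsucc`, at least `2/3`.
-/

set_option autoImplicit false

namespace Crest.Agent.MS

open MeasureTheory ProbabilityTheory
open Crest.StreamLearn (E Sphere sphereUniform)

variable {d B : ℕ} {Q : Type} [Fintype Q]

open Classical in
/-- The law of the label after `t` blocks, given the signal. -/
noncomputable def chainLaw (F : ℕ → Q → Mat d B → (Fin B → ℝ) → Q) (q0 : Q) : ℕ → Q → Sph d → ℝ
  | 0, q, _ => if q = q0 then 1 else 0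
  | t + 1, q', s => ∑ q, chainLaw F q0 t q s * labelProb (F t q) q' s

/-- The law of the label. -/
noncomputable def chainP (F : ℕ → Q → Mat d B → (Fin B → ℝ) → Q) (q0 : Q) (t : ℕ) (q : Q) : ℝ :=
  ∫ s, chainLaw F q0 t q s ∂(sig d)

/-- The density of the signal given the label. -/
noncomputable def chainDens (F : ℕ → Q → Mat d B → (Fin B → ℝ) → Q) (q0 : Q) (t : ℕ) (q : Q) :
    Sph d → ℝ :=
  fun s => chainLaw F q0 t q s / chainP F q0 t q

/-- The potential. -/
noncomputable def chainPot (k : ℕ) (F : ℕ → Q → Mat d B → (Fin B → ℝ) → Q) (q0 : Q) (t : ℕ) : ℝ :=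
  ∑ q, chainP F q0 t q * Phi k (chainDens F q0 t q)

variable [MeasurableSpace Q] [MeasurableSingletonClass Q]

theorem chainLaw_measurable {F : ℕ → Q → Mat d B → (Fin B → ℝ) → Q}
    (hF : ∀ t q, Measurable (fun p : Mat d B × (Fin B → ℝ) => F t q p.1 p.2)) (q0 : Q) (t : ℕ) (q : Q) :
    Measurable (chainLaw F q0 t q) := by
  have : Nonempty Q := ⟨q0⟩
  induction t generalizing q with
  | zero =>
    by_cases hq : q = q0
    · have h : chainLaw F q0 0 q = fun _ => (1 : ℝ) := by
        funext s; simp [chainLaw, hq]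
      rw [h]
      exact measurable_const
    · have h : chainLaw F q0 0 q = fun _ => (0 : ℝ) := by
        funext s; simp [chainLaw, hq]
      rw [h]
      exact measurable_const
  | succ t ih =>
    have h : chainLaw F q0 (t + 1) q = fun s => ∑ q1, chainLaw F q0 t q1 s * labelProb (F t q1) q s := by
      funext s; simp only [chainLaw]
    rw [h]
    exact Finset.measurable_sum _ fun q1 _ => (ih q1).mul (pF_measurable (hF t q1) q)

theorem chainLaw_nonneg (F : ℕ → Q → Mat d B → (Fin B → ℝ) → Q) (q0 : Q) (t : ℕ) (q : Q) (s : Sph d) :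
    0 ≤ chainLaw F q0 t q s := by
  induction t generalizing q with
  | zero =>
    simp only [chainLaw]
    split_ifs <;> norm_num
  | succ t ih =>
    simp only [chainLaw]
    refine Finset.sum_nonneg fun q1 _ => mul_nonneg (ih q1) ?_
    unfold labelProb
    exact measureReal_nonneg

theorem chainLaw_sum {F : ℕ → Q → Mat d B → (Fin B → ℝ) → Q}
    (hF : ∀ t q, Measurable (fun p : Mat d B × (Fin B → ℝ) => F t q p.1 p.2)) (q0 : Q) (t : ℕ) (s : Sph d) :
    ∑ q, chainLaw F q0 t q s = 1 := by
  have : Nonempty Q := ⟨q0⟩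
  induction t with
  | zero =>
    rw [Finset.sum_eq_single q0 (fun b _ hb => by simp [chainLaw, hb])
      (fun h => (h (Finset.mem_univ _)).elim)]
    simp [chainLaw]
  | succ t ih =>
    simp only [chainLaw]
    rw [Finset.sum_comm]
    have h1 : ∀ q, ∑ q', labelProb (F t q) q' s = 1 := fun q => pF_sum (hF t q) s
    calc ∑ q, ∑ q', chainLaw F q0 t q s * labelProb (F t q) q' s
        = ∑ q, chainLaw F q0 t q s * ∑ q', labelProb (F t q) q' s := by
          refine Finset.sum_congr rfl fun q _ => ?_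
          rw [Finset.mul_sum]
      _ = ∑ q, chainLaw F q0 t q s := by
          refine Finset.sum_congr rfl fun q _ => ?_
          rw [h1 q, mul_one]
      _ = 1 := ih

theorem chainLaw_le_one {F : ℕ → Q → Mat d B → (Fin B → ℝ) → Q}
    (hF : ∀ t q, Measurable (fun p : Mat d B × (Fin B → ℝ) => F t q p.1 p.2)) (q0 : Q) (t : ℕ) (q : Q)
    (s : Sph d) : chainLaw F q0 t q s ≤ 1 := by
  rw [← chainLaw_sum hF q0 t s]
  exact Finset.single_le_sum (f := fun q => chainLaw F q0 t q s)
    (fun q _ => chainLaw_nonneg F q0 t q s) (Finset.mem_univ q)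

theorem chainLaw_integrable (hd : 0 < d) {F : ℕ → Q → Mat d B → (Fin B → ℝ) → Q}
    (hF : ∀ t q, Measurable (fun p : Mat d B × (Fin B → ℝ) => F t q p.1 p.2)) (q0 : Q) (t : ℕ) (q : Q) :
    Integrable (chainLaw F q0 t q) (sig d) := by
  have := sig_isProb hd
  refine Integrable.of_bound (chainLaw_measurable hF q0 t q).aestronglyMeasurable 1
    (Filter.Eventually.of_forall fun s => ?_)
  rw [Real.norm_eq_abs, abs_of_nonneg (chainLaw_nonneg F q0 t q s)]
  exact chainLaw_le_one hF q0 t q s

theorem chainP_nonneg (F : ℕ → Q → Mat d B → (Fin B → ℝ) → Q) (q0 : Q) (t : ℕ) (q : Q) :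
    0 ≤ chainP F q0 t q :=
  integral_nonneg fun s => chainLaw_nonneg F q0 t q s

theorem chainP_sum (hd : 0 < d) {F : ℕ → Q → Mat d B → (Fin B → ℝ) → Q}
    (hF : ∀ t q, Measurable (fun p : Mat d B × (Fin B → ℝ) => F t q p.1 p.2)) (q0 : Q) (t : ℕ) :
    ∑ q, chainP F q0 t q = 1 := by
  have := sig_isProb hd
  unfold chainP
  rw [← integral_finsetSum _ fun q _ => chainLaw_integrable hd hF q0 t q]
  simp only [chainLaw_sum hF q0 t]
  simp

theorem chainDens_isDens (hd : 0 < d) {F : ℕ → Q → Mat d B → (Fin B → ℝ) → Q}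
    (hF : ∀ t q, Measurable (fun p : Mat d B × (Fin B → ℝ) => F t q p.1 p.2)) (q0 : Q) (t : ℕ) (q : Q)
    (hq : 0 < chainP F q0 t q) : IsDens (chainDens F q0 t q) := by
  refine ⟨(chainLaw_measurable hF q0 t q).div_const _,
    fun s => div_nonneg (chainLaw_nonneg F q0 t q s) hq.le,
    ⟨1 / chainP F q0 t q, fun s => div_le_div_of_nonneg_right (chainLaw_le_one hF q0 t q s) hq.le⟩, ?_⟩
  unfold chainDens
  rw [integral_div]
  exact div_self hq.ne'

/-- A Boltzmann-Gibbs estimate for finite distributions. -/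
theorem sum_negMulLog_le_chain {P : Q → ℝ} [Nonempty Q] (hP : ∀ q, 0 ≤ P q) (hP1 : ∑ q, P q = 1) :
    ∑ q, (- (P q * Real.log (P q))) ≤ Real.log (Fintype.card Q) := by
  have hN : (0 : ℝ) < Fintype.card Q := by exact_mod_cast Fintype.card_pos
  have hpt : ∀ q, - (P q * Real.log (P q)) ≤
      P q * Real.log (Fintype.card Q) + (1 / (Fintype.card Q : ℝ) - P q) := by
    intro q
    rcases (hP q).eq_or_lt with h | h
    · rw [← h]
      simp
    · have h1 : 0 < 1 / ((Fintype.card Q : ℝ) * P q) := by positivity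
      have h2 := Real.log_le_sub_one_of_pos h1
      have h3 : Real.log (1 / ((Fintype.card Q : ℝ) * P q)) =
          - Real.log (Fintype.card Q) - Real.log (P q) := by
        rw [one_div, Real.log_inv, Real.log_mul hN.ne' h.ne']
        ring
      rw [h3] at h2
      have h4 := mul_le_mul_of_nonneg_left h2 h.le
      have h5 : P q * (1 / ((Fintype.card Q : ℝ) * P q) - 1) = 1 / (Fintype.card Q : ℝ) - P q := by
        field_simp
      rw [h5] at h4
      nlinarith
  calc ∑ q, (- (P q * Real.log (P q)))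
      ≤ ∑ q, (P q * Real.log (Fintype.card Q) + (1 / (Fintype.card Q : ℝ) - P q)) :=
        Finset.sum_le_sum fun q _ => hpt q
    _ = Real.log (Fintype.card Q) := by
        rw [Finset.sum_add_distrib, Finset.sum_sub_distrib, ← Finset.sum_mul, hP1]
        simp only [Finset.sum_const, Finset.card_univ, nsmul_eq_mul]
        have : (Fintype.card Q : ℝ) * (1 / (Fintype.card Q : ℝ)) = 1 := by field_simp
        rw [this]
        ring

/-- The entropy bound. -/
theorem sum_D0_le (hd : 0 < d) [Nonempty Q] {F : ℕ → Q → Mat d B → (Fin B → ℝ) → Q}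
    (hF : ∀ t q, Measurable (fun p : Mat d B × (Fin B → ℝ) => F t q p.1 p.2)) (q0 : Q) (t : ℕ) :
    ∑ q, chainP F q0 t q * D0 (chainDens F q0 t q) ≤ Real.log (Fintype.card Q) := by
  have := sig_isProb hd
  have hterm : ∀ q, chainP F q0 t q * D0 (chainDens F q0 t q) ≤
      - (chainP F q0 t q * Real.log (chainP F q0 t q)) := by
    intro q
    rcases (chainP_nonneg F q0 t q).eq_or_lt with h | h
    · rw [← h]
      simp
    · set P := chainP F q0 t q with hPdef
      have hψ := chainDens_isDens hd hF q0 t q h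
      have h1 : D0 (chainDens F q0 t q) ≤ - Real.log P := by
        have h2 : ∫ s, chainDens F q0 t q s * (- Real.log P) ∂(sig d) = - Real.log P := by
          rw [integral_mul_const, hψ.int_one, one_mul]
        rw [← h2]
        unfold D0
        refine integral_mono (integrable_mul_log hd hψ) (hψ.integrable.mul_const _) fun s => ?_
        simp only
        have h3 := chainLaw_nonneg F q0 t q s
        have h4 := chainLaw_le_one hF q0 t q s
        rcases h3.eq_or_lt with h5 | h5
        · have : chainDens F q0 t q s = 0 := by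
            unfold chainDens
            rw [← h5, zero_div]
          rw [this]
          simp
        · have h6 : 0 ≤ chainDens F q0 t q s := hψ.nonneg s
          refine mul_le_mul_of_nonneg_left ?_ h6
          have : chainDens F q0 t q s = chainLaw F q0 t q s / P := rfl
          rw [this, Real.log_div h5.ne' h.ne']
          have := Real.log_nonpos h5.le h4
          linarith
      have := mul_le_mul_of_nonneg_left h1 h.le
      linarith
  calc ∑ q, chainP F q0 t q * D0 (chainDens F q0 t q)
      ≤ ∑ q, (- (chainP F q0 t q * Real.log (chainP F q0 t q))) :=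
        Finset.sum_le_sum fun q _ => hterm q
    _ ≤ _ := sum_negMulLog_le_chain (chainP_nonneg F q0 t) (chainP_sum hd hF q0 t)

/-- The start of the chain: `Pot_0 = 0`. -/
theorem chainPot_zero (hd : 0 < d) (k : ℕ) (F : ℕ → Q → Mat d B → (Fin B → ℝ) → Q) (q0 : Q) :
    chainPot k F q0 0 = 0 := by
  classical
  have := sig_isProb hd
  unfold chainPot
  refine Finset.sum_eq_zero fun q _ => ?_
  by_cases hq : q = q0
  · subst hq
    have h1 : chainP F q 0 q = 1 := by
      unfold chainP
      simp [chainLaw]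
    have h2 : chainDens F q 0 q = fun _ => (1 : ℝ) := by
      funext s
      unfold chainDens
      rw [h1]
      simp [chainLaw]
    rw [h2, Phi_one hd, mul_zero]
  · have h1 : chainP F q0 0 q = 0 := by
      unfold chainP
      simp [chainLaw, hq]
    rw [h1, zero_mul]

section Step

variable {F : ℕ → Q → Mat d B → (Fin B → ℝ) → Q}

/-- `ℓ_t(q, ·) = P_t(q) ψ_{t,q}` a.e. -/
theorem chainLaw_ae_eq (hd : 0 < d)
    (hF : ∀ t q, Measurable (fun p : Mat d B × (Fin B → ℝ) => F t q p.1 p.2)) (q0 : Q) (t : ℕ) (q : Q) :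
    ∀ᵐ s ∂(sig d), chainLaw F q0 t q s = chainP F q0 t q * chainDens F q0 t q s := by
  rcases (chainP_nonneg F q0 t q).eq_or_lt with h | h
  · have h1 : chainLaw F q0 t q =ᵐ[sig d] 0 := by
      refine (integral_eq_zero_iff_of_nonneg (fun s => chainLaw_nonneg F q0 t q s)
        (chainLaw_integrable hd hF q0 t q)).1 ?_
      exact h.symm
    filter_upwards [h1] with s hs
    rw [hs, ← h]
    simp
  · refine Filter.Eventually.of_forall fun s => ?_
    unfold chainDens
    field_simp

theorem chainDens_nonneg (F : ℕ → Q → Mat d B → (Fin B → ℝ) → Q) (q0 : Q) (t : ℕ) (q : Q) (s : Sph d) :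
    0 ≤ chainDens F q0 t q s :=
  div_nonneg (chainLaw_nonneg F q0 t q s) (chainP_nonneg F q0 t q)

theorem chainDens_mul_integrable (hd : 0 < d)
    (hF : ∀ t q, Measurable (fun p : Mat d B × (Fin B → ℝ) => F t q p.1 p.2)) (q0 : Q) (t : ℕ) (q q' : Q) :
    Integrable (fun s => chainDens F q0 t q s * labelProb (F t q) q' s) (sig d) := by
  have := sig_isProb hd
  have : Nonempty Q := ⟨q0⟩
  have hm : Measurable (chainDens F q0 t q) := (chainLaw_measurable hF q0 t q).div_const _
  refine Integrable.of_bound (hm.mul (pF_measurable (hF t q) q')).aestronglyMeasurable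
    (1 / chainP F q0 t q * 1) (Filter.Eventually.of_forall fun s => ?_)
  have h0 := chainDens_nonneg F q0 t q s
  have h1 : 0 ≤ labelProb (F t q) q' s := pF_nonneg q' s
  have h2 : labelProb (F t q) q' s ≤ 1 := pF_le_one q' s
  rw [Real.norm_eq_abs, abs_of_nonneg (mul_nonneg h0 h1)]
  refine mul_le_mul ?_ h2 h1 (by have := chainP_nonneg F q0 t q; positivity)
  exact div_le_div_of_nonneg_right (chainLaw_le_one hF q0 t q s) (chainP_nonneg F q0 t q)

theorem margP_chain_nonneg (F : ℕ → Q → Mat d B → (Fin B → ℝ) → Q) (q0 : Q) (t : ℕ) (q q' : Q) :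
    0 ≤ margP (chainDens F q0 t q) (labelProb (F t q)) q' :=
  integral_nonneg fun s => mul_nonneg (chainDens_nonneg F q0 t q s) (by
    unfold labelProb; exact measureReal_nonneg)

/-- `P_{t+1}(q') = ∑_q P_t(q) margP(ψ_{t,q}, p_q, q')`. -/
theorem chainP_succ (hd : 0 < d)
    (hF : ∀ t q, Measurable (fun p : Mat d B × (Fin B → ℝ) => F t q p.1 p.2)) (q0 : Q) (t : ℕ) (q' : Q) :
    chainP F q0 (t + 1) q' =
      ∑ q, chainP F q0 t q * margP (chainDens F q0 t q) (labelProb (F t q)) q' := by
  have := sig_isProb hd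
  unfold chainP
  have h1 : ∀ s, chainLaw F q0 (t + 1) q' s = ∑ q, chainLaw F q0 t q s * labelProb (F t q) q' s :=
    fun s => by simp only [chainLaw]
  simp only [h1]
  have hint : ∀ q, Integrable (fun s => chainLaw F q0 t q s * labelProb (F t q) q' s) (sig d) := by
    intro q
    have : Nonempty Q := ⟨q0⟩
    refine Integrable.of_bound ((chainLaw_measurable hF q0 t q).mul
      (pF_measurable (hF t q) q')).aestronglyMeasurable 1 (Filter.Eventually.of_forall fun s => ?_)
    have h0 := chainLaw_nonneg F q0 t q s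
    have h2 : 0 ≤ labelProb (F t q) q' s := pF_nonneg q' s
    have h3 : labelProb (F t q) q' s ≤ 1 := pF_le_one q' s
    rw [Real.norm_eq_abs, abs_of_nonneg (mul_nonneg h0 h2)]
    have := chainLaw_le_one hF q0 t q s
    nlinarith
  rw [integral_finsetSum _ fun q _ => hint q]
  refine Finset.sum_congr rfl fun q _ => ?_
  unfold margP
  rw [← integral_const_mul]
  refine integral_congr_ae ?_
  filter_upwards [chainLaw_ae_eq hd hF q0 t q] with s hs
  change chainLaw F q0 t q s * labelProb (F t q) q' s =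
    chainP F q0 t q * (chainDens F q0 t q s * labelProb (F t q) q' s)
  rw [hs]
  ring

/-- The mixture step. -/
theorem chain_mixture_step (hd : 0 < d) {k : ℕ}
    (hF : ∀ t q, Measurable (fun p : Mat d B × (Fin B → ℝ) => F t q p.1 p.2)) (q0 : Q) (t : ℕ) (q' : Q) :
    chainP F q0 (t + 1) q' * Phi k (chainDens F q0 (t + 1) q') ≤
      ∑ q, chainP F q0 t q * (margP (chainDens F q0 t q) (labelProb (F t q)) q' *
        Phi k (post (chainDens F q0 t q) (labelProb (F t q)) q')) := by
  have := sig_isProb hd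
  have : Nonempty Q := ⟨q0⟩
  set P := fun q => chainP F q0 t q with hP
  set m := fun q => margP (chainDens F q0 t q) (labelProb (F t q)) q' with hm
  have hP0 : ∀ q, 0 ≤ P q := fun q => chainP_nonneg F q0 t q
  have hm0 : ∀ q, 0 ≤ m q := fun q => margP_chain_nonneg F q0 t q q'
  have hsum : chainP F q0 (t + 1) q' = ∑ q, P q * m q := chainP_succ hd hF q0 t q'
  rcases (chainP_nonneg F q0 (t + 1) q').eq_or_lt with h | h
  · rw [← h, zero_mul]
    have h1 : ∀ q, P q * m q = 0 := by
      intro q
      have h2 := (Finset.sum_eq_zero_iff_of_nonneg (fun q _ => mul_nonneg (hP0 q) (hm0 q))).1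
        (hsum.symm.trans h.symm) q (Finset.mem_univ q)
      exact h2
    refine le_of_eq (Finset.sum_eq_zero fun q _ => ?_).symm
    rw [← mul_assoc]
    change P q * m q * _ = 0
    rw [h1 q, zero_mul]
  · set P' := chainP F q0 (t + 1) q' with hP'
    set w := fun q => P q * m q / P' with hw
    have hw0 : ∀ q, 0 ≤ w q := fun q => div_nonneg (mul_nonneg (hP0 q) (hm0 q)) h.le
    have hw1 : ∑ q, w q = 1 := by
      simp only [hw]
      rw [← Finset.sum_div, ← hsum]
      exact div_self h.ne'
    have hdens : ∀ q, 0 < w q → IsDens (post (chainDens F q0 t q) (labelProb (F t q)) q') := by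
      intro q hq
      have h1 : 0 < P q * m q := by
        by_contra hc
        have : P q * m q = 0 := le_antisymm (not_lt.mp hc) (mul_nonneg (hP0 q) (hm0 q))
        simp only [hw, this, zero_div] at hq
        exact lt_irrefl _ hq
      have hPq : 0 < P q := lt_of_le_of_ne (hP0 q) (fun e => by rw [← e, zero_mul] at h1; exact lt_irrefl _ h1)
      have hmq : 0 < m q := lt_of_le_of_ne (hm0 q) (fun e => by rw [← e, mul_zero] at h1; exact lt_irrefl _ h1)
      exact post_isDens (chainDens_isDens hd hF q0 t q hPq) _ q' (pF_measurable (hF t q) q')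
        (fun s => pF_nonneg q' s) (fun s => pF_le_one q' s) hmq
    have hmix := Phi_mixture (k := k) hd w
      (fun q => post (chainDens F q0 t q) (labelProb (F t q)) q') hw0 hw1 hdens
    -- the a.e. identity
    have hae : chainDens F q0 (t + 1) q' =ᵐ[sig d]
        fun s => ∑ q, w q * post (chainDens F q0 t q) (labelProb (F t q)) q' s := by
      have h1 : ∀ q, ∀ᵐ s ∂(sig d), chainLaw F q0 t q s * labelProb (F t q) q' s =
          P q * m q * post (chainDens F q0 t q) (labelProb (F t q)) q' s := by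
        intro q
        have h2 : ∀ᵐ s ∂(sig d), chainDens F q0 t q s * labelProb (F t q) q' s =
            m q * post (chainDens F q0 t q) (labelProb (F t q)) q' s := by
          rcases (hm0 q).eq_or_lt with h3 | h3
          · have h4 : (fun s => chainDens F q0 t q s * labelProb (F t q) q' s) =ᵐ[sig d] 0 := by
              refine (integral_eq_zero_iff_of_nonneg (fun s => mul_nonneg (chainDens_nonneg F q0 t q s)
                (pF_nonneg q' s)) (chainDens_mul_integrable hd hF q0 t q q')).1 ?_
              exact h3.symm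
            filter_upwards [h4] with s hs
            simp only [Pi.zero_apply] at hs
            rw [hs, ← h3, zero_mul]
          · refine Filter.Eventually.of_forall fun s => ?_
            unfold post
            change _ = m q * (_ / m q)
            field_simp
        filter_upwards [h2, chainLaw_ae_eq hd hF q0 t q] with s hs1 hs2
        rw [hs2, mul_assoc, hs1]
        change P q * _ = _
        ring
      have h2 : ∀ᵐ s ∂(sig d), ∀ q, chainLaw F q0 t q s * labelProb (F t q) q' s =
          P q * m q * post (chainDens F q0 t q) (labelProb (F t q)) q' s :=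
        ae_all_iff.2 h1
      filter_upwards [h2] with s hs
      change chainLaw F q0 (t + 1) q' s / P' = _
      have h3 : chainLaw F q0 (t + 1) q' s = ∑ q, chainLaw F q0 t q s * labelProb (F t q) q' s := by
        simp only [chainLaw]
      rw [h3, Finset.sum_congr rfl fun q _ => hs q, Finset.sum_div]
      refine Finset.sum_congr rfl fun q _ => ?_
      simp only [hw]
      ring
    rw [Phi_congr_ae hd hae]
    have h2 := mul_le_mul_of_nonneg_left hmix h.le
    refine h2.trans (le_of_eq ?_)
    rw [Finset.mul_sum]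
    refine Finset.sum_congr rfl fun q _ => ?_
    simp only [hw]
    change P' * (P q * m q / P' * _) = P q * (m q * _)
    field_simp

end Step

/-- One step of the chain. -/
theorem chainPot_succ_le {d : ℕ} (hd : dZero ≤ d) [Nonempty Q]
    {F : ℕ → Q → Mat d (bB d) → (Fin (bB d) → ℝ) → Q}
    (hF : ∀ t q, Measurable (fun p : Mat d (bB d) × (Fin (bB d) → ℝ) => F t q p.1 p.2)) (q0 : Q) (t : ℕ) :
    chainPot (kV d) F q0 (t + 1) ≤ chainPot (kV d) F q0 t +
      (29 * Real.log (Fintype.card Q) / d + d) := by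
  have hd' : (2 : ℕ) ^ 20 ≤ d := hd
  have hd0 : 0 < d := lt_of_lt_of_le (by positivity) hd'
  have hdR : (0 : ℝ) < d := by exact_mod_cast hd0
  set L := Real.log (Fintype.card Q) with hL
  -- sum of the mixture steps
  have h1 : chainPot (kV d) F q0 (t + 1) ≤
      ∑ q, chainP F q0 t q * ∑ q', (margP (chainDens F q0 t q) (labelProb (F t q)) q' *
        Phi (kV d) (post (chainDens F q0 t q) (labelProb (F t q)) q')) := by
    unfold chainPot
    calc ∑ q', chainP F q0 (t + 1) q' * Phi (kV d) (chainDens F q0 (t + 1) q')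
        ≤ ∑ q', ∑ q, chainP F q0 t q * (margP (chainDens F q0 t q) (labelProb (F t q)) q' *
            Phi (kV d) (post (chainDens F q0 t q) (labelProb (F t q)) q')) :=
          Finset.sum_le_sum fun q' _ => chain_mixture_step hd0 hF q0 t q'
      _ = _ := by
          rw [Finset.sum_comm]
          refine Finset.sum_congr rfl fun q _ => ?_
          rw [Finset.mul_sum]
  -- the block lemma
  have h2 : ∀ q, chainP F q0 t q * ∑ q', (margP (chainDens F q0 t q) (labelProb (F t q)) q' *
        Phi (kV d) (post (chainDens F q0 t q) (labelProb (F t q)) q')) ≤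
      chainP F q0 t q * (Phi (kV d) (chainDens F q0 t q) + (17 * L / d + d)) +
        (12 / (d : ℝ)) * (chainP F q0 t q * D0 (chainDens F q0 t q)) := by
    intro q
    rcases (chainP_nonneg F q0 t q).eq_or_lt with h | h
    · rw [← h]
      simp
    · have hψ := chainDens_isDens hd0 hF q0 t q h
      have h3 := block_main hd hψ (hF t q)
      have h4 := mul_le_mul_of_nonneg_left
        (sub_le_iff_le_add.1 h3) h.le
      refine h4.trans (le_of_eq ?_)
      rw [← hL]
      field_simp
      ring
  have h3 := sum_D0_le hd0 hF q0 t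
  have h4 := chainP_sum hd0 hF q0 t
  calc chainPot (kV d) F q0 (t + 1)
      ≤ ∑ q, (chainP F q0 t q * (Phi (kV d) (chainDens F q0 t q) + (17 * L / d + d)) +
        (12 / (d : ℝ)) * (chainP F q0 t q * D0 (chainDens F q0 t q))) :=
        h1.trans (Finset.sum_le_sum fun q _ => h2 q)
    _ = chainPot (kV d) F q0 t + (17 * L / d + d) * ∑ q, chainP F q0 t q +
        (12 / (d : ℝ)) * ∑ q, chainP F q0 t q * D0 (chainDens F q0 t q) := by
        unfold chainPot
        rw [Finset.mul_sum, Finset.mul_sum, ← Finset.sum_add_distrib, ← Finset.sum_add_distrib]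
        exact Finset.sum_congr rfl fun q _ => by ring
    _ ≤ chainPot (kV d) F q0 t + (17 * L / d + d) * 1 + (12 / (d : ℝ)) * L := by
        rw [h4]
        have : (12 / (d : ℝ)) * ∑ q, chainP F q0 t q * D0 (chainDens F q0 t q) ≤ (12 / (d : ℝ)) * L :=
          mul_le_mul_of_nonneg_left h3 (by positivity)
        linarith
    _ = _ := by
        field_simp
        ring

/-- The main estimate for chains: `success ≥ 2/3` forces many blocks. -/
theorem chain_main {d : ℕ} (hd : dZero ≤ d) [Nonempty Q]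
    (F : ℕ → Q → Mat d (bB d) → (Fin (bB d) → ℝ) → Q)
    (hF : ∀ t q, Measurable (fun p : Mat d (bB d) × (Fin (bB d) → ℝ) => F t q p.1 p.2)) (q0 : Q)
    (v : Q → E d) (hv : ∀ q, ‖v q‖ = 1) (m : ℕ) (ε : ℝ) (hε : 0 < ε) (hε' : ε ≤ 1 / 10)
    (hsucc : 2 / 3 ≤ ∫ s : Sph d, ∑ q, chainLaw F q0 m q s *
        (if Real.arccos (inner ℝ (v q) (s : E d)) ≤ ε then 1 else 0) ∂(sig d)) :
    (4 / 9) * (((d : ℝ) - kV d - 1) * Real.log (1 / (8 * ε)) - Real.log 2) - (2 / 3) * Real.log 2 ≤
      m * (29 * Real.log (Fintype.card Q) / d + d) := by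
  have hd' : (2 : ℕ) ^ 20 ≤ d := hd
  have hd0 : 0 < d := lt_of_lt_of_le (by positivity) hd'
  have hdR : (1048576 : ℝ) ≤ d := by
    have h : ((2 ^ 20 : ℕ) : ℝ) ≤ d := by exact_mod_cast hd'
    have e : ((2 ^ 20 : ℕ) : ℝ) = 1048576 := by norm_num
    rw [e] at h
    exact h
  have := sig_isProb hd0
  set L := Real.log (Fintype.card Q) with hL
  set S := 29 * L / d + d with hS
  -- upper bound
  have hup : ∀ n : ℕ, chainPot (kV d) F q0 n ≤ n * S := by
    intro n
    induction n with
    | zero =>
      rw [chainPot_zero hd0]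
      simp
    | succ n ih =>
      have := chainPot_succ_le hd hF q0 n
      push_cast
      linarith
  -- the caps
  set A := fun (q : Q) (s : Sph d) =>
    if Real.arccos (inner ℝ (v q) (s : E d)) ≤ ε then (1 : ℝ) else 0 with hA
  have hAm : ∀ q, Measurable (A q) := by
    intro q
    refine Measurable.ite ?_ measurable_const measurable_const
    refine measurableSet_le ?_ measurable_const
    exact (Real.continuous_arccos.comp
      (continuous_const.inner continuous_subtype_val)).measurable
  have hA0 : ∀ q s, 0 ≤ A q s := by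
    intro q s
    simp only [hA]
    split_ifs <;> norm_num
  have hA1 : ∀ q s, A q s ≤ 1 := by
    intro q s
    simp only [hA]
    split_ifs <;> norm_num
  -- the constant
  set Λ := ((d : ℝ) - kV d - 1) * Real.log (1 / (8 * ε)) - Real.log 2 with hΛ
  have hΛ0 : 0 ≤ Λ := by
    have h1 : (kV d : ℝ) ≤ d / 4 := by
      have : 4 * kV d ≤ d := by unfold kV; omega
      have h2 : ((4 * kV d : ℕ) : ℝ) ≤ d := by exact_mod_cast this
      push_cast at h2
      linarith
    have h2 : (5 / 4 : ℝ) ≤ 1 / (8 * ε) := by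
      rw [le_div_iff₀ (by positivity)]
      nlinarith
    have h3 : (1 / 5 : ℝ) ≤ Real.log (1 / (8 * ε)) := by
      have h4 := Real.one_sub_inv_le_log_of_pos (show (0 : ℝ) < 1 / (8 * ε) by positivity)
      have h5 : (1 / (8 * ε))⁻¹ ≤ 4 / 5 := by
        rw [one_div, inv_inv]
        nlinarith
      linarith
    have h4 := Real.log_two_lt_d9
    have h5 : (0 : ℝ) ≤ (d : ℝ) - kV d - 1 := by linarith
    have h7 : (1000 : ℝ) ≤ (d : ℝ) - kV d - 1 := by linarith
    have h6 : (1000 : ℝ) * (1 / 5) ≤ ((d : ℝ) - kV d - 1) * Real.log (1 / (8 * ε)) :=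
      mul_le_mul h7 h3 (by norm_num) h5
    simp only [hΛ]
    linarith
  -- lower bound
  have hlow : ∀ q, chainP F q0 m q * ((2 / 3) * ((∫ s, chainDens F q0 m q s * A q s ∂(sig d)) * Λ - Real.log 2)) ≤
      chainP F q0 m q * Phi (kV d) (chainDens F q0 m q) := by
    intro q
    rcases (chainP_nonneg F q0 m q).eq_or_lt with h | h
    · rw [← h]
      simp
    · refine mul_le_mul_of_nonneg_left ?_ h.le
      have h1 : 4 * kV d ≤ d := by unfold kV; omega
      exact Phi_end (by omega) h1 (chainDens_isDens hd0 hF q0 m q h) (v q) (hv q) ε hε hε'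
  have hθ : ∀ q, chainP F q0 m q * ∫ s, chainDens F q0 m q s * A q s ∂(sig d) =
      ∫ s, chainLaw F q0 m q s * A q s ∂(sig d) := by
    intro q
    rw [← integral_const_mul]
    refine integral_congr_ae ?_
    filter_upwards [chainLaw_ae_eq hd0 hF q0 m q] with s hs
    rw [hs]
    ring
  have hint : ∀ q, Integrable (fun s => chainLaw F q0 m q s * A q s) (sig d) := by
    intro q
    refine Integrable.of_bound ((chainLaw_measurable hF q0 m q).mul (hAm q)).aestronglyMeasurable 1
      (Filter.Eventually.of_forall fun s => ?_)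
    have h0 := chainLaw_nonneg F q0 m q s
    have h1 := chainLaw_le_one hF q0 m q s
    rw [Real.norm_eq_abs, abs_of_nonneg (mul_nonneg h0 (hA0 q s))]
    have := hA0 q s
    have := hA1 q s
    nlinarith
  have hΘ : ∑ q, chainP F q0 m q * ∫ s, chainDens F q0 m q s * A q s ∂(sig d) =
      ∫ s : Sph d, ∑ q, chainLaw F q0 m q s * A q s ∂(sig d) := by
    rw [integral_finsetSum _ fun q _ => hint q]
    exact Finset.sum_congr rfl fun q _ => hθ q
  have hP1 := chainP_sum hd0 hF q0 m
  have hPot : (2 / 3) * ((∫ s : Sph d, ∑ q, chainLaw F q0 m q s * A q s ∂(sig d)) * Λ - Real.log 2) ≤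
      chainPot (kV d) F q0 m := by
    unfold chainPot
    refine le_trans (le_of_eq ?_) (Finset.sum_le_sum fun q _ => hlow q)
    rw [← hΘ]
    have : ∀ q, chainP F q0 m q * ((2 / 3) * ((∫ s, chainDens F q0 m q s * A q s ∂(sig d)) * Λ - Real.log 2)) =
        (2 / 3) * Λ * (chainP F q0 m q * ∫ s, chainDens F q0 m q s * A q s ∂(sig d)) -
          (2 / 3) * Real.log 2 * chainP F q0 m q := fun q => by ring
    simp only [this]
    rw [Finset.sum_sub_distrib, ← Finset.mul_sum, ← Finset.mul_sum, hP1]
    ring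
  have hfin := hup m
  have hlog2 : 0 < Real.log 2 := Real.log_pos one_lt_two
  set Θ := ∫ s : Sph d, ∑ q, chainLaw F q0 m q s * A q s ∂(sig d) with hΘdef
  have hΘ2 : 2 / 3 ≤ Θ := hsucc
  have h7 : (2 / 3) * Λ ≤ Θ * Λ := mul_le_mul_of_nonneg_right hΘ2 hΛ0
  nlinarith

end Crest.Agent.MS
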