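import Mathlib
import Crest.Prelude.Def_StreamLearn

/-!
# S0499 (memory-sample lower bound): core definitions.

See `Crest/Agent/Lib/MS/Blueprint.lean` for the mathematical plan.
-/

set_option autoImplicit false

namespace Crest.Agent.MS

open MeasureTheory ProbabilityTheory
open Crest.StreamLearn (E Sphere sphereUniform)

/-- The unit sphere of `ℝ^d` as a type. -/
abbrev Sph (d : ℕ) := Sphere d

/-- The uniform law on the sphere. -/
noncomputable abbrev sig (d : ℕ) : Measure (Sph d) := sphereUniform d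

/-- `r × d` matrices, as `r` rows. -/
abbrev Mat (d r : ℕ) := Fin r → E d

/-- The law of a Gaussian matrix: `r` i.i.d. standard Gaussian rows. -/
noncomputable abbrev gam (d r : ℕ) : Measure (Mat d r) :=
  Measure.pi fun _ : Fin r => stdGaussian (E d)

variable {d r : ℕ}

/-- The measurements `X z = (⟪x_j, z⟫)_j`. -/
noncomputable def mv (X : Mat d r) (z : E d) : Fin r → ℝ := fun j => inner ℝ (X j) z

/-- `X` as a linear map `E d → E r`. -/
noncomputable def Aop (X : Mat d r) : E d →ₗ[ℝ] E r where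
  toFun z := WithLp.toLp 2 (mv X z)
  map_add' a b := by
    ext j; simp [mv, inner_add_right]
  map_smul' c a := by
    ext j; simp [mv, inner_smul_right]

/-- Probability densities on the sphere that are bounded. -/
structure IsDens (ψ : Sph d → ℝ) : Prop where
  meas : Measurable ψ
  nonneg : ∀ s, 0 ≤ ψ s
  bdd : ∃ L : ℝ, ∀ s, ψ s ≤ L
  int_one : ∫ s, ψ s ∂(sig d) = 1

/-- relative entropy of `ψ σ` with respect to `σ`. -/
noncomputable def D0 (ψ : Sph d → ℝ) : ℝ := ∫ s, ψ s * Real.log (ψ s) ∂(sig d)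

/-- distance from `z` to the span of a family. -/
noncomputable def dS {ι F : Type*} [NormedAddCommGroup F] [InnerProductSpace ℝ F]
    (u : ι → F) (z : F) : ℝ :=
  Metric.infDist z (Submodule.span ℝ (Set.range u) : Set F)

/-- Law of `(X, Xs)` under `s ~ ψ σ`, `X ~ gam`. -/
noncomputable def pushJoint (k : ℕ) (ψ : Sph d → ℝ) : Measure (Mat d k × (Fin k → ℝ)) :=
  (((sig d).prod (gam d k)).withDensity (fun p => ENNReal.ofReal (ψ p.1))).map
    (fun p => (p.2, mv p.2 (p.1 : E d)))

/-- The density of the law of `(X, Xs)` under `ψ σ` relative to its law under `σ`. It plays the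
role of `E_σ [ψ | X, Xs]`. -/
noncomputable def fib (k : ℕ) (ψ : Sph d → ℝ) (p : Mat d k × (Fin k → ℝ)) : ℝ :=
  ((pushJoint k ψ).rnDeriv (pushJoint k (fun _ => (1 : ℝ))) p).toReal

/-- The potential `Φ(ψ) = I(q; s | X, Xs)`-contribution `= ∫∫ ψ log (ψ / E[ψ | X, Xs])`. -/
noncomputable def Phi (k : ℕ) (ψ : Sph d → ℝ) : ℝ :=
  ∫ p : Sph d × Mat d k, ψ p.1 * Real.log (ψ p.1 / fib k ψ (p.2, mv p.2 (p.1 : E d)))
    ∂((sig d).prod (gam d k))

/-- The probability that the label of a fresh block of `B` rows equals `q`, given `s`. -/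
noncomputable def labelProb {B : ℕ} {Q : Type*} (F : Mat d B → (Fin B → ℝ) → Q) (q : Q)
    (s : Sph d) : ℝ :=
  (gam d B).real {X | F X (mv X (s : E d)) = q}

/-- The probability of a label under the prior `ψ` and a conditional law `p`. -/
noncomputable def margP {Q : Type*} (ψ : Sph d → ℝ) (p : Q → Sph d → ℝ) (q : Q) : ℝ :=
  ∫ s, ψ s * p q s ∂(sig d)

/-- The posterior density of `s` given the label `q`. -/
noncomputable def post {Q : Type*} (ψ : Sph d → ℝ) (p : Q → Sph d → ℝ) (q : Q) : Sph d → ℝ :=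
  fun s => ψ s * p q s / margP ψ p q

/-- Block parameters. `bB d = 2 * (d / 64)`, `kV d = d / 4`, `nT d = d / 16`. -/
def bB (d : ℕ) : ℕ := 2 * (d / 64)
/-- number of fictitious rows -/
def kV (d : ℕ) : ℕ := d / 4
/-- tuple size minus one -/
def nT (d : ℕ) : ℕ := d / 16

end Crest.Agent.MS
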