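import Crest.Agent.Lib.MS.Defs

/-!
# S0499 module `GaussBasic`: Gaussian matrices, basic laws.

Mathlib: `stdGaussian`, `stdGaussian_map` (isometries), `stdGaussian_eq_map_pi_orthonormalBasis`,
`map_pi_eq_stdGaussian`, `charFun_stdGaussian`, `Measure.ext_of_charFun`, `Measure.pi_map_pi`,
`measurePreserving_arrowProdEquivProdArrow`.
-/

set_option autoImplicit false

namespace Crest.Agent.MS

open MeasureTheory ProbabilityTheory
open Crest.StreamLearn (E Sphere sphereUniform)

variable {d r k : ℕ}

/-- `dS` is jointly measurable. (Infimum over countably many rational combinations.) -/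
theorem measurable_dS {ι F : Type*} [Fintype ι] [NormedAddCommGroup F] [InnerProductSpace ℝ F]
    [MeasurableSpace F] [BorelSpace F] [SecondCountableTopology F] :
    Measurable (fun p : (ι → F) × F => dS p.1 p.2) := by
  classical
  refine measurable_of_Iio fun t => ?_
  have hset : (fun p : (ι → F) × F => dS p.1 p.2) ⁻¹' Set.Iio t =
      ⋃ c : ι → ℚ, {p : (ι → F) × F | dist p.2 (∑ i, ((c i : ℝ)) • p.1 i) < t} := by
    ext p
    simp only [Set.mem_preimage, Set.mem_Iio, Set.mem_iUnion, Set.mem_ofPred_eq, dS]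
    rw [Metric.infDist_lt_iff (⟨0, Submodule.zero_mem _⟩ : (↑(Submodule.span ℝ (Set.range p.1)) :
      Set F).Nonempty)]
    constructor
    · rintro ⟨w, hw, hd⟩
      obtain ⟨a, rfl⟩ := (Submodule.mem_span_range_iff_exists_fun ℝ).1 (SetLike.mem_coe.1 hw)
      -- density of the rationals
      have hdense : DenseRange (fun (c : ι → ℚ) (i : ι) => (c i : ℝ)) :=
        DenseRange.piMap (fun _ => Rat.denseRange_cast)
      have hopen : IsOpen {b : ι → ℝ | dist p.2 (∑ i, b i • p.1 i) < t} :=
        isOpen_lt (by fun_prop) continuous_const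
      obtain ⟨c, hc⟩ := hdense.exists_mem_open hopen ⟨a, hd⟩
      exact ⟨c, hc⟩
    · rintro ⟨c, hc⟩
      refine ⟨_, ?_, hc⟩
      exact Submodule.sum_mem _ fun i _ =>
        Submodule.smul_mem _ _ (Submodule.subset_span ⟨i, rfl⟩)
  rw [hset]
  refine MeasurableSet.iUnion fun c => ?_
  refine measurableSet_lt ?_ measurable_const
  refine Measurable.dist measurable_snd ?_
  refine Finset.measurable_sum _ fun i _ => ?_
  exact ((measurable_pi_apply i).comp measurable_fst).const_smul _

/-- Joint measurability of `(X, z) ↦ X z`. -/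
theorem measurable_mv : Measurable (fun p : Mat d r × E d => mv p.1 p.2) := by
  refine measurable_pi_lambda _ fun j => ?_
  exact ((measurable_pi_apply j).comp measurable_fst).inner measurable_snd

/-- Joint measurability of `(X, z) ↦ Aop X z`. -/
theorem measurable_Aop : Measurable (fun p : Mat d r × E d => Aop p.1 p.2) :=
  (MeasurableEquiv.toLp 2 (Fin r → ℝ)).measurable.comp measurable_mv

/-- `x ↦ ⟪x, z⟫` under the standard Gaussian. -/
private lemma stdGaussian_map_inner (z : E d) (hz : ‖z‖ = 1) :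
    (stdGaussian (E d)).map (fun x => (inner ℝ x z : ℝ)) = gaussianReal 0 1 := by
  let L : StrongDual ℝ (E d) := (innerSL ℝ z)
  have hL : (fun x => (inner ℝ x z : ℝ)) = L := by
    ext x
    simp [L, real_inner_comm]
  have hnorm : ‖L‖ = 1 := by
    simp [L, hz]
  rw [hL, IsGaussian.map_eq_gaussianReal L, integral_strongDual_stdGaussian,
    variance_dual_stdGaussian, hnorm]
  simp

/-- For a fixed unit vector the measurements are i.i.d. standard normal. -/
theorem gam_map_mv (z : E d) (hz : ‖z‖ = 1) :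
    (gam d r).map (fun X => mv X z) = Measure.pi fun _ : Fin r => gaussianReal 0 1 := by
  have hm : ∀ _ : Fin r, AEMeasurable (fun x : E d => (inner ℝ x z : ℝ)) (stdGaussian (E d)) :=
    fun _ => (measurable_id.inner measurable_const).aemeasurable
  have := Measure.pi_map_pi (μ := fun _ : Fin r => stdGaussian (E d))
    (f := fun _ : Fin r => fun x : E d => (inner ℝ x z : ℝ))
    (hμ := fun _ => by rw [stdGaussian_map_inner z hz]; infer_instance) hm
  simp only [stdGaussian_map_inner z hz] at this
  exact this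

/-- The same as an element of `E r`. -/
theorem gam_map_Aop (z : E d) (hz : ‖z‖ = 1) :
    (gam d r).map (fun X => Aop X z) = stdGaussian (E r) := by
  have hcomp : (fun X : Mat d r => Aop X z) = (WithLp.toLp 2) ∘ (fun X => mv X z) := rfl
  have hmv : Measurable (fun X : Mat d r => mv X z) :=
    measurable_mv.comp (measurable_id.prodMk measurable_const)
  rw [hcomp, ← Measure.map_map (by fun_prop) hmv, gam_map_mv z hz, map_pi_eq_stdGaussian]

/-- Resampling one direction in one row. -/
theorem resample_row (w : E d) (hw : ‖w‖ = 1) :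
    ((stdGaussian (E d)).prod (gaussianReal 0 1)).map
      (fun p => p.1 - (inner ℝ p.1 w : ℝ) • w + p.2 • w) = stdGaussian (E d) := by
  have hmeas : Measurable (fun p : E d × ℝ => p.1 - (inner ℝ p.1 w : ℝ) • w + p.2 • w) := by
    fun_prop
  have : IsProbabilityMeasure (((stdGaussian (E d)).prod (gaussianReal 0 1)).map
      (fun p : E d × ℝ => p.1 - (inner ℝ p.1 w : ℝ) • w + p.2 • w)) :=
    Measure.isProbabilityMeasure_map hmeas.aemeasurable
  refine Measure.ext_of_charFun ?_
  ext t
  set a : ℝ := inner ℝ w t with ha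
  set t' : E d := t - a • w with ht'
  have hinner : ∀ p : E d × ℝ, (inner ℝ (p.1 - (inner ℝ p.1 w : ℝ) • w + p.2 • w) t : ℝ) =
      inner ℝ p.1 t' + a * p.2 := by
    intro p
    simp only [inner_add_left, inner_sub_left, inner_smul_left, ht', inner_sub_right,
      inner_smul_right, RCLike.conj_to_real]
    rw [← ha, real_inner_comm w p.1]
    ring
  have hexp : ∀ p : E d × ℝ,
      Complex.exp (((inner ℝ (p.1 - (inner ℝ p.1 w : ℝ) • w + p.2 • w) t : ℝ) : ℂ) * Complex.I) =
        Complex.exp (((inner ℝ p.1 t' : ℝ) : ℂ) * Complex.I) *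
          Complex.exp (((a : ℝ) : ℂ) * ((p.2 : ℝ) : ℂ) * Complex.I) := by
    intro p
    rw [hinner, ← Complex.exp_add]
    congr 1
    push_cast
    ring
  have hnorm : ‖t'‖ ^ 2 = ‖t‖ ^ 2 - a ^ 2 := by
    rw [ht', @norm_sub_sq_real, norm_smul, real_inner_smul_right, real_inner_comm, ← ha, hw]
    simp only [Real.norm_eq_abs, mul_one, sq_abs]
    ring
  rw [charFun_apply, integral_map hmeas.aemeasurable
    (Measurable.aestronglyMeasurable (by fun_prop))]
  simp_rw [hexp]
  rw [integral_prod_mul (fun x : E d => Complex.exp (((inner ℝ x t' : ℝ) : ℂ) * Complex.I))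
    (fun y : ℝ => Complex.exp (((a : ℝ) : ℂ) * ((y : ℝ) : ℂ) * Complex.I))]
  have h1 : ∫ x : E d, Complex.exp (((inner ℝ x t' : ℝ) : ℂ) * Complex.I) ∂(stdGaussian (E d)) =
      charFun (stdGaussian (E d)) t' := (charFun_apply _).symm
  have h2 : ∫ y : ℝ, Complex.exp (((a : ℝ) : ℂ) * ((y : ℝ) : ℂ) * Complex.I) ∂(gaussianReal 0 1) =
      charFun (gaussianReal 0 1) a := (charFun_apply_real a).symm
  rw [h1, h2, charFun_stdGaussian, charFun_gaussianReal, charFun_stdGaussian, ← Complex.exp_add]
  congr 1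
  have hnorm' : ((‖t'‖ : ℝ) : ℂ) ^ 2 = ((‖t‖ : ℝ) : ℂ) ^ 2 - ((a : ℝ) : ℂ) ^ 2 := by
    exact_mod_cast hnorm
  rw [hnorm']
  push_cast
  ring

/-- Resampling one direction in all rows. -/
theorem resample_mat (w : E d) (hw : ‖w‖ = 1) :
    ((gam d r).prod (Measure.pi fun _ : Fin r => gaussianReal 0 1)).map
      (fun p => fun j => p.1 j - (inner ℝ (p.1 j) w : ℝ) • w + (p.2 j) • w) = gam d r := by
  have hMP := measurePreserving_arrowProdEquivProdArrow (E d) ℝ (Fin r)
    (fun _ => stdGaussian (E d)) (fun _ => gaussianReal 0 1)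
  have hf : Measurable (fun p : E d × ℝ => p.1 - (inner ℝ p.1 w : ℝ) • w + p.2 • w) := by
    fun_prop
  have hF : Measurable (fun p : Mat d r × (Fin r → ℝ) =>
      fun j => p.1 j - (inner ℝ (p.1 j) w : ℝ) • w + (p.2 j) • w) := by
    refine measurable_pi_lambda _ fun j => ?_
    have h1 : Measurable (fun p : Mat d r × (Fin r → ℝ) => p.1 j) :=
      (measurable_pi_apply j).comp measurable_fst
    have h2 : Measurable (fun p : Mat d r × (Fin r → ℝ) => p.2 j) :=
      (measurable_pi_apply j).comp measurable_snd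
    exact hf.comp (h1.prodMk h2)
  change ((Measure.pi fun _ : Fin r => stdGaussian (E d)).prod
    (Measure.pi fun _ : Fin r => gaussianReal 0 1)).map _ = _
  rw [← hMP.map_eq, Measure.map_map hF hMP.measurable]
  have hcomp : (fun p : Mat d r × (Fin r → ℝ) =>
      fun j => p.1 j - (inner ℝ (p.1 j) w : ℝ) • w + (p.2 j) • w) ∘
        (MeasurableEquiv.arrowProdEquivProdArrow (E d) ℝ (Fin r)) =
      fun (x : Fin r → E d × ℝ) j => (fun p : E d × ℝ => p.1 - (inner ℝ p.1 w : ℝ) • w + p.2 • w)
        (x j) := rfl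
  rw [hcomp]
  have hmap := resample_row w hw
  have := Measure.pi_map_pi (μ := fun _ : Fin r => (stdGaussian (E d)).prod (gaussianReal 0 1))
    (f := fun _ : Fin r => fun p : E d × ℝ => p.1 - (inner ℝ p.1 w : ℝ) • w + p.2 • w)
    (hμ := fun _ => by rw [hmap]; infer_instance) (fun _ => hf.aemeasurable)
  rw [this]
  simp only [hmap]

/-- `‖x‖²` is integrable. -/
theorem integrable_norm_sq_stdGaussian :
    Integrable (fun x => ‖x‖ ^ 2) (stdGaussian (E d)) :=
  (IsGaussian.memLp_two_id (μ := stdGaussian (E d))).integrable_norm_pow (by norm_num)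

/-- Second moment of the norm. -/
theorem integral_norm_sq_stdGaussian :
    ∫ x, ‖x‖ ^ 2 ∂(stdGaussian (E d)) = d := by
  rw [← map_pi_eq_stdGaussian, integral_map (by fun_prop) (by fun_prop)]
  have hsq : ∀ x : Fin d → ℝ, ‖(WithLp.toLp 2 x : E d)‖ ^ 2 = ∑ i, x i ^ 2 := by
    intro x
    rw [EuclideanSpace.real_norm_sq_eq]
  simp_rw [hsq]
  have hint : Integrable (fun y : ℝ => y ^ 2) (gaussianReal 0 1) :=
    (IsGaussian.memLp_two_id (μ := gaussianReal 0 1)).integrable_sq
  have hint' : ∀ i : Fin d, Integrable (fun x : Fin d → ℝ => x i ^ 2)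
      (Measure.pi fun _ : Fin d => gaussianReal 0 1) := fun i =>
    integrable_comp_eval (μ := fun _ : Fin d => gaussianReal 0 1) (i := i) hint
  rw [integral_finsetSum _ (fun i _ => hint' i)]
  have h1 : ∀ i : Fin d, ∫ x : Fin d → ℝ, x i ^ 2 ∂(Measure.pi fun _ : Fin d => gaussianReal 0 1)
      = 1 := by
    intro i
    rw [integral_comp_eval (μ := fun _ : Fin d => gaussianReal 0 1) (i := i)
      (f := fun y : ℝ => y ^ 2) hint.aestronglyMeasurable]
    have hv := variance_of_integral_eq_zero (μ := gaussianReal 0 1) (X := id)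
      aemeasurable_id (by simp)
    rw [variance_id_gaussianReal] at hv
    simpa using hv.symm
  simp [h1]

/-- Radial form of the standard Gaussian: the density formula
`∫ f(‖x‖) dγ = (2π)^{-r/2} ∫ f(‖x‖) exp(-‖x‖²/2) dx`, for `f ≥ 0`. -/
theorem lintegral_stdGaussian_eq (f : E r → ENNReal) (hf : Measurable f) :
    ∫⁻ x, f x ∂(stdGaussian (E r)) =
      ∫⁻ x, f x * ENNReal.ofReal ((2 * Real.pi) ^ (-(r : ℝ) / 2) * Real.exp (-‖x‖ ^ 2 / 2)) := by
  set c : ℝ := (2 * Real.pi) ^ (-(r : ℝ) / 2) with hc
  have hcpos : 0 < c := Real.rpow_pos_of_pos (by positivity) _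
  set g : E r → ENNReal := fun x => ENNReal.ofReal (c * Real.exp (-‖x‖ ^ 2 / 2)) with hg
  have hgm : Measurable g := by
    refine ENNReal.measurable_ofReal.comp ?_
    fun_prop
  have hgR : ∀ x, (g x).toReal = c * Real.exp (-‖x‖ ^ 2 / 2) := fun x =>
    ENNReal.toReal_ofReal (by positivity)
  have hgtop : ∀ x, g x < ⊤ := fun x => ENNReal.ofReal_lt_top
  -- the integral of the density
  have hexp : ∀ x : E r, -(1 / 2 : ℝ) * ‖x‖ ^ 2 = -‖x‖ ^ 2 / 2 := fun x => by ring
  have hI0 : ∫ v : E r, Real.exp (-‖v‖ ^ 2 / 2) = (2 * Real.pi) ^ ((r : ℝ) / 2) := by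
    have := GaussianFourier.integral_rexp_neg_mul_sq_norm (V := E r) (b := 1 / 2) (by norm_num)
    simp only [hexp] at this
    rw [this]
    simp only [finrank_euclideanSpace, Fintype.card_fin]
    congr 1
    ring
  have hcI : c * (2 * Real.pi) ^ ((r : ℝ) / 2) = 1 := by
    rw [hc, ← Real.rpow_add (by positivity)]
    simp [neg_div]
  have hintg : Integrable (fun v : E r => Real.exp (-‖v‖ ^ 2 / 2)) := by
    have := (GaussianFourier.integrable_cexp_neg_mul_sq_norm_add (V := E r) (b := ((1 / 2 : ℝ) : ℂ))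
      (by simp) 0 0).re
    refine this.congr (Filter.Eventually.of_forall fun v => ?_)
    simp only [RCLike.re_to_complex, zero_mul, add_zero]
    rw [← Complex.ofReal_pow, ← Complex.ofReal_neg, ← Complex.ofReal_mul, Complex.exp_ofReal_re,
      hexp]
  -- the measure
  set ν : Measure (E r) := volume.withDensity g with hν
  have hνuniv : ν Set.univ = 1 := by
    rw [hν, withDensity_apply _ MeasurableSet.univ, Measure.restrict_univ, hg,
      ← ofReal_integral_eq_lintegral_ofReal (hintg.const_mul c)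
        (Filter.Eventually.of_forall fun x => by positivity), integral_const_mul, hI0, hcI]
    simp
  have hνprob : IsProbabilityMeasure ν := ⟨hνuniv⟩
  have hmain : stdGaussian (E r) = ν := by
    refine Measure.ext_of_charFun ?_
    ext t
    rw [charFun_stdGaussian, charFun_apply, hν,
      integral_withDensity_eq_integral_toReal_smul hgm (Filter.Eventually.of_forall hgtop)]
    have hexp2 : ∀ v : E r, (g v).toReal • Complex.exp (((inner ℝ v t : ℝ) : ℂ) * Complex.I) =
        (c : ℂ) * Complex.exp (-((1 / 2 : ℝ) : ℂ) * ((‖v‖ : ℝ) : ℂ) ^ 2 +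
          Complex.I * ((inner ℝ t v : ℝ) : ℂ)) := by
      intro v
      rw [hgR, Complex.real_smul, Complex.ofReal_mul, mul_assoc, Complex.ofReal_exp,
        ← Complex.exp_add, real_inner_comm t v]
      congr 2
      push_cast
      ring
    simp_rw [hexp2]
    rw [integral_const_mul, GaussianFourier.integral_cexp_neg_mul_sq_norm_add (V := E r)
      (b := ((1 / 2 : ℝ) : ℂ)) (by simp) Complex.I t]
    simp only [finrank_euclideanSpace, Fintype.card_fin]
    have hpow : ((Real.pi : ℂ) / ((1 / 2 : ℝ) : ℂ)) ^ ((r : ℂ) / 2) =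
        (((2 * Real.pi) ^ ((r : ℝ) / 2) : ℝ) : ℂ) := by
      rw [Complex.ofReal_cpow (by positivity)]
      congr 1
      · push_cast
        ring
      · push_cast
        ring
    rw [hpow, ← mul_assoc, ← Complex.ofReal_mul, hcI]
    simp only [Complex.ofReal_one, one_mul]
    congr 1
    rw [Complex.I_sq]
    push_cast
    ring
  rw [hmain, hν, lintegral_withDensity_eq_lintegral_mul _ hgm hf]
  refine lintegral_congr fun x => ?_
  simp only [Pi.mul_apply, hg]
  exact mul_comm _ _

end Crest.Agent.MS
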