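import Crest.Agent.Lib.MS.SphereBasic
import Crest.Agent.Lib.MS.GaussBasic

/-!
# S0499 module `FibBasic`: the conditional density `fib`.

Write `μ = σ ⊗ gam d k` on `Sph d × Mat d k`, and for `p = (s, X)` write `h ψ p = fib k ψ (X, X s)`.
`h ψ` plays the role of the conditional expectation of `ψ` given `(X, Xs)`.  `fib k ψ` is the
Radon-Nikodym derivative of `pushJoint k ψ` w.r.t. `pushJoint k 1`.  When `ψ ≤ L`, `pushJoint k ψ ≤
L • pushJoint k 1`, hence absolute continuity and `fib ≤ L` a.e.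
-/

set_option autoImplicit false

namespace Crest.Agent.MS

open MeasureTheory ProbabilityTheory
open Crest.StreamLearn (E Sphere sphereUniform)

variable {d k : ℕ}

/-- The map `(s, X) ↦ (X, X s)`. -/
noncomputable abbrev Tmv (d k : ℕ) : Sph d × Mat d k → Mat d k × (Fin k → ℝ) :=
  fun p => (p.2, mv p.2 (p.1 : E d))

/-- Measurability of `(s, X) ↦ (X, X s)`. -/
theorem measurable_mv_pair {r : ℕ} :
    Measurable (fun p : Sph d × Mat d r => (p.2, mv p.2 (p.1 : E d))) := by
  refine measurable_snd.prodMk ?_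
  exact (measurable_mv (d := d) (r := r)).comp
    (measurable_snd.prodMk (measurable_subtype_coe.comp measurable_fst))

theorem measurable_fib (ψ : Sph d → ℝ) : Measurable (fib k ψ) := by
  exact (Measure.measurable_rnDeriv _ _).ennreal_toReal

theorem measurable_Tmv : Measurable (Tmv d k) := measurable_mv_pair

theorem measurable_ofReal_comp_fst {ψ : Sph d → ℝ} (hψ : Measurable ψ) :
    Measurable (fun p : Sph d × Mat d k => ENNReal.ofReal (ψ p.1)) :=
  ENNReal.measurable_ofReal.comp (hψ.comp measurable_fst)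

/-- Integrating against `pushJoint`. -/
theorem lintegral_pushJoint {ψ : Sph d → ℝ} (hψ : Measurable ψ)
    {g : Mat d k × (Fin k → ℝ) → ENNReal} (hg : Measurable g) :
    ∫⁻ y, g y ∂(pushJoint k ψ) =
      ∫⁻ p : Sph d × Mat d k, ENNReal.ofReal (ψ p.1) * g (Tmv d k p) ∂((sig d).prod (gam d k)) := by
  unfold pushJoint
  rw [lintegral_map hg measurable_Tmv]
  change ∫⁻ a, (g ∘ Tmv d k) a ∂_ = _
  rw [lintegral_withDensity_eq_lintegral_mul _ (measurable_ofReal_comp_fst hψ)
      (hg.comp measurable_Tmv)]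
  rfl

theorem pushJoint_one :
    pushJoint k (fun _ : Sph d => (1 : ℝ)) = ((sig d).prod (gam d k)).map (Tmv d k) := by
  unfold pushJoint
  congr 1
  have : (fun _ : Sph d × Mat d k => ENNReal.ofReal (1 : ℝ)) = 1 := by
    funext p
    simp
  rw [this, withDensity_one]

/-- Comparison of the push-forwards. -/
theorem pushJoint_le {ψ ψ' : Sph d → ℝ} (hψ : Measurable ψ) (hψ' : Measurable ψ')
    {c : ℝ} (hc : ∀ s, ψ s ≤ c * ψ' s) (hψ'0 : ∀ s, 0 ≤ ψ' s) :
    pushJoint k ψ ≤ ENNReal.ofReal c • pushJoint k ψ' := by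
  refine Measure.le_iff.mpr fun A hA => ?_
  have hind : Measurable (A.indicator (1 : Mat d k × (Fin k → ℝ) → ENNReal)) :=
    measurable_one.indicator hA
  have h1 : ∀ φ : Sph d → ℝ, Measurable φ → pushJoint k φ A =
      ∫⁻ p : Sph d × Mat d k, ENNReal.ofReal (φ p.1) *
        A.indicator (1 : Mat d k × (Fin k → ℝ) → ENNReal) (Tmv d k p) ∂((sig d).prod (gam d k)) := by
    intro φ hφ
    rw [← lintegral_pushJoint hφ hind, lintegral_indicator_one hA]
  have hconst := lintegral_const_mul (μ := (sig d).prod (gam d k)) (ENNReal.ofReal c)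
    (f := fun p : Sph d × Mat d k => ENNReal.ofReal (ψ' p.1) *
        A.indicator (1 : Mat d k × (Fin k → ℝ) → ENNReal) (Tmv d k p))
    ((measurable_ofReal_comp_fst hψ').mul (hind.comp measurable_Tmv))
  rw [Measure.smul_apply, smul_eq_mul, h1 ψ hψ, h1 ψ' hψ', ← hconst]
  refine lintegral_mono fun p => ?_
  rw [← mul_assoc]
  gcongr
  rw [← ENNReal.ofReal_mul' (hψ'0 _)]
  exact ENNReal.ofReal_le_ofReal (hc _)

theorem pushJoint_le_one [IsProbabilityMeasure (sig d)] {ψ : Sph d → ℝ} (hψ : IsDens ψ) :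
    ∃ L : ENNReal, L ≠ ⊤ ∧ pushJoint k ψ ≤ L • pushJoint k (fun _ : Sph d => (1 : ℝ)) := by
  obtain ⟨L, hL⟩ := hψ.bdd
  refine ⟨ENNReal.ofReal L, ENNReal.ofReal_ne_top, ?_⟩
  exact pushJoint_le hψ.meas measurable_const (c := L) (fun s => by simpa using hL s)
    (fun _ => zero_le_one)

instance [IsProbabilityMeasure (sig d)] :
    IsProbabilityMeasure (pushJoint k (fun _ : Sph d => (1 : ℝ))) := by
  rw [pushJoint_one]
  exact Measure.isProbabilityMeasure_map measurable_Tmv.aemeasurable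

theorem pushJoint_finite [IsProbabilityMeasure (sig d)] {ψ : Sph d → ℝ} (hψ : IsDens ψ) :
    IsFiniteMeasure (pushJoint k ψ) := by
  obtain ⟨L, hL, hle⟩ := pushJoint_le_one (k := k) hψ
  have : IsFiniteMeasure (L • pushJoint k (fun _ : Sph d => (1 : ℝ))) :=
    Measure.smul_finite _ hL
  exact isFiniteMeasure_of_le _ hle

theorem pushJoint_ac [IsProbabilityMeasure (sig d)] {ψ : Sph d → ℝ} (hψ : IsDens ψ) :
    pushJoint k ψ ≪ pushJoint k (fun _ : Sph d => (1 : ℝ)) := by
  obtain ⟨L, _, hle⟩ := pushJoint_le_one (k := k) hψ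
  exact Measure.absolutelyContinuous_of_le_smul hle

/-- `ofReal ∘ fib` is the Radon-Nikodym derivative, a.e. -/
theorem ofReal_fib_ae [IsProbabilityMeasure (sig d)] {ψ : Sph d → ℝ} (hψ : IsDens ψ) :
    ∀ᵐ y ∂(pushJoint k (fun _ : Sph d => (1 : ℝ))), ENNReal.ofReal (fib k ψ y) =
      (pushJoint k ψ).rnDeriv (pushJoint k (fun _ : Sph d => (1 : ℝ))) y := by
  have := pushJoint_finite (k := k) hψ
  filter_upwards [Measure.rnDeriv_ne_top (pushJoint k ψ) (pushJoint k (fun _ : Sph d => (1 : ℝ)))]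
    with y hy
  exact ENNReal.ofReal_toReal hy

/-- Transfer of a.e. statements along `Tmv`. -/
theorem ae_of_ae_pushJoint_one [IsProbabilityMeasure (sig d)]
    {P : Mat d k × (Fin k → ℝ) → Prop}
    (h : ∀ᵐ y ∂(pushJoint k (fun _ : Sph d => (1 : ℝ))), P y) :
    ∀ᵐ p ∂((sig d).prod (gam d k)), P (p.2, mv p.2 (p.1 : E d)) := by
  rw [pushJoint_one] at h
  exact ae_of_ae_map measurable_Tmv.aemeasurable h

theorem fib_nonneg (ψ : Sph d → ℝ) (p : Mat d k × (Fin k → ℝ)) : 0 ≤ fib k ψ p := by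
  exact ENNReal.toReal_nonneg

/-- The defining property (Tonelli form). -/
theorem fib_lintegral (hd : 0 < d) {ψ : Sph d → ℝ} (hψ : IsDens ψ)
    (g : Mat d k × (Fin k → ℝ) → ENNReal) (hg : Measurable g) :
    ∫⁻ p : Sph d × Mat d k, ENNReal.ofReal (ψ p.1) * g (p.2, mv p.2 (p.1 : E d))
        ∂((sig d).prod (gam d k)) =
      ∫⁻ p : Sph d × Mat d k,
        ENNReal.ofReal (fib k ψ (p.2, mv p.2 (p.1 : E d))) * g (p.2, mv p.2 (p.1 : E d))
        ∂((sig d).prod (gam d k)) := by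
  have := sig_isProb hd
  have := pushJoint_finite (k := k) hψ
  have h1 := lintegral_pushJoint (k := k) hψ.meas hg
  have h2 := lintegral_pushJoint (k := k) (ψ := fun _ : Sph d => (1 : ℝ)) measurable_const
    (g := fun y => ENNReal.ofReal (fib k ψ y) * g y)
    (((measurable_fib ψ).ennreal_ofReal).mul hg)
  simp only [ENNReal.ofReal_one, one_mul] at h2
  change ∫⁻ p : Sph d × Mat d k, ENNReal.ofReal (ψ p.1) * g (Tmv d k p) ∂_ =
    ∫⁻ p : Sph d × Mat d k, ENNReal.ofReal (fib k ψ (Tmv d k p)) * g (Tmv d k p) ∂_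
  rw [← h1, ← h2]
  rw [← lintegral_rnDeriv_mul (pushJoint_ac hψ) hg.aemeasurable]
  refine lintegral_congr_ae ?_
  filter_upwards [ofReal_fib_ae (k := k) hψ] with y hy
  rw [hy]

/-- The defining property (bounded functions). -/
theorem fib_integral (hd : 0 < d) {ψ : Sph d → ℝ} (hψ : IsDens ψ)
    (g : Mat d k × (Fin k → ℝ) → ℝ) (hg : Measurable g) (C : ℝ) (hC : ∀ x, |g x| ≤ C) :
    ∫ p : Sph d × Mat d k, ψ p.1 * g (p.2, mv p.2 (p.1 : E d)) ∂((sig d).prod (gam d k)) =
      ∫ p : Sph d × Mat d k, fib k ψ (p.2, mv p.2 (p.1 : E d)) * g (p.2, mv p.2 (p.1 : E d))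
        ∂((sig d).prod (gam d k)) := by
  have := sig_isProb hd
  have := pushJoint_finite (k := k) hψ
  have hm : AEStronglyMeasurable g (pushJoint k ψ) := hg.aestronglyMeasurable
  have hm1 : AEStronglyMeasurable (fun y => fib k ψ y * g y)
      (pushJoint k (fun _ : Sph d => (1 : ℝ))) :=
    ((measurable_fib ψ).mul hg).aestronglyMeasurable
  have h1 : ∫ y, g y ∂(pushJoint k ψ) =
      ∫ p : Sph d × Mat d k, ψ p.1 * g (Tmv d k p) ∂((sig d).prod (gam d k)) := by
    unfold pushJoint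
    rw [integral_map measurable_Tmv.aemeasurable (by
      have := hm
      unfold pushJoint at this
      exact this),
      integral_withDensity_eq_integral_toReal_smul (measurable_ofReal_comp_fst hψ.meas)
        (Filter.Eventually.of_forall fun _ => ENNReal.ofReal_lt_top)]
    refine integral_congr_ae (Filter.Eventually.of_forall fun p => ?_)
    simp [ENNReal.toReal_ofReal (hψ.nonneg p.1), smul_eq_mul]
  have h2 : ∫ y, fib k ψ y * g y ∂(pushJoint k (fun _ : Sph d => (1 : ℝ))) =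
      ∫ p : Sph d × Mat d k, fib k ψ (Tmv d k p) * g (Tmv d k p) ∂((sig d).prod (gam d k)) := by
    rw [pushJoint_one] at hm1 ⊢
    rw [integral_map measurable_Tmv.aemeasurable hm1]
  change ∫ p : Sph d × Mat d k, ψ p.1 * g (Tmv d k p) ∂_ =
    ∫ p : Sph d × Mat d k, fib k ψ (Tmv d k p) * g (Tmv d k p) ∂_
  rw [← h1, ← h2]
  have h3 := integral_rnDeriv_smul (μ := pushJoint k ψ)
    (ν := pushJoint k (fun _ : Sph d => (1 : ℝ))) (pushJoint_ac hψ) (f := g)
  rw [← h3]
  rfl

/-- Comparison of Radon-Nikodym derivatives. -/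
theorem rnDeriv_ae_le_mul {α : Type*} [MeasurableSpace α] {m₁ m₂ ν : Measure α} [IsFiniteMeasure m₁]
    [IsFiniteMeasure m₂] [IsFiniteMeasure ν] (h₁ : m₁ ≪ ν) (h₂ : m₂ ≪ ν) {c : ENNReal}
    (hle : m₁ ≤ c • m₂) : ∀ᵐ y ∂ν, m₁.rnDeriv ν y ≤ c * m₂.rnDeriv ν y := by
  refine ae_le_of_forall_setLIntegral_le_of_sigmaFinite (Measure.measurable_rnDeriv _ _) ?_
  intro A hA _
  rw [Measure.setLIntegral_rnDeriv h₁, lintegral_const_mul _ (Measure.measurable_rnDeriv _ _),
    Measure.setLIntegral_rnDeriv h₂]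
  have := hle A
  simpa [Measure.smul_apply, smul_eq_mul] using this

theorem IsDens.integrable [IsProbabilityMeasure (sig d)] {ψ : Sph d → ℝ} (hψ : IsDens ψ) :
    Integrable ψ (sig d) := by
  obtain ⟨L, hL⟩ := hψ.bdd
  refine Integrable.of_bound (C := L) hψ.meas.aestronglyMeasurable
    (Filter.Eventually.of_forall fun s => ?_)
  rw [Real.norm_of_nonneg (hψ.nonneg s)]
  exact hL s

theorem IsDens.lintegral_one [IsProbabilityMeasure (sig d)] {ψ : Sph d → ℝ} (hψ : IsDens ψ) :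
    ∫⁻ s, ENNReal.ofReal (ψ s) ∂(sig d) = 1 := by
  rw [← ofReal_integral_eq_lintegral_ofReal hψ.integrable
    (Filter.Eventually.of_forall hψ.nonneg), hψ.int_one, ENNReal.ofReal_one]

/-- Upper bound for `fib`. -/
theorem fib_ae_le (hd : 0 < d) {ψ : Sph d → ℝ} (hψ : IsDens ψ) (L : ℝ) (hL : ∀ s, ψ s ≤ L) :
    ∀ᵐ p ∂((sig d).prod (gam d k)), fib k ψ (p.2, mv p.2 (p.1 : E d)) ≤ L := by
  have := sig_isProb hd
  have := pushJoint_finite (k := k) hψ
  have hne : Nonempty (Sph d) := nonempty_of_isProbabilityMeasure (sig d)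
  have hL0 : 0 ≤ L := (hψ.nonneg hne.some).trans (hL _)
  refine ae_of_ae_pushJoint_one (d := d) (k := k) (P := fun y => fib k ψ y ≤ L) ?_
  have hle := pushJoint_le (k := k) hψ.meas measurable_const (c := L)
    (ψ' := fun _ : Sph d => (1 : ℝ)) (fun s => by simpa using hL s) (fun _ => zero_le_one)
  have h1 := rnDeriv_ae_le_mul (pushJoint_ac (k := k) hψ)
    (Measure.AbsolutelyContinuous.refl _) hle
  filter_upwards [h1, Measure.rnDeriv_self (pushJoint k (fun _ : Sph d => (1 : ℝ)))] with y hy hy1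
  rw [hy1, mul_one] at hy
  exact ENNReal.toReal_le_of_le_ofReal hL0 hy

/-- Comparison of `fib`: if `ψ₁ ≤ c ψ₂` then `fib ψ₁ ≤ c fib ψ₂` a.e. -/
theorem fib_ae_le_mul (hd : 0 < d) {ψ₁ ψ₂ : Sph d → ℝ} (h₁ : IsDens ψ₁) (h₂ : IsDens ψ₂) (c : ℝ)
    (hc : ∀ s, ψ₁ s ≤ c * ψ₂ s) :
    ∀ᵐ p ∂((sig d).prod (gam d k)),
      fib k ψ₁ (p.2, mv p.2 (p.1 : E d)) ≤ c * fib k ψ₂ (p.2, mv p.2 (p.1 : E d)) := by
  have := sig_isProb hd
  have := pushJoint_finite (k := k) h₁
  have := pushJoint_finite (k := k) h₂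
  have hc0 : 0 ≤ c := by
    by_contra hneg
    push Not at hneg
    have h0 : ∀ s, ψ₁ s = 0 := fun s =>
      le_antisymm ((hc s).trans (mul_nonpos_of_nonpos_of_nonneg hneg.le (h₂.nonneg s))) (h₁.nonneg s)
    have := h₁.int_one
    simp [h0] at this
  refine ae_of_ae_pushJoint_one (d := d) (k := k) (P := fun y => fib k ψ₁ y ≤ c * fib k ψ₂ y) ?_
  have hle := pushJoint_le (k := k) h₁.meas h₂.meas hc h₂.nonneg
  have h1 := rnDeriv_ae_le_mul (pushJoint_ac (k := k) h₁) (pushJoint_ac (k := k) h₂) hle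
  filter_upwards [h1, Measure.rnDeriv_ne_top (pushJoint k ψ₂)
    (pushJoint k (fun _ : Sph d => (1 : ℝ)))] with y hy hy2
  have h3 := ENNReal.toReal_mono (ENNReal.mul_ne_top ENNReal.ofReal_ne_top hy2) hy
  rwa [ENNReal.toReal_mul, ENNReal.toReal_ofReal hc0] at h3

/-- `ψ`-almost everywhere `fib ψ > 0`. -/
theorem fib_ae_pos (hd : 0 < d) {ψ : Sph d → ℝ} (hψ : IsDens ψ) :
    ∀ᵐ p ∂((sig d).prod (gam d k)), 0 < ψ p.1 → 0 < fib k ψ (p.2, mv p.2 (p.1 : E d)) := by
  have hZ : MeasurableSet {y : Mat d k × (Fin k → ℝ) | fib k ψ y = 0} :=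
    (measurable_fib ψ) (measurableSet_singleton 0)
  have hind : Measurable ({y : Mat d k × (Fin k → ℝ) | fib k ψ y = 0}.indicator
      (1 : Mat d k × (Fin k → ℝ) → ENNReal)) := measurable_one.indicator hZ
  have h1 := fib_lintegral (k := k) hd hψ _ hind
  have h2 : ∫⁻ p : Sph d × Mat d k,
        ENNReal.ofReal (fib k ψ (p.2, mv p.2 (p.1 : E d))) *
          {y : Mat d k × (Fin k → ℝ) | fib k ψ y = 0}.indicator (1 : Mat d k × (Fin k → ℝ) → ENNReal)
            (p.2, mv p.2 (p.1 : E d)) ∂((sig d).prod (gam d k)) = 0 := by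
    have hmm : Measurable (fun p : Sph d × Mat d k =>
        ENNReal.ofReal (fib k ψ (p.2, mv p.2 (p.1 : E d))) *
          {y : Mat d k × (Fin k → ℝ) | fib k ψ y = 0}.indicator (1 : Mat d k × (Fin k → ℝ) → ENNReal)
            (p.2, mv p.2 (p.1 : E d))) :=
      ((measurable_fib ψ).ennreal_ofReal.comp measurable_Tmv).mul (hind.comp measurable_Tmv)
    rw [lintegral_eq_zero_iff' hmm.aemeasurable]
    refine Filter.Eventually.of_forall fun p => ?_
    by_cases hp : fib k ψ (p.2, mv p.2 (p.1 : E d)) = 0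
    · simp [hp]
    · have : (p.2, mv p.2 (p.1 : E d)) ∉ {y : Mat d k × (Fin k → ℝ) | fib k ψ y = 0} := hp
      simp [Set.indicator_of_notMem this]
  have hmm2 : Measurable (fun p : Sph d × Mat d k => ENNReal.ofReal (ψ p.1) *
      {y : Mat d k × (Fin k → ℝ) | fib k ψ y = 0}.indicator (1 : Mat d k × (Fin k → ℝ) → ENNReal)
        (p.2, mv p.2 (p.1 : E d))) :=
    (measurable_ofReal_comp_fst hψ.meas).mul (hind.comp measurable_Tmv)
  rw [h2, lintegral_eq_zero_iff' hmm2.aemeasurable] at h1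
  filter_upwards [h1] with p hp hpos
  rcases (fib_nonneg ψ (p.2, mv p.2 (p.1 : E d))).lt_or_eq with h | h
  · exact h
  · exfalso
    have hmem : (p.2, mv p.2 (p.1 : E d)) ∈ {y : Mat d k × (Fin k → ℝ) | fib k ψ y = 0} := h.symm
    simp only [Pi.zero_apply, Set.indicator_of_mem hmem, Pi.one_apply, mul_one] at hp
    rw [ENNReal.ofReal_eq_zero] at hp
    linarith

/-- For a.e. `X`, `fib ψ (X, X·)` integrates to one over the sphere. -/
theorem fib_ae_int_one (hd : 0 < d) {ψ : Sph d → ℝ} (hψ : IsDens ψ) :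
    ∀ᵐ X ∂(gam d k), ∫ s : Sph d, fib k ψ (X, mv X (s : E d)) ∂(sig d) = 1 := by
  have := sig_isProb hd
  have hmeasT : Measurable (fun q : Mat d k × Sph d => fib k ψ (q.1, mv q.1 (q.2 : E d))) :=
    (measurable_fib ψ).comp (measurable_Tmv.comp measurable_swap)
  have hmh : Measurable (fun X : Mat d k =>
      ∫⁻ s : Sph d, ENNReal.ofReal (fib k ψ (X, mv X (s : E d))) ∂(sig d)) :=
    hmeasT.ennreal_ofReal.lintegral_prod_right'
  have hae : (fun X : Mat d k => ∫⁻ s : Sph d, ENNReal.ofReal (fib k ψ (X, mv X (s : E d))) ∂(sig d))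
      =ᵐ[gam d k] fun _ => 1 := by
    refine ae_eq_of_forall_setLIntegral_eq_of_sigmaFinite hmh measurable_const ?_
    intro A hA _
    have hg : Measurable (fun y : Mat d k × (Fin k → ℝ) =>
        A.indicator (1 : Mat d k → ENNReal) y.1) :=
      (measurable_one.indicator hA).comp measurable_fst
    have h1 := fib_lintegral (k := k) hd hψ _ hg
    have hL : ∫⁻ p : Sph d × Mat d k, ENNReal.ofReal (ψ p.1) *
        A.indicator (1 : Mat d k → ENNReal) p.2 ∂((sig d).prod (gam d k)) =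
        ∫⁻ X in A, 1 ∂(gam d k) := by
      have hmm : Measurable (fun p : Sph d × Mat d k => ENNReal.ofReal (ψ p.1) *
          A.indicator (1 : Mat d k → ENNReal) p.2) :=
        (measurable_ofReal_comp_fst hψ.meas).mul
          ((measurable_one.indicator hA).comp measurable_snd)
      rw [lintegral_prod_symm _ hmm.aemeasurable]
      rw [← lintegral_indicator hA]
      refine lintegral_congr fun X => ?_
      by_cases hX : X ∈ A
      · simp [hX, hψ.lintegral_one]
      · simp [hX]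
    have hR : ∫⁻ p : Sph d × Mat d k, ENNReal.ofReal (fib k ψ (p.2, mv p.2 (p.1 : E d))) *
        A.indicator (1 : Mat d k → ENNReal) p.2 ∂((sig d).prod (gam d k)) =
        ∫⁻ X in A, ∫⁻ s : Sph d, ENNReal.ofReal (fib k ψ (X, mv X (s : E d))) ∂(sig d) ∂(gam d k) := by
      have hmm : Measurable (fun p : Sph d × Mat d k =>
          ENNReal.ofReal (fib k ψ (p.2, mv p.2 (p.1 : E d))) *
          A.indicator (1 : Mat d k → ENNReal) p.2) :=
        ((measurable_fib ψ).ennreal_ofReal.comp measurable_Tmv).mul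
          ((measurable_one.indicator hA).comp measurable_snd)
      rw [lintegral_prod_symm _ hmm.aemeasurable]
      rw [← lintegral_indicator hA]
      refine lintegral_congr fun X => ?_
      by_cases hX : X ∈ A
      · simp [hX]
      · simp [hX]
    rw [← hR, ← hL]
    exact h1.symm
  filter_upwards [hae] with X hX
  have hm : Measurable (fun s : Sph d => fib k ψ (X, mv X (s : E d))) :=
    hmeasT.comp (measurable_const.prodMk measurable_id)
  rw [integral_eq_lintegral_of_nonneg_ae (Filter.Eventually.of_forall fun s => fib_nonneg ψ _)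
    hm.aestronglyMeasurable, hX]
  simp

/-- `ψ log fib(ψ')` is integrable when `ψ ≤ c ψ'` (note `∫ ψ' |log fib ψ'| = ∫ fib ψ' |log fib ψ'|`,
and `x |log x|` is bounded on bounded sets). -/
theorem integrable_mul_log_fib (hd : 0 < d) {ψ ψ' : Sph d → ℝ} (hψ : IsDens ψ) (hψ' : IsDens ψ')
    (c : ℝ) (hc : ∀ s, ψ s ≤ c * ψ' s) :
    Integrable (fun p : Sph d × Mat d k => ψ p.1 * Real.log (fib k ψ' (p.2, mv p.2 (p.1 : E d))))
      ((sig d).prod (gam d k)) := by
  have := sig_isProb hd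
  have hc0 : 0 ≤ c := by
    by_contra hneg
    push Not at hneg
    have h0 : ∀ s, ψ s = 0 := fun s =>
      le_antisymm ((hc s).trans (mul_nonpos_of_nonpos_of_nonneg hneg.le (hψ'.nonneg s))) (hψ.nonneg s)
    have := hψ.int_one
    simp [h0] at this
  obtain ⟨L, hL⟩ := hψ'.bdd
  have hmf : Measurable (fun p : Sph d × Mat d k =>
      ψ p.1 * Real.log (fib k ψ' (p.2, mv p.2 (p.1 : E d)))) :=
    (hψ.meas.comp measurable_fst).mul
      (Real.measurable_log.comp ((measurable_fib ψ').comp measurable_Tmv))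
  refine ⟨hmf.aestronglyMeasurable, ?_⟩
  have hg : Measurable (fun y : Mat d k × (Fin k → ℝ) =>
      ENNReal.ofReal |Real.log (fib k ψ' y)|) :=
    (Real.measurable_log.comp (measurable_fib ψ')).abs.ennreal_ofReal
  have h1 := fib_lintegral (k := k) hd hψ' _ hg
  have hbound : ∀ x : ℝ, 0 ≤ x → x ≤ L → x * |Real.log x| ≤ 1 + L ^ 2 := by
    intro x hx0 hxL
    rcases hx0.eq_or_lt with rfl | hx0'
    · simp; positivity
    rcases le_total x 1 with hx1 | hx1
    · have := Real.abs_log_mul_self_lt x hx0' hx1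
      rw [abs_mul, abs_of_pos hx0'] at this
      nlinarith [sq_nonneg L]
    · rw [abs_of_nonneg (Real.log_nonneg hx1)]
      have h3 : Real.log x ≤ x := (Real.log_le_sub_one_of_pos hx0').trans (by linarith)
      have hL1 : 1 ≤ L := hx1.trans hxL
      have h4 : 0 ≤ Real.log x := Real.log_nonneg hx1
      nlinarith
  have hR : ∫⁻ p : Sph d × Mat d k, ENNReal.ofReal (fib k ψ' (p.2, mv p.2 (p.1 : E d))) *
        ENNReal.ofReal |Real.log (fib k ψ' (p.2, mv p.2 (p.1 : E d)))| ∂((sig d).prod (gam d k)) ≤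
      ENNReal.ofReal (1 + L ^ 2) := by
    calc _ ≤ ∫⁻ _ : Sph d × Mat d k, ENNReal.ofReal (1 + L ^ 2) ∂((sig d).prod (gam d k)) := by
          refine lintegral_mono_ae ?_
          filter_upwards [fib_ae_le (k := k) hd hψ' L hL] with p hp
          rw [← ENNReal.ofReal_mul (fib_nonneg _ _)]
          exact ENNReal.ofReal_le_ofReal (hbound _ (fib_nonneg _ _) hp)
      _ = _ := by simp
  have hle : ∫⁻ p : Sph d × Mat d k, ‖ψ p.1 * Real.log (fib k ψ' (p.2, mv p.2 (p.1 : E d)))‖ₑ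
        ∂((sig d).prod (gam d k)) ≤
      ENNReal.ofReal c * ∫⁻ p : Sph d × Mat d k, ENNReal.ofReal (ψ' p.1) *
        ENNReal.ofReal |Real.log (fib k ψ' (p.2, mv p.2 (p.1 : E d)))| ∂((sig d).prod (gam d k)) := by
    have hmm : Measurable (fun p : Sph d × Mat d k => ENNReal.ofReal (ψ' p.1) *
        ENNReal.ofReal |Real.log (fib k ψ' (p.2, mv p.2 (p.1 : E d)))|) :=
      (measurable_ofReal_comp_fst hψ'.meas).mul (hg.comp measurable_Tmv)
    rw [← lintegral_const_mul _ hmm]
    refine lintegral_mono fun p => ?_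
    rw [← ENNReal.ofReal_mul (hψ'.nonneg _), ← ENNReal.ofReal_mul hc0, ← ofReal_norm,
      Real.norm_eq_abs, abs_mul, abs_of_nonneg (hψ.nonneg _)]
    refine ENNReal.ofReal_le_ofReal ?_
    rw [← mul_assoc]
    exact mul_le_mul_of_nonneg_right (hc _) (abs_nonneg _)
  refine lt_of_le_of_lt hle ?_
  refine ENNReal.mul_lt_top ENNReal.ofReal_lt_top ?_
  rw [h1]
  exact lt_of_le_of_lt hR ENNReal.ofReal_lt_top

/-- `fib` only depends on the a.e. class of the density. -/
theorem fib_congr_ae (hd : 0 < d) {ψ ψ' : Sph d → ℝ} (h : ψ =ᵐ[sig d] ψ') : fib k ψ = fib k ψ' := by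
  have hpush : pushJoint k ψ = pushJoint k ψ' := by
    unfold pushJoint
    congr 1
    refine withDensity_congr_ae ?_
    have h2 : ∀ᵐ p ∂((sig d).prod (gam d k)), ψ p.1 = ψ' p.1 :=
      Measure.quasiMeasurePreserving_fst.ae h
    filter_upwards [h2] with p hp
    rw [hp]
  funext p
  unfold fib
  rw [hpush]

end Crest.Agent.MS
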