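import Crest.Agent.Lib.MS.GaussBasic

/-!
# Auxiliary lemmas for `GaussBall`: one-dimensional small ball, the resampling step, `dS` facts.
-/

set_option autoImplicit false

namespace Crest.Agent.MS

open MeasureTheory ProbabilityTheory
open Crest.StreamLearn (E Sphere sphereUniform)

variable {d r k : ℕ}

/-- The one dimensional small ball. -/
theorem gauss_interval_le (c D δ : ℝ) (hD : 0 < D) (hδ : 0 < δ) :
    gaussianReal 0 1 {g : ℝ | |c + D * g| < δ} ≤
      ENNReal.ofReal ((2 * δ / Real.sqrt (2 * Real.pi)) / D) := by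
  have hpi : 0 < Real.sqrt (2 * Real.pi) := by positivity
  have hset : {g : ℝ | |c + D * g| < δ} = Set.Ioo ((-δ - c) / D) ((δ - c) / D) := by
    ext g
    simp only [Set.mem_setOf_eq, Set.mem_Ioo, abs_lt]
    rw [div_lt_iff₀ hD, lt_div_iff₀ hD]
    constructor
    · rintro ⟨h1, h2⟩; constructor <;> linarith
    · rintro ⟨h1, h2⟩; constructor <;> linarith
  rw [hset, gaussianReal_apply 0 (by norm_num)]
  have hle : ∀ x ∈ Set.Ioo ((-δ - c) / D) ((δ - c) / D),
      gaussianPDF 0 1 x ≤ ENNReal.ofReal (1 / Real.sqrt (2 * Real.pi)) := by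
    intro x _
    rw [gaussianPDF]
    apply ENNReal.ofReal_le_ofReal
    rw [gaussianPDFReal]
    simp only [NNReal.coe_one, mul_one]
    have h1 : Real.exp (-(x - 0) ^ 2 / 2) ≤ 1 := by
      apply Real.exp_le_one_iff.2
      have : 0 ≤ (x - 0) ^ 2 := sq_nonneg _
      linarith
    have h2 : (0:ℝ) ≤ (Real.sqrt (2 * Real.pi))⁻¹ := by positivity
    calc (Real.sqrt (2 * Real.pi))⁻¹ * Real.exp (-(x - 0) ^ 2 / 2)
        ≤ (Real.sqrt (2 * Real.pi))⁻¹ * 1 := mul_le_mul_of_nonneg_left h1 h2
      _ = 1 / Real.sqrt (2 * Real.pi) := by rw [mul_one, one_div]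
  have hint := setLIntegral_mono_ae' (μ := volume) (s := Set.Ioo ((-δ - c) / D) ((δ - c) / D))
    (f := gaussianPDF 0 1) (g := fun _ => ENNReal.ofReal (1 / Real.sqrt (2 * Real.pi)))
    measurableSet_Ioo (Filter.Eventually.of_forall hle)
  refine hint.trans ?_
  rw [setLIntegral_const, Real.volume_Ioo, ← ENNReal.ofReal_mul (by positivity)]
  apply le_of_eq
  congr 1
  field_simp
  ring

/-- Distance to a submodule through the projection. -/
theorem infDist_submodule_eq {F : Type*} [NormedAddCommGroup F] [InnerProductSpace ℝ F]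
    (K : Submodule ℝ F) [K.HasOrthogonalProjection] (z : F) :
    Metric.infDist z (K : Set F) = ‖z - K.starProjection z‖ := by
  rw [Submodule.starProjection_minimal, Metric.infDist_eq_iInf]
  simp [dist_eq_norm]

/-- `t₀ / max D t₀` as a bound for the one dimensional small ball. -/
theorem gauss_interval_le' (c D δ : ℝ) (hD : 0 < D) (hδ : 0 < δ) :
    gaussianReal 0 1 {g : ℝ | |c + D * g| < δ} ≤
      ENNReal.ofReal ((2 * δ / Real.sqrt (2 * Real.pi)) /
        max D (2 * δ / Real.sqrt (2 * Real.pi))) := by
  have ht : 0 < 2 * δ / Real.sqrt (2 * Real.pi) := by positivity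
  rcases le_total D (2 * δ / Real.sqrt (2 * Real.pi)) with h | h
  · rw [max_eq_right h, div_self ht.ne', ENNReal.ofReal_one]
    exact prob_le_one
  · rw [max_eq_left h]
    exact gauss_interval_le c D δ hD hδ

private theorem inner_aux (x u p : E d) (D g : ℝ) (huu : inner ℝ u u = (1 : ℝ))
    (hup : inner ℝ u p = (0 : ℝ)) :
    inner ℝ (x + (g - inner ℝ x u) • u) (p + D • u) = inner ℝ x p + D * g := by
  rw [inner_add_left, inner_add_right, inner_add_right, real_inner_smul_left, real_inner_smul_left,
    real_inner_smul_right, real_inner_smul_right, hup, huu]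
  ring

/-- The resampling step. `A` does not depend on the direction orthogonal to `W`. -/
theorem resample_step (W : Submodule ℝ (E d)) (A : Set (E d)) (hA : MeasurableSet A)
    (hinv : ∀ x, ∀ y ∈ Wᗮ, (x + y ∈ A ↔ x ∈ A)) (z : E d) (δ : ℝ) (hδ : 0 < δ) :
    (stdGaussian (E d)).real (A ∩ {x | |inner ℝ x z| < δ}) ≤
      (stdGaussian (E d)).real A * ((2 * δ / Real.sqrt (2 * Real.pi)) /
        max (Metric.infDist z (W : Set (E d))) (2 * δ / Real.sqrt (2 * Real.pi))) := by
  classical
  have ht : 0 < 2 * δ / Real.sqrt (2 * Real.pi) := by positivity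
  set t₀ := 2 * δ / Real.sqrt (2 * Real.pi) with ht₀
  rw [infDist_submodule_eq]
  set p := W.starProjection z with hp
  set w := z - p with hw
  have hwmem : w ∈ Wᗮ := Submodule.sub_starProjection_mem_orthogonal z
  have hpmem : p ∈ W := Submodule.starProjection_apply_mem W z
  rcases (norm_nonneg w).eq_or_lt with h0 | hpos
  · -- `D = 0`
    rw [← h0, max_eq_right ht.le, div_self ht.ne', mul_one]
    exact measureReal_mono Set.inter_subset_left (measure_ne_top _ _)
  · set D := ‖w‖ with hD
    set u : E d := (1 / D) • w with hu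
    have hDne : D ≠ 0 := hpos.ne'
    have hunorm : ‖u‖ = 1 := by
      rw [hu, norm_smul, Real.norm_of_nonneg (by positivity), ← hD]
      field_simp
    have humem : u ∈ Wᗮ := Submodule.smul_mem _ _ hwmem
    have hpu : inner ℝ p u = (0 : ℝ) := Submodule.inner_right_of_mem_orthogonal hpmem humem
    have hz : z = p + D • u := by
      rw [hu, smul_smul, mul_one_div_cancel hDne, one_smul, hw]
      abel
    have huu : inner ℝ u u = (1 : ℝ) := by
      rw [real_inner_self_eq_norm_sq, hunorm]; norm_num
    have hupp : inner ℝ u p = (0 : ℝ) := by rw [real_inner_comm]; exact hpu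
    set S : Set (E d) := A ∩ {x | |inner ℝ x z| < δ} with hS
    have hSmeas : MeasurableSet S := by
      refine hA.inter (measurableSet_lt ?_ measurable_const)
      exact (by fun_prop : Continuous fun x : E d => |inner ℝ x z|).measurable
    have hres := resample_row u hunorm
    set T : E d × ℝ → E d := fun q => q.1 - (inner ℝ q.1 u : ℝ) • u + q.2 • u with hT
    have hTmeas : Measurable T := by
      have : Continuous T := by
        rw [hT]; fun_prop
      exact this.measurable
    have hμ : stdGaussian (E d) S =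
        ((stdGaussian (E d)).prod (gaussianReal 0 1)) (T ⁻¹' S) := by
      conv_lhs => rw [← hres]
      exact Measure.map_apply hTmeas hSmeas
    have hpre : MeasurableSet (T ⁻¹' S) := hTmeas hSmeas
    have hT_eq : ∀ x g, T (x, g) = x + (g - inner ℝ x u) • u := by
      intro x g
      simp only [hT, sub_smul]
      abel
    have hslice : ∀ x, (Prod.mk x ⁻¹' (T ⁻¹' S)) ⊆
        if x ∈ A then {g : ℝ | |inner ℝ x p + D * g| < δ} else ∅ := by
      intro x g hg
      have hg' : T (x, g) ∈ S := hg
      rw [hT_eq, hS] at hg'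
      have hx : x ∈ A := (hinv x _ (Submodule.smul_mem _ _ humem)).1 hg'.1
      rw [if_pos hx]
      have h2 : |inner ℝ (x + (g - inner ℝ x u) • u) z| < δ := hg'.2
      have h3 : inner ℝ (x + (g - inner ℝ x u) • u) z = inner ℝ x p + D * g := by
        rw [hz]
        exact inner_aux x u p D g huu hupp
      rw [h3] at h2
      exact h2
    have hle : stdGaussian (E d) S ≤ stdGaussian (E d) A * ENNReal.ofReal (t₀ / max D t₀) := by
      rw [hμ, Measure.prod_apply hpre]
      calc ∫⁻ x, gaussianReal 0 1 (Prod.mk x ⁻¹' (T ⁻¹' S)) ∂(stdGaussian (E d))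
          ≤ ∫⁻ x, A.indicator (fun _ => ENNReal.ofReal (t₀ / max D t₀)) x ∂(stdGaussian (E d)) := by
            apply lintegral_mono
            intro x
            by_cases hx : x ∈ A
            · rw [Set.indicator_of_mem hx]
              refine (measure_mono (hslice x)).trans ?_
              rw [if_pos hx]
              exact gauss_interval_le' _ D δ hpos hδ
            · rw [Set.indicator_of_notMem hx]
              have h4 := hslice x
              rw [if_neg hx] at h4
              have h5 : Prod.mk x ⁻¹' (T ⁻¹' S) = ∅ := Set.subset_empty_iff.1 h4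
              show gaussianReal 0 1 (Prod.mk x ⁻¹' (T ⁻¹' S)) ≤ _
              rw [h5]
              simp
        _ = stdGaussian (E d) A * ENNReal.ofReal (t₀ / max D t₀) := by
            rw [lintegral_indicator_const hA, mul_comm]
    have hκ : 0 ≤ t₀ / max D t₀ := by positivity
    have := ENNReal.toReal_mono
      (ENNReal.mul_ne_top (measure_ne_top _ _) ENNReal.ofReal_ne_top) hle
    rw [ENNReal.toReal_mul, ENNReal.toReal_ofReal hκ] at this
    exact this

end Crest.Agent.MS
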