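import Crest.Agent.Lib.MS.Chain

/-!
# S0499 module `Learner`: the two easy regimes and averaging over the seed.

`exists_good_seed`: Fubini (`RLearner.successProb` is the integral of `seedSucc` over the seed): measurability of the
run of the learner by induction on the fold, states carry the discrete σ-algebra.

`samples_ge_of_seed` (reflection).  Suppose `T < d/10`.  Fix the samples `xs`, let `W = span(xs)`, `R` the linear isometry
`s ↦ 2 P_W s - s`.  `⟪x_t, R s⟫ = ⟪x_t, s⟫`, so the output at `R s` equals the output at `s`, and `σ` is invariant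
under `R` (`sig_map_sphMap`).  If the learner succeeds at `s` and at `R s`, with the common output `u`:
`‖s - R s‖ ≤ ‖s - u‖ + ‖u - R s‖ ≤ 2ε` (chord ≤ angle), i.e. `‖P_{W^⊥} s‖ ≤ ε`, so `‖P_W s‖² ≥ 1 - ε² ≥ 0.99`.
Union bound: `P(both succeed) ≥ 1/3` over `(s, xs)`.  But `E‖P_W s‖² = dim W/d ≤ T/d < 1/10` (`sig_inner_sq` on an orthonormal basis of `W`),
so by Markov `P(‖P_W s‖² ≥ 0.99) < 1/3`, contradiction.

`counting_caps`.  Fix `xs`: the output takes at most `(T+1) 2^M` values `u` (stopping index in `{0..T}`, state), and success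
means `s` is in the cap `‖s - u‖ ≤ ε` of measure `≤ 2^d ε^{d-1}` (`sig_ball_le`).
-/

set_option autoImplicit false

namespace Crest.Agent.MS

open MeasureTheory ProbabilityTheory
open Crest.StreamLearn (E Sphere sphereUniform RLearner)

variable {d T M : ℕ}

/-- The success probability of the learner with a fixed seed. -/
noncomputable def seedSucc (L : RLearner d T M) (ω : L.Ω) (ε : ℝ) : ℝ :=
  ((sig d).prod (gam d T)).real
    {p | Real.arccos (inner ℝ (L.output ω (p.1 : E d) p.2) (p.1 : E d)) ≤ ε}

/-! ### Measurability of the run -/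

theorem discMeas_comp {Z A B : Type*} [MeasurableSpace Z] [Countable A] {F : Z → A} {G : Z → A → B}
    (hF : ∀ v, MeasurableSet {z | F z = v}) (hG : ∀ u v, MeasurableSet {z | G z u = v}) (v : B) :
    MeasurableSet {z | G z (F z) = v} := by
  have : {z | G z (F z) = v} = ⋃ u, ({z | F z = u} ∩ {z | G z u = v}) := by
    ext z
    simp only [Set.mem_ofPred_eq, Set.mem_iUnion, Set.mem_inter_iff]
    constructor
    · intro h; exact ⟨F z, rfl, h⟩
    · rintro ⟨u, rfl, h⟩; exact h
  rw [this]
  exact MeasurableSet.iUnion fun u => (hF u).inter (hG u v)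

/-- One step of the run. -/
noncomputable def stepL (L : RLearner d T M) (ω : L.Ω) (s : E d) (xs : Fin T → E d)
    (st : L.St × Option ℕ) (t : Fin T) : L.St × Option ℕ :=
  if st.2.isSome then st else
    if (L.trans t ω st.1 (xs t) (inner ℝ (xs t) s)).2
    then ((L.trans t ω st.1 (xs t) (inner ℝ (xs t) s)).1, some (t.val + 1))
    else ((L.trans t ω st.1 (xs t) (inner ℝ (xs t) s)).1, none)

theorem run_eq_foldl (L : RLearner d T M) (ω : L.Ω) (s : E d) (xs : Fin T → E d) :
    L.run ω s xs = (List.finRange T).foldl (stepL L ω s xs)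
      (L.init ω, if L.stopFirst ω then some 0 else none) := rfl

instance countable_St (L : RLearner d T M) : Countable L.St := by
  letI := L.fin
  infer_instance

section
variable {Z : Type*} [MeasurableSpace Z] (L : RLearner d T M) {ω : Z → L.Ω} {s : Z → E d}
  {xs : Z → Fin T → E d}

theorem measurableSet_stepL (hω : @Measurable Z L.Ω _ L.mΩ ω) (hs : Measurable s)
    (hxs : Measurable xs) (t : Fin T) (u v : L.St × Option ℕ) :
    MeasurableSet {z | stepL L (ω z) (s z) (xs z) u t = v} := by
  letI := L.mΩ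
  by_cases hu : u.2.isSome
  · simp only [stepL, if_pos hu]
    exact MeasurableSet.const _
  simp only [stepL, if_neg hu]
  have hp : Measurable (fun z => (ω z, (xs z t, (inner ℝ (xs z t) (s z) : ℝ)))) :=
    hω.prodMk (((measurable_pi_apply t).comp hxs).prodMk
      (((measurable_pi_apply t).comp hxs).inner hs))
  have hb := (L.trans_measurable t u.1).2.comp hp
  have ha := (L.trans_measurable t u.1).1
  have ha' : ∀ q : L.St, MeasurableSet {z | (L.trans t (ω z) u.1 (xs z t) (inner ℝ (xs z t) (s z))).1 = q} := by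
    intro q
    have h1 : MeasurableSet[⊤] ({q} : Set L.St) := trivial
    have h2 := ha h1
    exact hp h2
  have hb' : MeasurableSet {z | (L.trans t (ω z) u.1 (xs z t) (inner ℝ (xs z t) (s z))).2 = true} :=
    hb (measurableSet_singleton true)
  obtain ⟨q, o⟩ := v
  have : {z | (if (L.trans t (ω z) u.1 (xs z t) (inner ℝ (xs z t) (s z))).2 = true
        then ((L.trans t (ω z) u.1 (xs z t) (inner ℝ (xs z t) (s z))).1, some (t.val + 1))
        else ((L.trans t (ω z) u.1 (xs z t) (inner ℝ (xs z t) (s z))).1, none)) = (q, o)} =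
      ({z | (L.trans t (ω z) u.1 (xs z t) (inner ℝ (xs z t) (s z))).2 = true} ∩
        ({z | (L.trans t (ω z) u.1 (xs z t) (inner ℝ (xs z t) (s z))).1 = q} ∩ {_z | some (t.val + 1) = o})) ∪
      ({z | (L.trans t (ω z) u.1 (xs z t) (inner ℝ (xs z t) (s z))).2 = true}ᶜ ∩
        ({z | (L.trans t (ω z) u.1 (xs z t) (inner ℝ (xs z t) (s z))).1 = q} ∩ {_z | none = o})) := by
    ext z
    by_cases hz : (L.trans t (ω z) u.1 (xs z t) (inner ℝ (xs z t) (s z))).2 = true <;>
      simp [hz]
  rw [this]
  exact (hb'.inter ((ha' q).inter (MeasurableSet.const _))).union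
    (hb'.compl.inter ((ha' q).inter (MeasurableSet.const _)))

theorem measurableSet_foldl (hω : @Measurable Z L.Ω _ L.mΩ ω) (hs : Measurable s)
    (hxs : Measurable xs) (l : List (Fin T)) (init : Z → L.St × Option ℕ)
    (hinit : ∀ v, MeasurableSet {z | init z = v}) (v : L.St × Option ℕ) :
    MeasurableSet {z | l.foldl (stepL L (ω z) (s z) (xs z)) (init z) = v} := by
  induction l generalizing init with
  | nil => simpa using hinit v
  | cons a l ih =>
    simp only [List.foldl_cons]
    exact ih _ fun w => discMeas_comp (G := fun z u => stepL L (ω z) (s z) (xs z) u a) hinit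
      (fun u w => measurableSet_stepL L hω hs hxs a u w) w

theorem measurableSet_run (hω : @Measurable Z L.Ω _ L.mΩ ω) (hs : Measurable s)
    (hxs : Measurable xs) (v : L.St × Option ℕ) :
    MeasurableSet {z | L.run (ω z) (s z) (xs z) = v} := by
  simp only [run_eq_foldl]
  refine measurableSet_foldl L hω hs hxs _ _ ?_ v
  rintro ⟨q, o⟩
  letI := L.mΩ
  have h1 : MeasurableSet {z | L.init (ω z) = q} := by
    have h1 : MeasurableSet[⊤] ({q} : Set L.St) := trivial
    exact hω (L.init_measurable h1)
  have h2 : MeasurableSet {z | L.stopFirst (ω z) = true} :=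
    hω (L.stopFirst_measurable (measurableSet_singleton true))
  have : {z | (L.init (ω z), if L.stopFirst (ω z) = true then some 0 else none) = (q, o)} =
      {z | L.init (ω z) = q} ∩ (({z | L.stopFirst (ω z) = true} ∩ {_z | some 0 = o}) ∪
        ({z | L.stopFirst (ω z) = true}ᶜ ∩ {_z | none = o})) := by
    ext z
    by_cases hz : L.stopFirst (ω z) = true <;> simp [hz]
  rw [this]
  exact h1.inter ((h2.inter (MeasurableSet.const _)).union (h2.compl.inter (MeasurableSet.const _)))

theorem measurable_output (hω : @Measurable Z L.Ω _ L.mΩ ω) (hs : Measurable s)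
    (hxs : Measurable xs) : Measurable (fun z => L.output (ω z) (s z) (xs z)) := by
  intro B hB
  letI := L.mΩ
  have : (fun z => L.output (ω z) (s z) (xs z)) ⁻¹' B =
      ⋃ u : L.St × Option ℕ, ({z | L.run (ω z) (s z) (xs z) = u} ∩
        {z | L.out (u.2.getD T) (ω z) u.1 ∈ B}) := by
    ext z
    simp only [Set.mem_preimage, Set.mem_iUnion, Set.mem_inter_iff, Set.mem_ofPred_eq,
      RLearner.output]
    constructor
    · intro h; exact ⟨_, rfl, h⟩
    · rintro ⟨u, rfl, h⟩; exact h
  rw [this]
  refine MeasurableSet.iUnion fun u => (measurableSet_run L hω hs hxs u).inter ?_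
  exact hω (L.out_measurable _ _ hB)

end

/-- The success set for a fixed seed is measurable. -/
theorem measurableSet_succ (L : RLearner d T M) (ω : L.Ω) (ε : ℝ) :
    MeasurableSet {p : Sph d × Mat d T |
      Real.arccos (inner ℝ (L.output ω (p.1 : E d) p.2) (p.1 : E d)) ≤ ε} := by
  letI := L.mΩ
  have h1 : Measurable (fun p : Sph d × Mat d T => L.output ω (p.1 : E d) p.2) :=
    measurable_output L (ω := fun _ => ω) measurable_const
      (measurable_subtype_coe.comp measurable_fst) measurable_snd
  have h2 : Measurable (fun p : Sph d × Mat d T =>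
      Real.arccos (inner ℝ (L.output ω (p.1 : E d) p.2) (p.1 : E d))) :=
    Real.continuous_arccos.measurable.comp (h1.inner (measurable_subtype_coe.comp measurable_fst))
  exact measurableSet_le h2 measurable_const

/-- A section of the success set is measurable. -/
theorem measurableSet_succ_section (L : RLearner d T M) (ω : L.Ω) (ε : ℝ) (xs : Mat d T) :
    MeasurableSet {s : Sph d | Real.arccos (inner ℝ (L.output ω (s : E d) xs) (s : E d)) ≤ ε} := by
  letI := L.mΩ
  have h1 : Measurable (fun s : Sph d => L.output ω (s : E d) xs) :=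
    measurable_output L (ω := fun _ => ω) (xs := fun _ => xs) measurable_const
      measurable_subtype_coe measurable_const
  have h2 : Measurable (fun s : Sph d =>
      Real.arccos (inner ℝ (L.output ω (s : E d) xs) (s : E d))) :=
    Real.continuous_arccos.measurable.comp (h1.inner measurable_subtype_coe)
  exact measurableSet_le h2 measurable_const

/-- The joint success set is measurable. -/
theorem measurableSet_succ_joint (L : RLearner d T M) (ε : ℝ) :
    letI : MeasurableSpace L.Ω := L.mΩ
    MeasurableSet {p : Sph d × (L.Ω × Mat d T) |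
      Real.arccos (inner ℝ (L.output p.2.1 (p.1 : E d) p.2.2) (p.1 : E d)) ≤ ε} := by
  letI := L.mΩ
  have h1 : Measurable (fun p : Sph d × (L.Ω × Mat d T) => L.output p.2.1 (p.1 : E d) p.2.2) :=
    measurable_output L (ω := fun p : Sph d × (L.Ω × Mat d T) => p.2.1)
      (s := fun p => (p.1 : E d)) (xs := fun p => p.2.2) (measurable_fst.comp measurable_snd)
      (measurable_subtype_coe.comp measurable_fst) (measurable_snd.comp measurable_snd)
  have h2 : Measurable (fun p : Sph d × (L.Ω × Mat d T) =>
      Real.arccos (inner ℝ (L.output p.2.1 (p.1 : E d) p.2.2) (p.1 : E d))) :=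
    Real.continuous_arccos.measurable.comp (h1.inner (measurable_subtype_coe.comp measurable_fst))
  exact measurableSet_le h2 measurable_const


/-- Fubini for the seed. -/
theorem lintegral_seed (hd : 0 < d) (L : RLearner d T M) (ε : ℝ) :
    letI : MeasurableSpace L.Ω := L.mΩ
    ((sig d).prod (L.ρ.prod (gam d T)))
      {p | Real.arccos (inner ℝ (L.output p.2.1 (p.1 : E d) p.2.2) (p.1 : E d)) ≤ ε} =
    ∫⁻ ω, ((sig d).prod (gam d T))
      {p | Real.arccos (inner ℝ (L.output ω (p.1 : E d) p.2) (p.1 : E d)) ≤ ε} ∂L.ρ := by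
  letI : MeasurableSpace L.Ω := L.mΩ
  have := sig_isProb hd
  have := L.prob
  set A : Set (Sph d × (L.Ω × Mat d T)) :=
    {p | Real.arccos (inner ℝ (L.output p.2.1 (p.1 : E d) p.2.2) (p.1 : E d)) ≤ ε} with hA
  have hAm : MeasurableSet A := measurableSet_succ_joint L ε
  set f : Sph d × (L.Ω × Mat d T) → ENNReal := A.indicator 1 with hf
  have hfm : Measurable f := measurable_one.indicator hAm
  have hsec : ∀ ω, ((sig d).prod (gam d T))
      {p | Real.arccos (inner ℝ (L.output ω (p.1 : E d) p.2) (p.1 : E d)) ≤ ε} =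
      ∫⁻ p : Sph d × Mat d T, f (p.1, (ω, p.2)) ∂((sig d).prod (gam d T)) := by
    intro ω
    have hB := measurableSet_succ L ω ε
    rw [← lintegral_indicator_one hB]
    refine lintegral_congr fun p => ?_
    classical
    simp only [hf, Set.indicator_apply]
    exact if_congr Iff.rfl rfl rfl
  simp only [hsec]
  rw [← lintegral_indicator_one hAm]
  change ∫⁻ p, f p ∂_ = _
  rw [lintegral_prod _ hfm.aemeasurable]
  have hg1 : ∀ s : Sph d, Measurable (fun q : L.Ω × Mat d T => f (s, q)) :=
    fun s => hfm.comp measurable_prodMk_left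
  simp only [lintegral_prod _ (hg1 _).aemeasurable]
  have hg2 : Measurable (fun p : Sph d × L.Ω => ∫⁻ xs, f (p.1, (p.2, xs)) ∂(gam d T)) := by
    have : Measurable (fun q : (Sph d × L.Ω) × Mat d T => f (q.1.1, (q.1.2, q.2))) :=
      hfm.comp ((measurable_fst.comp measurable_fst).prodMk
        ((measurable_snd.comp measurable_fst).prodMk measurable_snd))
    exact this.lintegral_prod_right'
  rw [lintegral_lintegral_swap hg2.aemeasurable]
  refine lintegral_congr fun ω => ?_
  have hm : Measurable (fun p : Sph d × Mat d T => f (p.1, (ω, p.2))) :=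
    hfm.comp (measurable_fst.prodMk (measurable_const.prodMk measurable_snd))
  rw [lintegral_prod _ hm.aemeasurable]

/-- Averaging over the seed. -/
theorem exists_good_seed (hd : 0 < d) (L : RLearner d T M) (ε : ℝ) (h : 2 / 3 ≤ L.successProb ε) :
    ∃ ω : L.Ω, 2 / 3 ≤ seedSucc L ω ε := by
  letI : MeasurableSpace L.Ω := L.mΩ
  have := sig_isProb hd
  have := L.prob
  have h1 := lintegral_seed hd L ε
  have hfin : ∫⁻ ω, ((sig d).prod (gam d T))
      {p | Real.arccos (inner ℝ (L.output ω (p.1 : E d) p.2) (p.1 : E d)) ≤ ε} ∂L.ρ ≠ ⊤ := by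
    rw [← h1]; exact measure_ne_top _ _
  obtain ⟨ω, hω⟩ := exists_lintegral_le hfin
  refine ⟨ω, ?_⟩
  refine h.trans ?_
  unfold seedSucc RLearner.successProb
  simp only [Measure.real]
  refine ENNReal.toReal_mono (measure_ne_top _ _) ?_
  exact (le_of_eq h1).trans hω


/-! ### Sections -/

/-- A bound on the sections bounds the success probability. -/
theorem seedSucc_le_of_section (hd : 0 < d) (L : RLearner d T M) (ω : L.Ω) (ε c : ℝ) (hc : 0 ≤ c)
    (h : ∀ xs : Mat d T, (sig d).real
      {s : Sph d | Real.arccos (inner ℝ (L.output ω (s : E d) xs) (s : E d)) ≤ ε} ≤ c) :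
    seedSucc L ω ε ≤ c := by
  have := sig_isProb hd
  unfold seedSucc
  rw [Measure.real]
  refine ENNReal.toReal_le_of_le_ofReal hc ?_
  rw [Measure.prod_apply_symm (measurableSet_succ L ω ε)]
  calc ∫⁻ y, (sig d) ((fun x => (x, y)) ⁻¹' {p : Sph d × Mat d T |
        Real.arccos (inner ℝ (L.output ω (p.1 : E d) p.2) (p.1 : E d)) ≤ ε}) ∂(gam d T)
      ≤ ∫⁻ _y, ENNReal.ofReal c ∂(gam d T) := by
        refine lintegral_mono fun xs => ?_
        have h1 := h xs
        rw [Measure.real] at h1
        exact (ENNReal.le_ofReal_iff_toReal_le (measure_ne_top _ _) hc).2 h1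
    _ = ENNReal.ofReal c := by simp

/-- The chord is at most the angle. -/
theorem chord_le {u s : E d} (hu : ‖u‖ = 1) (hs : ‖s‖ = 1) {ε : ℝ}
    (h : Real.arccos (inner ℝ u s) ≤ ε) : ‖s - u‖ ≤ ε := by
  have h0 : 0 ≤ Real.arccos (inner ℝ u s) := Real.arccos_nonneg _
  have hε : 0 ≤ ε := h0.trans h
  have habs : |inner ℝ u s| ≤ 1 := by
    have := abs_real_inner_le_norm u s
    simpa [hu, hs] using this
  have hc : Real.cos (Real.arccos (inner ℝ u s)) = inner ℝ u s :=
    Real.cos_arccos (abs_le.1 habs).1 (abs_le.1 habs).2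
  have h1 := Real.one_sub_sq_div_two_le_cos (x := Real.arccos (inner ℝ u s))
  rw [hc] at h1
  have h2 : ‖s - u‖ ^ 2 = 2 - 2 * inner ℝ u s := by
    rw [norm_sub_sq_real, hu, hs, real_inner_comm]
    ring
  have h3 : ‖s - u‖ ^ 2 ≤ ε ^ 2 := by
    rw [h2]
    have : Real.arccos (inner ℝ u s) ^ 2 ≤ ε ^ 2 := pow_le_pow_left₀ h0 h 2
    linarith
  exact (pow_le_pow_iff_left₀ (norm_nonneg _) hε (by norm_num)).1 h3

theorem run_congr (L : RLearner d T M) (ω : L.Ω) (xs : Fin T → E d) {s s' : E d}
    (h : ∀ t, inner ℝ (xs t) s = (inner ℝ (xs t) s' : ℝ)) : L.run ω s xs = L.run ω s' xs := by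
  unfold RLearner.run
  simp only [h]

theorem output_congr (L : RLearner d T M) (ω : L.Ω) (xs : Fin T → E d) {s s' : E d}
    (h : ∀ t, inner ℝ (xs t) s = (inner ℝ (xs t) s' : ℝ)) : L.output ω s xs = L.output ω s' xs := by
  unfold RLearner.output
  rw [run_congr L ω xs h]

theorem output_unit (L : RLearner d T M) (ω : L.Ω) (s : E d) (xs : Fin T → E d) :
    ‖L.output ω s xs‖ = 1 := L.out_unit _ _ _

theorem integrable_inner_sq (hd : 0 < d) (v : E d) :
    Integrable (fun s : Sph d => (inner ℝ (s : E d) v) ^ 2) (sig d) := by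
  have := sig_isProb hd
  refine Integrable.of_bound (by fun_prop) (‖v‖ ^ 2) (Filter.Eventually.of_forall fun s => ?_)
  have h1 : |inner ℝ (s : E d) v| ≤ ‖(s : E d)‖ * ‖v‖ := abs_real_inner_le_norm _ _
  have h2 : ‖(s : E d)‖ = 1 := by simp
  rw [h2, one_mul] at h1
  rw [Real.norm_eq_abs, abs_pow]
  exact pow_le_pow_left₀ (abs_nonneg _) h1 2

/-- The second moment of the projection on a subspace. -/
theorem integral_proj_sq (hd : 0 < d) (W : Submodule ℝ (E d)) :
    Integrable (fun s : Sph d => ‖W.starProjection (s : E d)‖ ^ 2) (sig d) ∧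
    ∫ s : Sph d, ‖W.starProjection (s : E d)‖ ^ 2 ∂(sig d) = Module.finrank ℝ W / d := by
  have := sig_isProb hd
  set b := stdOrthonormalBasis ℝ W with hb
  have hpt : ∀ s : Sph d, ‖W.starProjection (s : E d)‖ ^ 2 =
      ∑ i, (inner ℝ (s : E d) ((b i : W) : E d)) ^ 2 := by
    intro s
    have h1 := b.sum_sq_norm_inner_right (W.orthogonalProjectionOnto (s : E d))
    have h3 : ‖W.starProjection (s : E d)‖ = ‖W.orthogonalProjectionOnto (s : E d)‖ := rfl
    rw [h3, ← h1]
    refine Finset.sum_congr rfl fun i _ => ?_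
    have h2 : inner ℝ (b i) (W.orthogonalProjectionOnto (s : E d)) =
        inner ℝ ((b i : W) : E d) (s : E d) :=
      Submodule.inner_orthogonalProjectionOnto_eq_of_mem_left _ _
    rw [h2, Real.norm_eq_abs, sq_abs, real_inner_comm]
  simp only [hpt]
  constructor
  · exact integrable_finsetSum _ fun i _ => integrable_inner_sq hd _
  · rw [integral_finsetSum _ fun i _ => integrable_inner_sq hd _]
    simp only [sig_inner_sq hd]
    have h1 : ∀ i, ‖((b i : W) : E d)‖ = 1 := fun i => b.orthonormal.1 i
    simp [h1, div_eq_mul_inv]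


/-- Inner products with vectors in `W` are preserved by the reflection. -/
theorem inner_reflection {W : Submodule ℝ (E d)} {x : E d} (hx : x ∈ W) (s : E d) :
    inner ℝ x (W.reflection s) = (inner ℝ x s : ℝ) := by
  have h1 : inner ℝ x (W.starProjection s) = (inner ℝ x s : ℝ) := by
    rw [← Submodule.inner_starProjection_left_eq_right, Submodule.starProjection_eq_self_iff.2 hx]
  rw [Submodule.reflection_apply, inner_sub_right, two_smul, inner_add_right, h1]
  ring

/-- If `s` and `R s` are close to one point, then `s` is close to `W`. -/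
theorem proj_large {W : Submodule ℝ (E d)} {s u : E d} {ε : ℝ} (hε' : ε ≤ 1 / 10) (hsn : ‖s‖ = 1)
    (h3 : ‖s - u‖ ≤ ε) (h4 : ‖W.reflection s - u‖ ≤ ε) :
    (99 / 100 : ℝ) ≤ ‖W.starProjection s‖ ^ 2 := by
  have hε : 0 ≤ ε := (norm_nonneg _).trans h3
  have h6 : ‖s - W.reflection s‖ ≤ 2 * ε := by
    have := norm_sub_le_norm_sub_add_norm_sub s u (W.reflection s)
    rw [norm_sub_rev u (W.reflection s)] at this
    linarith
  have h7 : s - W.reflection s = (2 : ℝ) • (s - W.starProjection s) := by
    rw [Submodule.reflection_apply, two_smul, two_smul]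
    abel
  rw [h7, norm_smul] at h6
  have h8 : ‖s - W.starProjection s‖ ≤ ε := by
    have : ‖(2 : ℝ)‖ = 2 := by norm_num
    rw [this] at h6
    linarith
  have h9 : inner ℝ (s - W.starProjection s) (W.starProjection s) = (0 : ℝ) :=
    Submodule.starProjection_inner_eq_zero _ _ (Submodule.starProjection_apply_mem _ _)
  have h10 : ‖s‖ ^ 2 = ‖s - W.starProjection s‖ ^ 2 + ‖W.starProjection s‖ ^ 2 := by
    have : s = (s - W.starProjection s) + W.starProjection s := by abel
    conv_lhs => rw [this]
    rw [norm_add_sq_real, h9]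
    ring
  rw [hsn] at h10
  have h11 : ‖s - W.starProjection s‖ ^ 2 ≤ (1 / 10) ^ 2 :=
    pow_le_pow_left₀ (norm_nonneg _) (h8.trans hε') 2
  nlinarith

/-- Markov for the projection. -/
theorem sig_proj_large (hd : 0 < d) (W : Submodule ℝ (E d)) (hT : (Module.finrank ℝ W : ℝ) < d / 10) :
    (sig d).real {s : Sph d | (99 / 100 : ℝ) ≤ ‖W.starProjection (s : E d)‖ ^ 2} ≤ 102 / 1000 := by
  have := sig_isProb hd
  have hd' : (0 : ℝ) < d := by exact_mod_cast hd
  have hproj := integral_proj_sq hd W
  have hmk := mul_meas_ge_le_integral_of_nonneg (μ := sig d)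
    (Filter.Eventually.of_forall fun s => by positivity) hproj.1 (99 / 100 : ℝ)
  rw [hproj.2] at hmk
  have h1 : (Module.finrank ℝ W : ℝ) / d ≤ 1 / 10 := by
    rw [div_le_iff₀ hd']
    linarith
  linarith

/-- The measure of two sets with the same measure, whose intersection is small. -/
theorem two_sets_le {α : Type*} [MeasurableSpace α] (μ : Measure α) [IsProbabilityMeasure μ]
    {S S' G : Set α} (hS' : MeasurableSet S') (heq : μ.real S' = μ.real S) (hsub : S ∩ S' ⊆ G)
    (hG : μ.real G ≤ 102 / 1000) : μ.real S ≤ 56 / 100 := by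
  have hunion := measureReal_union_add_inter (μ := μ) (s := S) hS'
  have h1 : μ.real (S ∪ S') ≤ 1 := measureReal_le_one
  have h2 : μ.real (S ∩ S') ≤ μ.real G := measureReal_mono hsub
  linarith

theorem sig_real_preimage (hd : 0 < d) (R : E d ≃ₗᵢ[ℝ] E d) {S : Set (Sph d)} (hS : MeasurableSet S) :
    (sig d).real (sphMap R ⁻¹' S) = (sig d).real S := by
  have h1 := sig_map_sphMap hd R
  have h2 : (sig d) (sphMap R ⁻¹' S) = ((sig d).map (sphMap R)) S :=
    (Measure.map_apply (continuous_sphMap R).measurable hS).symm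
  rw [Measure.real, Measure.real, h2, h1]

/-- The reflection section bound. -/
theorem section_le_refl (hd : 0 < d) (L : RLearner d T M) (ω : L.Ω) (ε : ℝ)
    (hε' : ε ≤ 1 / 10) (hT : (T : ℝ) < d / 10) (xs : Mat d T) :
    (sig d).real {s : Sph d | Real.arccos (inner ℝ (L.output ω (s : E d) xs) (s : E d)) ≤ ε} ≤ 56 / 100 := by
  have := sig_isProb hd
  have hSm := measurableSet_succ_section L ω ε xs
  obtain ⟨W, hW⟩ : ∃ W : Submodule ℝ (E d), W = Submodule.span ℝ (Set.range xs) := ⟨_, rfl⟩
  have hrank : (Module.finrank ℝ W : ℝ) ≤ T := by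
    have : Module.finrank ℝ W ≤ Fintype.card (Fin T) := by
      rw [hW]; exact finrank_range_le_card (R := ℝ) xs
    simpa using this
  have hτ : Measurable (sphMap W.reflection) := (continuous_sphMap _).measurable
  refine two_sets_le (sig d) (S' := sphMap W.reflection ⁻¹'
    {s : Sph d | Real.arccos (inner ℝ (L.output ω (s : E d) xs) (s : E d)) ≤ ε}) (hτ hSm) ?_ ?_
    (sig_proj_large hd W (lt_of_le_of_lt hrank hT))
  · exact sig_real_preimage hd W.reflection hSm
  · rintro s ⟨h1, h2⟩
    have hsn : ‖(s : E d)‖ = 1 := by simp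
    have hRn : ‖W.reflection (s : E d)‖ = 1 := by simp
    have h3 : ‖(s : E d) - L.output ω (s : E d) xs‖ ≤ ε := chord_le (output_unit L _ _ _) hsn h1
    have h4 : ‖W.reflection (s : E d) - L.output ω (W.reflection (s : E d)) xs‖ ≤ ε :=
      chord_le (output_unit L _ _ _) hRn h2
    have h5 : L.output ω (W.reflection (s : E d)) xs = L.output ω (s : E d) xs :=
      output_congr L ω xs fun t => inner_reflection (by rw [hW]; exact Submodule.subset_span ⟨t, rfl⟩) _
    rw [h5] at h4
    exact proj_large hε' hsn h3 h4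

/-- Small regime: reflection trick, at least `d / 10` samples are needed. -/
theorem samples_ge_of_seed (hd : 10 ≤ d) (L : RLearner d T M) (ω : L.Ω) (ε : ℝ) (hε : 0 < ε)
    (hε' : ε ≤ 1 / 10) (h : 2 / 3 ≤ seedSucc L ω ε) : (d : ℝ) / 10 ≤ T := by
  by_contra hT
  rw [not_le] at hT
  have h1 := seedSucc_le_of_section (by omega) L ω ε (56 / 100) (by norm_num)
    (section_le_refl (by omega) L ω ε hε' hT)
  linarith

/-- The stopping index is at most `T`. -/
theorem run_getD_le (L : RLearner d T M) (ω : L.Ω) (s : E d) (xs : Fin T → E d) :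
    (L.run ω s xs).2.getD T ≤ T := by
  have key : ∀ (l : List (Fin T)) (st : L.St × Option ℕ), (∀ i, st.2 = some i → i ≤ T) →
      ∀ i, (l.foldl (stepL L ω s xs) st).2 = some i → i ≤ T := by
    intro l
    induction l with
    | nil => intro st h i hi; exact h i hi
    | cons a l ih =>
      intro st h
      refine ih _ ?_
      intro i hi
      unfold stepL at hi
      by_cases h1 : st.2.isSome = true
      · rw [if_pos h1] at hi; exact h i hi
      · rw [if_neg h1] at hi
        by_cases h2 : (L.trans a ω st.1 (xs a) (inner ℝ (xs a) s)).2 = true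
        · rw [if_pos h2] at hi
          simp only [Option.some.injEq] at hi
          have := a.isLt
          omega
        · rw [if_neg h2] at hi
          simp at hi
  rw [run_eq_foldl]
  cases hr : ((List.finRange T).foldl (stepL L ω s xs)
      (L.init ω, if L.stopFirst ω then some 0 else none)).2 with
  | none => simp
  | some i =>
    have := key _ _ ?_ i hr
    · simpa using this
    · intro j hj
      by_cases h1 : L.stopFirst ω = true
      · simp only [h1, if_true, Option.some.injEq] at hj
        omega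
      · simp [h1] at hj

/-- The counting section bound. -/
theorem section_le_count (hd : 2 ≤ d) (L : RLearner d T M) (ω : L.Ω) (ε : ℝ) (hε : 0 < ε)
    (hε' : ε ≤ 1 / 10) (xs : Mat d T) :
    (sig d).real {s : Sph d | Real.arccos (inner ℝ (L.output ω (s : E d) xs) (s : E d)) ≤ ε} ≤
      ((T : ℝ) + 1) * 2 ^ M * (2 ^ d * ε ^ (d - 1)) := by
  classical
  letI := L.fin
  have := sig_isProb (d := d) (by omega)
  set I : Finset (ℕ × L.St) := (Finset.range (T + 1)) ×ˢ Finset.univ with hI
  set cap : ℕ × L.St → Set (Sph d) := fun p => {s | ‖(s : E d) - L.out p.1 ω p.2‖ ≤ ε} with hcap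
  have hsub : {s : Sph d | Real.arccos (inner ℝ (L.output ω (s : E d) xs) (s : E d)) ≤ ε} ⊆
      ⋃ p ∈ I, cap p := by
    intro s hs
    simp only [Set.mem_iUnion]
    refine ⟨((L.run ω (s : E d) xs).2.getD T, (L.run ω (s : E d) xs).1), ?_, ?_⟩
    · simp only [hI, Finset.mem_product, Finset.mem_range, Finset.mem_univ, and_true]
      have := run_getD_le L ω (s : E d) xs
      omega
    · have hsn : ‖(s : E d)‖ = 1 := by simp
      exact chord_le (output_unit L _ _ _) hsn hs
  have hb : ∀ p ∈ I, (sig d).real (cap p) ≤ 2 ^ d * ε ^ (d - 1) := fun p _ =>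
    sig_ball_le hd _ ε hε (by linarith)
  have h1 := measureReal_mono (μ := sig d) hsub (measure_ne_top _ _)
  have h2 := measureReal_biUnion_finset_le (μ := sig d) I cap
  have h3 : ∑ p ∈ I, (sig d).real (cap p) ≤ I.card * (2 ^ d * ε ^ (d - 1)) := by
    have := Finset.sum_le_card_nsmul I _ _ hb
    simpa using this
  have hcard : (I.card : ℝ) ≤ ((T : ℝ) + 1) * 2 ^ M := by
    have h4 : I.card = (T + 1) * Fintype.card L.St := by
      simp [hI]
    rw [h4]
    push_cast
    have h5 : (Fintype.card L.St : ℝ) ≤ 2 ^ M := by exact_mod_cast L.card_le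
    gcongr
  have h6 : (0 : ℝ) ≤ 2 ^ d * ε ^ (d - 1) := by positivity
  calc _ ≤ _ := h1
    _ ≤ _ := h2
    _ ≤ _ := h3
    _ ≤ _ := mul_le_mul_of_nonneg_right hcard h6

/-- Huge `log(1/ε)`: counting caps. -/
theorem counting_caps (hd : 2 ≤ d) (L : RLearner d T M) (ω : L.Ω) (ε : ℝ) (hε : 0 < ε)
    (hε' : ε ≤ 1 / 10) (h : 2 / 3 ≤ seedSucc L ω ε) :
    2 / 3 ≤ ((T : ℝ) + 1) * 2 ^ M * (2 ^ d * ε ^ (d - 1)) := by
  refine h.trans ?_
  refine seedSucc_le_of_section (by omega) L ω ε _ (by positivity) fun xs => ?_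
  exact section_le_count hd L ω ε hε hε' xs

end Crest.Agent.MS
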