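import Crest.Agent.Lib.MS.Chain

/-!
# S0499 module `LearnerChainAux1`: the abstract law of a chain of labels along independent blocks,
and the marginal law of the samples inside blocks.
-/

set_option autoImplicit false
set_option linter.unusedSectionVars false

namespace Crest.Agent.MS

open MeasureTheory ProbabilityTheory
open Crest.StreamLearn (E Sphere sphereUniform)

section Chain

variable {d B : ℕ} {Q : Type} [Fintype Q] [MeasurableSpace Q] [MeasurableSingletonClass Q]

/-- The chain of labels along a sequence of blocks. -/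
noncomputable def chainSeq (F : ℕ → Q → Mat d B → (Fin B → ℝ) → Q) (q0 : Q) (s : E d)
    (ys : ℕ → Mat d B) : ℕ → Q
  | 0 => q0
  | t + 1 => F t (chainSeq F q0 s ys t) (ys t) (mv (ys t) s)

theorem chainSeq_congr (F : ℕ → Q → Mat d B → (Fin B → ℝ) → Q) (q0 : Q) (s : E d)
    {ys ys' : ℕ → Mat d B} (t : ℕ) (h : ∀ n < t, ys n = ys' n) :
    chainSeq F q0 s ys t = chainSeq F q0 s ys' t := by
  induction t with
  | zero => rfl
  | succ t ih =>
    simp only [chainSeq]
    rw [ih (fun n hn => h n (by omega)), h t (by omega)]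

/-- Extension of a finite sequence by zero. -/
noncomputable def extZ {t : ℕ} (ys : Fin t → Mat d B) : ℕ → Mat d B :=
  fun n => if h : n < t then ys ⟨n, h⟩ else 0

theorem measurable_extZ {t : ℕ} (n : ℕ) :
    Measurable (fun ys : Fin t → Mat d B => extZ ys n) := by
  unfold extZ
  by_cases h : n < t
  · simp only [dif_pos h]
    exact measurable_pi_apply _
  · simp only [dif_neg h]
    exact measurable_const

theorem lc_measurable_mv (s : E d) : Measurable (fun X : Mat d B => mv X s) := by
  unfold mv
  refine measurable_pi_lambda _ fun j => ?_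
  have h1 : Continuous (fun x : E d => (inner ℝ x s : ℝ)) := continuous_id.inner continuous_const
  exact h1.measurable.comp (measurable_pi_apply j)

/-- Composition with a measurable discrete label. -/
theorem lc_measurable_of_label {P R : Type*} [MeasurableSpace P] [MeasurableSpace R] {g : P → Q}
    (hg : Measurable g) {h : Q → P → R} (hh : ∀ q, Measurable (h q)) :
    Measurable (fun p => h (g p) p) := by
  intro A hA
  have : (fun p => h (g p) p) ⁻¹' A = ⋃ q, (g ⁻¹' {q}) ∩ (h q ⁻¹' A) := by
    ext p
    simp only [Set.mem_preimage, Set.mem_iUnion, Set.mem_inter_iff, Set.mem_singleton_iff]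
    constructor
    · intro hp
      exact ⟨g p, rfl, hp⟩
    · rintro ⟨q, rfl, hp⟩
      exact hp
  rw [this]
  exact MeasurableSet.iUnion fun q => (hg (measurableSet_singleton q)).inter (hh q hA)

theorem measurable_chainSeq {F : ℕ → Q → Mat d B → (Fin B → ℝ) → Q}
    (hF : ∀ t q, Measurable (fun p : Mat d B × (Fin B → ℝ) => F t q p.1 p.2)) (q0 : Q) (s : E d)
    {t : ℕ} (n : ℕ) :
    Measurable (fun ys : Fin t → Mat d B => chainSeq F q0 s (extZ ys) n) := by
  induction n with
  | zero => exact measurable_const
  | succ n ih =>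
    simp only [chainSeq]
    refine lc_measurable_of_label ih (h := fun q ys => F n q (extZ ys n) (mv (extZ ys n) s)) fun q => ?_
    have h1 : Measurable (fun ys : Fin t → Mat d B => ((extZ ys n, mv (extZ ys n) s) :
        Mat d B × (Fin B → ℝ))) :=
      (measurable_extZ n).prodMk ((lc_measurable_mv s).comp (measurable_extZ n))
    exact (hF n q).comp h1

/-- The law of the label of the chain is the law of the chain along independent blocks. -/
theorem chainLaw_eq_real {F : ℕ → Q → Mat d B → (Fin B → ℝ) → Q}
    (hF : ∀ t q, Measurable (fun p : Mat d B × (Fin B → ℝ) => F t q p.1 p.2)) (q0 : Q)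
    (s : Sph d) (t : ℕ) (q : Q) :
    chainLaw F q0 t q s = (Measure.pi fun _ : Fin t => gam d B).real
      {ys | chainSeq F q0 (s : E d) (extZ ys) t = q} := by
  classical
  induction t generalizing q with
  | zero =>
    simp only [chainLaw, chainSeq]
    by_cases h : q = q0
    · subst h
      simp
    · have h' : q0 ≠ q := fun h'' => h h''.symm
      simp [h, h']
  | succ t ih =>
    let e := MeasurableEquiv.piFinSuccAbove (fun _ : Fin (t + 1) => Mat d B) (Fin.last t)
    have hmp : MeasurePreserving e (Measure.pi fun _ : Fin (t + 1) => gam d B)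
        ((gam d B).prod (Measure.pi fun _ : Fin t => gam d B)) :=
      measurePreserving_piFinSuccAbove (fun _ : Fin (t + 1) => gam d B) (Fin.last t)
    let A : Q → Set (Mat d B) := fun q1 => {X | F t q1 X (mv X (s : E d)) = q}
    let C : Q → Set (Fin t → Mat d B) := fun q1 => {zs | chainSeq F q0 (s : E d) (extZ zs) t = q1}
    have hA : ∀ q1, MeasurableSet (A q1) := by
      intro q1
      have h1 : Measurable (fun X : Mat d B => ((X, mv X (s : E d)) : Mat d B × (Fin B → ℝ))) :=
        measurable_id.prodMk (lc_measurable_mv _)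
      exact ((hF t q1).comp h1) (measurableSet_singleton q)
    have hC : ∀ q1, MeasurableSet (C q1) := fun q1 =>
      (measurable_chainSeq hF q0 (s : E d) t) (measurableSet_singleton q1)
    let U : Set (Mat d B × (Fin t → Mat d B)) := ⋃ q1 ∈ (Finset.univ : Finset Q), A q1 ×ˢ C q1
    have hU : MeasurableSet U :=
      Finset.measurableSet_biUnion _ fun q1 _ => (hA q1).prod (hC q1)
    have hset : {ys : Fin (t + 1) → Mat d B | chainSeq F q0 (s : E d) (extZ ys) (t + 1) = q} =
        e ⁻¹' U := by
      ext ys
      have h1 : e ys = (ys (Fin.last t), fun j => ys (Fin.castSucc j)) := by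
        refine Prod.ext ?_ ?_
        · simp [e, MeasurableEquiv.piFinSuccAbove]
        · funext j
          simp [e, MeasurableEquiv.piFinSuccAbove]
          rfl
      have h2 : chainSeq F q0 (s : E d) (extZ ys) t =
          chainSeq F q0 (s : E d) (extZ fun j : Fin t => ys (Fin.castSucc j)) t := by
        apply chainSeq_congr
        intro n hn
        simp only [extZ, dif_pos hn, dif_pos (show n < t + 1 by omega)]
        rfl
      have h3 : extZ ys t = ys (Fin.last t) := by
        simp only [extZ, dif_pos (show t < t + 1 by omega)]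
        rfl
      simp only [Set.mem_ofPred_eq, Set.mem_preimage, chainSeq, U, Set.mem_iUnion, Set.mem_prod, A, C,
        Finset.mem_univ, exists_prop, true_and, h1]
      constructor
      · intro h
        refine ⟨_, ?_, rfl⟩
        rw [← h2, ← h3]
        exact h
      · rintro ⟨q1, h4, h5⟩
        rw [h2, h3, h5]
        exact h4
    have hdisj : Set.PairwiseDisjoint (↑(Finset.univ : Finset Q)) (fun q1 => A q1 ×ˢ C q1) := by
      intro q1 _ q2 _ hne
      refine Set.disjoint_left.mpr ?_
      rintro ⟨X, zs⟩ h1 h2
      exact hne (h1.2.symm.trans h2.2)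
    rw [hset]
    have hmeas : (Measure.pi fun _ : Fin (t + 1) => gam d B).real (e ⁻¹' U) =
        ((gam d B).prod (Measure.pi fun _ : Fin t => gam d B)).real U := by
      simp only [Measure.real]
      rw [hmp.measure_preimage hU.nullMeasurableSet]
    rw [hmeas]
    have hU2 : ((gam d B).prod (Measure.pi fun _ : Fin t => gam d B)).real U =
        ∑ q1, ((gam d B).prod (Measure.pi fun _ : Fin t => gam d B)).real (A q1 ×ˢ C q1) :=
      measureReal_biUnion_finset hdisj (fun q1 _ => (hA q1).prod (hC q1))
    rw [hU2]
    simp only [chainLaw]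
    refine Finset.sum_congr rfl fun q1 _ => ?_
    rw [measureReal_prod_prod, ih q1, mul_comm]
    rfl

end Chain

section Marginal

variable {d T B : ℕ}

theorem lc_div_lt (i : Fin T) : (i : ℕ) / B < T / B + 1 :=
  Nat.lt_succ_of_le (Nat.div_le_div_right i.2.le)

/-- The samples of a sequence of blocks. -/
noncomputable def blockSamples (hB : 0 < B) (ys : Fin (T / B + 1) → Mat d B) : Fin T → E d :=
  fun i => ys ⟨(i : ℕ) / B, lc_div_lt i⟩ ⟨(i : ℕ) % B, Nat.mod_lt _ hB⟩

theorem measurable_blockSamples (hB : 0 < B) :
    Measurable (blockSamples (d := d) (T := T) hB) := by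
  refine measurable_pi_lambda _ fun i => ?_
  unfold blockSamples
  exact (measurable_pi_apply _).comp (measurable_pi_apply _)

/-- The samples inside a sequence of independent blocks are i.i.d. -/
theorem map_blockSamples (hB : 0 < B) :
    (Measure.pi fun _ : Fin (T / B + 1) => gam d B).map (blockSamples hB) = gam d T := by
  classical
  symm
  refine Measure.pi_eq fun S hS => ?_
  rw [Measure.map_apply (measurable_blockSamples hB) (MeasurableSet.univ_pi hS)]
  let S2 : Fin (T / B + 1) → Fin B → Set (E d) := fun a b =>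
    if h : (a : ℕ) * B + b < T then S ⟨(a : ℕ) * B + b, h⟩ else Set.univ
  have hS2 : ∀ a b, MeasurableSet (S2 a b) := by
    intro a b
    simp only [S2]
    split_ifs
    · exact hS _
    · exact MeasurableSet.univ
  have hkey : ∀ i : Fin T, S2 ⟨(i : ℕ) / B, lc_div_lt i⟩ ⟨(i : ℕ) % B, Nat.mod_lt _ hB⟩ = S i := by
    intro i
    have h1 : (i : ℕ) / B * B + (i : ℕ) % B = i := Nat.div_add_mod' _ _
    simp only [S2]
    rw [dif_pos (by rw [h1]; exact i.2)]
    congr 1
    exact Fin.ext h1
  have hpre : blockSamples hB ⁻¹' Set.univ.pi S =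
      Set.univ.pi fun a => Set.univ.pi fun b => S2 a b := by
    ext ys
    simp only [Set.mem_preimage, Set.mem_univ_pi, blockSamples]
    constructor
    · intro h a b
      simp only [S2]
      split_ifs with hab
      · have h2 := h ⟨(a : ℕ) * B + b, hab⟩
        have h3 : ((a : ℕ) * B + b) / B = a := by
          rw [Nat.add_comm, Nat.add_mul_div_right _ _ hB, Nat.div_eq_of_lt b.2, Nat.zero_add]
        have h4 : ((a : ℕ) * B + b) % B = b := by
          rw [Nat.add_comm, Nat.add_mul_mod_self_right, Nat.mod_eq_of_lt b.2]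
        simp only [h3, h4] at h2
        exact h2
      · exact Set.mem_univ _
    · intro h i
      rw [← hkey i]
      exact h _ _
  rw [hpre, Measure.pi_pi]
  have h1 : ∀ a : Fin (T / B + 1), gam d B (Set.univ.pi fun b => S2 a b) =
      ∏ b, stdGaussian (E d) (S2 a b) := by
    intro a
    show (Measure.pi fun _ : Fin B => stdGaussian (E d)) _ = _
    rw [Measure.pi_pi]
  simp_rw [h1]
  rw [← Finset.prod_product', Finset.univ_product_univ]
  let e : Fin T → Fin (T / B + 1) × Fin B := fun i =>
    (⟨(i : ℕ) / B, lc_div_lt i⟩, ⟨(i : ℕ) % B, Nat.mod_lt _ hB⟩)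
  have he : Function.Injective e := by
    intro i j hij
    have h2 : (i : ℕ) / B = (j : ℕ) / B := congrArg (fun p => ((p.1 : Fin (T / B + 1)) : ℕ)) hij
    have h3 : (i : ℕ) % B = (j : ℕ) % B := congrArg (fun p => ((p.2 : Fin B) : ℕ)) hij
    apply Fin.ext
    rw [← Nat.div_add_mod' (i : ℕ) B, ← Nat.div_add_mod' (j : ℕ) B, h2, h3]
  refine (Fintype.prod_of_injective e he _ _ ?_ ?_).symm
  · rintro ⟨a, b⟩ hp
    have hab : ¬ ((a : ℕ) * B + b < T) := by
      intro hab
      apply hp
      refine ⟨⟨(a : ℕ) * B + b, hab⟩, ?_⟩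
      have h3 : ((a : ℕ) * B + b) / B = a := by
        rw [Nat.add_comm, Nat.add_mul_div_right _ _ hB, Nat.div_eq_of_lt b.2, Nat.zero_add]
      have h4 : ((a : ℕ) * B + b) % B = b := by
        rw [Nat.add_comm, Nat.add_mul_mod_self_right, Nat.mod_eq_of_lt b.2]
      refine Prod.ext (Fin.ext h3) (Fin.ext h4)
    simp only [S2, dif_neg hab, measure_univ]
  · intro i
    show stdGaussian (E d) (S i) = stdGaussian (E d) (S2 ⟨(i : ℕ) / B, lc_div_lt i⟩ ⟨(i : ℕ) % B, Nat.mod_lt _ hB⟩)
    rw [hkey]

end Marginal

end Crest.Agent.MS
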