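import Crest.Agent.Lib.MS.Learner
import Crest.Agent.Lib.MS.LearnerChainAux1

/-!
# S0499 module `LearnerChain`: the learner with a fixed seed as a chain of labels.

Label set `LQ L = L.St × Fin (T + 2)`: `(q, code)`, where `code : Option ℕ → Fin (T + 2)` sends `some i` to `i` (`i ≤ T`) and `none` to `T + 1`.
A label encodes the state of `RLearner.run` after any number of steps (`(st, opt)`).
Chain: `F t (q, c) X y` runs the transitions of indices `t B' + j`, `j : Fin B'` (those that are `< T`), with samples `X j` and measurements `y j`, from the state `(q, c)`.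
Measurability: `L.trans_measurable` in (sample, measurement) for each state, by induction on the fold.

`chainLaw F q0 t q s = (gam d T).real {xs | code (run up to t B') = q}` by induction on `t`: the blocks of samples are independent.
Then `m = T / B' + 1` blocks cover all `T` samples, `v (q, c) = L.out (decode c) ω q`.
-/

set_option autoImplicit false
set_option linter.unusedSectionVars false

namespace Crest.Agent.MS

open MeasureTheory ProbabilityTheory
open Crest.StreamLearn (E Sphere sphereUniform RLearner)

variable {d T M : ℕ}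

/-- The label set of the chain attached to a learner. -/
def LQ (L : RLearner d T M) : Type := L.St × Fin (T + 2)

noncomputable instance (L : RLearner d T M) : Fintype (LQ L) :=
  letI := L.fin
  inferInstanceAs (Fintype (L.St × Fin (T + 2)))

instance (L : RLearner d T M) : MeasurableSpace (LQ L) := ⊤

instance (L : RLearner d T M) : MeasurableSingletonClass (LQ L) := ⟨fun _ => trivial⟩

theorem card_LQ (L : RLearner d T M) : Fintype.card (LQ L) ≤ 2 ^ M * (T + 2) := by
  letI := L.fin
  have h : Fintype.card (LQ L) = Fintype.card L.St * (T + 2) := by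
    show Fintype.card (L.St × Fin (T + 2)) = _
    simp
  rw [h]
  exact Nat.mul_le_mul_right _ L.card_le


/-- Natural-number fold. -/
def lcFold {α : Type*} (g : ℕ → α → α) : ℕ → α → α
  | 0, a => a
  | n + 1, a => g n (lcFold g n a)

theorem foldl_finRange_lcFold {α : Type*} (g : ℕ → α → α) (n : ℕ) (a : α) :
    (List.finRange n).foldl (fun st (t : Fin n) => g t.val st) a = lcFold g n a := by
  induction n with
  | zero => simp [lcFold]
  | succ n ih =>
    rw [List.finRange_succ_last, List.foldl_append, List.foldl_map]
    simp only [Fin.val_castSucc, List.foldl_cons, List.foldl_nil, Fin.val_last, lcFold]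
    rw [ih]

section Run

variable (L : RLearner d T M) (ω : L.Ω)

/-- One step of the run. -/
noncomputable def rawStep (t : Fin T) (x : E d) (y : ℝ) (st : L.St × Option ℕ) : L.St × Option ℕ :=
  if st.2.isSome then st else
    if (L.trans t ω st.1 x y).2 then ((L.trans t ω st.1 x y).1, some (t.val + 1))
    else ((L.trans t ω st.1 x y).1, none)

/-- The code of a state of the run. -/
def lcEnc (st : L.St × Option ℕ) : LQ L :=
  (st.1, match st.2 with
    | none => Fin.last (T + 1)
    | some i => ⟨min i T, by omega⟩)

/-- One step on labels. -/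
noncomputable def stepLC (t : Fin T) (l : LQ L) (x : E d) (y : ℝ) : LQ L :=
  if l.2 = Fin.last (T + 1) then
    if (L.trans t ω l.1 x y).2 then ((L.trans t ω l.1 x y).1, ⟨t.val + 1, by omega⟩)
    else ((L.trans t ω l.1 x y).1, Fin.last (T + 1))
  else l

/-- The output attached to a label. -/
noncomputable def lcOut (l : LQ L) : E d :=
  L.out (if l.2 = Fin.last (T + 1) then T else (l.2 : ℕ)) ω l.1

theorem norm_lcOut (l : LQ L) : ‖lcOut L ω l‖ = 1 := L.out_unit _ _ _

theorem lcEnc_rawStep (t : Fin T) (x : E d) (y : ℝ) (st : L.St × Option ℕ) :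
    lcEnc L (rawStep L ω t x y st) = stepLC L ω t (lcEnc L st) x y := by
  rcases st with ⟨q, _ | i⟩
  · by_cases h : (L.trans t ω q x y).2 = true
    · have hmin : min (t.val + 1) T = t.val + 1 := by
        have := t.2
        omega
      simp [rawStep, lcEnc, stepLC, h, hmin]
    · simp [rawStep, lcEnc, stepLC, h]
  · have hne : (⟨min i T, by omega⟩ : Fin (T + 2)) ≠ Fin.last (T + 1) := by
      intro h
      have h1 := congrArg Fin.val h
      simp only [Fin.val_last] at h1
      omega
    simp [rawStep, lcEnc, stepLC, hne]

/-- Stopping indices are at most the horizon. -/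
def lcGood (st : L.St × Option ℕ) : Prop := ∀ i, st.2 = some i → i ≤ T

theorem lcGood_rawStep (t : Fin T) (x : E d) (y : ℝ) {st : L.St × Option ℕ} (h : lcGood L st) :
    lcGood L (rawStep L ω t x y st) := by
  intro i hi
  unfold rawStep at hi
  split_ifs at hi with h1 h2
  · exact h i hi
  · simp only [Option.some.injEq] at hi
    have := t.2
    omega

theorem lcOut_lcEnc {st : L.St × Option ℕ} (h : lcGood L st) :
    lcOut L ω (lcEnc L st) = L.out (st.2.getD T) ω st.1 := by
  rcases st with ⟨q, _ | i⟩
  · simp [lcOut, lcEnc]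
  · have hi : i ≤ T := h i rfl
    have hmin : min i T = i := by omega
    have hne : (⟨i, by omega⟩ : Fin (T + 2)) ≠ Fin.last (T + 1) := by
      intro h
      have h1 := congrArg Fin.val h
      simp only [Fin.val_last] at h1
      omega
    simp [lcOut, lcEnc, hne, hmin]

/-- The initial state of the run. -/
noncomputable def st0 : L.St × Option ℕ := (L.init ω, if L.stopFirst ω then some 0 else none)

theorem lcGood_st0 : lcGood L (st0 L ω) := by
  intro i hi
  simp only [st0] at hi
  split_ifs at hi with h
  simp only [Option.some.injEq] at hi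
  omega

/-- The raw step at a natural number index. -/
noncomputable def rawG (s : E d) (xs : Fin T → E d) (k : ℕ) (st : L.St × Option ℕ) : L.St × Option ℕ :=
  if h : k < T then rawStep L ω ⟨k, h⟩ (xs ⟨k, h⟩) (inner ℝ (xs ⟨k, h⟩) s) st else st

theorem run_eq (s : E d) (xs : Fin T → E d) :
    L.run ω s xs = lcFold (rawG L ω s xs) T (st0 L ω) := by
  rw [← foldl_finRange_lcFold]
  unfold RLearner.run st0
  congr 1
  funext st t
  simp only [rawG, dif_pos t.2, rawStep]

/-- The step on labels at a natural number index. -/
noncomputable def labG (s : E d) (xs : Fin T → E d) (k : ℕ) (l : LQ L) : LQ L :=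
  if h : k < T then stepLC L ω ⟨k, h⟩ l (xs ⟨k, h⟩) (inner ℝ (xs ⟨k, h⟩) s) else l

theorem lcEnc_lcFold (s : E d) (xs : Fin T → E d) (n : ℕ) :
    lcEnc L (lcFold (rawG L ω s xs) n (st0 L ω)) =
      lcFold (labG L ω s xs) n (lcEnc L (st0 L ω)) := by
  induction n with
  | zero => rfl
  | succ n ih =>
    simp only [lcFold]
    rw [← ih]
    by_cases h : n < T
    · simp only [rawG, labG, dif_pos h]
      exact lcEnc_rawStep L ω _ _ _ _
    · simp only [rawG, labG, dif_neg h]

theorem lcGood_lcFold (s : E d) (xs : Fin T → E d) (n : ℕ) :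
    lcGood L (lcFold (rawG L ω s xs) n (st0 L ω)) := by
  induction n with
  | zero => exact lcGood_st0 L ω
  | succ n ih =>
    simp only [lcFold]
    by_cases h : n < T
    · simp only [rawG, dif_pos h]
      exact lcGood_rawStep L ω _ _ _ ih
    · simp only [rawG, dif_neg h]
      exact ih

/-- The output of the learner through labels. -/
theorem output_eq (s : E d) (xs : Fin T → E d) :
    L.output ω s xs = lcOut L ω (lcFold (labG L ω s xs) T (lcEnc L (st0 L ω))) := by
  rw [← lcEnc_lcFold, lcOut_lcEnc L ω (lcGood_lcFold L ω s xs T)]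
  unfold RLearner.output
  rw [run_eq]

/-- The steps after the horizon do nothing. -/
theorem labFold_stable (s : E d) (xs : Fin T → E d) (a : LQ L) (n : ℕ) :
    lcFold (labG L ω s xs) (T + n) a = lcFold (labG L ω s xs) T a := by
  induction n with
  | zero => rfl
  | succ n ih =>
    rw [← Nat.add_assoc]
    simp only [lcFold]
    rw [ih]
    simp [labG]

theorem measurable_stepL (t : Fin T) (l : LQ L) :
    Measurable (fun p : E d × ℝ => stepLC L ω t l p.1 p.2) := by
  haveI := L.fin
  letI := L.mΩ
  by_cases h : l.2 = Fin.last (T + 1)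
  · letI : MeasurableSpace L.St := ⊤
    have h1 : Measurable (fun p : E d × ℝ => (L.trans t ω l.1 p.1 p.2).1) :=
      (L.trans_measurable t l.1).1.comp (measurable_prodMk_left (x := ω))
    have h2 : Measurable (fun p : E d × ℝ => (L.trans t ω l.1 p.1 p.2).2) :=
      (L.trans_measurable t l.1).2.comp (measurable_prodMk_left (x := ω))
    let G : L.St × Bool → LQ L := fun x =>
      if x.2 then (x.1, ⟨t.val + 1, by omega⟩) else (x.1, Fin.last (T + 1))
    have h3 : (fun p : E d × ℝ => stepLC L ω t l p.1 p.2) =
        fun p => G ((L.trans t ω l.1 p.1 p.2).1, (L.trans t ω l.1 p.1 p.2).2) := by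
      funext p
      simp [stepLC, h, G]
    rw [h3]
    intro A _
    have h4 : (fun p : E d × ℝ => G ((L.trans t ω l.1 p.1 p.2).1, (L.trans t ω l.1 p.1 p.2).2)) ⁻¹' A =
        ⋃ x ∈ G ⁻¹' A, ((fun p : E d × ℝ => (L.trans t ω l.1 p.1 p.2).1) ⁻¹' {x.1} ∩
          (fun p : E d × ℝ => (L.trans t ω l.1 p.1 p.2).2) ⁻¹' {x.2}) := by
      ext p
      simp only [Set.mem_preimage, Set.mem_iUnion, Set.mem_inter_iff, Set.mem_singleton_iff,
        exists_prop, Prod.exists]
      constructor
      · intro hp
        exact ⟨_, _, hp, rfl, rfl⟩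
      · rintro ⟨a, b, hab, h5, h6⟩
        rw [h5, h6]
        exact hab
    rw [h4]
    refine MeasurableSet.biUnion (Set.to_countable _) fun x _ => ?_
    exact (h1 trivial).inter (h2 (measurableSet_singleton _))
  · have : (fun p : E d × ℝ => stepLC L ω t l p.1 p.2) = fun _ => l := by
      funext p
      simp [stepLC, h]
    rw [this]
    exact measurable_const

end Run

section Blocks

variable (L : RLearner d T M) (ω : L.Ω) {B' : ℕ}

/-- One step inside a block. -/
noncomputable def blockG (t : ℕ) (X : Mat d B') (y : Fin B' → ℝ) (j : ℕ) (l : LQ L) : LQ L :=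
  if hj : j < B' then
    if h : t * B' + j < T then stepLC L ω ⟨t * B' + j, h⟩ l (X ⟨j, hj⟩) (y ⟨j, hj⟩) else l
  else l

/-- One block of the chain. -/
noncomputable def lcF (t : ℕ) (l : LQ L) (X : Mat d B') (y : Fin B' → ℝ) : LQ L :=
  lcFold (blockG L ω t X y) B' l

theorem measurable_lcF (t : ℕ) (l : LQ L) :
    Measurable (fun p : Mat d B' × (Fin B' → ℝ) => lcF L ω t l p.1 p.2) := by
  have key : ∀ n, Measurable
      (fun p : Mat d B' × (Fin B' → ℝ) => lcFold (blockG L ω t p.1 p.2) n l) := by
    intro n
    induction n with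
    | zero => exact measurable_const
    | succ n ih =>
      simp only [lcFold]
      by_cases hj : n < B'
      · by_cases h : t * B' + n < T
        · simp only [blockG, dif_pos hj, dif_pos h]
          refine lc_measurable_of_label ih
            (h := fun a p => stepLC L ω ⟨t * B' + n, h⟩ a (p.1 ⟨n, hj⟩) (p.2 ⟨n, hj⟩)) fun a => ?_
          have h1 : Measurable (fun p : Mat d B' × (Fin B' → ℝ) =>
              ((p.1 ⟨n, hj⟩, p.2 ⟨n, hj⟩) : E d × ℝ)) := by
            refine Measurable.prodMk ?_ ?_
            · exact (measurable_pi_apply _).comp measurable_fst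
            · exact (measurable_pi_apply _).comp measurable_snd
          exact (measurable_stepL L ω _ a).comp h1
        · simp only [blockG, dif_pos hj, dif_neg h]
          exact ih
      · simp only [blockG, dif_neg hj]
        exact ih
  exact key B'

theorem lcF_chain (hB : 0 < B') (s : E d) (ys : Fin (T / B' + 1) → Mat d B') (t : ℕ)
    (ht : t ≤ T / B' + 1) :
    chainSeq (lcF L ω) (lcEnc L (st0 L ω)) s (extZ ys) t =
      lcFold (labG L ω s (blockSamples hB ys)) (t * B') (lcEnc L (st0 L ω)) := by
  induction t with
  | zero => simp [chainSeq, lcFold]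
  | succ t ih =>
    have ht' : t < T / B' + 1 := by omega
    simp only [chainSeq, lcF]
    rw [ih (by omega)]
    have key : ∀ j, j ≤ B' →
        lcFold (blockG L ω t (extZ ys t) (mv (extZ ys t) s)) j
          (lcFold (labG L ω s (blockSamples hB ys)) (t * B') (lcEnc L (st0 L ω))) =
        lcFold (labG L ω s (blockSamples hB ys)) (t * B' + j) (lcEnc L (st0 L ω)) := by
      intro j
      induction j with
      | zero => intro _; rfl
      | succ j ihj =>
        intro hj
        have hj' : j < B' := by omega
        show blockG L ω t (extZ ys t) (mv (extZ ys t) s) j (lcFold _ j _) =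
          labG L ω s (blockSamples hB ys) (t * B' + j) (lcFold _ (t * B' + j) _)
        rw [ihj (by omega)]
        by_cases h : t * B' + j < T
        · have hx : blockSamples hB ys ⟨t * B' + j, h⟩ = extZ ys t ⟨j, hj'⟩ := by
            simp only [blockSamples, extZ, dif_pos ht']
            have h3 : (t * B' + j) / B' = t := by
              rw [Nat.add_comm, Nat.add_mul_div_right _ _ hB, Nat.div_eq_of_lt hj', Nat.zero_add]
            have h4 : (t * B' + j) % B' = j := by
              rw [Nat.add_comm, Nat.add_mul_mod_self_right, Nat.mod_eq_of_lt hj']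
            exact congrArg₂ (fun a b => ys a b) (Fin.ext h3) (Fin.ext h4)
          simp only [blockG, labG, dif_pos hj', dif_pos h]
          rw [hx]
          rfl
        · simp only [blockG, labG, dif_pos hj', dif_neg h]
    rw [key B' le_rfl]
    have h5 : (t + 1) * B' = t * B' + B' := by ring
    rw [h5]

theorem output_blocks (hB : 0 < B') (s : E d) (ys : Fin (T / B' + 1) → Mat d B') :
    L.output ω s (blockSamples hB ys) =
      lcOut L ω (chainSeq (lcF L ω) (lcEnc L (st0 L ω)) s (extZ ys) (T / B' + 1)) := by
  rw [output_eq, lcF_chain L ω hB s ys _ le_rfl]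
  have h1 := Nat.div_add_mod' T B'
  have h2 := Nat.mod_lt T hB
  have h3 : (T / B' + 1) * B' = T + ((T / B' + 1) * B' - T) := by
    have h4 : (T / B' + 1) * B' = T / B' * B' + B' := by ring
    omega
  rw [h3, labFold_stable]

theorem measurable_labFold (a : LQ L) (n : ℕ) :
    Measurable (fun p : Sph d × Mat d T => lcFold (labG L ω (p.1 : E d) p.2) n a) := by
  induction n with
  | zero => exact measurable_const
  | succ n ih =>
    simp only [lcFold]
    by_cases h : n < T
    · simp only [labG, dif_pos h]
      refine lc_measurable_of_label ih (h := fun l p => stepLC L ω ⟨n, h⟩ l (p.2 ⟨n, h⟩)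
        (inner ℝ (p.2 ⟨n, h⟩) (p.1 : E d))) fun l => ?_
      have h0 : Measurable (fun p : Sph d × Mat d T => p.2 ⟨n, h⟩) :=
        (measurable_pi_apply _).comp measurable_snd
      have h1 : Measurable (fun p : Sph d × Mat d T =>
          ((p.2 ⟨n, h⟩, (inner ℝ (p.2 ⟨n, h⟩) (p.1 : E d) : ℝ)) : E d × ℝ)) := by
        refine h0.prodMk (h0.inner ?_)
        exact measurable_subtype_coe.comp measurable_fst
      exact (measurable_stepL L ω _ l).comp h1
    · simp only [labG, dif_neg h]
      exact ih

end Blocks

/-- The learner with a fixed seed gives a chain with `T / B' + 1` blocks. -/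
theorem learner_to_chain {B' : ℕ} (hB : 0 < B') (L : RLearner d T M) (ω : L.Ω) (ε : ℝ) :
    ∃ (F : ℕ → LQ L → Mat d B' → (Fin B' → ℝ) → LQ L) (q0 : LQ L) (v : LQ L → E d),
      (∀ t q, Measurable (fun p : Mat d B' × (Fin B' → ℝ) => F t q p.1 p.2)) ∧
      (∀ q, ‖v q‖ = 1) ∧
      seedSucc L ω ε = ∫ s : Sph d, ∑ q, chainLaw F q0 (T / B' + 1) q s *
        (if Real.arccos (inner ℝ (v q) (s : E d)) ≤ ε then 1 else 0) ∂(sig d) := by
  classical
  refine ⟨lcF L ω, lcEnc L (st0 L ω), lcOut L ω, fun t q => measurable_lcF L ω t q,
    norm_lcOut L ω, ?_⟩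
  have hmF : ∀ (t : ℕ) (q : LQ L), Measurable
      (fun p : Mat d B' × (Fin B' → ℝ) => lcF L ω t q p.1 p.2) := fun t q => measurable_lcF L ω t q
  set q0 := lcEnc L (st0 L ω) with hq0
  set S : Set (Sph d × Mat d T) :=
    {p | Real.arccos (inner ℝ (L.output ω (p.1 : E d) p.2) (p.1 : E d)) ≤ ε} with hSdef
  have hS : MeasurableSet S := by
    have h1 : Measurable (fun p : Sph d × Mat d T =>
        Real.arccos (inner ℝ (lcOut L ω (lcFold (labG L ω (p.1 : E d) p.2) T q0)) (p.1 : E d))) := by
      refine lc_measurable_of_label (measurable_labFold L ω q0 T)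
        (h := fun l p => Real.arccos (inner ℝ (lcOut L ω l) (p.1 : E d))) fun l => ?_
      refine Real.continuous_arccos.measurable.comp ?_
      refine Measurable.inner measurable_const ?_
      exact measurable_subtype_coe.comp measurable_fst
    have h2 : S = {p : Sph d × Mat d T |
        Real.arccos (inner ℝ (lcOut L ω (lcFold (labG L ω (p.1 : E d) p.2) T q0)) (p.1 : E d)) ≤ ε} := by
      ext p
      simp only [hSdef, Set.mem_ofPred_eq, output_eq, hq0]
    rw [h2]
    exact measurableSet_le h1 measurable_const
  have hpt : ∀ s : Sph d, (gam d T).real (Prod.mk s ⁻¹' S) =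
      ∑ q, chainLaw (lcF (B' := B') L ω) q0 (T / B' + 1) q s *
        (if Real.arccos (inner ℝ (lcOut L ω q) (s : E d)) ≤ ε then 1 else 0) := by
    intro s
    set P := Measure.pi fun _ : Fin (T / B' + 1) => gam d B' with hP
    set G : (Fin (T / B' + 1) → Mat d B') → LQ L :=
      fun ys => chainSeq (lcF (B' := B') L ω) q0 (s : E d) (extZ ys) (T / B' + 1) with hGdef
    have hG : Measurable G := measurable_chainSeq hmF q0 (s : E d) _
    have h1 : (gam d T).real (Prod.mk s ⁻¹' S) = P.real (blockSamples hB ⁻¹' (Prod.mk s ⁻¹' S)) := by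
      rw [← map_blockSamples hB]
      simp only [Measure.real]
      rw [Measure.map_apply (measurable_blockSamples hB) (measurable_prodMk_left hS)]
    let U : LQ L → Set (Fin (T / B' + 1) → Mat d B') := fun q =>
      if Real.arccos (inner ℝ (lcOut L ω q) (s : E d)) ≤ ε then G ⁻¹' {q} else ∅
    have hU : ∀ q, MeasurableSet (U q) := by
      intro q
      simp only [U]
      split_ifs
      · exact hG (measurableSet_singleton q)
      · exact MeasurableSet.empty
    have h2 : blockSamples hB ⁻¹' (Prod.mk s ⁻¹' S) = ⋃ q ∈ (Finset.univ : Finset (LQ L)), U q := by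
      ext ys
      simp only [Set.mem_preimage, hSdef, Set.mem_ofPred_eq, Set.mem_iUnion, Finset.mem_univ,
        exists_prop, true_and, U]
      rw [output_blocks L ω hB (s : E d) ys]
      constructor
      · intro h
        refine ⟨G ys, ?_⟩
        rw [if_pos h]
        exact rfl
      · rintro ⟨q, hq⟩
        split_ifs at hq with h3
        · have h4 : G ys = q := hq
          have h5 : chainSeq (lcF L ω) (lcEnc L (st0 L ω)) (s : E d) (extZ ys) (T / B' + 1) = q := h4
          rw [h5]
          exact h3
        · exact absurd hq (Set.notMem_empty _)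
    have hdisj : Set.PairwiseDisjoint (↑(Finset.univ : Finset (LQ L))) U := by
      intro q1 _ q2 _ hne
      refine Set.disjoint_left.mpr fun ys h1 h2 => ?_
      simp only [U] at h1 h2
      split_ifs at h1 h2
      · exact hne (h1.symm.trans h2)
      all_goals first | exact absurd h1 (Set.notMem_empty _) | exact absurd h2 (Set.notMem_empty _)
    rw [h1, h2, measureReal_biUnion_finset hdisj (fun q _ => hU q)]
    refine Finset.sum_congr rfl fun q _ => ?_
    rw [chainLaw_eq_real hmF]
    simp only [U]
    split_ifs
    · rw [mul_one]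
      rfl
    · simp
  have hfub : seedSucc L ω ε = ∫ s : Sph d, (gam d T).real (Prod.mk s ⁻¹' S) ∂(sig d) := by
    show ((sig d).prod (gam d T)).real S = _
    simp only [Measure.real]
    rw [Measure.prod_apply hS, integral_toReal]
    · exact (measurable_measure_prodMk_left hS).aemeasurable
    · exact Filter.Eventually.of_forall fun s => measure_lt_top _ _
  rw [hfub]
  exact integral_congr_ae (Filter.Eventually.of_forall hpt)

end Crest.Agent.MS
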