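import Crest.Agent.Lib.MS.BlockSelf
import Crest.Agent.Lib.MS.Cells

/-!
# S0499 module `RieszPivot`: the pivots are not small, uniformly in `δ`.

Apply `block_self` with `l = B + 1`, and `Hz + B log t₀ = (Hz - Hc) + (Hc + B log δ) + B log(t₀/δ)`,
`t₀/δ = 2/√(2π)`, `Hc_le`, `Hz_sub_Hc_bounds`: for `δ ≤ 1`, with `Ξ = - ∑ E log d̃_i`,
`Ξ ≤ Ξmax := n log Cneg + (n+1) D₀ + n (log |Q| + (B/2) log(2πe) + 2B + B log(2/√(2π)))`.

Now `Y_i = log 2 - log d̃_i ≥ 0` (`dtil_bounds`, with `t₀ ≤ 2`), `∑ E Y_i = n log 2 + Ξ`, so by Markov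
`P(Y_j ≥ log(2/t)) ≤ (n log 2 + Ξmax) / log (2/t)`; and if `d_j < t`, `t₀ < t` then `d̃_j < t`.
Choose `t` small, then `δ₁` with `t₀(δ₁) ≤ t`.
-/

set_option autoImplicit false
set_option linter.unusedSectionVars false

namespace Crest.Agent.MS

open MeasureTheory ProbabilityTheory
open Crest.StreamLearn (E Sphere sphereUniform)

variable {d B n : ℕ} {Q : Type} [Fintype Q] [Nonempty Q] [MeasurableSpace Q]
  [MeasurableSingletonClass Q] {ψ : Sph d → ℝ} {F : Mat d B → (Fin B → ℝ) → Q} {δ : ℝ}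

/-- The uniform bound of the sum of `- log d̃_i`. -/
theorem uniform_Xi (hn : B + n + 3 ≤ d) (hψ : IsDens ψ)
    (hF : Measurable (fun p : Mat d B × (Fin B → ℝ) => F p.1 p.2)) :
    ∃ Ξmax : ℝ, ∀ δ : ℝ, 0 < δ → δ ≤ 1 →
      ∑ i : Fin n, (- ∫ p, Real.log (dtil δ p.1 i.succ) ∂(tupP n ψ F δ)) ≤ Ξmax := by
  have hd : 0 < d := by omega
  refine ⟨n * Real.log (2 * (32 * Real.sqrt d) ^ d) + (n + 1) * D0 ψ +
    n * (Real.log (Fintype.card Q) + ((B / 2 : ℝ) * Real.log (2 * Real.pi * Real.exp 1) + 2 * B) +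
      B * Real.log (2 / Real.sqrt (2 * Real.pi))), ?_⟩
  intro δ hδ hδ1
  have h1 := block_self (n := n) hψ hF hδ (B + 1) (by omega)
  have h2 := (Hz_sub_Hc_bounds hd hψ hF hδ).2
  have h3 := Hc_le (B := B) hd hψ hδ hδ1
  have hs : 0 < Real.sqrt (2 * Real.pi) := Real.sqrt_pos.2 (by positivity)
  have h4 : Real.log (tt δ) = Real.log δ + Real.log (2 / Real.sqrt (2 * Real.pi)) := by
    rw [← Real.log_mul hδ.ne' (by positivity)]
    congr 1
    unfold tt
    ring
  have hB0 : (0 : ℝ) ≤ B := Nat.cast_nonneg B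
  have hn0 : (0 : ℝ) ≤ n := Nat.cast_nonneg n
  have h5 : Hz ψ F δ + B * Real.log (tt δ) ≤
      Real.log (Fintype.card Q) + ((B / 2 : ℝ) * Real.log (2 * Real.pi * Real.exp 1) + 2 * B) +
      B * Real.log (2 / Real.sqrt (2 * Real.pi)) := by
    rw [h4, mul_add]
    have h6 : 2 * (B : ℝ) * δ ≤ 2 * B := by
      have : 2 * (B : ℝ) * δ ≤ 2 * B * 1 := by gcongr
      linarith
    linarith
  have h7 := mul_le_mul_of_nonneg_left h5 hn0
  have h8 : ((B + 1 : ℕ) : ℝ) - B = 1 := by push_cast; ring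
  rw [h8, one_mul] at h1
  linarith

theorem pivot_prob (hn : B + n + 3 ≤ d) (hψ : IsDens ψ)
    (hF : Measurable (fun p : Mat d B × (Fin B → ℝ) => F p.1 p.2)) (ε : ℝ) (hε : 0 < ε) :
    ∃ t : ℝ, 0 < t ∧ t ≤ 1 ∧ ∃ δ₁ : ℝ, 0 < δ₁ ∧ δ₁ ≤ 1 ∧ ∀ δ : ℝ, 0 < δ → δ < δ₁ → ∀ j : Fin n,
      (tupP n ψ F δ).real {p | di p.1 j.succ < t} ≤ ε := by
  have hd : 0 < d := by omega
  obtain ⟨Ξ, hΞ⟩ := uniform_Xi (F := F) (n := n) hn hψ hF
  set M : ℝ := n * Real.log 2 + Ξ with hM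
  set c : ℝ := |M| / ε + 1 with hc
  have hcpos : 0 < c := by positivity
  have hexp1 : Real.exp (-c) ≤ 1 := by
    rw [Real.exp_le_one_iff]; linarith
  refine ⟨Real.exp (-c), Real.exp_pos _, hexp1, Real.exp (-c), Real.exp_pos _, hexp1, ?_⟩
  intro δ hδ hδ1 j
  have hδ1' : δ ≤ 1 := by linarith
  haveI := tupP_isProb (n := n) hd hψ hF hδ
  have hs2 : 2 ≤ Real.sqrt (2 * Real.pi) := by
    apply Real.le_sqrt_of_sq_le
    nlinarith [Real.pi_gt_three]
  have htt : tt δ ≤ δ := by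
    unfold tt
    rw [div_le_iff₀ (by linarith)]
    nlinarith
  have hY0 : ∀ (i : Fin n) (p : (Fin (n + 1) → Sph d) × Mat d B),
      0 ≤ Real.log 2 - Real.log (dtil δ p.1 i.succ) := by
    intro i p
    have hb := dtil_bounds hδ p.1 i.succ
    have hpos : 0 < dtil δ p.1 i.succ := lt_of_lt_of_le (tt_pos hδ) hb.1
    have hle : dtil δ p.1 i.succ ≤ 2 := by
      refine le_trans hb.2 (max_le le_rfl ?_)
      linarith
    have := Real.log_le_log hpos hle
    linarith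
  have hYi : ∀ i : Fin n, Integrable (fun p => Real.log 2 - Real.log (dtil δ p.1 i.succ))
      (tupP n ψ F δ) := fun i =>
    (integrable_const _).sub (tup_integrable_logdtil hd hψ hF hδ i.succ)
  have hYv : ∀ i : Fin n, ∫ p, (Real.log 2 - Real.log (dtil δ p.1 i.succ)) ∂(tupP n ψ F δ) =
      Real.log 2 + (- ∫ p, Real.log (dtil δ p.1 i.succ) ∂(tupP n ψ F δ)) := by
    intro i
    rw [integral_sub (integrable_const _) (tup_integrable_logdtil hd hψ hF hδ i.succ)]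
    simp only [integral_const, probReal_univ, smul_eq_mul, one_mul]
    ring
  have hsum : ∑ i : Fin n, ∫ p, (Real.log 2 - Real.log (dtil δ p.1 i.succ)) ∂(tupP n ψ F δ) ≤ M := by
    have h1 := hΞ δ hδ hδ1'
    simp_rw [hYv]
    rw [Finset.sum_add_distrib]
    simp only [Finset.sum_const, Finset.card_univ, Fintype.card_fin, nsmul_eq_mul]
    rw [hM]
    linarith
  have hj : ∫ p, (Real.log 2 - Real.log (dtil δ p.1 j.succ)) ∂(tupP n ψ F δ) ≤ M := by
    refine le_trans ?_ hsum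
    exact Finset.single_le_sum (f := fun i : Fin n =>
      ∫ p, (Real.log 2 - Real.log (dtil δ p.1 i.succ)) ∂(tupP n ψ F δ))
      (fun i _ => integral_nonneg (hY0 i)) (Finset.mem_univ j)
  have hMk := mul_meas_ge_le_integral_of_nonneg (μ := tupP n ψ F δ)
    (Filter.Eventually.of_forall (hY0 j)) (hYi j) c
  have hsub : {p : (Fin (n + 1) → Sph d) × Mat d B | di p.1 j.succ < Real.exp (-c)} ⊆
      {p | c ≤ Real.log 2 - Real.log (dtil δ p.1 j.succ)} := by
    intro p hp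
    have hb := dtil_bounds hδ p.1 j.succ
    have hpos : 0 < dtil δ p.1 j.succ := lt_of_lt_of_le (tt_pos hδ) hb.1
    have hlt : dtil δ p.1 j.succ < Real.exp (-c) := max_lt hp (lt_of_le_of_lt htt hδ1)
    have h1 : Real.log (dtil δ p.1 j.succ) < -c := by
      have := Real.log_lt_log hpos hlt
      rwa [Real.log_exp] at this
    have h2 : 0 < Real.log 2 := Real.log_pos (by norm_num)
    show c ≤ Real.log 2 - Real.log (dtil δ p.1 j.succ)
    linarith
  have hle := measureReal_mono hsub (μ := tupP n ψ F δ) (measure_ne_top _ _)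
  have hfin : c * (tupP n ψ F δ).real {p | di p.1 j.succ < Real.exp (-c)} ≤ c * ε := by
    have h1 : c * (tupP n ψ F δ).real {p | di p.1 j.succ < Real.exp (-c)} ≤
        c * (tupP n ψ F δ).real {p | c ≤ Real.log 2 - Real.log (dtil δ p.1 j.succ)} :=
      mul_le_mul_of_nonneg_left hle hcpos.le
    have h2 : M ≤ c * ε := by
      rw [hc, add_mul, div_mul_cancel₀ _ hε.ne', one_mul]
      have := le_abs_self M
      linarith
    linarith
  exact le_of_mul_le_mul_left hfin hcpos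

end Crest.Agent.MS
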