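import Crest.Agent.Lib.MS.RieszCube
import Crest.Agent.Lib.MS.RieszPivot

/-!
# S0499 module `Riesz`: the key estimate.

Let `L` bound `ψ`, `C₁` bound `log RR` from above (`RR_pos_bound`), `a` with `B = 2a+2`.  Given `η`:

1. Pick `ε' > 0` small.
2. Pick `τ` with `P(X ∉ goodX τ) ≤ ε'`, `∫_{(goodX τ)ᶜ} PhiX ≤ η/8` (`goodX_small`).
3. Pick `t` with `P_tup(d_j < t) ≤ ε'/n`, for `δ < δ₁` (`pivot_prob`).
4. Pick `δ₀ ≤ δ₁` such that `δ' := 2 (4 δ √B (3/t)^n/τ) ≤ 1` and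
   `(4/3)^{2a} (L Cneg δ')` is small (`Cneg = 2 (32√d)^d`).

With `G` the event "`X ∈ goodX τ` and all pivots `≥ t`" and `c = zetaC δ X s₀`, a.s. (`tupP_ae`: same cube):
`RR_i ≤ L Cneg δ' + 2^{2a} (3/2)^{2a} GGbar(c)` on `G` (`RR_le_GG`, `GG_le_GGbar`), and so
as `GGbar(c) ≥ 4^{-2a}` (`GGbar_lower`), with `W = log(3^{2a} GGbar(c))`,
`log RR_i ≤ W + (4/3)^{2a} L Cneg δ'` on `G`. Moreover `W ≥ -2a log(4/3) ≥ -B` whenever `X ∈ goodX τ`.

So `E log RR_i ≤ E[1_G W] + η/4 + C₁⁺ P(Gᶜ) ≤ E[1_{X good} W] + B P(Gᶜ) + η/4 + C₁⁺ P(Gᶜ)`.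
By `tupP_integral_coord` at `j = 0`, `E[1_{X good} W] = ∫_{X good} ∫ ψ(s) W(X, cell(X s)) ds dγ(X)`, and
`cube_gibbs` bounds the inner integral by `2a log 3 - HX - B log δ + log VV(X)`.
`log VV(X) = log(8 B ballVol B) + log √det G ≤ log(8 B ballVol B) + (B/2) log(1 + ‖X‖²/B)` and
`E[(B/2) log(1+‖X‖²/B)] ≤ (B/2) log(1+d)` (nonneg. integrand, so `1_{X good}` can be dropped).
Finally `∫_{X good} (-HX - B log δ) = -(Hc + B log δ) + ∫_{X bad} (HX + B log δ)` and
the last integral is `≤ ∫_{X bad} PhiX` (`HX_add_log_le`).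
-/

set_option autoImplicit false
set_option linter.unusedSectionVars false

namespace Crest.Agent.MS

open MeasureTheory ProbabilityTheory
open Crest.StreamLearn (E Sphere sphereUniform)

variable {d B n : ℕ} {Q : Type} [Fintype Q] [Nonempty Q] [MeasurableSpace Q]
  [MeasurableSingletonClass Q] {ψ : Sph d → ℝ} {F : Mat d B → (Fin B → ℝ) → Q} {δ : ℝ}

/-- Arithmetic: the bound of `log RR` on the good event. -/
private theorem log_le_aux {R ξ G : ℝ} {a : ℕ} (hR : 0 < R) (hξ : 0 ≤ ξ)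
    (hG : ((4 : ℝ) ^ (2 * a))⁻¹ ≤ G)
    (hle : R ≤ ξ + 2 ^ (2 * a) * ((3 / 2 : ℝ) ^ (2 * a) * G)) :
    Real.log R ≤ Real.log ((3 : ℝ) ^ (2 * a) * G) + (4 / 3 : ℝ) ^ (2 * a) * ξ := by
  have h4 : (0 : ℝ) < ((4 : ℝ) ^ (2 * a))⁻¹ := by positivity
  have hGpos : 0 < G := lt_of_lt_of_le h4 hG
  set u : ℝ := (3 : ℝ) ^ (2 * a) * G with hu
  have hupos : 0 < u := by positivity
  have h23 : (2 : ℝ) ^ (2 * a) * ((3 / 2 : ℝ) ^ (2 * a) * G) = u := by
    rw [hu, ← mul_assoc, ← mul_pow]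
    norm_num
  rw [h23] at hle
  have hinv : u⁻¹ ≤ (4 / 3 : ℝ) ^ (2 * a) := by
    have h5 : ((4 / 3 : ℝ) ^ (2 * a))⁻¹ ≤ u := by
      have e : ((4 / 3 : ℝ) ^ (2 * a))⁻¹ = (3 : ℝ) ^ (2 * a) * ((4 : ℝ) ^ (2 * a))⁻¹ := by
        rw [div_pow, inv_div, div_eq_mul_inv]
      rw [e, hu]
      gcongr
    exact inv_le_of_inv_le₀ (by positivity) h5
  have h1 : Real.log R ≤ Real.log (u + ξ) := Real.log_le_log hR (by linarith)
  have h2 : Real.log (u + ξ) = Real.log u + Real.log (1 + ξ / u) := by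
    rw [← Real.log_mul hupos.ne' (by positivity)]
    congr 1
    field_simp
  have h3 : Real.log (1 + ξ / u) ≤ ξ / u := by
    have := Real.log_le_sub_one_of_pos (show 0 < 1 + ξ / u by positivity)
    linarith
  have h5 : ξ / u ≤ (4 / 3 : ℝ) ^ (2 * a) * ξ := by
    rw [div_eq_inv_mul]
    gcongr
  linarith

/-- Arithmetic: the lower bound of `W`. -/
private theorem logW_lower {G : ℝ} {a : ℕ} (hG : ((4 : ℝ) ^ (2 * a))⁻¹ ≤ G) :
    -(2 * a : ℝ) ≤ Real.log ((3 : ℝ) ^ (2 * a) * G) := by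
  have h34 : ((3 / 4 : ℝ)) ^ (2 * a) ≤ (3 : ℝ) ^ (2 * a) * G := by
    have e : ((3 / 4 : ℝ)) ^ (2 * a) = (3 : ℝ) ^ (2 * a) * ((4 : ℝ) ^ (2 * a))⁻¹ := by
      rw [div_pow, div_eq_mul_inv]
    rw [e]
    gcongr
  have h1 := Real.log_le_log (by positivity) h34
  rw [Real.log_pow] at h1
  have h2 : -1 ≤ Real.log (3 / 4 : ℝ) := by
    have := Real.one_sub_inv_le_log_of_pos (show (0 : ℝ) < 3 / 4 by norm_num)
    norm_num at this ⊢
    linarith
  have h3 : (0 : ℝ) ≤ ((2 * a : ℕ) : ℝ) := Nat.cast_nonneg _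
  have h4 : -((2 * a : ℕ) : ℝ) ≤ ((2 * a : ℕ) : ℝ) * Real.log (3 / 4 : ℝ) := by
    nlinarith
  push_cast at h1 h4
  linarith

/-- Two-sided bound of a logarithm. -/
private theorem abs_log_le {x A C : ℝ} (hA : 0 < A) (h1 : A ≤ x) (h2 : x ≤ C) :
    |Real.log x| ≤ |Real.log A| + |Real.log C| := by
  have h3 : Real.log A ≤ Real.log x := Real.log_le_log hA h1
  have h4 : Real.log x ≤ Real.log C := Real.log_le_log (lt_of_lt_of_le hA h1) h2
  refine abs_le.2 ⟨?_, ?_⟩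
  · linarith [neg_abs_le (Real.log A), abs_nonneg (Real.log C)]
  · linarith [le_abs_self (Real.log C), abs_nonneg (Real.log A)]

open Classical in
/-- The function `W`, restricted to good blocks. -/
private noncomputable def Wf (a : ℕ) (ψ : Sph d → ℝ) (δ δ' τ : ℝ) (x : Sph d × Mat d B) : ℝ :=
  if x.2 ∈ goodX τ then Real.log ((3 : ℝ) ^ (2 * a) * GGbar a ψ x.2 δ δ' (zetaC δ x.2 x.1)) else 0

private theorem measurable_Wf (hd : 0 < d) (hψ : IsDens ψ) (a : ℕ) (hδ : 0 < δ) (δ' τ : ℝ) :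
    Measurable (Wf (B := B) a ψ δ δ' τ) := by
  classical
  have h1 : Measurable (fun x : Sph d × Mat d B => GGbar a ψ x.2 δ δ' (zetaC δ x.2 x.1)) := by
    have h2 : Measurable (fun y : Mat d B × (Fin B → ℤ) => GGbar a ψ y.1 δ δ' y.2) :=
      measurable_from_prod_countable_left (fun c => measurable_GGbar hd hψ a δ δ' c)
    exact h2.comp (measurable_snd.prodMk ((measurable_zetaC hδ).comp measurable_swap))
  unfold Wf
  refine Measurable.ite ((measurableSet_goodX τ).preimage measurable_snd) ?_ measurable_const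
  exact Real.measurable_log.comp (h1.const_mul _)

private theorem Wf_bound (hd : 0 < d) (hψ : IsDens ψ) (a : ℕ) {δ δ' τ : ℝ} (hδ : 0 < δ)
    (hτ : 0 < τ) (he : δ * Real.sqrt B / τ ≤ 2) (hδ'0 : 0 < δ') (hδ'1 : δ' ≤ 4)
    (x : Sph d × Mat d B) :
    -(2 * a : ℝ) ≤ Wf a ψ δ δ' τ x ∧
      Wf a ψ δ δ' τ x ≤ |Real.log ((3 : ℝ) ^ (2 * a) * (δ' ^ (2 * a))⁻¹)| := by
  classical
  unfold Wf
  by_cases hX : x.2 ∈ goodX τ
  · rw [if_pos hX]
    have h1 := GGbar_lower hd hψ a hδ hX hτ he hδ'0 hδ'1 x.1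
    have h2 := GGbar_upper hψ a x.2 hδ hδ'0 (zetaC δ x.2 x.1)
    refine ⟨logW_lower h1, le_trans ?_ (le_abs_self _)⟩
    have h3 : (0 : ℝ) < ((4 : ℝ) ^ (2 * a))⁻¹ := by positivity
    have hGpos := lt_of_lt_of_le h3 h1
    apply Real.log_le_log (by positivity)
    gcongr
  · rw [if_neg hX]
    refine ⟨?_, abs_nonneg _⟩
    have : (0 : ℝ) ≤ a := Nat.cast_nonneg a
    linarith

/-- Gibbs on the cubes, with the factor `3^{2a}`. -/
private theorem inner_le (hd : 0 < d) (hψ : IsDens ψ) {a : ℕ} (hB : B = 2 * a + 2) {X : Mat d B}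
    {δ δ' τ : ℝ} (hδ : 0 < δ) (hX : X ∈ goodX τ) (hτ : 0 < τ) (he : δ * Real.sqrt B / τ ≤ 2)
    (hδ'0 : 0 < δ') (hδ'1 : δ' ≤ 4) :
    ∫ s, ψ s * Real.log ((3 : ℝ) ^ (2 * a) * GGbar a ψ X δ δ' (zetaC δ X s)) ∂(sig d) ≤
      (2 * a : ℝ) * Real.log 3 - HX ψ δ X - B * Real.log δ + Real.log (VV X) := by
  classical
  haveI hσ : IsProbabilityMeasure (sig d) := sig_isProb hd
  have hgibbs := cube_gibbs hd hψ hB hδ hX hτ he hδ'0 hδ'1
  obtain ⟨L, hL⟩ := hψ.bdd
  have hGlow := fun s : Sph d => GGbar_lower hd hψ a hδ hX hτ he hδ'0 hδ'1 s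
  have hGup := fun s : Sph d => GGbar_upper hψ a X hδ hδ'0 (zetaC δ X s)
  have h4 : (0 : ℝ) < ((4 : ℝ) ^ (2 * a))⁻¹ := by positivity
  have hGpos : ∀ s : Sph d, 0 < GGbar a ψ X δ δ' (zetaC δ X s) := fun s =>
    lt_of_lt_of_le h4 (hGlow s)
  have hm : Measurable (fun s : Sph d => GGbar a ψ X δ δ' (zetaC δ X s)) := by
    have h1 : Measurable (fun s : Sph d => zetaC δ X s) :=
      (measurable_zetaC hδ).comp (measurable_const.prodMk measurable_id)
    exact (Measurable.of_discrete (f := fun c : Fin B → ℤ => GGbar a ψ X δ δ' c)).comp h1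
  have hi : Integrable (fun s => ψ s * Real.log (GGbar a ψ X δ δ' (zetaC δ X s))) (sig d) := by
    refine Integrable.of_bound ((hψ.meas.mul (Real.measurable_log.comp hm)).aestronglyMeasurable)
      (L * (|Real.log ((4 : ℝ) ^ (2 * a))⁻¹| + |Real.log ((δ' ^ (2 * a))⁻¹)|)) ?_
    refine Filter.Eventually.of_forall fun s => ?_
    rw [Real.norm_eq_abs, abs_mul, abs_of_nonneg (hψ.nonneg s)]
    exact mul_le_mul (hL s) (abs_log_le h4 (hGlow s) (hGup s)) (abs_nonneg _)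
      (le_trans (hψ.nonneg s) (hL s))
  have hsplit : ∀ s : Sph d,
      ψ s * Real.log ((3 : ℝ) ^ (2 * a) * GGbar a ψ X δ δ' (zetaC δ X s)) =
        ((2 * a : ℝ) * Real.log 3) * ψ s + ψ s * Real.log (GGbar a ψ X δ δ' (zetaC δ X s)) := by
    intro s
    rw [Real.log_mul (by positivity) (hGpos s).ne', Real.log_pow]
    push_cast
    ring
  simp_rw [hsplit]
  rw [integral_add (hψ.integrable.const_mul _) hi, integral_const_mul, hψ.int_one, mul_one]
  linarith

private theorem log_VV_le {X : Mat d B} (hX : (gram X).det ≠ 0) (hB : 0 < B) :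
    Real.log (VV X) ≤ Real.log (8 * B * ballVol B) +
      (B / 2 : ℝ) * Real.log (1 + (∑ r, ‖X r‖ ^ 2) / B) := by
  unfold VV
  have hdet : 0 < (gram X).det := lt_of_le_of_ne (det_gram_nonneg X) hX.symm
  have hb := ballVol_pos (B := B) hB
  have hB' : (0 : ℝ) < B := by exact_mod_cast hB
  rw [Real.log_mul (by positivity) (Real.sqrt_pos.2 hdet).ne']
  linarith [log_sqrt_det_gram_le hX hB]

/-- The expectation of `W`. -/
private theorem EW_le (hd : 0 < d) (hψ : IsDens ψ) {a : ℕ} (hB : B = 2 * a + 2)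
    {δ δ' τ : ℝ} (hδ : 0 < δ) (hδ1 : δ ≤ 1) (hτ : 0 < τ) (he : δ * Real.sqrt B / τ ≤ 2)
    (hδ'0 : 0 < δ') (hδ'1 : δ' ≤ 4) :
    ∫ x, ψ x.1 * Wf a ψ δ δ' τ x ∂((sig d).prod (gam d B)) ≤
      CR d B - (Hc B ψ δ + B * Real.log δ) +
        |Real.log (8 * B * ballVol B)| * (gam d B).real (goodX τ)ᶜ +
          ∫ X in (goodX τ)ᶜ, PhiX X ∂(gam d B) := by
  classical
  haveI hσ : IsProbabilityMeasure (sig d) := sig_isProb hd
  have hB0 : 0 < B := by omega
  have hB' : (0 : ℝ) < B := by exact_mod_cast hB0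
  obtain ⟨L, hL⟩ := hψ.bdd
  set Cw : ℝ := (2 * a : ℝ) + |Real.log ((3 : ℝ) ^ (2 * a) * (δ' ^ (2 * a))⁻¹)| with hCw
  have ha0 : (0 : ℝ) ≤ a := Nat.cast_nonneg a
  have hWabs : ∀ x : Sph d × Mat d B, |Wf a ψ δ δ' τ x| ≤ Cw := by
    intro x
    obtain ⟨h1, h2⟩ := Wf_bound hd hψ a hδ hτ he hδ'0 hδ'1 x
    refine abs_le.2 ⟨?_, ?_⟩ <;>
      linarith [abs_nonneg (Real.log ((3 : ℝ) ^ (2 * a) * (δ' ^ (2 * a))⁻¹))]
  have hmW := measurable_Wf (B := B) hd hψ a hδ δ' τ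
  have hint : Integrable (fun x : Sph d × Mat d B => ψ x.1 * Wf a ψ δ δ' τ x)
      ((sig d).prod (gam d B)) := by
    refine Integrable.of_bound
      (((hψ.meas.comp measurable_fst).mul hmW).aestronglyMeasurable) (L * Cw) ?_
    refine Filter.Eventually.of_forall fun x => ?_
    rw [Real.norm_eq_abs, abs_mul, abs_of_nonneg (hψ.nonneg _)]
    exact mul_le_mul (hL _) (hWabs x) (abs_nonneg _) (le_trans (hψ.nonneg x.1) (hL _))
  rw [integral_prod_symm _ hint]
  set Λ : ℝ := Real.log (8 * B * ballVol B) with hΛ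
  set ℓ : Mat d B → ℝ := fun X => Real.log (1 + (∑ r, ‖X r‖ ^ 2) / B) with hℓ
  have hbadm : MeasurableSet (goodX τ : Set (Mat d B))ᶜ := (measurableSet_goodX τ).compl
  obtain ⟨hℓi, hℓle⟩ := integral_log_gram_le (d := d) (B := B) hB0
  have hℓ0 : ∀ X : Mat d B, 0 ≤ ℓ X := by
    intro X
    apply Real.log_nonneg
    have : 0 ≤ (∑ r, ‖X r‖ ^ 2) / (B : ℝ) := by positivity
    linarith
  have hlog3 : 0 ≤ Real.log 3 := Real.log_nonneg (by norm_num)
  -- the pointwise majorant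
  set T : Mat d B → ℝ := fun X =>
    ((B : ℝ) * Real.log 3 + Λ - B * Real.log δ) +
      (goodX τ : Set (Mat d B))ᶜ.indicator (fun _ => |Λ|) X +
      (- HX ψ δ X) +
      (goodX τ : Set (Mat d B))ᶜ.indicator PhiX X +
      (B / 2 : ℝ) * ℓ X with hT
  have hHXi := integrable_HX (B := B) hd hψ hδ
  have hPhii := integrable_PhiX (d := d) (B := B)
  have hi1 : Integrable (fun _ : Mat d B => ((B : ℝ) * Real.log 3 + Λ - B * Real.log δ)) (gam d B) :=
    integrable_const _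
  have hi2 : Integrable ((goodX τ : Set (Mat d B))ᶜ.indicator (fun _ => |Λ|)) (gam d B) :=
    (integrable_const _).indicator hbadm
  have hi3 : Integrable (fun X => - HX ψ δ X) (gam d B) := hHXi.neg
  have hi4 : Integrable ((goodX τ : Set (Mat d B))ᶜ.indicator PhiX) (gam d B) :=
    hPhii.indicator hbadm
  have hi5 : Integrable (fun X => (B / 2 : ℝ) * ℓ X) (gam d B) := hℓi.const_mul _
  have hTi : Integrable T (gam d B) := ((((hi1.add hi2).add hi3).add hi4).add hi5)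
  have hle : ∀ X : Mat d B, ∫ s, ψ s * Wf a ψ δ δ' τ (s, X) ∂(sig d) ≤ T X := by
    intro X
    by_cases hX : X ∈ goodX τ
    · have hX' : X ∉ (goodX τ : Set (Mat d B))ᶜ := fun h => h hX
      have e : ∀ s : Sph d, ψ s * Wf a ψ δ δ' τ (s, X) =
          ψ s * Real.log ((3 : ℝ) ^ (2 * a) * GGbar a ψ X δ δ' (zetaC δ X s)) := by
        intro s
        simp only [Wf]
        rw [if_pos hX]
      simp_rw [e]
      refine le_trans (inner_le hd hψ hB hδ hX hτ he hδ'0 hδ'1) ?_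
      have h1 := log_VV_le hX.1 hB0
      have h2 : (2 * a : ℝ) * Real.log 3 ≤ B * Real.log 3 := by
        apply mul_le_mul_of_nonneg_right _ hlog3
        rw [hB]
        push_cast
        linarith
      simp only [hT, Set.indicator_of_notMem hX']
      linarith
    · have hX' : X ∈ (goodX τ : Set (Mat d B))ᶜ := hX
      have e : ∀ s : Sph d, ψ s * Wf a ψ δ δ' τ (s, X) = 0 := by
        intro s
        simp only [Wf]
        rw [if_neg hX, mul_zero]
      simp_rw [e]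
      simp only [integral_zero, hT, Set.indicator_of_mem hX']
      have h1 := HX_add_log_le hd hψ hδ hδ1 X
      have h2 := hℓ0 X
      have h3 : 0 ≤ (B : ℝ) * Real.log 3 := by positivity
      have h4 : 0 ≤ (B / 2 : ℝ) * ℓ X := by positivity
      have h5 := neg_abs_le Λ
      linarith
  have hmono := integral_mono hint.integral_prod_right hTi hle
  refine le_trans hmono ?_
  have hTval : ∫ X, T X ∂(gam d B) =
      ((B : ℝ) * Real.log 3 + Λ - B * Real.log δ) + |Λ| * (gam d B).real (goodX τ)ᶜ +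
        (- Hc B ψ δ) + ∫ X in (goodX τ)ᶜ, PhiX X ∂(gam d B) +
        (B / 2 : ℝ) * ∫ X, ℓ X ∂(gam d B) := by
    have h12 : Integrable (fun X => ((B : ℝ) * Real.log 3 + Λ - B * Real.log δ) +
        (goodX τ : Set (Mat d B))ᶜ.indicator (fun _ => |Λ|) X) (gam d B) := hi1.add hi2
    have h123 : Integrable (fun X => ((B : ℝ) * Real.log 3 + Λ - B * Real.log δ) +
        (goodX τ : Set (Mat d B))ᶜ.indicator (fun _ => |Λ|) X + (- HX ψ δ X)) (gam d B) :=
      h12.add hi3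
    have h1234 : Integrable (fun X => ((B : ℝ) * Real.log 3 + Λ - B * Real.log δ) +
        (goodX τ : Set (Mat d B))ᶜ.indicator (fun _ => |Λ|) X + (- HX ψ δ X) +
        (goodX τ : Set (Mat d B))ᶜ.indicator PhiX X) (gam d B) := h123.add hi4
    simp only [hT]
    rw [integral_add h1234 hi5, integral_add h123 hi4, integral_add h12 hi3,
      integral_add hi1 hi2, integral_const, integral_indicator hbadm, integral_indicator hbadm,
      integral_neg, integral_const_mul, Hc_eq hd hψ hδ]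
    have e1 : ∫ _X in (goodX τ : Set (Mat d B))ᶜ, |Λ| ∂(gam d B) =
        |Λ| * (gam d B).real (goodX τ)ᶜ := by
      rw [setIntegral_const, smul_eq_mul, mul_comm]
    rw [e1]
    simp only [probReal_univ, smul_eq_mul, one_mul]
  rw [hTval]
  have h1 : (B / 2 : ℝ) * ∫ X, ℓ X ∂(gam d B) ≤ (B / 2 : ℝ) * Real.log (1 + d) :=
    mul_le_mul_of_nonneg_left hℓle (by positivity)
  unfold CR
  linarith

/-- The block part of the tuple law is `γ`. -/
private theorem tup_block_prob (hd : 0 < d) (hψ : IsDens ψ)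
    (hF : Measurable (fun p : Mat d B × (Fin B → ℝ) => F p.1 p.2)) (hδ : 0 < δ)
    {A : Set (Mat d B)} (hA : MeasurableSet A) :
    (tupP n ψ F δ).real {p | p.2 ∈ A} = (gam d B).real A := by
  haveI hσ : IsProbabilityMeasure (sig d) := sig_isProb hd
  haveI := tupP_isProb (n := n) hd hψ hF hδ
  have hm : Measurable (fun x : Sph d × Mat d B => A.indicator (fun _ => (1 : ℝ)) x.2) :=
    (measurable_const.indicator hA).comp measurable_snd
  have h := tupP_integral_coord (n := n) hd hψ hF hδ 0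
    (fun x => A.indicator (fun _ => (1 : ℝ)) x.2) hm
  have hS : MeasurableSet {p : (Fin (n + 1) → Sph d) × Mat d B | p.2 ∈ A} :=
    hA.preimage measurable_snd
  have e1 : ∫ p, A.indicator (fun _ => (1 : ℝ)) p.2 ∂(tupP n ψ F δ) =
      (tupP n ψ F δ).real {p | p.2 ∈ A} := by
    have e : (fun p : (Fin (n + 1) → Sph d) × Mat d B => A.indicator (fun _ => (1 : ℝ)) p.2) =
        {p : (Fin (n + 1) → Sph d) × Mat d B | p.2 ∈ A}.indicator (fun _ => (1 : ℝ)) := by
      ext p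
      simp [Set.indicator]
    rw [e, integral_indicator_const _ hS]
    simp
  have e2 : ∫ x, ψ x.1 * A.indicator (fun _ => (1 : ℝ)) x.2 ∂((sig d).prod (gam d B)) =
      (gam d B).real A := by
    rw [integral_prod_mul ψ (A.indicator fun _ => (1 : ℝ)), hψ.int_one, one_mul,
      integral_indicator_const _ hA]
    simp
  rw [← e1, h, e2]

/-- The key estimate. -/
theorem riesz_bound {a : ℕ} (hB : B = 2 * a + 2) (hn : B + n + 3 ≤ d) (hψ : IsDens ψ)
    (hF : Measurable (fun p : Mat d B × (Fin B → ℝ) => F p.1 p.2)) (η : ℝ) (hη : 0 < η) :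
    ∃ δ₀ : ℝ, 0 < δ₀ ∧ ∀ δ : ℝ, 0 < δ → δ < δ₀ → ∀ i : Fin n,
      ∫ p, Real.log (RR a ψ p.1 i.succ) ∂(tupP n ψ F δ) ≤
        CR d B - (Hc B ψ δ + B * Real.log δ) + η := by
  classical
  have hd : 0 < d := by omega
  have hB0 : 0 < B := by omega
  have hB' : (0 : ℝ) < B := by exact_mod_cast hB0
  have hBd : B ≤ d := by omega
  haveI hσ : IsProbabilityMeasure (sig d) := sig_isProb hd
  -- the bound of `ψ`
  obtain ⟨L₀, hL₀⟩ := hψ.bdd
  set L : ℝ := max L₀ 1 with hLdef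
  have hL : ∀ s, ψ s ≤ L := fun s => le_trans (hL₀ s) (le_max_left _ _)
  have hLpos : 0 < L := lt_of_lt_of_le one_pos (le_max_right _ _)
  -- the bound of `RR`
  obtain ⟨c₁, hc₁, C₁', hRR⟩ := RR_pos_bound (n := n) hψ a (by omega)
  set C₁ : ℝ := |Real.log C₁'| with hC₁
  have hC₁0 : 0 ≤ C₁ := abs_nonneg _
  have hlogRR : ∀ (ss : Fin (n + 1) → Sph d) (i : Fin (n + 1)), Real.log (RR a ψ ss i) ≤ C₁ := by
    intro ss i
    have h := hRR ss i
    exact le_trans (Real.log_le_log (lt_of_lt_of_le hc₁ h.1) h.2) (le_abs_self _)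
  set Λ : ℝ := Real.log (8 * B * ballVol B) with hΛ
  set D : ℝ := |Λ| + 2 * (C₁ + B) + 1 with hD
  have hDpos : 0 < D := by
    have := abs_nonneg Λ
    rw [hD]
    linarith
  set ε' : ℝ := (η / 4) / D with hε'
  have hε'0 : 0 < ε' := by positivity
  have hε'D : D * ε' = η / 4 := by
    rw [hε']
    field_simp
  -- the block `τ`
  obtain ⟨τ, hτ, hgood⟩ := goodX_small (d := d) (B := B) hBd PhiX integrable_PhiX
    (min ε' (η / 8)) (by positivity)
  obtain ⟨hbad1, hbad2⟩ := hgood τ hτ le_rfl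
  have hbad1' : (gam d B).real (goodX τ)ᶜ ≤ ε' := le_trans hbad1 (min_le_left _ _)
  have hbad2' : ∫ X in (goodX τ)ᶜ, PhiX X ∂(gam d B) ≤ η / 8 :=
    le_trans (le_abs_self _) (le_trans hbad2 (min_le_right _ _))
  -- the pivots
  have hn1 : (0 : ℝ) < (n : ℝ) + 1 := by positivity
  obtain ⟨t, ht, ht1, δ₁, hδ₁, hδ₁1, hpiv⟩ := pivot_prob (F := F) (n := n) hn hψ hF
    (ε' / ((n : ℝ) + 1)) (by positivity)
  -- the scale
  set K : ℝ := 2 * (4 * Real.sqrt B * (3 / t) ^ n / τ) with hK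
  have hsqrtB : 0 < Real.sqrt (B : ℝ) := Real.sqrt_pos.2 hB'
  have hKpos : 0 < K := by positivity
  set Cneg : ℝ := 2 * (32 * Real.sqrt d) ^ d with hCneg
  have hCneg0 : 0 ≤ Cneg := by positivity
  set K' : ℝ := (4 / 3 : ℝ) ^ (2 * a) * (L * Cneg) with hK'
  have hK'0 : 0 ≤ K' := by positivity
  have hK'1 : 0 < (K' + 1) * K := by positivity
  refine ⟨min δ₁ (min (1 / K) ((η / 4) / ((K' + 1) * K))), by positivity, ?_⟩
  intro δ hδ hδlt i
  have hδδ₁ : δ < δ₁ := lt_of_lt_of_le hδlt (min_le_left _ _)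
  have hδ1 : δ ≤ 1 := by linarith
  have hδK1 : δ < 1 / K := lt_of_lt_of_le hδlt (le_trans (min_le_right _ _) (min_le_left _ _))
  have hδK2 : δ < (η / 4) / ((K' + 1) * K) :=
    lt_of_lt_of_le hδlt (le_trans (min_le_right _ _) (min_le_right _ _))
  haveI hprob := tupP_isProb (n := n) hd hψ hF hδ
  set δ' : ℝ := 2 * (4 * δ * Real.sqrt B * (3 / t) ^ n / τ) with hδ'
  have hδ'K : δ' = K * δ := by
    rw [hδ', hK]
    ring
  have hδ'0 : 0 < δ' := by
    rw [hδ'K]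
    positivity
  have hδ'1 : δ' ≤ 1 := by
    rw [hδ'K]
    have := (lt_div_iff₀' hKpos).1 hδK1
    exact this.le
  have h3t : 1 ≤ (3 / t) ^ n := by
    apply one_le_pow₀
    rw [le_div_iff₀ ht]
    linarith
  have he : δ * Real.sqrt B / τ ≤ δ' / 2 := by
    have e : δ' / 2 = 4 * (δ * Real.sqrt B / τ) * (3 / t) ^ n := by
      rw [hδ']
      ring
    rw [e]
    have h0 : 0 < δ * Real.sqrt B / τ := by positivity
    nlinarith
  have he2 : δ * Real.sqrt B / τ ≤ 2 := by linarith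
  have hδ'4 : δ' ≤ 4 := by linarith
  -- the small terms
  set ξ : ℝ := L * Cneg * δ' with hξ
  have hξ0 : 0 ≤ ξ := by positivity
  set ξ' : ℝ := (4 / 3 : ℝ) ^ (2 * a) * ξ with hξ'
  have hξ'0 : 0 ≤ ξ' := by positivity
  have hξ'le : ξ' ≤ η / 4 := by
    have e : ξ' = K' * K * δ := by
      rw [hξ', hξ, hK', hδ'K]
      ring
    rw [e]
    have h1 := (lt_div_iff₀' hK'1).1 hδK2
    have h2 : 0 ≤ K * δ := by positivity
    nlinarith
  -- the bad event
  set bad : Set ((Fin (n + 1) → Sph d) × Mat d B) :=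
    {p | p.2 ∈ (goodX τ : Set (Mat d B))ᶜ} ∪ ⋃ j : Fin n, {p | di p.1 j.succ < t} with hbad
  have hbadm : MeasurableSet bad := by
    refine MeasurableSet.union (((measurableSet_goodX τ).compl).preimage measurable_snd) ?_
    refine MeasurableSet.iUnion fun j => ?_
    exact measurableSet_lt ((measurable_di j.succ).comp measurable_fst) measurable_const
  have hbadP : (tupP n ψ F δ).real bad ≤ 2 * ε' := by
    have h1 := measureReal_union_le (μ := tupP n ψ F δ) {p | p.2 ∈ (goodX τ : Set (Mat d B))ᶜ}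
      (⋃ j : Fin n, {p | di p.1 j.succ < t})
    have h2 := measureReal_iUnion_fintype_le (μ := tupP n ψ F δ)
      (fun j : Fin n => {p : (Fin (n + 1) → Sph d) × Mat d B | di p.1 j.succ < t})
    have h3 : ∑ j : Fin n, (tupP n ψ F δ).real {p | di p.1 j.succ < t} ≤ ε' := by
      have h4 : ∑ j : Fin n, (tupP n ψ F δ).real {p | di p.1 j.succ < t} ≤
          ∑ _j : Fin n, (ε' / ((n : ℝ) + 1)) :=
        Finset.sum_le_sum fun j _ => hpiv δ hδ hδδ₁ j
      refine le_trans h4 ?_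
      simp only [Finset.sum_const, Finset.card_univ, Fintype.card_fin, nsmul_eq_mul]
      rw [← mul_div_assoc, div_le_iff₀ hn1]
      nlinarith
    have h5 := tup_block_prob (n := n) hd hψ hF hδ ((measurableSet_goodX τ).compl)
    rw [h5] at h1
    linarith
  -- the pointwise bound
  have hB2a : (2 * a : ℝ) ≤ B := by
    rw [hB]
    push_cast
    linarith
  have hae : ∀ᵐ p ∂(tupP n ψ F δ), Real.log (RR a ψ p.1 i.succ) ≤
      Wf a ψ δ δ' τ (p.1 0, p.2) + ξ' + bad.indicator (fun _ => C₁ + B) p := by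
    filter_upwards [tupP_ae (n := n) hd hψ hF hδ] with p hp
    obtain ⟨hW1, -⟩ := Wf_bound hd hψ a hδ hτ he2 hδ'0 hδ'4 (p.1 0, p.2)
    by_cases hpb : p ∈ bad
    · rw [Set.indicator_of_mem hpb]
      have := hlogRR p.1 i.succ
      linarith
    · rw [Set.indicator_of_notMem hpb, add_zero]
      have hX : p.2 ∈ goodX τ := by
        by_contra hX
        exact hpb (Or.inl hX)
      have hpv : ∀ j : Fin n, t ≤ di p.1 j.succ := by
        intro j
        by_contra hj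
        exact hpb (Or.inr (Set.mem_iUnion.2 ⟨j, not_le.1 hj⟩))
      have hcube := hp.2.2.1
      have h1 := RR_le_GG hψ hL a (by omega) hδ ht ht1 hX hτ hcube hpv i.succ hδ' hδ'0 hδ'1
      have h2 := GG_le_GGbar hψ a hδ hX hτ he hδ'0 hδ'4 (p.1 0)
      have h3 := GGbar_lower hd hψ a hδ hX hτ he2 hδ'0 hδ'4 (p.1 0)
      have h4 : RR a ψ p.1 i.succ ≤ ξ + 2 ^ (2 * a) * ((3 / 2 : ℝ) ^ (2 * a) *
          GGbar a ψ p.2 δ δ' (zetaC δ p.2 (p.1 0))) := by
        refine le_trans h1 ?_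
        rw [hξ]
        gcongr
      have h5 := log_le_aux (lt_of_lt_of_le hc₁ (hRR p.1 i.succ).1) hξ0 h3 h4
      have e : Wf a ψ δ δ' τ (p.1 0, p.2) =
          Real.log ((3 : ℝ) ^ (2 * a) * GGbar a ψ p.2 δ δ' (zetaC δ p.2 (p.1 0))) := by
        simp only [Wf]
        rw [if_pos hX]
      rw [e]
      exact h5
  -- integrate
  have hRRi : Integrable (fun p : (Fin (n + 1) → Sph d) × Mat d B =>
      Real.log (RR a ψ p.1 i.succ)) (tupP n ψ F δ) := by
    refine tupP_integrable_of_bdd hd hψ hF hδ _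
      (Real.measurable_log.comp ((measurable_RR hψ a i.succ).comp measurable_fst))
      (|Real.log c₁| + |Real.log C₁'|) fun p => ?_
    exact abs_log_le hc₁ (hRR p.1 i.succ).1 (hRR p.1 i.succ).2
  have hWm : Measurable (fun p : (Fin (n + 1) → Sph d) × Mat d B => Wf a ψ δ δ' τ (p.1 0, p.2)) :=
    (measurable_Wf hd hψ a hδ δ' τ).comp
      (((measurable_pi_apply 0).comp measurable_fst).prodMk measurable_snd)
  have hWi : Integrable (fun p : (Fin (n + 1) → Sph d) × Mat d B => Wf a ψ δ δ' τ (p.1 0, p.2))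
      (tupP n ψ F δ) := by
    refine tupP_integrable_of_bdd hd hψ hF hδ _ hWm
      ((2 * a : ℝ) + |Real.log ((3 : ℝ) ^ (2 * a) * (δ' ^ (2 * a))⁻¹)|) fun p => ?_
    obtain ⟨h1, h2⟩ := Wf_bound hd hψ a hδ hτ he2 hδ'0 hδ'4 (p.1 0, p.2)
    have ha0 : (0 : ℝ) ≤ a := Nat.cast_nonneg a
    refine abs_le.2 ⟨?_, ?_⟩ <;>
      linarith [abs_nonneg (Real.log ((3 : ℝ) ^ (2 * a) * (δ' ^ (2 * a))⁻¹))]
  have hIi : Integrable (bad.indicator (fun _ => C₁ + (B : ℝ))) (tupP n ψ F δ) :=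
    (integrable_const _).indicator hbadm
  have hWc' : Integrable (fun p : (Fin (n + 1) → Sph d) × Mat d B =>
      Wf a ψ δ δ' τ (p.1 0, p.2) + ξ' + bad.indicator (fun _ => C₁ + (B : ℝ)) p) (tupP n ψ F δ) :=
    (hWi.add (integrable_const ξ')).add hIi
  have hmono := integral_mono_ae hRRi hWc' hae
  have hval : ∫ p, (Wf a ψ δ δ' τ (p.1 0, p.2) + ξ' + bad.indicator (fun _ => C₁ + (B : ℝ)) p)
      ∂(tupP n ψ F δ) =
      (∫ p, Wf a ψ δ δ' τ (p.1 0, p.2) ∂(tupP n ψ F δ)) + ξ' +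
        (tupP n ψ F δ).real bad * (C₁ + B) := by
    have hWc : Integrable (fun p : (Fin (n + 1) → Sph d) × Mat d B =>
        Wf a ψ δ δ' τ (p.1 0, p.2) + ξ') (tupP n ψ F δ) := hWi.add (integrable_const ξ')
    rw [integral_add hWc hIi, integral_add hWi (integrable_const ξ'),
      integral_const, integral_indicator_const _ hbadm]
    simp only [probReal_univ, smul_eq_mul, one_mul]
  have hcoord := tupP_integral_coord (n := n) hd hψ hF hδ 0 (Wf a ψ δ δ' τ)
    (measurable_Wf hd hψ a hδ δ' τ)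
  have hEW := EW_le hd hψ hB hδ hδ1 hτ he2 hδ'0 hδ'4
  rw [← hcoord] at hEW
  have hfin1 : (tupP n ψ F δ).real bad * (C₁ + B) ≤ 2 * ε' * (C₁ + B) :=
    mul_le_mul_of_nonneg_right hbadP (by positivity)
  have hfin2 : |Λ| * (gam d B).real (goodX τ)ᶜ ≤ |Λ| * ε' :=
    mul_le_mul_of_nonneg_left hbad1' (abs_nonneg _)
  have hfin3 : |Λ| * ε' + 2 * ε' * (C₁ + B) ≤ η / 4 := by
    rw [← hε'D, hD]
    nlinarith
  -- conclude
  have hgoal : ∫ p, Real.log (RR a ψ p.1 i.succ) ∂(tupP n ψ F δ) ≤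
      (∫ p, Wf a ψ δ δ' τ (p.1 0, p.2) ∂(tupP n ψ F δ)) + ξ' +
        (tupP n ψ F δ).real bad * (C₁ + B) := by
    rw [← hval]
    exact hmono
  linarith

end Crest.Agent.MS
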