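import Crest.Agent.Lib.MS.RieszDet
import Crest.Agent.Lib.MS.Cells

/-!
# S0499 module `RieszCube`: Gibbs on the cubes, for a fixed block `X` with `det G ≠ 0`.

`GGbar c` is the average over the cube `c` of the potential `GG` with support radius `4`.

`GG_le_GGbar`.  Let `y₀ = A s₀` in the cube `c`, `y` another point of `c`.  `‖y - y₀‖ ≤ δ√B`, so
`wn(y - y₀) ≤ e₂ := δ√B/τ ≤ δ'/2`.  For all `w₀ = A s' - y₀`, `w = A s' - y`: if `wn w₀ ≤ 2` then `wn w ≤ 4` and
`max(wn w, δ') ≤ max(wn w₀, δ') + e₂ ≤ (3/2) max(wn w₀, δ')`.  So `GG₂(y₀) ≤ (3/2)^{2a} GG₄(y)`; average on the cube.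

`GGbar_lower`.  `wn(A s' - y) ≤ wn(A(s'-s₀)) + e₂ ≤ 4`, kernel `≥ 4^{-2a}`, and `∫ψ = 1`.

`kerW_volume`.  `lintegral_wn` and polar coordinates (`integral_fun_norm_addHaar`/`lintegral_fun_norm_addHaar`):
`∫_{‖w‖ ≤ 4} ‖w‖^{-2a} dw = vol(B₁) B ∫_0^4 r^{B-1-2a} dr = 8 B vol(B₁)` for `B = 2a + 2`.

`sum_GGbar`/`cube_gibbs`.  `∑_c δ^B GGbar c = ∫_{ℝ^B} GG₄(y) dy = ∫ψ(s') ∫ kerW(A s' - y) dy ds' ≤ V`.  (Tonelli; the cubes
partition `Fin B → ℝ`; use `EuclideanSpace.volume_preserving_measurableEquiv` to go to `E B`.)  So Gibbs on the countable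
partition into cubes: `∫ψ(s) log(δ^B GGbar(c(s)) / (m(c(s)) V)) ≤ ∫ψ(s) (δ^B GGbar(c(s)) / (m(c(s)) V) - 1) =
∑_c m_c δ^B GGbar(c)/(m_c V) - 1 ≤ 0` (only finitely many cubes are hit, `cube_count`).
-/

set_option autoImplicit false
set_option linter.unusedSectionVars false

namespace Crest.Agent.MS

open MeasureTheory ProbabilityTheory
open Crest.StreamLearn (E Sphere sphereUniform)

variable {d B n : ℕ} {ψ : Sph d → ℝ}

attribute [local irreducible] wn kerW GG

/-- A cube of side `δ`. -/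
def cube (δ : ℝ) (c : Fin B → ℤ) : Set (Fin B → ℝ) := {y | cell δ y = c}

/-- The average potential on a cube. -/
noncomputable def GGbar (a : ℕ) (ψ : Sph d → ℝ) (X : Mat d B) (δ δ' : ℝ) (c : Fin B → ℤ) : ℝ :=
  ((δ ^ B)⁻¹) * ∫ y in cube δ c, GG a ψ X δ' 4 (WithLp.toLp 2 y)

/-- The volume bound of the whitened kernel. -/
noncomputable def VV (X : Mat d B) : ℝ := 8 * B * ballVol B * Real.sqrt (gram X).det

theorem kerW_nonneg (a : ℕ) (X : Mat d B) {δ' : ℝ} (hδ' : 0 < δ') (r : ℝ) (w : E B) :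
    0 ≤ kerW a X δ' r w := by
  unfold kerW
  split_ifs
  · have : 0 < max (wn X w) δ' := lt_max_of_lt_right hδ'
    positivity
  · exact le_rfl

theorem kerW_le (a : ℕ) (X : Mat d B) {δ' : ℝ} (hδ' : 0 < δ') (r : ℝ) (w : E B) :
    kerW a X δ' r w ≤ ((δ' ^ (2 * a))⁻¹) := by
  unfold kerW
  split_ifs
  · exact inv_anti₀ (pow_pos hδ' _) (pow_le_pow_left₀ hδ'.le (le_max_right _ _) _)
  · positivity

theorem measurable_kerW (a : ℕ) (δ' r : ℝ) :
    Measurable (fun p : Mat d B × E B => kerW a p.1 δ' r p.2) := by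
  unfold kerW
  refine Measurable.ite (measurableSet_le measurable_wn measurable_const) ?_ measurable_const
  exact ((measurable_wn.max measurable_const).pow_const _).inv

theorem pos_of_sph (s : Sph d) : 0 < d := by
  rcases Nat.eq_zero_or_pos d with rfl | h
  · exfalso
    have h1 : ‖(s : E 0)‖ = 1 := by simp
    have h2 : (s : E 0) = 0 := Subsingleton.elim _ _
    rw [h2] at h1
    simp at h1
  · exact h

theorem pos_of_isDens (hψ : IsDens ψ) : 0 < d := by
  rcases Nat.eq_zero_or_pos d with rfl | h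
  · exfalso
    have h0 : IsEmpty (Sph 0) := ⟨fun s => (pos_of_sph s).false⟩
    have h1 := hψ.int_one
    rw [MeasureTheory.integral_of_isEmpty] at h1
    exact zero_ne_one h1
  · exact h

theorem measurable_cellRC {r : ℕ} (δ : ℝ) : Measurable (cell (r := r) δ) := by
  refine measurable_pi_lambda _ fun j => ?_
  have h : Measurable (fun y : Fin r → ℝ => y j / δ) := by fun_prop
  exact Int.measurable_floor.comp h

theorem measurable_kerW_right (a : ℕ) (δ' r : ℝ) (X : Mat d B) : Measurable (kerW a X δ' r) :=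
  (measurable_kerW (d := d) (B := B) a δ' r).comp (measurable_prodMk_left (x := X))

theorem measurable_Aop_coe (X : Mat d B) : Measurable (fun s' : Sph d => Aop X (s' : E d)) := by
  have h : Measurable (fun z : E d => Aop X z) :=
    (measurable_Aop (d := d) (r := B)).comp (measurable_prodMk_left (x := X))
  exact h.comp measurable_subtype_coe

theorem measurableSet_cube (δ : ℝ) (c : Fin B → ℤ) : MeasurableSet (cube δ c) :=
  measurable_cellRC δ (measurableSet_singleton c)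

theorem cube_eq_pi {δ : ℝ} (hδ : 0 < δ) (c : Fin B → ℤ) :
    cube δ c = Set.pi Set.univ fun j => Set.Ico ((c j : ℝ) * δ) (((c j : ℝ) + 1) * δ) := by
  ext y
  simp only [cube, Set.mem_ofPred_eq, Set.mem_pi, Set.mem_univ, Set.mem_Ico, forall_true_left]
  constructor
  · intro h j
    have h1 : ⌊y j / δ⌋ = c j := congrFun h j
    have h2 := Int.floor_eq_iff.1 h1
    refine ⟨?_, ?_⟩
    · exact (le_div_iff₀ hδ).1 h2.1
    · exact (div_lt_iff₀ hδ).1 h2.2
  · intro h
    funext j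
    refine Int.floor_eq_iff.2 ⟨?_, ?_⟩
    · exact (le_div_iff₀ hδ).2 (h j).1
    · exact (div_lt_iff₀ hδ).2 (h j).2

theorem volume_cube {δ : ℝ} (hδ : 0 < δ) (c : Fin B → ℤ) :
    MeasureTheory.volume (cube δ c) = ENNReal.ofReal (δ ^ B) := by
  rw [cube_eq_pi hδ, Real.volume_pi_Ico]
  have : ∀ j : Fin B, ENNReal.ofReal (((c j : ℝ) + 1) * δ - (c j : ℝ) * δ) = ENNReal.ofReal δ := by
    intro j; congr 1; ring
  simp only [this, Finset.prod_const, Finset.card_univ, Fintype.card_fin]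
  rw [ENNReal.ofReal_pow hδ.le]

theorem volume_real_cube {δ : ℝ} (hδ : 0 < δ) (c : Fin B → ℤ) :
    (MeasureTheory.volume (cube δ c)).toReal = δ ^ B := by
  rw [volume_cube hδ, ENNReal.toReal_ofReal (pow_nonneg hδ.le _)]

/-- Two points of a cube are close. -/
theorem norm_sub_le_of_cell_eq {δ : ℝ} (hδ : 0 < δ) {y y₀ : Fin B → ℝ} (h : cell δ y = cell δ y₀) :
    ‖(WithLp.toLp 2 y₀ : E B) - WithLp.toLp 2 y‖ ≤ δ * Real.sqrt B := by
  have h1 : ∀ j, |y₀ j - y j| ≤ δ := by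
    intro j
    have hj : ⌊y j / δ⌋ = ⌊y₀ j / δ⌋ := congrFun h j
    have h2 := Int.abs_sub_lt_one_of_floor_eq_floor hj.symm
    have h3 : y₀ j - y j = (y₀ j / δ - y j / δ) * δ := by field_simp
    rw [h3, abs_mul, abs_of_pos hδ]
    nlinarith [h2, abs_nonneg (y₀ j / δ - y j / δ)]
  rw [EuclideanSpace.norm_eq]
  have h2 : ∑ j, ‖(WithLp.toLp 2 y₀ - WithLp.toLp 2 y : E B) j‖ ^ 2 ≤ (δ * Real.sqrt B) ^ 2 := by
    calc ∑ j, ‖(WithLp.toLp 2 y₀ - WithLp.toLp 2 y : E B) j‖ ^ 2 ≤ ∑ _j : Fin B, δ ^ 2 := by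
          refine Finset.sum_le_sum fun j _ => ?_
          have : ‖(WithLp.toLp 2 y₀ - WithLp.toLp 2 y : E B) j‖ = |y₀ j - y j| := by
            simp [Real.norm_eq_abs]
          rw [this]
          exact pow_le_pow_left₀ (abs_nonneg _) (h1 j) 2
      _ = (δ * Real.sqrt B) ^ 2 := by
          rw [Finset.sum_const, Finset.card_univ, Fintype.card_fin, mul_pow,
            Real.sq_sqrt (Nat.cast_nonneg B), nsmul_eq_mul]
          ring
  calc Real.sqrt (∑ j, ‖(WithLp.toLp 2 y₀ - WithLp.toLp 2 y : E B) j‖ ^ 2)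
      ≤ Real.sqrt ((δ * Real.sqrt B) ^ 2) := Real.sqrt_le_sqrt h2
    _ = δ * Real.sqrt B := Real.sqrt_sq (by positivity)

theorem integrable_mul_kerW (hψ : IsDens ψ) (a : ℕ) {δ' : ℝ} (hδ' : 0 < δ') (r : ℝ) (X : Mat d B)
    (y : E B) :
    Integrable (fun s' : Sph d => ψ s' * kerW a X δ' r (Aop X (s' : E d) - y)) (sig d) := by
  have := sig_isProb (pos_of_isDens hψ)
  obtain ⟨L, hL⟩ := hψ.bdd
  have hm : Measurable (fun s' : Sph d => ψ s' * kerW a X δ' r (Aop X (s' : E d) - y)) := by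
    refine hψ.meas.mul ?_
    have h1 : Measurable (fun s' : Sph d => Aop X (s' : E d) - y) :=
      (measurable_Aop_coe X).sub_const y
    exact (measurable_kerW_right a δ' r X).comp h1
  refine Integrable.of_bound hm.aestronglyMeasurable (L * ((δ' ^ (2 * a))⁻¹))
    (Filter.Eventually.of_forall fun s' => ?_)
  rw [Real.norm_eq_abs, abs_of_nonneg (mul_nonneg (hψ.nonneg _) (kerW_nonneg a X hδ' r _))]
  exact mul_le_mul (hL _) (kerW_le a X hδ' r _) (kerW_nonneg a X hδ' r _) ((hψ.nonneg s').trans (hL s'))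

theorem GG_nonneg (hψ : IsDens ψ) (a : ℕ) (X : Mat d B) {δ' : ℝ} (hδ' : 0 < δ') (r : ℝ) (y : E B) :
    0 ≤ GG a ψ X δ' r y := by
  unfold GG
  exact integral_nonneg fun s' => mul_nonneg (hψ.nonneg _) (kerW_nonneg a X hδ' r _)

theorem GG_le (hψ : IsDens ψ) (a : ℕ) (X : Mat d B) {δ' : ℝ} (hδ' : 0 < δ') (r : ℝ) (y : E B) :
    GG a ψ X δ' r y ≤ (δ' ^ (2 * a))⁻¹ := by
  have := sig_isProb (pos_of_isDens hψ)
  have hi : Integrable ψ (sig d) := by
    by_contra h
    have := hψ.int_one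
    rw [integral_undef h] at this
    exact zero_ne_one this
  calc GG a ψ X δ' r y = ∫ s', ψ s' * kerW a X δ' r (Aop X (s' : E d) - y) ∂(sig d) := by
        unfold GG; rfl
    _ ≤ ∫ s', ψ s' * (δ' ^ (2 * a))⁻¹ ∂(sig d) := by
        refine integral_mono (integrable_mul_kerW hψ a hδ' r X y) (hi.mul_const _) fun s' => ?_
        exact mul_le_mul_of_nonneg_left (kerW_le a X hδ' r _) (hψ.nonneg _)
    _ = (δ' ^ (2 * a))⁻¹ := by
        rw [integral_mul_const, hψ.int_one, one_mul]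

theorem measurable_GG (hψ : IsDens ψ) (a : ℕ) (δ' r : ℝ) :
    Measurable (fun p : Mat d B × E B => GG a ψ p.1 δ' r p.2) := by
  have := sig_isProb (pos_of_isDens hψ)
  unfold GG
  have h : Measurable (fun p : (Mat d B × E B) × Sph d =>
      ψ p.2 * kerW a p.1.1 δ' r (Aop p.1.1 (p.2 : E d) - p.1.2)) := by
    refine (hψ.meas.comp measurable_snd).mul ?_
    have hf : Measurable (fun p : (Mat d B × E B) × Sph d => p.1.1) := measurable_fst.fst
    have hs : Measurable (fun p : (Mat d B × E B) × Sph d => p.1.2) := measurable_fst.snd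
    have hc : Measurable (fun p : (Mat d B × E B) × Sph d => (p.2 : E d)) :=
      measurable_subtype_coe.comp measurable_snd
    have h0 : Measurable (fun p : (Mat d B × E B) × Sph d => Aop p.1.1 (p.2 : E d)) :=
      (measurable_Aop (d := d) (r := B)).comp (hf.prodMk hc)
    have h1 : Measurable (fun p : (Mat d B × E B) × Sph d => Aop p.1.1 (p.2 : E d) - p.1.2) :=
      h0.sub hs
    exact (measurable_kerW (d := d) (B := B) a δ' r).comp (hf.prodMk h1)
  exact (h.stronglyMeasurable.integral_prod_right' (ν := sig d)).measurable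

theorem integrableOn_GG_cube (hψ : IsDens ψ) (a : ℕ) (X : Mat d B) {δ δ' : ℝ} (hδ : 0 < δ)
    (hδ' : 0 < δ') (r : ℝ) (c : Fin B → ℤ) :
    IntegrableOn (fun y : Fin B → ℝ => GG a ψ X δ' r (WithLp.toLp 2 y)) (cube δ c) := by
  have h0 : Measurable (fun y : E B => GG a ψ X δ' r y) :=
    (measurable_GG (d := d) (B := B) hψ a δ' r).comp (measurable_prodMk_left (x := X))
  have hm : Measurable (fun y : Fin B → ℝ => GG a ψ X δ' r (WithLp.toLp 2 y)) :=
    h0.comp (MeasurableEquiv.toLp 2 (Fin B → ℝ)).measurable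
  refine ⟨hm.aestronglyMeasurable, ?_⟩
  have hlt : MeasureTheory.volume (cube δ c) < ⊤ := by
    rw [volume_cube hδ]; exact ENNReal.ofReal_lt_top
  haveI : IsFiniteMeasure (MeasureTheory.volume.restrict (cube δ c)) := ⟨by
    rw [Measure.restrict_apply_univ]; exact hlt⟩
  refine HasFiniteIntegral.of_bounded (C := (δ' ^ (2 * a))⁻¹) (Filter.Eventually.of_forall fun y => ?_)
  rw [Real.norm_eq_abs, abs_of_nonneg (GG_nonneg hψ a X hδ' r _)]
  exact GG_le hψ a X hδ' r _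

theorem GGbar_nonneg (hψ : IsDens ψ) (a : ℕ) (X : Mat d B) {δ δ' : ℝ} (hδ : 0 < δ) (hδ' : 0 < δ')
    (c : Fin B → ℤ) : 0 ≤ GGbar a ψ X δ δ' c := by
  unfold GGbar
  have : 0 ≤ ∫ y in cube δ c, GG a ψ X δ' 4 (WithLp.toLp 2 y) :=
    integral_nonneg fun y => GG_nonneg hψ a X hδ' 4 _
  positivity

/-- The comparison between the kernels at nearby points. -/
theorem kerW_compare (a : ℕ) (X : Mat d B) {δ' : ℝ} (hδ' : 0 < δ') (hδ'1 : δ' ≤ 4) {w₀ w : E B}
    (h : wn X (w₀ - w) ≤ δ' / 2) :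
    kerW a X δ' 2 w₀ ≤ (3 / 2 : ℝ) ^ (2 * a) * kerW a X δ' 4 w := by
  unfold kerW
  by_cases h2 : wn X w₀ ≤ 2
  · have h3 : wn X w ≤ wn X w₀ + δ' / 2 := by
      have : w = w₀ - (w₀ - w) := by abel
      calc wn X w = wn X (w₀ - (w₀ - w)) := by rw [← this]
        _ ≤ wn X w₀ + wn X (w₀ - w) := wn_sub_le X _ _
        _ ≤ _ := by linarith
    have h4 : wn X w ≤ 4 := by linarith
    rw [if_pos h2, if_pos h4]
    have hx : 0 < max (wn X w₀) δ' := lt_max_of_lt_right hδ'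
    have hz : 0 < max (wn X w) δ' := lt_max_of_lt_right hδ'
    have hxz : max (wn X w) δ' ≤ (3 / 2) * max (wn X w₀) δ' := by
      have h5 := le_max_left (wn X w₀) δ'
      have h6 := le_max_right (wn X w₀) δ'
      refine max_le ?_ ?_ <;> linarith
    have h7 : (max (wn X w) δ') ^ (2 * a) ≤ (3 / 2 : ℝ) ^ (2 * a) * (max (wn X w₀) δ') ^ (2 * a) := by
      rw [← mul_pow]
      exact pow_le_pow_left₀ hz.le hxz _
    rw [← div_eq_mul_inv, le_div_iff₀ (pow_pos hz _), inv_mul_le_iff₀ (pow_pos hx _)]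
    linarith
  · rw [if_neg h2]
    have : 0 ≤ (if wn X w ≤ 4 then ((max (wn X w) δ') ^ (2 * a))⁻¹ else 0) := by
      split_ifs
      · have hz : 0 < max (wn X w) δ' := lt_max_of_lt_right hδ'
        positivity
      · exact le_rfl
    positivity

theorem ballVol_pos (hB : 0 < B) : 0 < ballVol B := by
  unfold ballVol
  exact ENNReal.toReal_pos (Metric.measure_ball_pos _ _ one_pos).ne' measure_ball_lt_top.ne

theorem VV_pos {X : Mat d B} (hX : (gram X).det ≠ 0) (hB : 0 < B) : 0 < VV X := by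
  unfold VV
  have h1 := ballVol_pos hB
  have h2 : 0 < Real.sqrt (gram X).det :=
    Real.sqrt_pos.2 (lt_of_le_of_ne (det_gram_nonneg X) hX.symm)
  have h3 : (0:ℝ) < B := by exact_mod_cast hB
  positivity

/-- The radial profile of the kernel. -/
noncomputable def kerRad (a : ℕ) (δ' t : ℝ) : ℝ :=
  if t ≤ 4 then ((max t δ') ^ (2 * a))⁻¹ else 0

theorem measurable_kerRad (a : ℕ) (δ' : ℝ) : Measurable (kerRad a δ') := by
  unfold kerRad
  refine Measurable.ite measurableSet_Iic ?_ measurable_const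
  exact ((measurable_id.max measurable_const).pow_const _).inv

theorem kerRad_nonneg (a : ℕ) {δ' : ℝ} (hδ' : 0 < δ') (t : ℝ) : 0 ≤ kerRad a δ' t := by
  unfold kerRad
  split_ifs
  · have : 0 < max t δ' := lt_max_of_lt_right hδ'
    positivity
  · exact le_rfl

/-- The weight `t^(2a+1)` kills the singularity of the profile. -/
theorem pow_mul_kerRad_le (a : ℕ) {δ' : ℝ} (hδ' : 0 < δ') {t : ℝ} (ht : 0 < t) :
    t ^ (2 * a + 1) * kerRad a δ' t ≤ (Set.Ioc (0 : ℝ) 4).indicator (fun x => x) t := by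
  unfold kerRad
  by_cases h : t ≤ 4
  · have hm : t ∈ Set.Ioc (0 : ℝ) 4 := ⟨ht, h⟩
    rw [if_pos h, Set.indicator_of_mem hm]
    have h1 : 0 < max t δ' := lt_max_of_lt_right hδ'
    have h2 : t ^ (2 * a) ≤ (max t δ') ^ (2 * a) := pow_le_pow_left₀ ht.le (le_max_left _ _) _
    calc t ^ (2 * a + 1) * ((max t δ') ^ (2 * a))⁻¹ = t ^ (2 * a) * ((max t δ') ^ (2 * a))⁻¹ * t := by
          rw [pow_succ]; ring
      _ ≤ 1 * t := by
          refine mul_le_mul_of_nonneg_right ?_ ht.le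
          rw [← div_eq_mul_inv]
          exact (div_le_one (pow_pos h1 _)).2 h2
      _ = t := one_mul t
  · rw [if_neg h, mul_zero, Set.indicator_of_notMem (fun hh : t ∈ Set.Ioc (0 : ℝ) 4 => h hh.2)]

theorem integrable_weight_kerRad (a : ℕ) {δ' : ℝ} (hδ' : 0 < δ') :
    IntegrableOn (fun t : ℝ => t ^ (2 * a + 1) * kerRad a δ' t) (Set.Ioi 0) := by
  have hi : IntegrableOn (Set.indicator (Set.Ioc (0 : ℝ) 4) (fun x : ℝ => x)) (Set.Ioi 0) := by
    have h0 : IntegrableOn (fun x : ℝ => x) (Set.Ioc 0 4) :=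
      (continuous_id.integrableOn_Icc (a := 0) (b := 4)).mono_set Set.Ioc_subset_Icc_self
    exact (integrable_indicator_iff measurableSet_Ioc).2 h0 |>.integrableOn
  refine Integrable.mono' hi ?_ ?_
  · exact ((measurable_id.pow_const _).mul (measurable_kerRad a δ')).aestronglyMeasurable
  · refine (ae_restrict_iff' measurableSet_Ioi).2 (Filter.Eventually.of_forall fun t ht => ?_)
    have ht' : 0 < t := ht
    rw [Real.norm_eq_abs, abs_of_nonneg (mul_nonneg (pow_nonneg ht'.le _) (kerRad_nonneg a hδ' t))]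
    exact pow_mul_kerRad_le a hδ' ht'

theorem integral_weight_kerRad_le (a : ℕ) {δ' : ℝ} (hδ' : 0 < δ') :
    ∫ t in Set.Ioi (0 : ℝ), t ^ (2 * a + 1) * kerRad a δ' t ≤ 8 := by
  have hi : IntegrableOn (fun x : ℝ => x) (Set.Ioc 0 4) :=
    (continuous_id.integrableOn_Icc (a := 0) (b := 4)).mono_set Set.Ioc_subset_Icc_self
  have hi' : IntegrableOn (Set.indicator (Set.Ioc (0 : ℝ) 4) (fun x : ℝ => x)) (Set.Ioi 0) :=
    ((integrable_indicator_iff measurableSet_Ioc).2 hi).integrableOn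
  have h1 : ∫ t in Set.Ioi (0 : ℝ), t ^ (2 * a + 1) * kerRad a δ' t ≤
      ∫ t in Set.Ioi (0 : ℝ), Set.indicator (Set.Ioc (0 : ℝ) 4) (fun x : ℝ => x) t :=
    setIntegral_mono_on (integrable_weight_kerRad a hδ') hi' measurableSet_Ioi
      fun t ht => pow_mul_kerRad_le a hδ' ht
  have h2 : ∫ t in Set.Ioi (0 : ℝ), Set.indicator (Set.Ioc (0 : ℝ) 4) (fun x : ℝ => x) t = 8 := by
    rw [setIntegral_indicator measurableSet_Ioc]
    have h3 : Set.Ioi (0 : ℝ) ∩ Set.Ioc (0 : ℝ) 4 = Set.Ioc 0 4 := by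
      ext x; simp only [Set.mem_inter_iff, Set.mem_Ioi, Set.mem_Ioc]; tauto
    rw [h3, ← intervalIntegral.integral_of_le (by norm_num)]
    simp only [integral_id]
    norm_num
  linarith

/-- The polar coordinates computation. -/
theorem lintegral_kerRad_le {a : ℕ} {δ' : ℝ} (hδ' : 0 < δ') :
    ∫⁻ w : E (2 * a + 2), ENNReal.ofReal (kerRad a δ' ‖w‖) ≤
      ENNReal.ofReal (8 * ((2 * a + 2 : ℕ) : ℝ) * ballVol (2 * a + 2)) := by
  have hdim : Module.finrank ℝ (E (2 * a + 2)) = 2 * a + 2 := by simp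
  haveI : Nontrivial (E (2 * a + 2)) := by
    haveI : Nonempty (Fin (2 * a + 2)) := ⟨⟨0, by omega⟩⟩
    infer_instance
  have hint : Integrable (fun w : E (2 * a + 2) => kerRad a δ' ‖w‖)
      (MeasureTheory.volume : Measure (E (2 * a + 2))) := by
    rw [integrable_fun_norm_addHaar]
    rw [hdim]
    simpa only [Nat.add_sub_cancel, smul_eq_mul, show 2 * a + 2 - 1 = 2 * a + 1 by omega]
      using integrable_weight_kerRad a hδ'
  rw [← ofReal_integral_eq_lintegral_ofReal hint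
    (Filter.Eventually.of_forall fun w => kerRad_nonneg a hδ' ‖w‖)]
  refine ENNReal.ofReal_le_ofReal ?_
  rw [integral_fun_norm_addHaar, hdim]
  simp only [show 2 * a + 2 - 1 = 2 * a + 1 by omega, smul_eq_mul, nsmul_eq_mul]
  have hb : MeasureTheory.volume.real (Metric.ball (0 : E (2 * a + 2)) 1) = ballVol (2 * a + 2) := rfl
  rw [hb]
  have hb0 : 0 ≤ ballVol (2 * a + 2) := ENNReal.toReal_nonneg
  have h8 := integral_weight_kerRad_le a hδ'
  have hc : (0 : ℝ) ≤ ((2 * a + 2 : ℕ) : ℝ) := Nat.cast_nonneg _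
  calc ((2 * a + 2 : ℕ) : ℝ) * (ballVol (2 * a + 2) *
        ∫ t in Set.Ioi (0 : ℝ), t ^ (2 * a + 1) * kerRad a δ' t)
      ≤ ((2 * a + 2 : ℕ) : ℝ) * (ballVol (2 * a + 2) * 8) := by gcongr
    _ = _ := by ring

/-- The integral of the kernel. -/
theorem kerW_volume {a : ℕ} (hB : B = 2 * a + 2) {X : Mat d B} (hX : (gram X).det ≠ 0) {δ' : ℝ}
    (hδ' : 0 < δ') : ∫⁻ w : E B, ENNReal.ofReal (kerW a X δ' 4 w) ≤ ENNReal.ofReal (VV X) := by
  subst hB
  have hwn : (fun w : E (2 * a + 2) => ENNReal.ofReal (kerW a X δ' 4 w)) =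
      fun w => (fun t : ℝ => ENNReal.ofReal (kerRad a δ' t)) (wn X w) := by
    funext w
    unfold kerW kerRad
    rfl
  have hmeas : Measurable (fun t : ℝ => ENNReal.ofReal (kerRad a δ' t)) :=
    (measurable_kerRad a δ').ennreal_ofReal
  rw [hwn, lintegral_wn hX _ hmeas]
  have hpolar := lintegral_kerRad_le (a := a) hδ'
  have h0 : 0 ≤ Real.sqrt (gram X).det := Real.sqrt_nonneg _
  have hb : 0 ≤ ballVol (2 * a + 2) := ENNReal.toReal_nonneg
  unfold VV
  rw [show (8 * ((2 * a + 2 : ℕ) : ℝ) * ballVol (2 * a + 2) * Real.sqrt (gram X).det) =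
      Real.sqrt (gram X).det * (8 * ((2 * a + 2 : ℕ) : ℝ) * ballVol (2 * a + 2)) by ring,
    ENNReal.ofReal_mul h0]
  gcongr

theorem measurable_GGbar (hd : 0 < d) (hψ : IsDens ψ) (a : ℕ) (δ δ' : ℝ) (c : Fin B → ℤ) :
    Measurable (fun X : Mat d B => GGbar a ψ X δ δ' c) := by
  have := sig_isProb hd
  unfold GGbar
  refine Measurable.const_mul ?_ _
  have h : Measurable (fun p : Mat d B × (Fin B → ℝ) => GG a ψ p.1 δ' 4 (WithLp.toLp 2 p.2)) :=
    (measurable_GG hψ a δ' 4).comp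
      (measurable_fst.prodMk ((MeasurableEquiv.toLp 2 (Fin B → ℝ)).measurable.comp measurable_snd))
  exact (h.stronglyMeasurable.integral_prod_right'
    (ν := MeasureTheory.volume.restrict (cube δ c))).measurable

/-- Comparison with the average on the cube. -/
theorem GG_le_GGbar (hψ : IsDens ψ) (a : ℕ) {X : Mat d B} {δ δ' τ : ℝ} (hδ : 0 < δ)
    (hX : X ∈ goodX τ) (hτ : 0 < τ) (he : δ * Real.sqrt B / τ ≤ δ' / 2) (hδ'0 : 0 < δ') (hδ'1 : δ' ≤ 4)
    (s₀ : Sph d) :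
    GG a ψ X δ' 2 (Aop X (s₀ : E d)) ≤
      (3 / 2 : ℝ) ^ (2 * a) * GGbar a ψ X δ δ' (zetaC δ X s₀) := by
  have hd : 0 < d := pos_of_isDens hψ
  have := sig_isProb hd
  have hB0 : 0 < δ ^ B := pow_pos hδ _
  have hk : ∀ y ∈ cube δ (zetaC δ X s₀),
      GG a ψ X δ' 2 (Aop X (s₀ : E d)) ≤ (3 / 2 : ℝ) ^ (2 * a) * GG a ψ X δ' 4 (WithLp.toLp 2 y) := by
    intro y hy
    have hy' : cell δ y = cell δ (mv X (s₀ : E d)) := hy
    have h1 : wn X (Aop X (s₀ : E d) - WithLp.toLp 2 y) ≤ δ' / 2 := by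
      have h2 := wn_le_of_good hX hτ (Aop X (s₀ : E d) - WithLp.toLp 2 y)
      have h3 : ‖Aop X (s₀ : E d) - WithLp.toLp 2 y‖ ≤ δ * Real.sqrt B :=
        norm_sub_le_of_cell_eq hδ hy'
      calc wn X (Aop X (s₀ : E d) - WithLp.toLp 2 y) ≤ ‖Aop X (s₀ : E d) - WithLp.toLp 2 y‖ / τ := h2
        _ ≤ δ * Real.sqrt B / τ := div_le_div_of_nonneg_right h3 hτ.le
        _ ≤ _ := he
    unfold GG
    rw [← integral_const_mul]
    refine integral_mono (integrable_mul_kerW hψ a hδ'0 2 X _)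
      ((integrable_mul_kerW hψ a hδ'0 4 X _).const_mul _) fun s' => ?_
    have h4 : kerW a X δ' 2 (Aop X (s' : E d) - Aop X (s₀ : E d)) ≤
        (3 / 2 : ℝ) ^ (2 * a) * kerW a X δ' 4 (Aop X (s' : E d) - WithLp.toLp 2 y) := by
      refine kerW_compare a X hδ'0 hδ'1 ?_
      have h5 : (Aop X (s' : E d) - Aop X (s₀ : E d)) - (Aop X (s' : E d) - WithLp.toLp 2 y) =
          - (Aop X (s₀ : E d) - WithLp.toLp 2 y) := by abel
      rw [h5, wn_neg]
      exact h1
    have h6 := hψ.nonneg s'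
    calc ψ s' * kerW a X δ' 2 (Aop X (s' : E d) - Aop X (s₀ : E d))
        ≤ ψ s' * ((3 / 2 : ℝ) ^ (2 * a) * kerW a X δ' 4 (Aop X (s' : E d) - WithLp.toLp 2 y)) :=
          mul_le_mul_of_nonneg_left h4 h6
      _ = _ := by ring
  have hmono : ∫ _y in cube δ (zetaC δ X s₀), GG a ψ X δ' 2 (Aop X (s₀ : E d)) ≤
      ∫ y in cube δ (zetaC δ X s₀), (3 / 2 : ℝ) ^ (2 * a) * GG a ψ X δ' 4 (WithLp.toLp 2 y) := by
    refine setIntegral_mono_on ?_ ((integrableOn_GG_cube hψ a X hδ hδ'0 4 _).const_mul _)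
      (measurableSet_cube δ _) hk
    refine integrableOn_const ?_ 
    rw [volume_cube hδ]; exact ENNReal.ofReal_ne_top
  rw [setIntegral_const, integral_const_mul] at hmono
  have hv : MeasureTheory.volume.real (cube δ (zetaC δ X s₀)) = δ ^ B := volume_real_cube hδ _
  rw [hv, smul_eq_mul] at hmono
  unfold GGbar
  rw [← mul_assoc, mul_comm ((3 / 2 : ℝ) ^ (2 * a)), mul_assoc, ← div_eq_inv_mul, le_div_iff₀ hB0]
  linarith

theorem GGbar_lower (hd : 0 < d) (hψ : IsDens ψ) (a : ℕ) {X : Mat d B} {δ δ' τ : ℝ} (hδ : 0 < δ)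
    (hX : X ∈ goodX τ) (hτ : 0 < τ) (he : δ * Real.sqrt B / τ ≤ 2) (hδ'0 : 0 < δ') (hδ'1 : δ' ≤ 4)
    (s₀ : Sph d) :
    ((4 : ℝ) ^ (2 * a))⁻¹ ≤ GGbar a ψ X δ δ' (zetaC δ X s₀) := by
  have hB0 : 0 < δ ^ B := pow_pos hδ _
  have := sig_isProb hd
  have hk : ∀ y ∈ cube δ (zetaC δ X s₀), ((4 : ℝ) ^ (2 * a))⁻¹ ≤ GG a ψ X δ' 4 (WithLp.toLp 2 y) := by
    intro y hy
    have hy' : cell δ y = cell δ (mv X (s₀ : E d)) := hy
    have h1 : wn X (Aop X (s₀ : E d) - WithLp.toLp 2 y) ≤ 2 := by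
      have h2 := wn_le_of_good hX hτ (Aop X (s₀ : E d) - WithLp.toLp 2 y)
      have h3 : ‖Aop X (s₀ : E d) - WithLp.toLp 2 y‖ ≤ δ * Real.sqrt B :=
        norm_sub_le_of_cell_eq hδ hy'
      calc wn X (Aop X (s₀ : E d) - WithLp.toLp 2 y) ≤ ‖Aop X (s₀ : E d) - WithLp.toLp 2 y‖ / τ := h2
        _ ≤ δ * Real.sqrt B / τ := div_le_div_of_nonneg_right h3 hτ.le
        _ ≤ _ := he
    have hi : Integrable ψ (sig d) := by
      by_contra h
      have := hψ.int_one
      rw [integral_undef h] at this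
      exact zero_ne_one this
    calc ((4 : ℝ) ^ (2 * a))⁻¹ = ∫ s', ψ s' * ((4 : ℝ) ^ (2 * a))⁻¹ ∂(sig d) := by
          rw [integral_mul_const, hψ.int_one, one_mul]
      _ ≤ GG a ψ X δ' 4 (WithLp.toLp 2 y) := by
          unfold GG
          refine integral_mono (hi.mul_const _) (integrable_mul_kerW hψ a hδ'0 4 X _) fun s' => ?_
          refine mul_le_mul_of_nonneg_left ?_ (hψ.nonneg s')
          have h5 : wn X (Aop X (s' : E d) - WithLp.toLp 2 y) ≤ 4 := by
            have h6 : Aop X (s' : E d) - WithLp.toLp 2 y =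
                Aop X ((s' : E d) - (s₀ : E d)) + (Aop X (s₀ : E d) - WithLp.toLp 2 y) := by
              rw [map_sub]; abel
            rw [h6]
            have h7 := wn_add_le X (Aop X ((s' : E d) - (s₀ : E d))) (Aop X (s₀ : E d) - WithLp.toLp 2 y)
            have h8 := wn_Aop_le hX.1 ((s' : E d) - (s₀ : E d))
            have h9 : ‖(s' : E d) - (s₀ : E d)‖ ≤ 2 := by
              have h10 := norm_sub_le (s' : E d) (s₀ : E d)
              have h11 : ‖(s' : E d)‖ = 1 := by simpa using s'.2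
              have h12 : ‖(s₀ : E d)‖ = 1 := by simpa using s₀.2
              linarith
            linarith
          unfold kerW
          rw [if_pos h5]
          have h13 : 0 < max (wn X (Aop X (s' : E d) - WithLp.toLp 2 y)) δ' := lt_max_of_lt_right hδ'0
          exact inv_anti₀ (pow_pos h13 _) (pow_le_pow_left₀ h13.le (max_le h5 hδ'1) _)
  have hmono : ∫ _y in cube δ (zetaC δ X s₀), ((4 : ℝ) ^ (2 * a))⁻¹ ≤
      ∫ y in cube δ (zetaC δ X s₀), GG a ψ X δ' 4 (WithLp.toLp 2 y) := by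
    refine setIntegral_mono_on ?_ (integrableOn_GG_cube hψ a X hδ hδ'0 4 _)
      (measurableSet_cube δ _) hk
    refine integrableOn_const ?_
    rw [volume_cube hδ]; exact ENNReal.ofReal_ne_top
  rw [setIntegral_const] at hmono
  have hv : MeasureTheory.volume.real (cube δ (zetaC δ X s₀)) = δ ^ B := volume_real_cube hδ _
  rw [hv, smul_eq_mul] at hmono
  unfold GGbar
  rw [← div_eq_inv_mul, le_div_iff₀ hB0]
  linarith

theorem GGbar_upper (hψ : IsDens ψ) (a : ℕ) (X : Mat d B) {δ δ' : ℝ} (hδ : 0 < δ) (hδ'0 : 0 < δ')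
    (c : Fin B → ℤ) :
    GGbar a ψ X δ δ' c ≤ ((δ' ^ (2 * a))⁻¹) := by
  have hB0 : 0 < δ ^ B := pow_pos hδ _
  have hmono : ∫ y in cube δ c, GG a ψ X δ' 4 (WithLp.toLp 2 y) ≤
      ∫ _y in cube δ c, (δ' ^ (2 * a))⁻¹ := by
    refine setIntegral_mono_on (integrableOn_GG_cube hψ a X hδ hδ'0 4 _) ?_
      (measurableSet_cube δ _) fun y _ => GG_le hψ a X hδ'0 4 _
    refine integrableOn_const ?_
    rw [volume_cube hδ]; exact ENNReal.ofReal_ne_top
  rw [setIntegral_const] at hmono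
  have hv : MeasureTheory.volume.real (cube δ c) = δ ^ B := volume_real_cube hδ _
  rw [hv, smul_eq_mul] at hmono
  unfold GGbar
  rw [← div_eq_inv_mul, div_le_iff₀ hB0]
  linarith

theorem lintegral_GG_le (hψ : IsDens ψ) {a : ℕ} (hB : B = 2 * a + 2) {X : Mat d B} (hX : (gram X).det ≠ 0)
    {δ' : ℝ} (hδ'0 : 0 < δ') :
    ∫⁻ y : E B, ENNReal.ofReal (GG a ψ X δ' 4 y) ≤ ENNReal.ofReal (VV X) := by
  have hd : 0 < d := pos_of_isDens hψ
  have := sig_isProb hd
  have h1 : ∀ y : E B, ENNReal.ofReal (GG a ψ X δ' 4 y) =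
      ∫⁻ s' : Sph d, ENNReal.ofReal (ψ s') * ENNReal.ofReal (kerW a X δ' 4 (Aop X (s' : E d) - y)) ∂(sig d) := by
    intro y
    unfold GG
    rw [ofReal_integral_eq_lintegral_ofReal (integrable_mul_kerW hψ a hδ'0 4 X y)
      (Filter.Eventually.of_forall fun s' => mul_nonneg (hψ.nonneg _) (kerW_nonneg a X hδ'0 4 _))]
    refine lintegral_congr fun s' => ?_
    rw [ENNReal.ofReal_mul (hψ.nonneg _)]
  simp_rw [h1]
  have hm : Measurable (fun p : E B × Sph d =>
      ENNReal.ofReal (ψ p.2) * ENNReal.ofReal (kerW a X δ' 4 (Aop X (p.2 : E d) - p.1))) := by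
    refine (hψ.meas.comp measurable_snd).ennreal_ofReal.mul (Measurable.ennreal_ofReal ?_)
    refine (measurable_kerW_right a δ' 4 X).comp ?_
    exact ((measurable_Aop_coe X).comp measurable_snd).sub measurable_fst
  rw [lintegral_lintegral_swap hm.aemeasurable]
  have h2 : ∀ s' : Sph d, ∫⁻ y : E B, ENNReal.ofReal (ψ s') * ENNReal.ofReal (kerW a X δ' 4 (Aop X (s' : E d) - y)) ≤
      ENNReal.ofReal (ψ s') * ENNReal.ofReal (VV X) := by
    intro s'
    have hk : Measurable (fun w : E B => ENNReal.ofReal (kerW a X δ' 4 w)) :=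
      (measurable_kerW_right a δ' 4 X).ennreal_ofReal
    rw [lintegral_const_mul' _ _ ENNReal.ofReal_ne_top]
    refine mul_le_mul_right ?_ _
    rw [lintegral_sub_left_eq_self (fun w : E B => ENNReal.ofReal (kerW a X δ' 4 w)) (Aop X (s' : E d))]
    exact kerW_volume hB hX hδ'0
  calc ∫⁻ s' : Sph d, ∫⁻ y : E B, ENNReal.ofReal (ψ s') * ENNReal.ofReal (kerW a X δ' 4 (Aop X (s' : E d) - y)) ∂MeasureTheory.volume ∂(sig d)
      ≤ ∫⁻ s' : Sph d, ENNReal.ofReal (ψ s') * ENNReal.ofReal (VV X) ∂(sig d) := lintegral_mono h2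
    _ = ENNReal.ofReal (VV X) := by
        rw [lintegral_mul_const _ hψ.meas.ennreal_ofReal, hψ.lintegral_one, one_mul]

/-- The mass of a cube. -/
noncomputable abbrev mCube (ψ : Sph d → ℝ) (δ : ℝ) (X : Mat d B) (c : Fin B → ℤ) : ℝ :=
  slm (sig d) ψ (zetaC δ) X c

theorem measurable_zetaC_right (δ : ℝ) (X : Mat d B) :
    Measurable (zetaC (d := d) (B := B) δ X) := by
  have h : Measurable (fun s : Sph d => mv X (s : E d)) := by
    have h0 : Measurable (fun z : E d => mv X z) :=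
      (measurable_mv (d := d) (r := B)).comp (measurable_prodMk_left (x := X))
    exact h0.comp measurable_subtype_coe
  exact (measurable_cellRC δ).comp h

theorem mCube_nonneg {δ₀ : ℝ} (hd : 0 < d) (hψ : IsDens ψ) (hδ : 0 < δ₀) (X : Mat d B) (c : Fin B → ℤ) :
    0 ≤ mCube ψ δ₀ X c :=
  (block_tupDataC hd hψ hδ).slm_nonneg X c

theorem exists_of_mC_pos {δ : ℝ} {X : Mat d B} {c : Fin B → ℤ} (h : 0 < mCube ψ δ X c) :
    ∃ s₀ : Sph d, zetaC δ X s₀ = c := by
  by_contra hne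
  push Not at hne
  have : mCube ψ δ X c = 0 := by
    unfold mCube slm
    simp [hne]
  linarith

/-- Integrals of functions of the cell, for finitely many cells. -/
theorem integral_cell_sum (hψ : IsDens ψ) {δ : ℝ} {X : Mat d B}
    (hc : Measurable (zetaC (d := d) (B := B) δ X)) (T : Finset (Fin B → ℤ))
    (hT : ∀ s : Sph d, zetaC δ X s ∈ T) (h : (Fin B → ℤ) → ℝ) :
    ∫ s, ψ s * h (zetaC δ X s) ∂(sig d) = ∑ c ∈ T, mCube ψ δ X c * h c := by
  classical
  have := sig_isProb (pos_of_isDens hψ)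
  have hi : ∀ c ∈ T, Integrable (fun s : Sph d => (if zetaC δ X s = c then ψ s else 0) * h c) (sig d) := by
    intro c _
    refine Integrable.mul_const ?_ _
    have hm : Measurable (fun s : Sph d => if zetaC δ X s = c then ψ s else 0) :=
      Measurable.ite (hc (measurableSet_singleton c)) hψ.meas measurable_const
    obtain ⟨L, hL⟩ := hψ.bdd
    refine Integrable.of_bound hm.aestronglyMeasurable (max L 0) (Filter.Eventually.of_forall fun s => ?_)
    split_ifs
    · rw [Real.norm_eq_abs, abs_of_nonneg (hψ.nonneg s)]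
      exact (hL s).trans (le_max_left _ _)
    · simp
  have hp : ∀ s : Sph d, ψ s * h (zetaC δ X s) =
      ∑ c ∈ T, (if zetaC δ X s = c then ψ s else 0) * h c := by
    intro s
    rw [Finset.sum_eq_single (zetaC δ X s)]
    · simp
    · intro b _ hb
      rw [if_neg (Ne.symm hb), zero_mul]
    · intro hh
      exact absurd (hT s) hh
  simp_rw [hp]
  rw [integral_finsetSum _ hi]
  refine Finset.sum_congr rfl fun c _ => ?_
  rw [integral_mul_const]
  congr 1
  unfold mCube slm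
  refine integral_congr_ae (Filter.Eventually.of_forall fun s => ?_)
  simp only
  congr

/-- The sum of the integrals on the cubes is bounded by the total mass of the kernel. -/
theorem sum_cube_le (hψ : IsDens ψ) {a : ℕ} (hB : B = 2 * a + 2) {X : Mat d B} {δ δ' τ : ℝ}
    (hX : X ∈ goodX τ) (hδ : 0 < δ) (hδ'0 : 0 < δ') (T : Finset (Fin B → ℤ)) :
    ∑ c ∈ T, δ ^ B * GGbar a ψ X δ δ' c ≤ VV X := by
  have hB0 : 0 < B := by omega
  have hV : 0 < VV X := VV_pos hX.1 hB0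
  have hd : 0 < d := pos_of_isDens hψ
  have := sig_isProb hd
  have h1 : ∀ c, δ ^ B * GGbar a ψ X δ δ' c = ∫ y in cube δ c, GG a ψ X δ' 4 (WithLp.toLp 2 y) := by
    intro c
    unfold GGbar
    field_simp
  simp_rw [h1]
  have hi := fun c => integrableOn_GG_cube hψ a X hδ hδ'0 4 c
  have hnn : ∀ c, 0 ≤ ∫ y in cube δ c, GG a ψ X δ' 4 (WithLp.toLp 2 y) := fun c =>
    integral_nonneg fun y => GG_nonneg hψ a X hδ'0 4 _
  rw [← ENNReal.ofReal_le_ofReal_iff hV.le, ENNReal.ofReal_sum_of_nonneg fun c _ => hnn c]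
  have h2 : ∀ c, ENNReal.ofReal (∫ y in cube δ c, GG a ψ X δ' 4 (WithLp.toLp 2 y)) =
      ∫⁻ y in cube δ c, ENNReal.ofReal (GG a ψ X δ' 4 (WithLp.toLp 2 y)) := by
    intro c
    exact ofReal_integral_eq_lintegral_ofReal (hi c)
      (Filter.Eventually.of_forall fun y => GG_nonneg hψ a X hδ'0 4 _)
  simp_rw [h2]
  have hdisj : Set.PairwiseDisjoint (↑T) (cube (B := B) δ) := by
    intro c _ c' _ hne
    refine Set.disjoint_left.2 fun y hy hy' => hne ?_
    exact hy.symm.trans hy'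
  rw [← lintegral_biUnion_finset hdisj fun c _ => measurableSet_cube δ c]
  have h0 : Measurable (fun y : E B => GG a ψ X δ' 4 y) :=
    (measurable_GG (d := d) (B := B) hψ a δ' 4).comp (measurable_prodMk_left (x := X))
  calc ∫⁻ y in ⋃ c ∈ T, cube δ c, ENNReal.ofReal (GG a ψ X δ' 4 (WithLp.toLp 2 y))
      ≤ ∫⁻ y : Fin B → ℝ, ENNReal.ofReal (GG a ψ X δ' 4 (WithLp.toLp 2 y)) := setLIntegral_le_lintegral _ _
    _ = ∫⁻ y : E B, ENNReal.ofReal (GG a ψ X δ' 4 y) :=
        (PiLp.volume_preserving_toLp (Fin B)).lintegral_comp h0.ennreal_ofReal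
    _ ≤ ENNReal.ofReal (VV X) := lintegral_GG_le hψ hB hX.1 hδ'0

/-- The Gibbs inequality on the cubes. -/
theorem cube_gibbs (hd : 0 < d) (hψ : IsDens ψ) {a : ℕ} (hB : B = 2 * a + 2) {X : Mat d B}
    {δ δ' τ : ℝ} (hδ : 0 < δ) (hX : X ∈ goodX τ) (hτ : 0 < τ) (he : δ * Real.sqrt B / τ ≤ 2)
    (hδ'0 : 0 < δ') (hδ'1 : δ' ≤ 4) :
    ∫ s, ψ s * Real.log (GGbar a ψ X δ δ' (zetaC δ X s)) ∂(sig d) ≤
      - HX ψ δ X - B * Real.log δ + Real.log (VV X) := by
  classical
  have hB0 : 0 < B := by omega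
  have hX0 : (gram X).det ≠ 0 := hX.1
  have hV : 0 < VV X := VV_pos hX0 hB0
  have := sig_isProb hd
  obtain ⟨T, hT, -, -⟩ := cube_count (d := d) hδ X
  have hc : Measurable (zetaC (d := d) (B := B) δ X) := measurable_zetaC_right δ X
  -- the three evaluations
  have e1 := integral_cell_sum hψ hc T hT (fun c => Real.log (GGbar a ψ X δ δ' c))
  have e2 := integral_cell_sum hψ hc T hT (fun c => - Real.log (mCube ψ δ X c))
  have e3 := integral_cell_sum hψ hc T hT (fun _ => (1 : ℝ))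
  simp only [mul_one] at e3
  rw [hψ.int_one] at e3
  have hs := sum_cube_le hψ hB hX hδ hδ'0 T
  have hk : ∀ c ∈ T, mCube ψ δ X c * Real.log (GGbar a ψ X δ δ' c) ≤
      mCube ψ δ X c * (- (- Real.log (mCube ψ δ X c))) - mCube ψ δ X c * (B * Real.log δ)
        + mCube ψ δ X c * Real.log (VV X) + (δ ^ B * GGbar a ψ X δ δ' c / VV X - mCube ψ δ X c) := by
    intro c _
    have hm0 : 0 ≤ mCube ψ δ X c := mCube_nonneg hd hψ hδ X c
    have hg0 : 0 ≤ GGbar a ψ X δ δ' c := GGbar_nonneg hψ a X hδ hδ'0 c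
    rcases hm0.eq_or_lt with hm | hm
    · rw [← hm]
      have : 0 ≤ δ ^ B * GGbar a ψ X δ δ' c / VV X := by positivity
      simpa using this
    · obtain ⟨s₀, hs₀⟩ := exists_of_mC_pos hm
      have hg : 0 < GGbar a ψ X δ δ' c := by
        have h1 := GGbar_lower hd hψ a hδ hX hτ he hδ'0 hδ'1 s₀
        rw [hs₀] at h1
        exact lt_of_lt_of_le (by positivity) h1
      have hx : 0 < δ ^ B * GGbar a ψ X δ δ' c / (mCube ψ δ X c * VV X) := by positivity
      have h2 := Real.log_le_sub_one_of_pos hx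
      have h3 : Real.log (δ ^ B * GGbar a ψ X δ δ' c / (mCube ψ δ X c * VV X)) =
          B * Real.log δ + Real.log (GGbar a ψ X δ δ' c) - Real.log (mCube ψ δ X c) - Real.log (VV X) := by
        rw [Real.log_div (by positivity) (by positivity), Real.log_mul (by positivity) hg.ne',
          Real.log_mul hm.ne' hV.ne', Real.log_pow]
        ring
      rw [h3] at h2
      have h4 : mCube ψ δ X c * (δ ^ B * GGbar a ψ X δ δ' c / (mCube ψ δ X c * VV X) - 1) =
          δ ^ B * GGbar a ψ X δ δ' c / VV X - mCube ψ δ X c := by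
        field_simp
      have h5 := mul_le_mul_of_nonneg_left h2 hm.le
      rw [h4] at h5
      nlinarith [h5]
  have hsum := Finset.sum_le_sum hk
  have hsplit : ∑ c ∈ T, (mCube ψ δ X c * (- (- Real.log (mCube ψ δ X c))) - mCube ψ δ X c * (B * Real.log δ)
        + mCube ψ δ X c * Real.log (VV X) + (δ ^ B * GGbar a ψ X δ δ' c / VV X - mCube ψ δ X c)) =
      - (∑ c ∈ T, mCube ψ δ X c * (- Real.log (mCube ψ δ X c))) - (∑ c ∈ T, mCube ψ δ X c) * (B * Real.log δ)
        + (∑ c ∈ T, mCube ψ δ X c) * Real.log (VV X)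
        + ((∑ c ∈ T, δ ^ B * GGbar a ψ X δ δ' c) / VV X - ∑ c ∈ T, mCube ψ δ X c) := by
    rw [Finset.sum_div, Finset.sum_mul, Finset.sum_mul]
    simp only [Finset.sum_add_distrib, Finset.sum_sub_distrib, mul_neg, Finset.sum_neg_distrib, neg_neg]
  rw [hsplit, ← e3] at hsum
  have h6 : (∑ c ∈ T, δ ^ B * GGbar a ψ X δ δ' c) / VV X ≤ 1 := (div_le_one hV).2 hs
  have hHX : HX ψ δ X = ∑ c ∈ T, mCube ψ δ X c * (- Real.log (mCube ψ δ X c)) := e2
  rw [hHX, e1]
  linarith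

end Crest.Agent.MS
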