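import Crest.Agent.Lib.MS.Whiten
import Crest.Agent.Lib.MS.BlockKernel

/-!
# S0499 module `RieszDet`: the prefix flat lies in a thick slice (deterministic).

`span_image_small`.  Let `v_j = ss j - ss 0`, `U_j = span(v_l, l<j)`, with `|⟪X r, v_j⟫| < δ` (same cube) hence
`‖A v_j‖ ≤ δ √B`, and pivots `dist(v_j, U_j) ≥ t` for `j ≥ 1`, and `‖v_j‖ ≤ 2`.  Induction on `j`: for
`u = u' + c v_j ∈ U_{j+1}`, `u' ∈ U_j`: `dist(u, U_j) = |c| dist(v_j, U_j)` so `|c| ≤ ‖u‖/t`, and
`‖u'‖ ≤ ‖u‖ + |c| ‖v_j‖ ≤ (3/t) ‖u‖`.  So `f_{j+1} ≤ (3/t) f_j + δ√B/t`, `f_0 = 0`, where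
`f_j = sup_{u ∈ U_j} ‖A u‖ / ‖u‖`; so `f_j ≤ (δ √B/2) ((3/t)^j - 1) ≤ δ √B (3/t)^n`.

`riesz_det`.  Take `u ∈ U_i` closest to `z = s' - ss 0`, so `‖z - u‖ = D := dS (uu ss i) z`, `‖u‖ ≤ ‖z‖ + D ≤ 4`.
Then `wn(A z) ≤ wn(A (z-u)) + wn(A u) ≤ D + ‖A u‖/τ`.

`RR_le_GG`.  Pointwise in `s'`, `t' := wn X (A z) ≤ min(2, D + e)`.  If `D < δ'`, bound `D^{-2a}` by the first term
and integrate with `ψ ≤ L` and `sig_negMoment_near_le`.  If `D ≥ δ' = 2e` then `D ≥ max(t'-e, δ') ≥ max(t', δ')/2`.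
-/

set_option autoImplicit false
set_option linter.unusedSectionVars false

namespace Crest.Agent.MS

open MeasureTheory ProbabilityTheory
open Crest.StreamLearn (E Sphere sphereUniform)

variable {d B n : ℕ} {ψ : Sph d → ℝ}

/-- The kernel in whitened coordinates, with support radius `r`. -/
noncomputable def kerW (a : ℕ) (X : Mat d B) (δ' r : ℝ) (w : E B) : ℝ :=
  if wn X w ≤ r then ((max (wn X w) δ') ^ (2 * a))⁻¹ else 0

/-- The potential of the measure `ψ σ` pushed by `X`, at the point `y`. -/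
noncomputable def GG (a : ℕ) (ψ : Sph d → ℝ) (X : Mat d B) (δ' r : ℝ) (y : E B) : ℝ :=
  ∫ s', ψ s' * kerW a X δ' r (Aop X (s' : E d) - y) ∂(sig d)

/-- Points of the same cube are close in every coordinate. -/
private lemma norm_Aop_sub_le {X : Mat d B} {δ : ℝ} (hδ : 0 < δ) {x y : E d}
    (h : cell δ (mv X x) = cell δ (mv X y)) : ‖Aop X (x - y)‖ ≤ δ * Real.sqrt B := by
  have hr : ∀ r : Fin B, |(Aop X (x - y)) r| ≤ δ := by
    intro r
    have h1 : (⌊mv X x r / δ⌋ : ℤ) = ⌊mv X y r / δ⌋ := congrFun h r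
    have h2 := Int.abs_sub_lt_one_of_floor_eq_floor h1
    have h3 : (Aop X (x - y)) r = mv X x r - mv X y r := by
      simp [Aop, mv, inner_sub_right]
    rw [h3]
    have h4 : mv X x r - mv X y r = (mv X x r / δ - mv X y r / δ) * δ := by
      field_simp
    rw [h4, abs_mul, abs_of_pos hδ]
    nlinarith
  rw [EuclideanSpace.norm_eq]
  have h5 : ∑ r : Fin B, ‖(Aop X (x - y)) r‖ ^ 2 ≤ (δ * Real.sqrt B) ^ 2 := by
    have h6 : (δ * Real.sqrt B) ^ 2 = ∑ _r : Fin B, δ ^ 2 := by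
      rw [mul_pow, Real.sq_sqrt (Nat.cast_nonneg B)]
      simp [mul_comm]
    rw [h6]
    refine Finset.sum_le_sum fun r _ => ?_
    rw [Real.norm_eq_abs, sq_abs]
    exact sq_le_sq' (by linarith [abs_le.mp (hr r)]) (abs_le.mp (hr r)).2
  exact Real.sqrt_le_iff.mpr ⟨by positivity, h5⟩

/-- The span of the next prefix family. -/
private lemma span_uu_succ (ss : Fin (n + 1) → Sph d) (k : ℕ) (hk : k + 1 < n + 1) :
    Submodule.span ℝ (Set.range (uu ss ⟨k + 1, hk⟩)) ≤
      Submodule.span ℝ (insert ((ss ⟨k, by omega⟩ : E d) - (ss 0 : E d))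
        (Set.range (uu ss ⟨k, by omega⟩))) := by
  rw [Submodule.span_le]
  rintro _ ⟨j, rfl⟩
  apply Submodule.subset_span
  by_cases hjk : (j : ℕ) < k
  · right
    refine ⟨j, ?_⟩
    simp only [uu, prefixFam]
    rw [if_pos (show j < (⟨k, by omega⟩ : Fin (n + 1)) from hjk),
      if_pos (show j < (⟨k + 1, hk⟩ : Fin (n + 1)) from Nat.lt_succ_of_lt hjk)]
  · by_cases hjk' : (j : ℕ) = k
    · left
      have hj : j = ⟨k, by omega⟩ := Fin.ext hjk'
      rw [Set.mem_singleton_iff.symm]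
      simp only [uu, prefixFam]
      rw [if_pos (show j < (⟨k + 1, hk⟩ : Fin (n + 1)) from by
        have h' : (j : ℕ) = k := hjk'
        show (j : ℕ) < k + 1
        omega), hj]
      exact Set.mem_singleton _
    · right
      refine ⟨j, ?_⟩
      simp only [uu, prefixFam]
      rw [if_neg (show ¬ j < (⟨k, by omega⟩ : Fin (n + 1)) from hjk),
        if_neg (show ¬ j < (⟨k + 1, hk⟩ : Fin (n + 1)) from by
          intro h
          have h' : (j : ℕ) < k + 1 := h
          omega)]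

private lemma span_uu_zero_mem (ss : Fin (n + 1) → Sph d) (u : E d)
    (hu : u ∈ Submodule.span ℝ (Set.range (uu ss (0 : Fin (n + 1))))) : u = 0 := by
  have h0 : Set.range (uu ss (0 : Fin (n + 1))) ⊆ {0} := by
    rintro _ ⟨j, rfl⟩
    simp [uu, prefixFam]
  have := Submodule.span_mono (R := ℝ) h0 hu
  simpa using this

private lemma norm_sph_sub_le (x y : Sph d) : ‖(x : E d) - (y : E d)‖ ≤ 2 := by
  have hx : ‖(x : E d)‖ = 1 := by simp
  have hy : ‖(y : E d)‖ = 1 := by simp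
  calc _ ≤ ‖(x : E d)‖ + ‖(y : E d)‖ := norm_sub_le _ _
    _ = 2 := by rw [hx, hy]; norm_num

private lemma span_image_aux {X : Mat d B} {ss : Fin (n + 1) → Sph d} {δ t : ℝ} (hδ : 0 < δ)
    (ht : 0 < t) (ht1 : t ≤ 1)
    (hcube : ∀ j, cell δ (mv X (ss j : E d)) = cell δ (mv X (ss 0 : E d)))
    (hpiv : ∀ j : Fin n, t ≤ di ss j.succ) (k : ℕ) (hk : k < n + 1) (u : E d)
    (hu : u ∈ Submodule.span ℝ (Set.range (uu ss ⟨k, hk⟩))) :
    ‖Aop X u‖ ≤ (δ * Real.sqrt B / 2) * ((3 / t) ^ k - 1) * ‖u‖ := by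
  have hG : 0 ≤ δ * Real.sqrt B := by positivity
  have h1t : 1 ≤ 1 / t := by rw [le_div_iff₀ ht]; linarith
  induction k generalizing u with
  | zero =>
    have h0 : u = 0 := span_uu_zero_mem ss u hu
    subst h0
    simp
  | succ k ih =>
    have hk' : k < n + 1 := by omega
    have hu' := span_uu_succ ss k hk hu
    obtain ⟨c, u', hu'm, rfl⟩ := Submodule.mem_span_insert.mp hu'
    set v := (ss ⟨k, hk'⟩ : E d) - (ss 0 : E d) with hv
    have hIH := ih hk' u' hu'm
    have hpow : (1 : ℝ) ≤ (3 / t) ^ k := by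
      apply one_le_pow₀
      rw [le_div_iff₀ ht]; linarith
    rcases Nat.eq_zero_or_pos k with hk0 | hkpos
    · -- `v = 0`
      subst hk0
      have hv0 : v = 0 := by
        rw [hv]
        have : (⟨0, hk'⟩ : Fin (n + 1)) = 0 := rfl
        rw [this, sub_self]
      have hu0 : u' = 0 := span_uu_zero_mem ss u' hu'm
      rw [hv0, hu0]
      simp
    · -- pivot
      obtain ⟨j, hj⟩ : ∃ j : Fin n, j.succ = (⟨k, hk'⟩ : Fin (n + 1)) := by
        refine ⟨⟨k - 1, by omega⟩, ?_⟩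
        apply Fin.ext
        simp only [Fin.val_succ]
        omega
      have hpiv' : t ≤ di ss ⟨k, hk'⟩ := by
        rw [← hj]; exact hpiv j
      have hdi : di ss ⟨k, hk'⟩ = dS (uu ss ⟨k, hk'⟩) v := rfl
      set U := Submodule.span ℝ (Set.range (uu ss ⟨k, hk'⟩)) with hU
      -- `|c| t ≤ ‖c v + u'‖`
      have hcu : |c| * t ≤ ‖c • v + u'‖ := by
        by_cases hc : c = 0
        · subst hc
          simp
        · have h1 : ‖c • v + u'‖ = |c| * ‖v - (-(c⁻¹ • u'))‖ := by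
            have h2 : c • v + u' = c • (v - (-(c⁻¹ • u'))) := by
              rw [sub_neg_eq_add, smul_add, smul_smul, mul_inv_cancel₀ hc, one_smul]
            rw [h2, norm_smul, Real.norm_eq_abs]
          rw [h1]
          apply mul_le_mul_of_nonneg_left _ (abs_nonneg c)
          have hmem : -(c⁻¹ • u') ∈ U := U.neg_mem (U.smul_mem _ hu'm)
          have h3 : Metric.infDist v (U : Set (E d)) ≤ dist v (-(c⁻¹ • u')) :=
            Metric.infDist_le_dist_of_mem hmem
          rw [dist_eq_norm] at h3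
          have h4 : di ss ⟨k, hk'⟩ = Metric.infDist v (U : Set (E d)) := rfl
          linarith
      set w := c • v + u' with hw
      have hvn : ‖v‖ ≤ 2 := norm_sph_sub_le _ _
      have hwn := norm_nonneg w
      have hc1 : |c| ≤ ‖w‖ / t := by
        rw [le_div_iff₀ ht]; exact hcu
      have hu'n : ‖u'‖ ≤ (3 / t) * ‖w‖ := by
        have h5 : u' = w - c • v := by rw [hw]; abel
        have h6 : ‖u'‖ ≤ ‖w‖ + |c| * ‖v‖ := by
          rw [h5]
          calc ‖w - c • v‖ ≤ ‖w‖ + ‖c • v‖ := norm_sub_le _ _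
            _ = _ := by rw [norm_smul, Real.norm_eq_abs]
        have h7 : |c| * ‖v‖ ≤ (‖w‖ / t) * 2 :=
          mul_le_mul hc1 hvn (norm_nonneg _) (by positivity)
        have h8 : ‖w‖ ≤ ‖w‖ / t := by
          rw [le_div_iff₀ ht]
          nlinarith
        have h9 : (3 / t) * ‖w‖ = ‖w‖ / t + (‖w‖ / t) * 2 := by
          field_simp
          ring
        linarith
      have hAv : ‖Aop X v‖ ≤ δ * Real.sqrt B := norm_Aop_sub_le hδ (hcube _)
      have hA : ‖Aop X w‖ ≤ ‖Aop X u'‖ + |c| * ‖Aop X v‖ := by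
        rw [hw, map_add, map_smul, add_comm]
        refine (norm_add_le _ _).trans ?_
        rw [norm_smul, Real.norm_eq_abs]
      have hf0 : 0 ≤ (δ * Real.sqrt B / 2) * ((3 / t) ^ k - 1) :=
        mul_nonneg (by positivity) (by linarith)
      have h10 : ‖Aop X u'‖ ≤ (δ * Real.sqrt B / 2) * ((3 / t) ^ k - 1) * ((3 / t) * ‖w‖) :=
        hIH.trans (mul_le_mul_of_nonneg_left hu'n hf0)
      have h11 : |c| * ‖Aop X v‖ ≤ (‖w‖ / t) * (δ * Real.sqrt B) :=
        mul_le_mul hc1 hAv (norm_nonneg _) (by positivity)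
      refine hA.trans ((add_le_add h10 h11).trans ?_)
      have h12 : (δ * Real.sqrt B / 2) * ((3 / t) ^ k - 1) * ((3 / t) * ‖w‖) + (‖w‖ / t) * (δ * Real.sqrt B)
          = (δ * Real.sqrt B / 2) * ((3 / t) ^ (k + 1) - 1 / t) * ‖w‖ := by
        rw [pow_succ]
        field_simp
        ring
      rw [h12]
      apply mul_le_mul_of_nonneg_right _ hwn
      apply mul_le_mul_of_nonneg_left _ (by positivity)
      linarith

theorem span_image_small {X : Mat d B} {ss : Fin (n + 1) → Sph d} {δ t : ℝ} (hδ : 0 < δ)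
    (ht : 0 < t) (ht1 : t ≤ 1)
    (hcube : ∀ j, cell δ (mv X (ss j : E d)) = cell δ (mv X (ss 0 : E d)))
    (hpiv : ∀ j : Fin n, t ≤ di ss j.succ) (i : Fin (n + 1)) (u : E d)
    (hu : u ∈ Submodule.span ℝ (Set.range (uu ss i))) :
    ‖Aop X u‖ ≤ δ * Real.sqrt B * (3 / t) ^ n * ‖u‖ := by
  have h := span_image_aux hδ ht ht1 hcube hpiv (i : ℕ) i.2 u hu
  have hi : ((i : ℕ) : ℕ) ≤ n := by omega
  have h3 : (1 : ℝ) ≤ 3 / t := by rw [le_div_iff₀ ht]; linarith
  have hpow : (3 / t) ^ (i : ℕ) ≤ (3 / t) ^ n := pow_le_pow_right₀ h3 hi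
  have hpow1 : (1 : ℝ) ≤ (3 / t) ^ (i : ℕ) := one_le_pow₀ h3
  refine h.trans (mul_le_mul_of_nonneg_right ?_ (norm_nonneg _))
  have hG : 0 ≤ δ * Real.sqrt B := by positivity
  have h4 : (3 / t) ^ (i : ℕ) - 1 ≤ 2 * (3 / t) ^ n := by linarith
  calc δ * Real.sqrt B / 2 * ((3 / t) ^ (i : ℕ) - 1) ≤ δ * Real.sqrt B / 2 * (2 * (3 / t) ^ n) :=
        mul_le_mul_of_nonneg_left h4 (by positivity)
    _ = _ := by ring

theorem riesz_det {X : Mat d B} {ss : Fin (n + 1) → Sph d} {δ t τ : ℝ} (hδ : 0 < δ)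
    (ht : 0 < t) (ht1 : t ≤ 1) (hX : X ∈ goodX τ) (hτ : 0 < τ)
    (hcube : ∀ j, cell δ (mv X (ss j : E d)) = cell δ (mv X (ss 0 : E d)))
    (hpiv : ∀ j : Fin n, t ≤ di ss j.succ) (i : Fin (n + 1)) (s' : Sph d) :
    wn X (Aop X ((s' : E d) - (ss 0 : E d))) ≤
      dS (uu ss i) ((s' : E d) - (ss 0 : E d)) + 4 * δ * Real.sqrt B * (3 / t) ^ n / τ := by
  classical
  set z := (s' : E d) - (ss 0 : E d) with hz
  set U := Submodule.span ℝ (Set.range (uu ss i)) with hU
  have hcl : IsClosed (U : Set (E d)) := Submodule.closed_of_finiteDimensional U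
  have hne : (U : Set (E d)).Nonempty := ⟨0, U.zero_mem⟩
  obtain ⟨u, huU, hu⟩ := hcl.exists_infDist_eq_dist hne z
  have hD : dS (uu ss i) z = ‖z - u‖ := by
    show Metric.infDist z (U : Set (E d)) = _
    rw [hu, dist_eq_norm]
  have hzn : ‖z‖ ≤ 2 := norm_sph_sub_le _ _
  have hD2 : ‖z - u‖ ≤ ‖z‖ := by
    rw [← hD]
    have := Metric.infDist_le_dist_of_mem (x := z) (s := (U : Set (E d))) (y := 0) U.zero_mem
    rw [dist_zero_right] at this
    exact this
  have hun : ‖u‖ ≤ 4 := by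
    have h1 : u = z - (z - u) := by abel
    have h2 : ‖u‖ ≤ ‖z‖ + ‖z - u‖ := by
      conv_lhs => rw [h1]
      exact norm_sub_le _ _
    linarith
  have h1 : Aop X z = Aop X (z - u) + Aop X u := by rw [← map_add]; congr 1; abel
  have h2 : wn X (Aop X (z - u)) ≤ ‖z - u‖ := wn_Aop_le hX.1 _
  have h3 : wn X (Aop X u) ≤ ‖Aop X u‖ / τ := wn_le_of_good hX hτ _
  have h4 := span_image_small hδ ht ht1 hcube hpiv i u huU
  have h5 : ‖Aop X u‖ ≤ 4 * δ * Real.sqrt B * (3 / t) ^ n := by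
    have h6 : 0 ≤ δ * Real.sqrt B * (3 / t) ^ n := by positivity
    calc _ ≤ _ := h4
      _ ≤ δ * Real.sqrt B * (3 / t) ^ n * 4 := mul_le_mul_of_nonneg_left hun h6
      _ = _ := by ring
  rw [h1, hD]
  refine (wn_add_le _ _ _).trans (add_le_add h2 (h3.trans ?_))
  exact div_le_div_of_nonneg_right h5 hτ.le

private lemma measurable_wn_Aop_sub (X : Mat d B) (y : E B) :
    Measurable (fun s' : Sph d => wn X (Aop X (s' : E d) - y)) := by
  have h2 : Continuous (fun s' : Sph d => Aop X (s' : E d) - y) :=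
    ((Aop X).continuous_of_finiteDimensional.comp continuous_subtype_val).sub continuous_const
  have hg : Measurable (fun s' : Sph d => ((X, Aop X (s' : E d) - y) : Mat d B × E B)) :=
    measurable_const.prodMk h2.measurable
  have h3 := (measurable_wn (d := d) (B := B)).comp hg
  exact h3

/-- The Riesz potential at the prefix flat is dominated by the potential in whitened coordinates. -/
theorem RR_le_GG (hψ : IsDens ψ) {L : ℝ} (hL : ∀ s, ψ s ≤ L) (a : ℕ) (hl : 2 * a + 1 + n + 1 ≤ d)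
    {X : Mat d B} {ss : Fin (n + 1) → Sph d} {δ t τ : ℝ} (hδ : 0 < δ)
    (ht : 0 < t) (ht1 : t ≤ 1) (hX : X ∈ goodX τ) (hτ : 0 < τ)
    (hcube : ∀ j, cell δ (mv X (ss j : E d)) = cell δ (mv X (ss 0 : E d)))
    (hpiv : ∀ j : Fin n, t ≤ di ss j.succ) (i : Fin (n + 1)) {δ' : ℝ}
    (hδ' : δ' = 2 * (4 * δ * Real.sqrt B * (3 / t) ^ n / τ)) (hδ'0 : 0 < δ') (hδ'1 : δ' ≤ 1) :
    RR a ψ ss i ≤ L * (2 * (32 * Real.sqrt d) ^ d) * δ' +
      2 ^ (2 * a) * GG a ψ X δ' 2 (Aop X (ss 0 : E d)) := by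
  classical
  have hd : 2 ≤ d := by omega
  have hd0 : 0 < d := by omega
  have hprob := sig_isProb hd0
  set e := 4 * δ * Real.sqrt B * (3 / t) ^ n / τ with he
  have hL0 : 0 ≤ L := (hψ.nonneg (ss 0)).trans (hL _)
  set D : Sph d → ℝ := fun s' => dS (uu ss i) ((s' : E d) - (ss 0 : E d)) with hDdef
  have hDcont : Continuous D := by
    have h1 : Continuous (fun x : E d => dS (uu ss i) x) := Metric.continuous_infDist_pt _
    exact h1.comp (continuous_subtype_val.sub continuous_const)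
  have hD0 : ∀ s', 0 ≤ D s' := fun s' => Metric.infDist_nonneg
  have hmf := finrank_span_uu ss i
  obtain ⟨hint0, -⟩ := sig_negMoment_integrable hd (uu ss i) (ss 0 : E d) n (2 * a) hmf hl
  -- near part
  set near : Sph d → ℝ := fun s' => if D s' < δ' then ((D s') ^ (2 * a))⁻¹ else 0 with hnear
  have hnearm : Measurable near := by
    refine Measurable.ite (measurableSet_lt hDcont.measurable measurable_const) ?_ measurable_const
    exact (hDcont.measurable.pow_const _).inv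
  have hnearI : Integrable near (sig d) := by
    refine hint0.mono' hnearm.aestronglyMeasurable (Filter.Eventually.of_forall fun s' => ?_)
    have hnn : 0 ≤ ((D s') ^ (2 * a))⁻¹ := by
      have := hD0 s'
      positivity
    simp only [hnear]
    split_ifs
    · rw [Real.norm_of_nonneg hnn]
    · simpa using hnn
  have hnearle := sig_negMoment_near_le hd (uu ss i) (ss 0 : E d) n (2 * a) hmf hl δ' hδ'0 hδ'1
  -- far part
  set y := Aop X (ss 0 : E d) with hy
  set far : Sph d → ℝ := fun s' => ψ s' * kerW a X δ' 2 (Aop X (s' : E d) - y) with hfar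
  have hkm : Measurable (fun s' : Sph d => wn X (Aop X (s' : E d) - y)) :=
    measurable_wn_Aop_sub X y
  have hkerm : Measurable (fun s' : Sph d => kerW a X δ' 2 (Aop X (s' : E d) - y)) := by
    unfold kerW
    refine Measurable.ite (measurableSet_le hkm measurable_const) ?_ measurable_const
    exact ((hkm.max measurable_const).pow_const _).inv
  have hker0 : ∀ w : E B, 0 ≤ kerW a X δ' 2 w := by
    intro w
    unfold kerW
    have h1 : 0 ≤ max (wn X w) δ' := le_max_of_le_right hδ'0.le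
    split_ifs <;> positivity
  have hkerle : ∀ w : E B, kerW a X δ' 2 w ≤ (δ' ^ (2 * a))⁻¹ := by
    intro w
    unfold kerW
    split_ifs
    · exact inv_anti₀ (by positivity) (pow_le_pow_left₀ hδ'0.le (le_max_right _ _) _)
    · positivity
  have hfarI : Integrable far (sig d) := by
    refine Integrable.of_bound (hψ.meas.mul hkerm).aestronglyMeasurable (L * (δ' ^ (2 * a))⁻¹)
      (Filter.Eventually.of_forall fun s' => ?_)
    rw [Real.norm_of_nonneg (mul_nonneg (hψ.nonneg _) (hker0 _))]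
    exact mul_le_mul (hL _) (hkerle _) (hker0 _) hL0
  -- the pointwise bound
  have hpt : ∀ s' : Sph d, ψ s' * ((D s') ^ (2 * a))⁻¹ ≤
      L * near s' + 2 ^ (2 * a) * far s' := by
    intro s'
    have hψ0 := hψ.nonneg s'
    have hD0' := hD0 s'
    have hfar0 : 0 ≤ far s' := mul_nonneg hψ0 (hker0 _)
    have hinv0 : 0 ≤ ((D s') ^ (2 * a))⁻¹ := by positivity
    by_cases hnr : D s' < δ'
    · simp only [hnear, if_pos hnr]
      have h1 : ψ s' * ((D s') ^ (2 * a))⁻¹ ≤ L * ((D s') ^ (2 * a))⁻¹ :=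
        mul_le_mul_of_nonneg_right (hL _) hinv0
      have h2 : 0 ≤ (2 : ℝ) ^ (2 * a) * far s' := by positivity
      linarith
    · have hge : δ' ≤ D s' := not_lt.mp hnr
      simp only [hnear, if_neg hnr, mul_zero, zero_add]
      set z := (s' : E d) - (ss 0 : E d) with hz
      have hAz : Aop X (s' : E d) - y = Aop X z := by rw [hz, map_sub]
      have hzn : ‖z‖ ≤ 2 := norm_sph_sub_le _ _
      have htw : wn X (Aop X z) ≤ 2 := (wn_Aop_le hX.1 z).trans hzn
      have hdet := riesz_det hδ ht ht1 hX hτ hcube hpiv i s'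
      have hdet' : wn X (Aop X z) ≤ D s' + e := hdet
      have hfarv : far s' = ψ s' * ((max (wn X (Aop X z)) δ') ^ (2 * a))⁻¹ := by
        simp only [hfar, hAz, kerW]
        rw [if_pos htw]
      rw [hfarv]
      set m := max (wn X (Aop X z)) δ' with hm
      have hmpos : 0 < m := lt_of_lt_of_le hδ'0 (le_max_right _ _)
      have hmle : m ≤ 2 * D s' := by
        apply max_le
        · have : e = δ' / 2 := by rw [hδ']; ring
          linarith
        · linarith
      have hDpos : 0 < D s' := lt_of_lt_of_le hδ'0 hge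
      have hkey : ((D s') ^ (2 * a))⁻¹ ≤ 2 ^ (2 * a) * (m ^ (2 * a))⁻¹ := by
        have h1 : m ^ (2 * a) ≤ (2 * D s') ^ (2 * a) := pow_le_pow_left₀ hmpos.le hmle _
        rw [mul_pow] at h1
        have hp : 0 < (D s') ^ (2 * a) := by positivity
        have hq : 0 < m ^ (2 * a) := by positivity
        rw [inv_le_iff_one_le_mul₀ hp]
        have : (2 : ℝ) ^ (2 * a) * (m ^ (2 * a))⁻¹ * (D s') ^ (2 * a) =
            ((2 : ℝ) ^ (2 * a) * (D s') ^ (2 * a)) / m ^ (2 * a) := by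
          field_simp
        rw [this, le_div_iff₀ hq]
        linarith
      calc ψ s' * ((D s') ^ (2 * a))⁻¹ ≤ ψ s' * (2 ^ (2 * a) * (m ^ (2 * a))⁻¹) :=
            mul_le_mul_of_nonneg_left hkey hψ0
        _ = _ := by ring
  -- integrate
  have hnonneg : ∀ s' : Sph d, 0 ≤ ψ s' * ((D s') ^ (2 * a))⁻¹ := fun s' =>
    mul_nonneg (hψ.nonneg _) (by have := hD0 s'; positivity)
  have hrhsI : Integrable (fun s' => L * near s' + 2 ^ (2 * a) * far s') (sig d) :=
    (hnearI.const_mul _).add (hfarI.const_mul _)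
  have hmain : RR a ψ ss i ≤ ∫ s', (L * near s' + 2 ^ (2 * a) * far s') ∂(sig d) :=
    integral_mono_of_nonneg (Filter.Eventually.of_forall hnonneg) hrhsI
      (Filter.Eventually.of_forall hpt)
  refine hmain.trans ?_
  rw [integral_add (hnearI.const_mul _) (hfarI.const_mul _), integral_const_mul, integral_const_mul]
  have h1 : L * ∫ s', near s' ∂(sig d) ≤ L * (2 * (32 * Real.sqrt d) ^ d) * δ' := by
    rw [mul_assoc]
    exact mul_le_mul_of_nonneg_left hnearle hL0
  have h2 : ∫ s', far s' ∂(sig d) = GG a ψ X δ' 2 y := rfl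
  rw [h2]
  linarith

end Crest.Agent.MS
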