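import Crest.Agent.Lib.MS.Defs

/-!
# S0499 module `SphereBasic`: elementary facts on the uniform law of the sphere.

Hints: `sphereUniform d = (toSphere univ)⁻¹ • toSphere`; `Measure.toSphere_apply'` says
`μ.toSphere s = dim E * μ (Ioo 0 1 • ((↑) '' s))`; `measurePreserving_homeomorphUnitSphereProd`
gives polar coordinates; `Measure.addHaar_ball` etc. give volumes.

`sig_ball_le`: the truncated cone `{τ s : 1-r < τ < 1, s ∈ A}` lies in the ball `B(x, 2r)` and has
volume `σ(A) vol(B₁) (1 - (1-r)^d) ≥ σ(A) vol(B₁) r`.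

`sig_inner_sq`: by rotation invariance `∫ ⟪s,e⟫²` only depends on `‖e‖`; sum over an orthonormal basis.
-/

set_option autoImplicit false

namespace Crest.Agent.MS

open MeasureTheory ProbabilityTheory
open Crest.StreamLearn (E Sphere sphereUniform)
open scoped Pointwise

variable {d : ℕ}

private lemma finrank_E : Module.finrank ℝ (E d) = d := by simp

private lemma toSphere_univ_ne_zero (hd : 0 < d) :
    (volume : Measure (E d)).toSphere Set.univ ≠ 0 := by
  rw [Ne, Measure.measure_univ_eq_zero, Measure.toSphere_eq_zero_iff_finrank, finrank_E]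
  omega

private lemma toSphere_univ_ne_top : (volume : Measure (E d)).toSphere Set.univ ≠ ⊤ :=
  measure_ne_top _ _

/-- The uniform law is a probability measure as soon as `d ≥ 1`. -/
theorem sig_isProb (hd : 0 < d) : IsProbabilityMeasure (sig d) := by
  constructor
  simp only [sig, sphereUniform, Measure.smul_apply, smul_eq_mul]
  exact ENNReal.inv_mul_cancel (toSphere_univ_ne_zero hd) toSphere_univ_ne_top

/-- The isometry of the sphere induced by a linear isometry equivalence. -/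
noncomputable def sphMap (R : E d ≃ₗᵢ[ℝ] E d) (s : Sph d) : Sph d :=
  ⟨R (s : E d), by simp⟩

theorem continuous_sphMap (R : E d ≃ₗᵢ[ℝ] E d) : Continuous (sphMap R) :=
  Continuous.subtype_mk (R.continuous.comp continuous_subtype_val) _

/-- Rotation invariance of the cone measure. -/
private lemma toSphere_map_sphMap (R : E d ≃ₗᵢ[ℝ] E d) :
    ((volume : Measure (E d)).toSphere).map (sphMap R) = (volume : Measure (E d)).toSphere := by
  ext A hA
  rw [Measure.map_apply (continuous_sphMap R).measurable hA,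
    Measure.toSphere_apply' _ ((continuous_sphMap R).measurable hA), Measure.toSphere_apply' _ hA]
  congr 1
  have hset : Set.Ioo (0 : ℝ) 1 • (((↑) : Sph d → E d) '' (sphMap R ⁻¹' A)) =
      R ⁻¹' (Set.Ioo (0 : ℝ) 1 • (((↑) : Sph d → E d) '' A)) := by
    ext y
    simp only [Set.mem_smul, Set.mem_image, Set.mem_preimage]
    constructor
    · rintro ⟨τ, hτ, _, ⟨s, hs, rfl⟩, rfl⟩
      refine ⟨τ, hτ, _, ⟨sphMap R s, hs, rfl⟩, ?_⟩
      simp [sphMap]
    · rintro ⟨τ, hτ, _, ⟨s, hs, rfl⟩, hy⟩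
      refine ⟨τ, hτ, _, ⟨sphMap R.symm s, ?_, rfl⟩, ?_⟩
      · have : sphMap R (sphMap R.symm s) = s := by
          ext1
          simp [sphMap]
        simpa [this] using hs
      · apply R.injective
        rw [← hy]
        simp [sphMap]
  rw [hset]
  exact (show MeasurePreserving (R.toHomeomorph.toMeasurableEquiv) volume volume from
    R.measurePreserving).measure_preimage_equiv _

/-- Rotation invariance. -/
theorem sig_map_sphMap (hd : 0 < d) (R : E d ≃ₗᵢ[ℝ] E d) :
    (sig d).map (sphMap R) = sig d := by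
  simp only [sig, sphereUniform]
  rw [Measure.map_smul, toSphere_map_sphMap]

/-- The volume of the unit ball, as a real number. -/
private noncomputable abbrev bv (d : ℕ) : ℝ := (volume : Measure (E d)).real (Metric.ball 0 1)

private lemma bv_pos (hd : 0 < d) : 0 < bv d := by
  have : Nonempty (Fin d) := ⟨⟨0, hd⟩⟩
  exact ENNReal.toReal_pos (Metric.measure_ball_pos _ _ one_pos).ne' measure_ball_lt_top.ne

/-- Cone over a subset of the sphere. -/
private lemma Ioo_smul_subset_ball (A : Set (Sph d)) :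
    Set.Ioo (0 : ℝ) 1 • (((↑) : Sph d → E d) '' A) ⊆ Metric.ball (0 : E d) 1 := by
  intro y hy
  obtain ⟨τ, hτ, _, ⟨s, _, rfl⟩, rfl⟩ := Set.mem_smul.1 hy
  simp only [Metric.mem_ball, dist_zero_right]
  have hs : ‖(s : E d)‖ = 1 := by simp
  rw [norm_smul, hs, mul_one, Real.norm_eq_abs, abs_of_pos hτ.1]
  exact hτ.2

private lemma sig_real_eq (hd : 0 < d) {A : Set (Sph d)} (hA : MeasurableSet A) :
    (sig d).real A =
      (volume : Measure (E d)).real (Set.Ioo (0 : ℝ) 1 • (((↑) : Sph d → E d) '' A)) / bv d := by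
  have hb := bv_pos hd
  have hd' : (0 : ℝ) < d := by exact_mod_cast hd
  simp only [sig, sphereUniform, Measure.real, Measure.smul_apply, smul_eq_mul, ENNReal.toReal_mul,
    ENNReal.toReal_inv]
  rw [Measure.toSphere_apply_univ, Measure.toSphere_apply' _ hA, finrank_E, ENNReal.toReal_mul,
    ENNReal.toReal_mul, ENNReal.toReal_natCast]
  field_simp

/-- Volume of a scaled cone. -/
private lemma vol_Ioo_smul (hd : 0 < d) (T : Set (E d)) {ρ : ℝ} (hρ : 0 ≤ ρ) :
    (volume : Measure (E d)) (Set.Ioo (0 : ℝ) ρ • T) =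
      ENNReal.ofReal (ρ ^ d) * (volume : Measure (E d)) (Set.Ioo (0 : ℝ) 1 • T) := by
  rcases hρ.eq_or_lt with rfl | hρ
  · simp [hd.ne']
  have hset : Set.Ioo (0 : ℝ) ρ • T = ρ • (Set.Ioo (0 : ℝ) 1 • T) := by
    ext y
    simp only [Set.mem_smul]
    constructor
    · rintro ⟨τ, hτ, z, hz, rfl⟩
      refine ⟨(τ / ρ) • z, ⟨τ / ρ, ⟨by have := hτ.1; positivity, ?_⟩, z, hz, rfl⟩, ?_⟩
      · rw [div_lt_one hρ]
        exact hτ.2
      · show ρ • ((τ / ρ) • z) = τ • z
        rw [smul_smul]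
        congr 1
        field_simp
    · rintro ⟨_, ⟨τ, hτ, z, hz, rfl⟩, rfl⟩
      refine ⟨ρ * τ, ⟨mul_pos hρ hτ.1, ?_⟩, z, hz, ?_⟩
      · nlinarith [hτ.2]
      · show (ρ * τ) • z = ρ • (τ • z)
        rw [smul_smul]
  rw [hset, Measure.addHaar_smul, finrank_E, abs_of_pos (by positivity)]

/-- **The truncated cone.** If `K` contains the truncated cone over `A`, then
`t σ(A) vol(B₁) ≤ vol K`. -/
theorem sig_cone_le (hd : 0 < d) {A : Set (Sph d)} (hA : MeasurableSet A) {t : ℝ} (ht : 0 < t)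
    (ht1 : t ≤ 1) {K : Set (E d)} (hK : (volume : Measure (E d)) K ≠ ⊤)
    (hcone : ∀ s ∈ A, ∀ τ ∈ Set.Ico (1 - t) 1, τ • (s : E d) ∈ K) :
    t * (sig d).real A * (volume : Measure (E d)).real (Metric.ball 0 1) ≤
      (volume : Measure (E d)).real K := by
  set T := ((↑) : Sph d → E d) '' A with hT
  have hb := bv_pos hd
  have hVfin : (volume : Measure (E d)) (Set.Ioo (0 : ℝ) 1 • T) ≠ ⊤ :=
    ne_top_of_le_ne_top measure_ball_lt_top.ne (measure_mono (Ioo_smul_subset_ball A))
  have hsub : Set.Ioo (0 : ℝ) 1 • T ⊆ (Set.Ioo (0 : ℝ) (1 - t) • T) ∪ K := by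
    intro y hy
    obtain ⟨τ, hτ, _, ⟨s, hs, rfl⟩, rfl⟩ := Set.mem_smul.1 hy
    by_cases h : τ < 1 - t
    · exact Or.inl (Set.smul_mem_smul ⟨hτ.1, h⟩ ⟨s, hs, rfl⟩)
    · exact Or.inr (hcone s hs τ ⟨not_lt.1 h, hτ.2⟩)
  have hle := (measure_mono (μ := (volume : Measure (E d))) hsub).trans (measure_union_le _ _)
  rw [vol_Ioo_smul hd T (ρ := 1 - t) (by linarith)] at hle
  have hle2 : (volume : Measure (E d)).real (Set.Ioo (0 : ℝ) 1 • T) ≤
      (1 - t) ^ d * (volume : Measure (E d)).real (Set.Ioo (0 : ℝ) 1 • T) +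
        (volume : Measure (E d)).real K := by
    have h1 := ENNReal.toReal_mono
      (ENNReal.add_ne_top.2 ⟨ENNReal.mul_ne_top ENNReal.ofReal_ne_top hVfin, hK⟩) hle
    rw [ENNReal.toReal_add (ENNReal.mul_ne_top ENNReal.ofReal_ne_top hVfin) hK, ENNReal.toReal_mul,
      ENNReal.toReal_ofReal (by have : 0 ≤ 1 - t := by linarith
                                positivity)] at h1
    exact h1
  have hpow : (1 - t) ^ d ≤ 1 - t := by
    have h0 : 0 ≤ 1 - t := by linarith
    have h1 : 1 - t ≤ 1 := by linarith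
    calc (1 - t) ^ d ≤ (1 - t) ^ 1 := pow_le_pow_of_le_one h0 h1 hd
      _ = 1 - t := pow_one _
  have hV0 : 0 ≤ (volume : Measure (E d)).real (Set.Ioo (0 : ℝ) 1 • T) := measureReal_nonneg
  rw [sig_real_eq hd hA, ← hT]
  have e : t * ((volume : Measure (E d)).real (Set.Ioo (0 : ℝ) 1 • T) / bv d) * bv d =
      t * (volume : Measure (E d)).real (Set.Ioo (0 : ℝ) 1 • T) := by
    field_simp
  show t * ((volume : Measure (E d)).real (Set.Ioo (0 : ℝ) 1 • T) / bv d) * bv d ≤ _
  rw [e]
  nlinarith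

/-- `σ` of a spherical cap (chordal radius `r ≤ 1`) is at most `2^d r^(d-1)`. -/
theorem sig_ball_le (hd : 2 ≤ d) (x : E d) (r : ℝ) (hr : 0 < r) (hr1 : r ≤ 1) :
    (sig d).real {s : Sph d | ‖(s : E d) - x‖ ≤ r} ≤ 2 ^ d * r ^ (d - 1) := by
  have hd0 : 0 < d := by omega
  have hb := bv_pos hd0
  have hA : MeasurableSet {s : Sph d | ‖(s : E d) - x‖ ≤ r} :=
    (isClosed_le (by fun_prop) continuous_const).measurableSet
  have hcone := sig_cone_le hd0 hA hr hr1 (K := Metric.closedBall x (2 * r))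
    measure_closedBall_lt_top.ne ?_
  · have hvol : (volume : Measure (E d)).real (Metric.closedBall x (2 * r)) = (2 * r) ^ d * bv d := by
      simp only [Measure.real]
      have : Nontrivial (E d) := Module.nontrivial_of_finrank_pos (R := ℝ) (by simpa using hd0)
      rw [Measure.addHaar_closedBall _ _ (by positivity), finrank_E, ENNReal.toReal_mul,
        ENNReal.toReal_ofReal (by positivity)]
    rw [hvol] at hcone
    have h1 : r * (sig d).real {s : Sph d | ‖(s : E d) - x‖ ≤ r} ≤ (2 * r) ^ d :=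
      le_of_mul_le_mul_right hcone hb
    have h2 : (2 * r) ^ d = r * (2 ^ d * r ^ (d - 1)) := by
      obtain ⟨n, rfl⟩ : ∃ n, d = n + 1 := ⟨d - 1, by omega⟩
      simp only [Nat.add_sub_cancel]
      ring
    rw [h2] at h1
    exact le_of_mul_le_mul_left h1 hr
  · intro s hs τ hτ
    simp only [Metric.mem_closedBall, dist_eq_norm]
    have h1 : τ • (s : E d) - x = (τ - 1) • (s : E d) + ((s : E d) - x) := by
      rw [sub_smul, one_smul]
      abel
    rw [h1]
    have hsn : ‖(s : E d)‖ = 1 := by simp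
    have h2 : ‖(τ - 1) • (s : E d)‖ ≤ r := by
      rw [norm_smul, hsn, mul_one, Real.norm_eq_abs, abs_of_neg (by linarith [hτ.2])]
      linarith [hτ.1]
    have h3 : ‖(s : E d) - x‖ ≤ r := hs
    calc ‖(τ - 1) • (s : E d) + ((s : E d) - x)‖ ≤ ‖(τ - 1) • (s : E d)‖ + ‖(s : E d) - x‖ :=
          norm_add_le _ _
      _ ≤ 2 * r := by linarith

/-- Second moment on the sphere: `∫ ⟪s, e⟫² = ‖e‖²/d`. -/
theorem sig_inner_sq (hd : 0 < d) (e : E d) :
    ∫ s : Sph d, (inner ℝ (s : E d) e) ^ 2 ∂(sig d) = ‖e‖ ^ 2 / d := by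
  have := sig_isProb hd
  have hd' : (0 : ℝ) < d := by exact_mod_cast hd
  -- integrability
  have hint : ∀ v : E d, Integrable (fun s : Sph d => (inner ℝ (s : E d) v) ^ 2) (sig d) := by
    intro v
    refine Integrable.of_bound (by fun_prop) (‖v‖ ^ 2) (Filter.Eventually.of_forall fun s => ?_)
    have hsn : ‖(s : E d)‖ = 1 := by simp
    have := abs_real_inner_le_norm (s : E d) v
    rw [hsn, one_mul] at this
    rw [Real.norm_eq_abs, abs_pow]
    gcongr
  -- rotation invariance
  set f : E d → ℝ := fun v => ∫ s : Sph d, (inner ℝ (s : E d) v) ^ 2 ∂(sig d) with hf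
  have hrot : ∀ (R : E d ≃ₗᵢ[ℝ] E d) (v : E d), f (R v) = f v := by
    intro R v
    have h1 : f (R v) = ∫ s : Sph d, (inner ℝ (s : E d) (R v)) ^ 2 ∂((sig d).map (sphMap R)) := by
      rw [sig_map_sphMap hd]
    rw [h1, integral_map (continuous_sphMap R).aemeasurable (by fun_prop)]
    refine integral_congr_ae (Filter.Eventually.of_forall fun s => ?_)
    simp [sphMap, R.inner_map_map]
  have hscale : ∀ (c : ℝ) (v : E d), f (c • v) = c ^ 2 * f v := by
    intro c v
    simp only [hf, inner_smul_right, mul_pow]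
    rw [integral_const_mul]
  -- equal on unit vectors
  have hunit : ∀ v w : E d, ‖v‖ = 1 → ‖w‖ = 1 → f v = f w := by
    intro v w hv hw
    have := hrot (Submodule.reflection (ℝ ∙ (v - w))ᗮ) v
    rw [Submodule.reflection_sub (hv.trans hw.symm)] at this
    exact this.symm
  -- the basis
  let b := EuclideanSpace.basisFun (Fin d) ℝ
  have hsum : ∑ i, f (b i) = 1 := by
    simp only [hf]
    rw [← integral_finsetSum _ fun i _ => hint (b i)]
    have : ∀ s : Sph d, ∑ i, (inner ℝ (s : E d) (b i)) ^ 2 = 1 := by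
      intro s
      have h1 := b.sum_sq_norm_inner_right (s : E d)
      have hsn : ‖(s : E d)‖ = 1 := by simp
      rw [hsn] at h1
      rw [one_pow] at h1
      rw [← h1]
      refine Finset.sum_congr rfl fun i _ => ?_
      rw [real_inner_comm, Real.norm_eq_abs, sq_abs]
    simp_rw [this]
    simp
  let i₀ : Fin d := ⟨0, hd⟩
  have hb1 : ∀ i, ‖b i‖ = 1 := fun i => b.orthonormal.1 i
  have hconst : ∀ i, f (b i) = f (b i₀) := fun i => hunit _ _ (hb1 i) (hb1 i₀)
  have hf0 : f (b i₀) = 1 / d := by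
    simp_rw [hconst] at hsum
    simp only [Finset.sum_const, Finset.card_univ, Fintype.card_fin, nsmul_eq_mul] at hsum
    field_simp
    linarith
  by_cases he : e = 0
  · subst he
    simp
  have hen : ‖e‖ ≠ 0 := by simpa using he
  have h1 : e = ‖e‖ • ((‖e‖⁻¹) • e) := by
    rw [smul_smul, mul_inv_cancel₀ hen, one_smul]
  have h2 : ‖(‖e‖⁻¹) • e‖ = 1 := by
    rw [norm_smul, norm_inv, norm_norm, inv_mul_cancel₀ hen]
  show f e = _
  rw [h1, hscale, hunit _ _ h2 (hb1 i₀), hf0, ← h1]
  ring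

end Crest.Agent.MS
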