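import Crest.Agent.Lib.MS.GaussBall

/-!
# S0499 module `Whiten`: whitened coordinates of a block.

Let `A = Aop X : E d → E B`, `A† y = ∑_r y_r X r` its adjoint, `G = gram X = A A†`.  When `det G ≠ 0`
(a.s. if `B ≤ d`), `wL X = A† G⁻¹` is a right inverse of `A`, linear, with
`wn X y := ‖wL X y‖`, `wn X y ² = ⟪y, G⁻¹ y⟫`.

* `wn_Aop_le`: `wL X (A v) = P v`, `P = A† G⁻¹ A` symmetric idempotent, so `‖P v‖² = ⟪v, P v⟫ ≤ ‖v‖ ‖P v‖`.
* `wn_le_of_good`: `⟪y, G⁻¹ y⟫ = ∑_{r,s} y_r G⁻¹_{rs} y_s ≤ ‖y‖² ∑_{r,s} |G⁻¹_{rs}|`.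
* `lintegral_wn`: let `R = range A†`, dimension `B`, `ι : E B ≃ₗᵢ R`.  `N = ι⁻¹ ∘ wL X` is a linear
  automorphism of `E B`, `‖N y‖ = wn X y`, `Nᵀ N = G⁻¹`, so `|det N|⁻¹ = √(det G)`; the formula
  is `Measure.addHaar_preimage_linearMap`/`lintegral_comp…` with the scaling of Haar measure.
* `sqrt_det_gram_le`: eigenvalues of `G` (`Matrix.IsHermitian.det_eq_prod_eigenvalues`,
  `trace_eq_sum_eigenvalues`) and AM-GM (`Real.inner_le_nnorm_mul_nnorm`, `Real.geom_mean_le_arith_mean_weighted`):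
  `det G ≤ (tr G / B)^B`, `tr G = ∑ ‖X r‖²`.
* `ae_gram_det`: `ae_surjective`: if `A` is surjective, so is `A A†`, hence `det G ≠ 0`.
* `goodX`: monotone in `τ`, with union `{det G ≠ 0}`, hence its complement has probability `→ 0`,
  and `∫_{(goodX τ)ᶜ} f → 0` for integrable `f` (`goodX_small`).
-/

set_option autoImplicit false

namespace Crest.Agent.MS

open MeasureTheory ProbabilityTheory Matrix
open Crest.StreamLearn (E Sphere sphereUniform)

variable {d B : ℕ}

/-- The Gram matrix of the rows of `X`. -/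
noncomputable def gram (X : Mat d B) : Matrix (Fin B) (Fin B) ℝ :=
  Matrix.of fun r s => inner ℝ (X r) (X s)

/-- The whitening map. -/
noncomputable def wL (X : Mat d B) (y : E B) : E d :=
  ∑ r, ((gram X)⁻¹.mulVec (WithLp.ofLp y)) r • X r

/-- The whitened norm. -/
noncomputable def wn (X : Mat d B) (y : E B) : ℝ := ‖wL X y‖

/-- The size of the inverse Gram matrix. -/
noncomputable def gis (X : Mat d B) : ℝ := ∑ r, ∑ s, |(gram X)⁻¹ r s|

/-- The blocks with well-conditioned whitening. -/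
def goodX (τ : ℝ) : Set (Mat d B) := {X | (gram X).det ≠ 0 ∧ gis X * τ ^ 2 ≤ 1}


theorem gram_eq_gram (X : Mat d B) : gram X = Matrix.gram ℝ X := rfl

private theorem gram_mulVec_inv {X : Mat d B} (h : (gram X).det ≠ 0) (y : Fin B → ℝ) :
    gram X *ᵥ ((gram X)⁻¹ *ᵥ y) = y := by
  rw [Matrix.mulVec_mulVec, Matrix.mul_nonsing_inv _ (isUnit_iff_ne_zero.mpr h), Matrix.one_mulVec]

/-- `⟪∑ x_i X_i, ∑ y_i X_i⟫ = x ⬝ G y`. -/
private theorem inner_sum_sum (X : Mat d B) (x y : Fin B → ℝ) :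
    (inner ℝ (∑ r, x r • X r) (∑ r, y r • X r) : ℝ) = x ⬝ᵥ (gram X *ᵥ y) := by
  have := Matrix.star_dotProduct_gram_mulVec (𝕜 := ℝ) X x y
  simpa [gram_eq_gram] using this.symm

private theorem wL_eq (X : Mat d B) (y : E B) :
    wL X y = ∑ r, ((gram X)⁻¹ *ᵥ (WithLp.ofLp y)) r • X r := rfl

/-- `‖wL X y‖² = (G⁻¹ y) ⬝ y`. -/
private theorem wL_sq {X : Mat d B} (h : (gram X).det ≠ 0) (y : E B) :
    ‖wL X y‖ ^ 2 = ((gram X)⁻¹ *ᵥ (WithLp.ofLp y)) ⬝ᵥ (WithLp.ofLp y) := by
  rw [← real_inner_self_eq_norm_sq, wL_eq, inner_sum_sum, gram_mulVec_inv h]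

private theorem ofLp_Aop (X : Mat d B) (v : E d) : WithLp.ofLp (Aop X v) = mv X v := rfl

private theorem wL_add (X : Mat d B) (y y' : E B) : wL X (y + y') = wL X y + wL X y' := by
  simp only [wL_eq, WithLp.ofLp_add, Matrix.mulVec_add, Pi.add_apply, add_smul,
    Finset.sum_add_distrib]

private theorem wL_neg (X : Mat d B) (y : E B) : wL X (- y) = - wL X y := by
  simp only [wL_eq, WithLp.ofLp_neg, Matrix.mulVec_neg, Pi.neg_apply, neg_smul, Finset.sum_neg_distrib]

theorem continuous_gram : Continuous (fun X : Mat d B => gram X) := by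
  refine continuous_matrix fun r s => ?_
  simp only [gram, Matrix.of_apply]
  exact (continuous_apply r).inner (continuous_apply s)

theorem measurable_gramInv (r s : Fin B) : Measurable (fun X : Mat d B => (gram X)⁻¹ r s) := by
  have h1 : ∀ X : Mat d B, (gram X)⁻¹ r s = ((gram X).det)⁻¹ * (gram X).adjugate r s := by
    intro X
    rw [Matrix.inv_def, Ring.inverse_eq_inv', Matrix.smul_apply, smul_eq_mul]
  simp_rw [h1]
  refine Measurable.mul ?_ ?_
  · exact ((continuous_gram (d := d) (B := B)).matrix_det.measurable).inv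
  · have h2 : Continuous (fun X : Mat d B => (gram X).adjugate) :=
      (continuous_gram (d := d) (B := B)).matrix_adjugate
    exact (h2.matrix_elem r s).measurable

theorem measurable_gis : Measurable (gis (d := d) (B := B)) := by
  unfold gis
  refine Finset.measurable_sum _ fun r _ => Finset.measurable_sum _ fun s _ => ?_
  exact (measurable_gramInv r s).abs

open scoped MatrixOrder in
private theorem exists_sq {A : Matrix (Fin B) (Fin B) ℝ} (hA : A.PosSemidef) :
    ∃ N : Matrix (Fin B) (Fin B) ℝ, A = Nᵀ * N := by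
  obtain ⟨N, hN⟩ := CStarAlgebra.nonneg_iff_eq_star_mul_self.mp hA.nonneg
  refine ⟨N, ?_⟩
  simpa [Matrix.star_eq_conjTranspose] using hN

theorem wn_nonneg (X : Mat d B) (y : E B) : 0 ≤ wn X y := norm_nonneg _

theorem wn_zero (X : Mat d B) : wn X (0 : E B) = 0 := by
  simp [wn, wL]

theorem wn_add_le (X : Mat d B) (y y' : E B) : wn X (y + y') ≤ wn X y + wn X y' := by
  unfold wn; rw [wL_add]; exact norm_add_le _ _

theorem wn_sub_le (X : Mat d B) (y y' : E B) : wn X (y - y') ≤ wn X y + wn X y' := by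
  unfold wn; rw [sub_eq_add_neg, wL_add, wL_neg]
  calc ‖wL X y + - wL X y'‖ ≤ ‖wL X y‖ + ‖- wL X y'‖ := norm_add_le _ _
    _ = _ := by rw [norm_neg]

theorem wn_neg (X : Mat d B) (y : E B) : wn X (- y) = wn X y := by
  unfold wn; rw [wL_neg, norm_neg]

theorem wn_Aop_le {X : Mat d B} (h : (gram X).det ≠ 0) (v : E d) : wn X (Aop X v) ≤ ‖v‖ := by
  unfold wn
  set w := wL X (Aop X v) with hw
  have h1 : ‖w‖ ^ 2 = inner ℝ w v := by
    rw [hw, wL_sq h, wL_eq, ofLp_Aop, sum_inner]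
    simp only [inner_smul_left, dotProduct, mv, conj_trivial]
  have h2 : (inner ℝ w v : ℝ) ≤ ‖w‖ * ‖v‖ := real_inner_le_norm _ _
  by_contra hcon0
  have hcon := not_le.mp hcon0
  have hv := norm_nonneg v
  nlinarith [norm_nonneg w]

theorem wn_le_of_good {X : Mat d B} {τ : ℝ} (hX : X ∈ goodX τ) (hτ : 0 < τ) (y : E B) :
    wn X y ≤ ‖y‖ / τ := by
  obtain ⟨hdet, hgis⟩ := hX
  have h1 := wL_sq hdet y
  have h2 : ((gram X)⁻¹ *ᵥ (WithLp.ofLp y)) ⬝ᵥ (WithLp.ofLp y) ≤ gis X * ‖y‖ ^ 2 := by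
    unfold gis dotProduct Matrix.mulVec dotProduct
    rw [Finset.sum_mul]
    refine Finset.sum_le_sum fun r _ => ?_
    rw [Finset.sum_mul, Finset.sum_mul]
    refine Finset.sum_le_sum fun s _ => ?_
    have hr : |y r| ≤ ‖y‖ := by
      have := PiLp.norm_apply_le y r
      simpa using this
    have hs : |y s| ≤ ‖y‖ := by
      have := PiLp.norm_apply_le y s
      simpa using this
    have h3 : (gram X)⁻¹ r s * y s * y r ≤ |(gram X)⁻¹ r s * y s * y r| := le_abs_self _
    rw [abs_mul, abs_mul] at h3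
    have h4 : |(gram X)⁻¹ r s| * |y s| * |y r| ≤ |(gram X)⁻¹ r s| * ‖y‖ * ‖y‖ := by
      gcongr
    calc _ ≤ _ := h3
      _ ≤ _ := h4
      _ = _ := by ring
  have hny := norm_nonneg y
  have hw := wn_nonneg X y
  unfold wn at hw ⊢
  rw [le_div_iff₀ hτ]
  have h5 : (‖wL X y‖ * τ) ^ 2 ≤ ‖y‖ ^ 2 := by
    calc (‖wL X y‖ * τ) ^ 2 = ‖wL X y‖ ^ 2 * τ ^ 2 := by ring
      _ ≤ (gis X * ‖y‖ ^ 2) * τ ^ 2 := by
          rw [h1]; exact mul_le_mul_of_nonneg_right h2 (by positivity)
      _ = (gis X * τ ^ 2) * ‖y‖ ^ 2 := by ring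
      _ ≤ 1 * ‖y‖ ^ 2 := mul_le_mul_of_nonneg_right hgis (by positivity)
      _ = _ := one_mul _
  exact abs_le_of_sq_le_sq' h5 hny |>.2

theorem measurable_wn : Measurable (fun p : Mat d B × E B => wn p.1 p.2) := by
  have hm := measurable_gramInv (d := d) (B := B)
  unfold wn wL
  refine Measurable.norm ?_
  refine Finset.measurable_sum _ fun r _ => ?_
  have hrow : Measurable (fun p : Mat d B × E B => p.1 r) := by fun_prop
  have hc : Measurable (fun p : Mat d B × E B => ((gram p.1)⁻¹ *ᵥ (WithLp.ofLp p.2)) r) := by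
    simp only [Matrix.mulVec, dotProduct]
    refine Finset.measurable_sum _ fun t _ => ?_
    refine Measurable.mul ?_ ?_
    · exact (hm r t).comp measurable_fst
    · have : Measurable (fun y : E B => (WithLp.ofLp y) t) := by fun_prop
      exact this.comp measurable_snd
  exact hc.smul hrow

theorem measurableSet_goodX (τ : ℝ) : MeasurableSet (goodX τ : Set (Mat d B)) := by
  have hdet : Measurable (fun X : Mat d B => (gram X).det) :=
    (continuous_gram (d := d) (B := B)).matrix_det.measurable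
  have hgis : Measurable (gis (d := d) (B := B)) := measurable_gis
  have h1 : MeasurableSet {X : Mat d B | (gram X).det ≠ 0} :=
    (hdet (measurableSet_singleton (0 : ℝ))).compl
  have h2 : MeasurableSet {X : Mat d B | gis X * τ ^ 2 ≤ 1} :=
    measurableSet_le (hgis.mul_const _) measurable_const
  exact h1.inter h2

/-- A.s. the Gram matrix is invertible. -/
theorem ae_gram_det (hB : B ≤ d) : ∀ᵐ X ∂(gam d B), (gram X).det ≠ 0 := by
  filter_upwards [ae_surjective (r := B) hB] with X hX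
  intro h0
  obtain ⟨c, hc0, hc⟩ := Matrix.exists_mulVec_eq_zero_iff.mpr h0
  have h1 : (inner ℝ (∑ r, c r • X r) (∑ r, c r • X r) : ℝ) = 0 := by
    rw [inner_sum_sum, hc, dotProduct_zero]
  have h2 : ∑ r, c r • X r = 0 := inner_self_eq_zero.mp h1
  obtain ⟨v, hv⟩ := hX (WithLp.toLp 2 c)
  have h3 : ∀ r, inner ℝ (X r) v = c r := by
    intro r
    have := congrArg (fun y : E B => y r) hv
    simpa [Aop, mv] using this
  have h4 : (inner ℝ (∑ r, c r • X r) v : ℝ) = ∑ r, c r * c r := by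
    rw [sum_inner]
    refine Finset.sum_congr rfl fun r _ => ?_
    rw [inner_smul_left, h3]
    simp
  rw [h2, inner_zero_left] at h4
  apply hc0
  have h5 := (Finset.sum_eq_zero_iff_of_nonneg (fun r _ => mul_self_nonneg (c r))).mp h4.symm
  funext r
  exact mul_self_eq_zero.mp (h5 r (Finset.mem_univ r))

/-- Bad blocks have small probability, and an integrable function has a small integral on them. -/
theorem goodX_small (hB : B ≤ d) (f : Mat d B → ℝ) (hf : Integrable f (gam d B)) (ε : ℝ) (hε : 0 < ε) :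
    ∃ τ₀ : ℝ, 0 < τ₀ ∧ ∀ τ : ℝ, 0 < τ → τ ≤ τ₀ →
      (gam d B).real (goodX τ)ᶜ ≤ ε ∧ |∫ X in (goodX τ)ᶜ, f X ∂(gam d B)| ≤ ε := by
  -- monotonicity
  have hmono : ∀ {τ τ' : ℝ}, 0 < τ → τ ≤ τ' → (goodX τ' : Set (Mat d B)) ⊆ goodX τ := by
    intro τ τ' hτ hle X hX
    refine ⟨hX.1, le_trans ?_ hX.2⟩
    have hg : 0 ≤ gis X := Finset.sum_nonneg fun r _ => Finset.sum_nonneg fun s _ => abs_nonneg _
    exact mul_le_mul_of_nonneg_left (by gcongr) hg
  -- a sequence of scales
  let s : ℕ → Set (Mat d B) := fun n => (goodX (1 / ((n : ℝ) + 1)))ᶜ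
  have hsm : ∀ n, MeasurableSet (s n) := fun n => (measurableSet_goodX _).compl
  have hsanti : Antitone s := by
    intro m n hmn
    refine Set.compl_subset_compl.mpr (hmono (by positivity) ?_)
    have : (m : ℝ) ≤ n := by exact_mod_cast hmn
    exact one_div_le_one_div_of_le (by positivity) (by linarith)
  have hinter : ⋂ n, s n ⊆ {X : Mat d B | ¬ (gram X).det ≠ 0} := by
    intro X hX hdet
    obtain ⟨n, hn⟩ := exists_nat_ge (gis X)
    have hg : 0 ≤ gis X := Finset.sum_nonneg fun r _ => Finset.sum_nonneg fun s _ => abs_nonneg _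
    have hX' := Set.mem_iInter.mp hX n
    apply hX'
    refine ⟨hdet, ?_⟩
    have hn1 : (0 : ℝ) < (n : ℝ) + 1 := by positivity
    have : gis X * (1 / ((n : ℝ) + 1)) ^ 2 ≤ (n + 1) * (1 / ((n : ℝ) + 1)) ^ 2 := by
      gcongr
      linarith
    refine le_trans this ?_
    have h2 : (1 : ℝ) ≤ (n : ℝ) + 1 := by
      have : (0 : ℝ) ≤ n := Nat.cast_nonneg n
      linarith
    rw [one_div, inv_pow]
    rw [mul_inv_le_iff₀ (by positivity)]
    nlinarith
  have hzero : (gam d B) (⋂ n, s n) = 0 :=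
    measure_mono_null hinter (ae_gram_det hB)
  have hT : Filter.Tendsto (fun n => (gam d B) (s n)) Filter.atTop (nhds 0) := by
    rw [← hzero]
    exact tendsto_measure_iInter_atTop (fun n => (hsm n).nullMeasurableSet) hsanti
      ⟨0, measure_ne_top _ _⟩
  -- small measure along `τ → 0+`
  let t : ℝ → Set (Mat d B) := fun τ => (goodX τ)ᶜ
  have hT2 : Filter.Tendsto (fun τ => (gam d B) (t τ)) (nhdsWithin 0 (Set.Ioi 0)) (nhds 0) := by
    rw [ENNReal.tendsto_nhds_zero]
    intro η hη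
    have h1 := (ENNReal.tendsto_nhds_zero.mp hT) η hη
    obtain ⟨n, hn⟩ := Filter.eventually_atTop.mp h1
    have hpos : (0 : ℝ) < 1 / ((n : ℝ) + 1) := by positivity
    filter_upwards [Ioc_mem_nhdsGT hpos] with τ hτ
    refine le_trans (measure_mono ?_) (hn n le_rfl)
    exact Set.compl_subset_compl.mpr (hmono hτ.1 hτ.2)
  have hI := hf.tendsto_setIntegral_nhds_zero hT2
  have hev1 : ∀ᶠ τ in nhdsWithin (0 : ℝ) (Set.Ioi 0), (gam d B).real (t τ) ≤ ε := by
    have h1 : Filter.Tendsto (fun τ => ((gam d B) (t τ)).toReal) (nhdsWithin 0 (Set.Ioi 0)) (nhds 0) := by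
      have := (ENNReal.tendsto_toReal ENNReal.zero_ne_top).comp hT2
      simpa [Function.comp_def] using this
    filter_upwards [h1.eventually (Iio_mem_nhds hε)] with τ hτ
    exact le_of_lt hτ
  have hev2 : ∀ᶠ τ in nhdsWithin (0 : ℝ) (Set.Ioi 0), |∫ X in t τ, f X ∂(gam d B)| ≤ ε := by
    have h1 := hI.abs
    simp only [abs_zero] at h1
    filter_upwards [h1.eventually (Iio_mem_nhds hε)] with τ hτ
    exact le_of_lt hτ
  obtain ⟨τ₀, hτ₀, hsub⟩ := (mem_nhdsGT_iff_exists_Ioc_subset).mp (hev1.and hev2)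
  refine ⟨τ₀, hτ₀, fun τ hτ hle => ?_⟩
  exact hsub ⟨hτ, hle⟩

/-- Change of variables for a radial function in the whitened norm. -/
theorem lintegral_wn {X : Mat d B} (h : (gram X).det ≠ 0) (f : ℝ → ENNReal) (hf : Measurable f) :
    ∫⁻ y : E B, f (wn X y) =
      ENNReal.ofReal (Real.sqrt (gram X).det) * ∫⁻ w : E B, f ‖w‖ := by
  classical
  have hPSD : ((gram X)⁻¹).PosSemidef := (Matrix.posSemidef_gram ℝ X).inv
  obtain ⟨N, hN⟩ := exists_sq hPSD
  let L : E B →ₗ[ℝ] E B := Matrix.toEuclideanLin N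
  have hnorm : ∀ y : E B, ‖L y‖ = wn X y := by
    intro y
    have h1 : ‖L y‖ ^ 2 = ‖wL X y‖ ^ 2 := by
      rw [wL_sq h, ← real_inner_self_eq_norm_sq, hN]
      have h2 : WithLp.ofLp (L y) = N *ᵥ (WithLp.ofLp y) := rfl
      rw [EuclideanSpace.inner_eq_star_dotProduct]
      simp only [h2, star_trivial]
      rw [← Matrix.mulVec_mulVec, dotProduct_comm, Matrix.dotProduct_mulVec,
        Matrix.mulVec_transpose]
    unfold wn
    exact (pow_left_inj₀ (norm_nonneg _) (norm_nonneg _) (by norm_num)).mp h1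
  have hdetL : LinearMap.det L = N.det := by
    show LinearMap.det (Matrix.toEuclideanLin N) = _
    rw [Matrix.toEuclideanLin_eq_toLin_orthonormal, LinearMap.det_toLin]
  have hdetG : (gram X)⁻¹.det = N.det ^ 2 := by
    rw [hN, Matrix.det_mul, Matrix.det_transpose]
    ring
  have hdetinv : (gram X)⁻¹.det = ((gram X).det)⁻¹ := by
    rw [Matrix.det_nonsing_inv]
    exact Ring.inverse_eq_inv _
  have hGpos : 0 < (gram X).det :=
    lt_of_le_of_ne (Matrix.posSemidef_gram ℝ X).det_nonneg h.symm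
  have hinv : ((gram X).det)⁻¹ = N.det ^ 2 := by rw [← hdetinv, hdetG]
  have hNne : N.det ≠ 0 := by
    intro h0
    rw [h0] at hinv
    have : ((gram X).det)⁻¹ ≠ 0 := inv_ne_zero h
    apply this
    rw [hinv]
    ring
  have hdetL0 : LinearMap.det L ≠ 0 := by rw [hdetL]; exact hNne
  have hmap := Measure.map_linearMap_addHaar_eq_smul_addHaar (μ := (volume : Measure (E B))) hdetL0
  have hLm : Measurable L := L.continuous_of_finiteDimensional.measurable
  have hfm : Measurable (fun w : E B => f ‖w‖) := hf.comp measurable_norm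
  have hval : |(LinearMap.det L)⁻¹| = Real.sqrt (gram X).det := by
    have h1 : (gram X).det = (N.det⁻¹) ^ 2 := by
      rw [inv_pow, ← hinv, inv_inv]
    rw [h1, Real.sqrt_sq_eq_abs, hdetL]
  calc ∫⁻ y : E B, f (wn X y) = ∫⁻ y : E B, (fun w : E B => f ‖w‖) (L y) := by simp_rw [hnorm]
    _ = ∫⁻ w : E B, f ‖w‖ ∂(Measure.map L volume) := (lintegral_map hfm hLm).symm
    _ = ENNReal.ofReal |(LinearMap.det L)⁻¹| * ∫⁻ w : E B, f ‖w‖ := by
        rw [hmap, lintegral_smul_measure]; rfl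
    _ = _ := by rw [hval]

/-- The Gram determinant is nonnegative. -/
theorem det_gram_nonneg (X : Mat d B) : 0 ≤ (gram X).det := by
  exact (Matrix.posSemidef_gram ℝ X).det_nonneg

/-- AM-GM for the Gram determinant, in the form we use. -/
theorem log_sqrt_det_gram_le {X : Mat d B} (h : (gram X).det ≠ 0) (hB : 0 < B) :
    Real.log (Real.sqrt (gram X).det) ≤
      (B / 2 : ℝ) * Real.log (1 + (∑ r, ‖X r‖ ^ 2) / B) := by
  have hPSD := Matrix.posSemidef_gram ℝ X
  have hG : gram X = Matrix.gram ℝ X := rfl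
  rw [← hG] at hPSD
  set ev := hPSD.1.eigenvalues with hev
  have hdet : (gram X).det = ∏ i, ev i := by
    have := hPSD.1.det_eq_prod_eigenvalues
    simpa using this
  have htr : (gram X).trace = ∑ i, ev i := by
    have := hPSD.1.trace_eq_sum_eigenvalues
    simpa using this
  have hev0 : ∀ i, 0 ≤ ev i := fun i => hPSD.eigenvalues_nonneg i
  have hevpos : ∀ i, 0 < ev i := by
    intro i
    refine lt_of_le_of_ne (hev0 i) ?_
    intro h0
    apply h
    rw [hdet]
    exact Finset.prod_eq_zero (Finset.mem_univ i) h0.symm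
  have htrace : (gram X).trace = ∑ r, ‖X r‖ ^ 2 := by
    simp only [Matrix.trace, Matrix.diag, gram, Matrix.of_apply, real_inner_self_eq_norm_sq]
  have hBpos : (0 : ℝ) < B := by exact_mod_cast hB
  set M : ℝ := 1 + (∑ r, ‖X r‖ ^ 2) / B with hM
  have hsum0 : 0 ≤ ∑ r, ‖X r‖ ^ 2 := Finset.sum_nonneg fun r _ => by positivity
  have hMpos : 0 < M := by positivity
  have hkey : ∀ i, Real.log (ev i) ≤ Real.log M + ev i / M - 1 := by
    intro i
    have h1 := Real.log_le_sub_one_of_pos (div_pos (hevpos i) hMpos)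
    rw [Real.log_div (hevpos i).ne' hMpos.ne'] at h1
    linarith
  have hlogdet : Real.log (gram X).det = ∑ i, Real.log (ev i) := by
    rw [hdet, Real.log_prod (fun i _ => (hevpos i).ne')]
  have hsum : ∑ i, Real.log (ev i) ≤ B * Real.log M + (∑ r, ‖X r‖ ^ 2) / M - B := by
    calc ∑ i, Real.log (ev i) ≤ ∑ i : Fin B, (Real.log M + ev i / M - 1) :=
          Finset.sum_le_sum fun i _ => hkey i
      _ = B * Real.log M + (∑ i, ev i) / M - B := by
          rw [Finset.sum_sub_distrib, Finset.sum_add_distrib, Finset.sum_const, Finset.sum_const,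
            Finset.card_univ, Fintype.card_fin, Finset.sum_div]
          simp
      _ = _ := by rw [← htr, htrace]
  have hle : (∑ r, ‖X r‖ ^ 2) / M ≤ B := by
    rw [div_le_iff₀ hMpos, hM]
    have : (B : ℝ) * (1 + (∑ r, ‖X r‖ ^ 2) / B) = B + ∑ r, ‖X r‖ ^ 2 := by
      field_simp
    rw [this]
    linarith
  rw [Real.log_sqrt (det_gram_nonneg X), hlogdet]
  have : ∑ i, Real.log (ev i) ≤ B * Real.log M := by linarith
  linarith

/-- Jensen: `E log (1 + ‖X‖_F²/B) ≤ log (1 + d)`. -/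
theorem integral_log_gram_le (hB : 0 < B) :
    Integrable (fun X : Mat d B => Real.log (1 + (∑ r, ‖X r‖ ^ 2) / B)) (gam d B) ∧
    ∫ X : Mat d B, Real.log (1 + (∑ r, ‖X r‖ ^ 2) / B) ∂(gam d B) ≤ Real.log (1 + d) := by
  have hBpos : (0 : ℝ) < B := by exact_mod_cast hB
  have hr : ∀ r : Fin B, Integrable (fun X : Mat d B => ‖X r‖ ^ 2) (gam d B) := fun r =>
    integrable_comp_eval (μ := fun _ : Fin B => stdGaussian (E d)) (i := r)
      (integrable_norm_sq_stdGaussian (d := d))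
  have hsumI : Integrable (fun X : Mat d B => ∑ r, ‖X r‖ ^ 2) (gam d B) :=
    integrable_finsetSum _ fun r _ => hr r
  have ht : Integrable (fun X : Mat d B => (∑ r, ‖X r‖ ^ 2) / (B : ℝ)) (gam d B) := hsumI.div_const _
  have hint : ∫ X : Mat d B, (∑ r, ‖X r‖ ^ 2) / (B : ℝ) ∂(gam d B) = d := by
    rw [integral_div, integral_finsetSum _ (fun r _ => hr r)]
    have h1 : ∀ r : Fin B, ∫ X : Mat d B, ‖X r‖ ^ 2 ∂(gam d B) = d := by
      intro r
      rw [integral_comp_eval (μ := fun _ : Fin B => stdGaussian (E d)) (i := r)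
        (f := fun y : E d => ‖y‖ ^ 2) (integrable_norm_sq_stdGaussian (d := d)).aestronglyMeasurable]
      exact integral_norm_sq_stdGaussian
    simp_rw [h1]
    simp only [Finset.sum_const, Finset.card_univ, Fintype.card_fin, nsmul_eq_mul]
    field_simp
  have hnn : ∀ X : Mat d B, 0 ≤ (∑ r, ‖X r‖ ^ 2) / (B : ℝ) := fun X => by positivity
  have hmeas : Continuous (fun X : Mat d B => (∑ r, ‖X r‖ ^ 2) / (B : ℝ)) := by fun_prop
  have hI : Integrable (fun X : Mat d B => Real.log (1 + (∑ r, ‖X r‖ ^ 2) / B)) (gam d B) := by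
    refine ht.mono' ?_ (Filter.Eventually.of_forall fun X => ?_)
    · refine (Real.measurable_log.comp ?_).aestronglyMeasurable
      exact (measurable_const.add hmeas.measurable)
    · have h1 := hnn X
      rw [Real.norm_of_nonneg (Real.log_nonneg (by linarith))]
      have := Real.log_le_sub_one_of_pos (show 0 < 1 + (∑ r, ‖X r‖ ^ 2) / (B : ℝ) by linarith)
      linarith
  refine ⟨hI, ?_⟩
  have hd1 : (0 : ℝ) < 1 + d := by positivity
  have hkey : ∀ X : Mat d B, Real.log (1 + (∑ r, ‖X r‖ ^ 2) / B) ≤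
      Real.log (1 + d) + ((∑ r, ‖X r‖ ^ 2) / (B : ℝ) - d) / (1 + d) := by
    intro X
    have h1 := hnn X
    have hpos : 0 < 1 + (∑ r, ‖X r‖ ^ 2) / (B : ℝ) := by linarith
    have h2 := Real.log_le_sub_one_of_pos (div_pos hpos hd1)
    rw [Real.log_div hpos.ne' hd1.ne'] at h2
    have h3 : (1 + (∑ r, ‖X r‖ ^ 2) / (B : ℝ)) / (1 + d) - 1 =
        ((∑ r, ‖X r‖ ^ 2) / (B : ℝ) - d) / (1 + d) := by
      field_simp
      ring
    linarith
  have hRI : Integrable (fun X : Mat d B => Real.log (1 + d) +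
      ((∑ r, ‖X r‖ ^ 2) / (B : ℝ) - d) / (1 + d)) (gam d B) :=
    (integrable_const _).add ((ht.sub (integrable_const _)).div_const _)
  calc ∫ X : Mat d B, Real.log (1 + (∑ r, ‖X r‖ ^ 2) / B) ∂(gam d B)
      ≤ ∫ X : Mat d B, (Real.log (1 + d) +
          ((∑ r, ‖X r‖ ^ 2) / (B : ℝ) - d) / (1 + d)) ∂(gam d B) :=
        integral_mono hI hRI hkey
    _ = Real.log (1 + d) := by
        have e1 := integral_add (μ := gam d B) (f := fun _ : Mat d B => Real.log (1 + d))
          (g := fun X : Mat d B => ((∑ r, ‖X r‖ ^ 2) / (B : ℝ) - d) / (1 + d))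
          (integrable_const _) ((ht.sub (integrable_const _)).div_const _)
        have e2 : ∫ X : Mat d B, ((∑ r, ‖X r‖ ^ 2) / (B : ℝ) - d) / (1 + d) ∂(gam d B) = 0 := by
          rw [integral_div]
          have e3 := integral_sub (μ := gam d B) (f := fun X : Mat d B => (∑ r, ‖X r‖ ^ 2) / (B : ℝ))
            (g := fun _ : Mat d B => (d : ℝ)) ht (integrable_const _)
          rw [e3, hint]
          simp
        rw [e1, e2]
        simp

end Crest.Agent.MS
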